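import Vale.Agent.P078G.Ctx
import Mathlib.Analysis.CStarAlgebra.GelfandDuality

/-! The normaliser and its action on the spectrum. -/

namespace Vale.Agent.P078G

open Filter
open Vale.Agent.P078 (ind ind_apply ind_of_mem ind_of_notMem ind_val isClopen_preimage cx cx_apply
  mul_lt_of_lt_div)
open Vale.Agent.P078.Ctx (proj_eq_of_le mem_of_le_ofIsClopen)
open scoped Topology ComplexConjugate

variable {M X : Type*} [CStarAlgebra M] [TopologicalSpace X] [CompactSpace X]

namespace Ctx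

open Msa Pre

variable (C : Ctx M X)

/-- `v` conjugates the masa into itself on both sides. -/
def QN (v : M) : Prop :=
  ∀ f, (∃ g, star v * C.ι f * v = C.ι g) ∧ ∃ g, v * C.ι f * star v = C.ι g

/-- Right multiplication by `u` is bounded on the masa. -/
def Bd (u : M) : Prop := ∃ c : ℝ, 0 ≤ c ∧ ∀ f, C.T.n2 (C.ι f * u) ≤ c * C.T.n2 (C.ι f)

lemma Bd.mul {u v : M} (hu : u ∈ unitary M) (h : ∀ f, ∃ g, star u * C.ι f * u = C.ι g)
    (h1 : C.Bd u) (h2 : C.Bd v) : C.Bd (u * v) := by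
  obtain ⟨c, hc, h1⟩ := h1
  obtain ⟨d, hd, h2⟩ := h2
  refine ⟨d * c, by positivity, fun f => ?_⟩
  obtain ⟨g, hg⟩ := h f
  have e : C.ι f * u = u * C.ι g := by rw [← hg, ← mul_assoc, ← mul_assoc, hu.2, one_mul]
  have h3 := h1 f
  rw [← mul_assoc, e, mul_assoc, C.T.n2_unitary_mul hu, mul_assoc]
  rw [e, C.T.n2_unitary_mul hu] at h3
  exact (h2 g).trans (mul_le_mul_of_nonneg_left h3 hd)

/-- The normaliser with bounded densities. -/
def Nor : Subgroup (unitary M) where
  carrier := {u | C.QN u ∧ C.Bd u ∧ C.Bd (star u)}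
  mul_mem' {u v} hu hv := by
    refine ⟨fun f => ?_, Bd.mul C u.2 (fun f => (hu.1 f).1) hu.2.1 hv.2.1, ?_⟩
    · obtain ⟨⟨a, ha⟩, -⟩ := hu.1 f
      obtain ⟨⟨b, hb⟩, -⟩ := hv.1 a
      obtain ⟨-, c, hc⟩ := hv.1 f
      obtain ⟨-, d, hd⟩ := hu.1 c
      refine ⟨⟨b, ?_⟩, d, ?_⟩
      · rw [← hb, ← ha]
        simp [mul_assoc]
      · rw [← hd, ← hc]
        simp [mul_assoc]
    · rw [Submonoid.coe_mul, star_mul]
      exact Bd.mul C (Unitary.star_mem v.2) (fun f => by simpa using (hv.1 f).2) hv.2.2 hu.2.2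
  one_mem' := ⟨fun f => ⟨⟨f, by simp⟩, f, by simp⟩, ⟨1, zero_le_one, by simp⟩,
    ⟨1, zero_le_one, by simp⟩⟩
  inv_mem' {u} hu := by
    refine ⟨fun f => ?_, hu.2.2, by simpa [← Unitary.star_eq_inv] using hu.2.1⟩
    obtain ⟨⟨a, ha⟩, b, hb⟩ := hu.1 f
    exact ⟨⟨b, by rw [← hb]; simp [← Unitary.star_eq_inv]⟩, a,
      by rw [← ha]; simp [← Unitary.star_eq_inv]⟩

/-- The unitary underlying an element of the normaliser. -/
def U (g : C.Nor) : M := (g : unitary M)

lemma U_mem (g : C.Nor) : C.U g ∈ unitary M := (g : unitary M).2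

lemma U_mul (g h : C.Nor) : C.U (g * h) = C.U g * C.U h := rfl

lemma U_one : C.U 1 = 1 := rfl

lemma U_inv (g : C.Nor) : C.U g⁻¹ = star (C.U g) := rfl

lemma U_star_mul (g : C.Nor) : star (C.U g) * C.U g = 1 := (C.U_mem g).1

lemma U_mul_star (g : C.Nor) : C.U g * star (C.U g) = 1 := (C.U_mem g).2

variable [T2Space X]

lemma exists_act' {u : M} (hu : u ∈ unitary M) (h : ∀ f, ∃ k, star u * C.ι f * u = C.ι k) :
    ∃ α : C(X, X), ∀ f, star u * C.ι f * u = C.ι (f.comp α) := by
  choose φ hφ using h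
  let ψ : C(X, ℂ) →⋆ₐ[ℂ] C(X, ℂ) :=
    { toFun := φ
      map_one' := C.inj (by rw [← hφ, map_one, mul_one, hu.1])
      map_mul' := fun a b => C.inj (by
        rw [map_mul, ← hφ, ← hφ, ← hφ, map_mul]
        simp only [mul_assoc]
        rw [← mul_assoc u, hu.2, one_mul])
      map_zero' := C.inj (by rw [← hφ]; simp)
      map_add' := fun a b => C.inj (by
        rw [map_add, ← hφ, ← hφ, ← hφ, map_add, mul_add, add_mul])
      commutes' := fun c => C.inj (by
        rw [← hφ, Algebra.algebraMap_eq_smul_one, map_smul, map_one, mul_smul_comm,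
          smul_mul_assoc, mul_one, hu.1])
      map_star' := fun a => C.inj (by
        rw [map_star, ← hφ, ← hφ, map_star]
        simp [mul_assoc]) }
  let η := WeakDual.CharacterSpace.homeoEval X ℂ
  refine ⟨⟨fun x => η.symm (WeakDual.CharacterSpace.compContinuousMap ψ (η x)), by fun_prop⟩,
    fun f => (hφ f).trans (congrArg _ ?_)⟩
  ext x
  have := η.apply_symm_apply (WeakDual.CharacterSpace.compContinuousMap ψ (η x))
  exact (congrArg (fun χ : WeakDual.characterSpace ℂ C(X, ℂ) => χ f) this).symm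

lemma exists_act (g : C.Nor) :
    ∃ α : C(X, X), ∀ f, star (C.U g) * C.ι f * C.U g = C.ι (f.comp α) :=
  C.exists_act' (C.U_mem g) fun f => (g.2.1 f).1

/-- The homeomorphism induced by `g`. -/
noncomputable def act (g : C.Nor) : C(X, X) := (C.exists_act g).choose

lemma conj_ι (g : C.Nor) (f : C(X, ℂ)) :
    star (C.U g) * C.ι f * C.U g = C.ι (f.comp (C.act g)) := (C.exists_act g).choose_spec f

lemma eq_of_forall {x y : X} (h : ∀ f : C(X, ℂ), f x = f y) : x = y :=
  (WeakDual.CharacterSpace.homeoEval X ℂ).injective (WeakDual.CharacterSpace.ext h)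

noncomputable instance : MulAction C.Nor X where
  smul g x := C.act g x
  one_smul x := eq_of_forall fun f => by
    have h := C.conj_ι 1 f
    rw [U_one, star_one, one_mul, mul_one] at h
    exact (congrArg (fun k : C(X, ℂ) => k x) (C.inj h)).symm
  mul_smul g h x := eq_of_forall fun f => by
    have e : C.ι (f.comp (C.act (g * h))) = C.ι ((f.comp (C.act g)).comp (C.act h)) := by
      rw [← conj_ι, ← conj_ι, ← conj_ι, U_mul, star_mul]
      simp only [mul_assoc]
    exact congrArg (fun k : C(X, ℂ) => k x) (C.inj e)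

lemma smul_def (g : C.Nor) (x : X) : g • x = C.act g x := rfl

instance : ContinuousConstSMul C.Nor X := ⟨fun g => (C.act g).continuous⟩

lemma ι_mul_U (g : C.Nor) (f : C(X, ℂ)) : C.ι f * C.U g = C.U g * C.ι (f.comp (C.act g)) := by
  rw [← conj_ι, ← mul_assoc, ← mul_assoc, U_mul_star, one_mul]

lemma isClopen_smul (g : C.Nor) {V : Set X} (hV : IsClopen V) : IsClopen ((g • ·) ⁻¹' V) :=
  hV.preimage (continuous_const_smul g)

lemma ind_comp (g : C.Nor) {V : Set X} (hV : IsClopen V) :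
    (ind V).comp (C.act g) = ind ((g • ·) ⁻¹' V) := by
  ext x
  rw [ContinuousMap.comp_apply, ind_apply hV, ind_apply (C.isClopen_smul g hV)]
  rfl

lemma conj_pj (g : C.Nor) {V : Set X} (hV : IsClopen V) :
    star (C.U g) * C.pj V * C.U g = C.pj ((g • ·) ⁻¹' V) := by
  rw [pj, conj_ι, C.ind_comp g hV, pj]

lemma τ_comp_le (g : C.Nor) : ∃ c : ℝ, 0 ≤ c ∧ ∀ f : C(X, ℝ), 0 ≤ f →
    C.τR (f.comp (C.act g)) ≤ c * C.τR f := by
  obtain ⟨c, hc, h⟩ := g.2.2.1
  refine ⟨c ^ 2, sq_nonneg _, fun f hf => ?_⟩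
  have h1 := pow_le_pow_left₀ (C.T.n2_nonneg _) (h (cx ⟨fun x => √(f x), by fun_prop⟩)) 2
  rw [mul_pow, ← C.τR_eq_sq hf] at h1
  refine le_trans (le_of_eq ?_) h1
  change _ = C.T.n2 (_ * C.U g) ^ 2
  rw [ι_mul_U, C.T.n2_unitary_mul (C.U_mem g), C.τR_eq_sq (f := f.comp (C.act g)) fun x => hf (C.act g x)]
  rfl

lemma E_conj (g : C.Nor) (y : M) (x : X) :
    C.E (star (C.U g) * y * C.U g) x = C.E y (g • x) := by
  have : C.ι (C.E (star (C.U g) * y * C.U g) - (C.E y).comp (C.act g)) = 0 := by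
    refine C.fw.eq_zero fun ε hε => ?_
    obtain ⟨δ, hδ, h⟩ := C.fw.strong (C.U g) (‖y‖ + ‖C.ι (C.E y)‖) ε hε
    obtain ⟨P, hP⟩ := C.pinch_tendsto y hδ
    have hc := P.proj_isLocallyConstant
    have h1 := h _ ((norm_sub_le _ _).trans (add_le_add (C.norm_pinch_le hc y) le_rfl))
      (hP P le_rfl)
    rw [← C.T.n2_unitary_mul (Unitary.star_mem (C.U_mem g))] at h1
    refine lt_of_le_of_lt (le_of_eq ?_) ((C.n2_E_le _).trans_lt h1)
    rw [sub_mul, mul_sub, ← mul_assoc, ← mul_assoc, conj_ι, map_sub C.E, E_ι]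
    congr 3
    have h2 : ∀ i : P, star (C.U g) * (C.pj (P.proj ⁻¹' {i}) * y * C.pj (P.proj ⁻¹' {i})) * C.U g =
        C.ι ((ind (P.proj ⁻¹' {i})).comp (C.act g)) * (star (C.U g) * y * C.U g) *
          C.ι ((ind (P.proj ⁻¹' {i})).comp (C.act g)) := fun i => by
      rw [← conj_ι]
      simp only [pj, mul_assoc]
      rw [← mul_assoc (C.U g), U_mul_star, one_mul, ← mul_assoc (C.U g), U_mul_star, one_mul]
    simp only [pinch, Finset.mul_sum, Finset.sum_mul, map_sum, h2, E_mul_right, E_mul_left]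
    ext x
    rw [ContinuousMap.sum_apply, Finset.sum_eq_single (P.proj (C.act g x))]
    · simp [ind_of_mem (P.isClopen_preimage _)]
    · intro i _ hi
      simp [ind_of_notMem (P.isClopen_preimage _), hi.symm]
    · simp
  rw [← map_zero C.ι] at this
  exact congrArg (fun k : C(X, ℂ) => k x) (sub_eq_zero.1 (C.inj this))

lemma mul_E_U (g : C.Nor) (f : C(X, ℂ)) :
    f * C.E (C.U g) = C.E (C.U g) * f.comp (C.act g) := by
  rw [← E_mul_left, ι_mul_U, E_mul_right]

/-- `g E(g)^* = |E(g)|^2` is a projection of the masa. -/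
lemma U_mul_star_E (g : C.Nor) :
    C.U g * C.ι (star (C.E (C.U g))) = C.ι (C.E (C.U g) * star (C.E (C.U g))) := by
  obtain ⟨k, hk⟩ := C.masa (C.U g * C.ι (star (C.E (C.U g)))) fun f => by
    rw [← mul_assoc, ι_mul_U, mul_assoc, mul_assoc, ← map_mul, ← map_mul]
    congr 2
    ext x
    have := congrArg (fun k : C(X, ℂ) => conj (k x)) (C.mul_E_U g (star f))
    simpa [mul_comm] using this
  rw [← E_mul_right, ← hk, E_ι]

lemma norm_E_U (g : C.Nor) (x : X) : C.E (C.U g) x = 0 ∨ ‖C.E (C.U g) x‖ = 1 := by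
  have h := C.U_mul_star_E g
  have h1 : star (C.U g * C.ι (star (C.E (C.U g)))) * (C.U g * C.ι (star (C.E (C.U g)))) =
      C.ι (C.E (C.U g) * star (C.E (C.U g))) := by
    rw [star_mul, mul_assoc, ← mul_assoc (star (C.U g)), U_star_mul, one_mul, ← map_star,
      star_star, map_mul]
  rw [h, ← map_star, ← map_mul] at h1
  have h2 := congrArg (fun k : C(X, ℂ) => ‖k x‖) (C.inj h1)
  simp only [ContinuousMap.mul_apply, ContinuousMap.star_apply, norm_mul, norm_star] at h2
  by_cases h0 : C.E (C.U g) x = 0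
  · exact Or.inl h0
  · have h3 := norm_pos_iff.2 h0
    have h4 := mul_right_cancel₀ (mul_pos h3 h3).ne' (h2.trans (one_mul _).symm)
    right
    nlinarith

lemma isClopen_E_U (g : C.Nor) : IsClopen {x | C.E (C.U g) x = 0} := by
  refine ⟨isClosed_eq (map_continuous _) continuous_const, ?_⟩
  have : {x | C.E (C.U g) x = 0} = {x | ‖C.E (C.U g) x‖ < 1} := by
    ext x
    rcases C.norm_E_U g x with h | h
    · simp [h]
    · simp only [Set.mem_ofPred_eq, h, lt_irrefl, iff_false]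
      intro h0
      simp [h0] at h
  rw [this]
  exact isOpen_lt (by fun_prop) continuous_const

omit [T2Space X] in
lemma re_τ_pj {V : Set X} : (C.T.τ (C.pj V)).re = C.T.n2 (C.pj V) ^ 2 := by
  rw [C.T.n2_sq, pj_star, pj_idem]

omit [T2Space X] in
lemma eq_empty_of_τ {V : Set X} (hV : IsClopen V) (h : (C.T.τ (C.pj V)).re ≤ 0) : V = ∅ := by
  rw [re_τ_pj] at h
  exact C.pj_eq_zero hV (C.fw.faithful _ (pow_eq_zero_iff two_ne_zero |>.1
    (le_antisymm h (sq_nonneg _))))

/-- A maximal clopen set disjoint from its translate. -/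
lemma exists_max_free (g : C.Nor) : ∃ V : Set X, IsClopen V ∧ (∀ y ∈ V, g • y ∉ V) ∧
    ∀ W, IsClopen W → Disjoint V W → (∀ y ∈ V ∪ W, g • y ∉ V ∪ W) → W = ∅ := by
  let S := {V : Set X // IsClopen V ∧ ∀ y ∈ V, g • y ∉ V}
  let t : Set X → ℝ := fun V => (C.T.τ (C.pj V)).re
  have step : ∀ (n : ℕ) (V : S), ∃ V' : S, V.1 ⊆ V'.1 ∧
      ∀ W : S, V.1 ⊆ W.1 → t W.1 ≤ t V'.1 + 1 / (n + 1) := by
    intro n V
    have hb : BddAbove ((fun W : S => t W.1) '' {W | V.1 ⊆ W.1}) := by
      refine ⟨1, ?_⟩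
      rintro _ ⟨W, -, rfl⟩
      exact (Complex.re_le_norm _).trans ((C.T.norm_τ_le _).trans (C.pj_proj _).norm_le)
    obtain ⟨_, ⟨V', h1, rfl⟩, h2⟩ := exists_lt_of_lt_csSup (⟨_, V, Set.Subset.rfl, rfl⟩ :
      ((fun W : S => t W.1) '' {W | V.1 ⊆ W.1}).Nonempty)
      (sub_lt_self _ (Nat.one_div_pos_of_nat (n := n)))
    exact ⟨V', h1, fun W hW => by linarith [le_csSup hb ⟨W, hW, rfl⟩]⟩
  choose next h1 h2 using step
  let s : ℕ → S := fun n => Nat.rec ⟨∅, isClopen_empty, by simp⟩ next n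
  obtain ⟨V, hV, hs, ht⟩ := C.exists_lim_clopen (U := fun n => (s n).1) (fun n => (s n).2.1)
    (monotone_nat_of_le_succ fun n => h1 n (s n))
  refine ⟨V, hV, fun y hy hy' => ?_, fun W hW hd h => C.eq_empty_of_τ hW ?_⟩
  · have hD := hV.inter (C.isClopen_smul g hV)
    refine (C.eq_empty_of_τ hD ?_).subset ⟨hy, hy'⟩
    obtain ⟨c, hc, hc'⟩ := C.τ_comp_le g
    have h3 := (ht.const_sub (t V)).const_mul (1 + c)
    rw [sub_self, mul_zero] at h3
    refine ge_of_tendsto' h3 fun n => ?_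
    have h4 := C.re_τ_mono (f := ind (V ∩ (g • ·) ⁻¹' V))
      (g := (ind V - ind (s n).1) + (ind V - ind (s n).1).comp (C.act g)) fun x => by
        simp only [ContinuousMap.add_apply, ContinuousMap.sub_apply, ContinuousMap.comp_apply,
          ind_apply hD, ind_apply hV, ind_apply (s n).2.1, ← smul_def]
        have a := @hs n x
        have b := @hs n (g • x)
        have c := (s n).2.2 x
        by_cases p1 : x ∈ V <;> by_cases p2 : g • x ∈ V <;> by_cases p3 : x ∈ (s n).1 <;>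
          by_cases p4 : g • x ∈ (s n).1 <;> simp_all
    have h5 := hc' ⟨fun x => ((ind V - ind (s n).1) x).re, by fun_prop⟩ fun x => by
      have a := @hs n x
      by_cases p1 : x ∈ V <;> by_cases p3 : x ∈ (s n).1 <;>
        simp_all [ind_apply hV, ind_apply (s n).2.1]
    rw [C.τR_apply _ ((ind V - ind (s n).1).comp (C.act g)) fun _ => rfl,
      C.τR_apply _ (ind V - ind (s n).1) fun _ => rfl] at h5
    rw [map_add, map_add, Complex.add_re] at h4
    rw [map_sub, map_sub, Complex.sub_re] at h4 h5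
    simp only [t, pj] at h4 ⊢
    linarith
  · have h3 := ((ht.comp (tendsto_add_atTop_nat 1)).add
      tendsto_one_div_add_atTop_nhds_zero_nat).sub_const (t V)
    rw [add_zero, sub_self] at h3
    refine ge_of_tendsto' h3 fun n => ?_
    have h4 := h2 n (s n) ⟨V ∪ W, hV.union hW, h⟩ ((hs n).trans Set.subset_union_left)
    simp only [t, C.pj_union hV hW hd, map_add, Complex.add_re] at h4
    exact le_sub_iff_add_le'.2 h4

lemma exists_not_fixed (g : C.Nor) {W : Set X} (hW : IsClopen W) (h : ∀ x ∈ W, C.E (C.U g) x = 0)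
    (hf : ∀ x ∈ W, g • x = x) : W = ∅ := by
  obtain ⟨k, hk⟩ := C.masa (C.U g * C.pj W) fun f => by
    rw [← mul_assoc, ι_mul_U, mul_assoc, mul_assoc, pj, ← map_mul, ← map_mul]
    congr 2
    ext x
    by_cases hx : x ∈ W
    · simp [← smul_def, hf x hx, mul_comm]
    · simp [ind_of_notMem hW hx]
  have h1 : k = 0 := by
    rw [← C.E_ι k, hk, pj, E_mul_right]
    ext x
    by_cases hx : x ∈ W
    · simp [h x hx]
    · simp [ind_of_notMem hW hx]
  refine C.pj_eq_zero hW ?_
  rw [← one_mul (C.pj W), ← C.U_star_mul g, mul_assoc, ← hk, h1, map_zero, mul_zero]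

/-- Frolík type theorem: fixed points are exactly the support of the expectation. -/
theorem smul_eq_iff (g : C.Nor) (x : X) : g • x = x ↔ C.E (C.U g) x ≠ 0 := by
  refine ⟨fun hx h0 => ?_, fun h => eq_of_forall fun f => ?_⟩
  · obtain ⟨V, hV, h1, h2⟩ := C.exists_max_free g
    have hx' : g⁻¹ • x = x := inv_smul_eq_iff.2 hx.symm
    have hxV : x ∉ V := fun h => h1 x h (by rwa [hx])
    set W := {x | C.E (C.U g) x = 0} ∩ (V ∪ (g • ·) ⁻¹' V ∪ (g⁻¹ • ·) ⁻¹' V)ᶜ with hWd
    have hW : IsClopen W := (C.isClopen_E_U g).inter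
      ((hV.union (C.isClopen_smul g hV)).union (C.isClopen_smul g⁻¹ hV)).compl
    have hxW : x ∈ W := ⟨h0, by simp [hx, hx', hxV]⟩
    refine (C.exists_not_fixed g hW (fun y hy => hy.1) fun y hy => ?_).subset hxW
    by_contra hne
    have := C.totallyDisconnected
    obtain ⟨A, hA, hyA, hgA⟩ := exists_isClopen_of_totally_separated (Ne.symm hne)
    have hm : ∀ z ∈ W, z ∉ V ∧ g • z ∉ V ∧ g⁻¹ • z ∉ V := fun z hz => by
      simpa [and_assoc] using hz.2
    refine (h2 (W ∩ (A ∩ (g • ·) ⁻¹' Aᶜ)) (hW.inter (hA.inter (C.isClopen_smul g hA.compl)))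
      (Set.disjoint_left.2 fun z hz hz' => (hm z hz'.1).1 hz) ?_).subset ⟨hy, hyA, hgA⟩
    rintro z (hz | hz) (hz' | hz')
    · exact h1 z hz hz'
    · exact (hm _ hz'.1).2.2 (by rwa [inv_smul_smul])
    · exact (hm _ hz.1).2.1 hz'
    · exact hz.2.2 hz'.2.1
  · have := congrArg (fun k : C(X, ℂ) => k x) (C.mul_E_U g f)
    simp only [ContinuousMap.mul_apply, ContinuousMap.comp_apply] at this
    rw [mul_comm] at this
    exact (mul_left_cancel₀ h this).symm

lemma isOpen_fix (g : C.Nor) : IsOpen {x : X | g • x = x} := by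
  simp only [C.smul_eq_iff]
  exact isOpen_ne_fun (map_continuous _) continuous_const

lemma E_mul_U {g : C.Nor} {x : X} (h : g • x = x) (y : M) :
    C.E (y * C.U g) x = C.E y x * C.E (C.U g) x := by
  have h1 := (C.norm_E_U g x).resolve_left ((C.smul_eq_iff g x).1 h)
  have h2 : C.E (y * C.U g) * star (C.E (C.U g)) =
      C.E y * (C.E (C.U g) * star (C.E (C.U g))) := by
    rw [← E_mul_right, mul_assoc, U_mul_star_E, E_mul_right]
  have h3 := congrArg (fun k : C(X, ℂ) => k x) h2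
  simp only [ContinuousMap.mul_apply, ContinuousMap.star_apply] at h3
  rw [← mul_assoc] at h3
  refine mul_right_cancel₀ (fun h0 => ?_) h3
  rw [star_eq_zero.1 h0] at h1
  simp at h1

lemma E_star_U_mul {g : C.Nor} {x : X} (h : g • x = x) (y : M) :
    C.E (star (C.U g) * y) x = conj (C.E (C.U g) x) * C.E y x := by
  have h1 : star (C.U g) * y = star (star y * C.U g) := by rw [star_mul, star_star]
  rw [h1, E_star, ContinuousMap.star_apply, C.E_mul_U h, E_star]
  simp [mul_comm]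

/-- The Radon-Nikodym cocycle. -/
theorem exists_D : ∃ D : C.Nor → C(X, ℝ), (∀ g x, 0 < D g x) ∧
    (∀ g h x, D (g * h) x = D g (h • x) * D h x) ∧ (∀ g x, g • x = x → D g x = 1) ∧
    ∀ (g : C.Nor) (f f' : C(X, ℝ)), (∀ x, f' x = f (g • x) * D g x) → C.τR f' = C.τR f := by
  have c1 : ∀ (g : C.Nor) (f : C(X, ℝ)), (f.comp (C.act g⁻¹)).comp (C.act g) = f := fun g f => by
    ext x
    exact congrArg f (inv_smul_smul g x)
  have c2 : ∀ (g : C.Nor) (f : C(X, ℝ)), (f.comp (C.act g)).comp (C.act g⁻¹) = f := fun g f => by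
    ext x
    exact congrArg f (smul_inv_smul g x)
  have : ∀ g : C.Nor, ∃ D : C(X, ℝ), (∀ x, 0 < D x) ∧
      ∀ f : C(X, ℝ), C.τR (f.comp (C.act g) * D) = C.τR f := fun g => by
    obtain ⟨c, hc, h1⟩ := C.τ_comp_le g
    obtain ⟨c', -, h2⟩ := C.τ_comp_le g⁻¹
    obtain ⟨D, h3, h4⟩ := exists_rn (ρ := C.τR)
      (ν := C.τR ∘ₗ (ContinuousMap.compRightAlgHom ℝ ℝ (C.act g⁻¹)).toLinearMap)
      (fun _ => C.τR_nonneg) (fun _ => C.τR_faithful) (fun _ _ _ a b d => C.exists_lim a b d)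
      (l := 1 / (c + 1)) (u := c') fun f hf => ⟨by
        have a0 : 0 ≤ f.comp (C.act g⁻¹) := fun x => hf (C.act g⁻¹ x)
        have a1 := h1 _ a0
        have a2 := C.τR_nonneg a0
        rw [c1] at a1
        change _ ≤ C.τR (f.comp (C.act g⁻¹))
        rw [one_div, inv_mul_le_iff₀ (by positivity)]
        linarith, h2 f hf⟩
    refine ⟨D, fun x => lt_of_lt_of_le (by positivity) (h3 x).1, fun f => (h4 _).symm.trans ?_⟩
    exact congrArg C.τR (c2 g f)
  choose D hD0 hD using this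
  have hsq : ∀ k : C(X, ℝ), 0 ≤ k * k := fun k x => mul_self_nonneg (k x)
  refine ⟨D, hD0, fun g h x => ?_, fun g x hx => ?_, fun g f f' h => ?_⟩
  · set k := D (g * h) - (D g).comp (C.act h) * D h with hk
    have h1 := hD (g * h) (k.comp (C.act (g * h)⁻¹))
    have h2 := (hD h _).trans (hD g (k.comp (C.act (g * h)⁻¹)))
    have e : ((k.comp (C.act (g * h)⁻¹)).comp (C.act g) * D g).comp (C.act h) * D h =
        k * ((D g).comp (C.act h) * D h) := by
      ext y
      have : k ((g * h)⁻¹ • g • h • y) = k y := by rw [← mul_smul g h, inv_smul_smul]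
      change k ((g * h)⁻¹ • g • h • y) * D g (h • y) * D h y = k y * (D g (h • y) * D h y)
      rw [this, mul_assoc]
    rw [c1] at h1
    rw [e, ← h1, eq_comm, ← sub_eq_zero, ← map_sub, ← mul_sub, ← hk] at h2
    exact sub_eq_zero.1 (mul_self_eq_zero.1
      (congrArg (fun k : C(X, ℝ) => k x) (C.τR_faithful (hsq k) h2)))
  · have hW : IsClopen {x : X | g • x = x} :=
      ⟨isClosed_eq (continuous_const_smul g) continuous_id, C.isOpen_fix g⟩
    let k : C(X, ℝ) := ⟨fun y => (ind {x : X | g • x = x} y).re * (D g y - 1), by fun_prop⟩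
    have e : k.comp (C.act g) = k := by
      ext y
      change k (g • y) = k y
      by_cases hy : g • y = y
      · rw [hy]
      · have h1 : ¬ g • g • y = g • y := fun h => hy (MulAction.injective g h)
        simp only [k, ContinuousMap.coe_mk]
        rw [ind_of_notMem hW hy, ind_of_notMem hW h1]
        simp
    have e2 : k * D g - k = k * k := by
      ext y
      simp only [k, ContinuousMap.coe_mk, ContinuousMap.sub_apply, ContinuousMap.mul_apply]
      rcases ind_val {x : X | g • x = x} y with h | h <;> rw [h] <;> simp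
      ring
    have h1 := hD g k
    rw [e, ← sub_eq_zero, ← map_sub, e2] at h1
    have h2 : k x = 0 := mul_self_eq_zero.1
      (congrArg (fun k : C(X, ℝ) => k x) (C.τR_faithful (hsq k) h1))
    simp only [k, ContinuousMap.coe_mk] at h2
    rw [ind_of_mem hW hx, Complex.one_re, one_mul] at h2
    exact sub_eq_zero.1 h2
  · rw [← hD g f]
    exact congrArg C.τR (ContinuousMap.ext h)

end Ctx

end Vale.Agent.P078G
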