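import Vale.Agent.P078G.Act

/-! The normaliser algebra. -/

namespace Vale.Agent.P078G

open Filter
open Vale.Agent.P078 (ind ind_apply ind_of_mem ind_of_notMem ind_val isClopen_preimage cx cx_apply
  mul_lt_of_lt_div)
open Vale.Agent.P078.Ctx (proj_eq_of_le mem_of_le_ofIsClopen)
open scoped Topology ComplexConjugate

variable {M X : Type*} [CStarAlgebra M] [TopologicalSpace X] [CompactSpace X] [T2Space X]

namespace Ctx

open Msa Pre

variable (C : Ctx M X)

/-- Finite sums of masa elements times normalisers. -/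
def Rep (y : M) : Prop :=
  ∃ (Γ : Finset C.Nor) (f : C.Nor → C(X, ℂ)), y = ∑ g ∈ Γ, C.ι (f g) * C.U g

omit [T2Space X] in
lemma rep_single (f : C(X, ℂ)) (g : C.Nor) : C.Rep (C.ι f * C.U g) :=
  ⟨{g}, fun _ => f, by simp⟩

omit [T2Space X] in
lemma rep_add {a b : M} (ha : C.Rep a) (hb : C.Rep b) : C.Rep (a + b) := by
  classical
  obtain ⟨Γ, f, rfl⟩ := ha
  obtain ⟨Γ', f', rfl⟩ := hb
  refine ⟨Γ ∪ Γ', fun g => (if g ∈ Γ then f g else 0) + if g ∈ Γ' then f' g else 0, ?_⟩
  simp only [map_add, add_mul, Finset.sum_add_distrib, apply_ite C.ι, map_zero, ite_mul, zero_mul,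
    Finset.sum_ite_mem, Finset.union_inter_cancel_left, Finset.union_inter_cancel_right]

omit [T2Space X] in
lemma rep_sum {κ : Type*} (s : Finset κ) {a : κ → M} (h : ∀ k ∈ s, C.Rep (a k)) :
    C.Rep (∑ k ∈ s, a k) :=
  Finset.sum_induction a C.Rep (fun _ _ => C.rep_add) ⟨∅, 0, by simp⟩ h

lemma U_mul_ι (g : C.Nor) (f : C(X, ℂ)) :
    C.U g * C.ι f = C.ι (f.comp (C.act g⁻¹)) * C.U g := by
  rw [← C.conj_ι, U_inv, star_star, mul_assoc, (C.U_mem g).1, mul_one]

/-- The algebraic span of the masa and the normaliser. -/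
def N0 : StarSubalgebra ℂ M where
  carrier := {y | ∃ (Γ : Finset C.Nor) (f : C.Nor → C(X, ℂ)), y = ∑ g ∈ Γ, C.ι (f g) * C.U g}
  mul_mem' := by
    rintro _ _ ⟨Γ, f, rfl⟩ ⟨Γ', f', rfl⟩
    rw [Finset.sum_mul_sum]
    refine C.rep_sum _ fun g _ => C.rep_sum _ fun h _ => ?_
    rw [mul_assoc, ← mul_assoc (C.U g), U_mul_ι, mul_assoc, ← U_mul, ← mul_assoc, ← map_mul]
    exact C.rep_single _ _
  add_mem' := C.rep_add
  algebraMap_mem' := fun c => by
    have := C.rep_single (algebraMap ℂ _ c) 1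
    rwa [U_one, mul_one, AlgHomClass.commutes] at this
  star_mem' := by
    rintro _ ⟨Γ, f, rfl⟩
    rw [star_sum]
    refine C.rep_sum _ fun g _ => ?_
    rw [star_mul, ← U_inv, ← map_star, U_mul_ι]
    exact C.rep_single _ _

lemma ι_mem_N0 (f : C(X, ℂ)) : C.ι f ∈ C.N0 := by
  have := C.rep_single f 1
  rwa [U_one, mul_one] at this

lemma U_mem_N0 (g : C.Nor) : C.U g ∈ C.N0 := by
  have := C.rep_single 1 g
  rwa [map_one, one_mul] at this

/-- Closure of the normaliser algebra in the 2-norm. -/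
def Cl (y : M) : Prop := ∀ ε > 0, ∃ n ∈ C.N0, C.T.n2 (y - n) < ε

/-- A normalising symmetry has bounded densities on a large invariant set. -/
theorem exists_bdd {s : M} (hs : star s = s) (hu : s * s = 1) (hq : C.QN s) {ε : ℝ} (hε : 0 < ε) :
    ∃ V, IsClopen V ∧ C.T.n2 (C.pj Vᶜ) < ε ∧ ∃ g : C.Nor, C.U g * C.pj V = s * C.pj V := by
  obtain ⟨α, hα⟩ := C.exists_act' (u := s) ⟨by rw [hs, hu], by rw [hs, hu]⟩ fun f => (hq f).1
  rw [hs] at hα
  have hc : ∀ f, s * C.ι f = C.ι (f.comp α) * s := fun f => by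
    rw [← hα, mul_assoc, hu, mul_one]
  have hαα : ∀ x, α (α x) = x := fun x => eq_of_forall fun f => by
    have h1 : C.ι ((f.comp α).comp α) = C.ι f := by
      rw [← hα, ← hα, ← mul_assoc, ← mul_assoc, hu, one_mul, mul_assoc, hu, mul_one]
    exact congrArg (fun k : C(X, ℂ) => k x) (C.inj h1)
  have hμ : ∀ (F : C(X, ℂ)) (k : C(X, ℝ)), (∀ x, k x = ‖F x‖ ^ 2) →
      C.T.n2 (C.ι F) ^ 2 = C.τR k ∧ C.T.n2 (C.ι F * s) ^ 2 = C.τR (k.comp α) := fun F k h => by
    have e : ∀ x, ((star F * F) x).re = k x := fun x => by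
      rw [h, ContinuousMap.mul_apply, ContinuousMap.star_apply, Complex.star_def, Complex.conj_mul',
        ← Complex.ofReal_pow, Complex.ofReal_re]
    constructor
    · rw [C.T.n2_sq, ← map_star, ← map_mul]
      exact (C.τR_apply _ _ e).symm
    · rw [C.T.n2_sq, star_mul, hs, ← map_star, mul_assoc, ← mul_assoc (C.ι _), ← map_mul,
        ← mul_assoc, hα]
      exact (C.τR_apply (k.comp α) ((star F * F).comp α) fun x => e (α x)).symm
  obtain ⟨ρ, hρ⟩ : ∃ ρ : C(X, ℝ) →ₗ[ℝ] ℝ, ∀ f, ρ f = C.τR f + C.τR (f.comp α) :=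
    ⟨C.τR + C.τR ∘ₗ (ContinuousMap.compRightAlgHom ℝ ℝ α).toLinearMap, fun _ => rfl⟩
  have p1 : ∀ f : C(X, ℝ), 0 ≤ f → 0 ≤ C.τR (f.comp α) := fun f hf => C.τR_nonneg fun x => hf (α x)
  have p2 : ∀ f : C(X, ℝ), 0 ≤ f → 0 ≤ ρ f := fun f hf => by
    rw [hρ]
    exact add_nonneg (C.τR_nonneg hf) (p1 f hf)
  have p3 : ∀ f : C(X, ℝ), 0 ≤ f → ρ f = 0 → f = 0 := fun f hf h =>
    C.τR_faithful hf (by linarith [hρ f, C.τR_nonneg hf, p1 f hf])
  have hsq : ∀ k : C(X, ℝ), 0 ≤ k ^ 2 := fun k x => sq_nonneg (k x)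
  obtain ⟨h, h01, hh⟩ := exists_rn (ρ := ρ) (ν := C.τR) p2 p3 (fun f R b a1 a2 a3 => by
      obtain ⟨g, hg⟩ := C.exists_lim a1 a2 fun n m N b1 b2 => by
        linarith [a3 n m N b1 b2, hρ ((f n - f m) ^ 2), p1 _ (hsq (f n - f m))]
      have b0 := fun n => hμ (cx (f n - g)) ((f n - g) ^ 2) fun x => by
        rw [cx_apply, Complex.norm_real, Real.norm_eq_abs, sq_abs]
        rfl
      have b1 : Tendsto (fun n => C.T.n2 (C.ι (cx (f n - g)))) atTop (𝓝 0) := by
        simpa only [← (b0 _).1, Real.sqrt_sq (C.T.n2_nonneg _), Real.sqrt_zero] using hg.sqrt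
      have b2 := (C.fw.tendsto_mul (R := R + ‖g‖) (fun n => (C.norm_ι _).trans_le
        ((ContinuousMap.norm_le _ (add_nonneg ((norm_nonneg _).trans (a1 n)) (norm_nonneg _))).2
          fun x => by
            rw [cx_apply, Complex.norm_real]
            exact (((f n - g).norm_coe_le_norm x).trans (norm_sub_le _ _)).trans
              (add_le_add_left (a1 n) _))) b1 s).pow 2
      refine ⟨g, ?_⟩
      simpa only [hρ, (b0 _).2, ne_eq, OfNat.ofNat_ne_zero, not_false_eq_true, zero_pow, add_zero]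
        using hg.add b2)
    (l := 0) (u := 1) fun f hf => ⟨by rw [zero_mul]; exact C.τR_nonneg hf,
      by linarith [hρ f, p1 f hf]⟩
  have hinv : ∀ f : C(X, ℝ), ρ (f.comp α) = ρ f := fun f => by
    have : (f.comp α).comp α = f := by
      ext x
      exact congrArg f (hαα x)
    rw [hρ, hρ, this, add_comm]
  have hhα : ∀ x, h (α x) = 1 - h x := fun x => by
    set k := h.comp α - (1 - h) with hk
    have e1 : (k * h.comp α).comp α = k.comp α * h := by
      ext y
      change k (α y) * h (α (α y)) = k (α y) * h y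
      rw [hαα]
    have e2 : k ^ 2 = k * h.comp α - k + k * h := by
      rw [sq]
      nth_rewrite 2 [hk]
      ring
    have a1 : ρ (k ^ 2) = 0 := by
      rw [e2, map_add, map_sub, ← hinv (k * h.comp α), e1, ← hh, ← hh, hρ]
      ring
    exact sub_eq_zero.1 (pow_eq_zero_iff two_ne_zero |>.1
      (congrArg (fun k : C(X, ℝ) => k x) (p3 _ (hsq k) a1)))
  obtain ⟨δ, hδ, hst⟩ := C.fw.strong s 1 (ε / 2) (half_pos hε)
  obtain ⟨η, hη⟩ : ∃ η, η = min δ (ε / 2) ^ 2 / 4 := ⟨_, rfl⟩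
  have hm : 0 < min δ (ε / 2) := lt_min hδ (half_pos hε)
  have hη0 : 0 < η := by rw [hη]; positivity
  set V := closure {x | 0 < (⟨fun x => min (h x) (1 - h x) - η, by fun_prop⟩ : C(X, ℝ)) x} with hV
  have hVc : IsClopen V := C.isClopen_closure _
  have v1 : V ⊆ {x | η ≤ h x} :=
    closure_minimal (fun x (hx : 0 < min (h x) (1 - h x) - η) =>
      (sub_pos.1 hx).le.trans (min_le_left _ _)) (isClosed_le continuous_const (by fun_prop))
  have v2 : ∀ x ∉ V, min (h x) (1 - h x) ≤ η := fun x hx => not_lt.1 fun hlt =>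
    hx (subset_closure (show 0 < min (h x) (1 - h x) - η from sub_pos.2 hlt))
  have v3 : Set.MapsTo α V V := Set.MapsTo.closure (fun x (hx : 0 < min (h x) (1 - h x) - η) =>
    show 0 < min (h (α x)) (1 - h (α x)) - η by rwa [hhα, sub_sub_cancel, min_comm]) α.continuous
  have v4 : ∀ x, α x ∈ V ↔ x ∈ V := fun x => ⟨fun hx => hαα x ▸ v3 hx, fun hx => v3 hx⟩
  have i1 : (ind V).comp α = ind V := by
    ext x
    by_cases hx : x ∈ V
    · rw [ContinuousMap.comp_apply, ind_of_mem hVc hx, ind_of_mem hVc (v3 hx)]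
    · rw [ContinuousMap.comp_apply, ind_of_notMem hVc hx, ind_of_notMem hVc ((v4 x).not.2 hx)]
  have hsp : s * C.pj V = C.pj V * s := by rw [pj, hc, i1]
  have hpq : C.pj V * C.pj Vᶜ = 0 := by
    rw [C.pj_mul hVc hVc.compl, Set.inter_compl_self, pj_empty]
  have hqp : C.pj Vᶜ * C.pj V = 0 := by
    rw [C.pj_mul hVc.compl hVc, Set.compl_inter_self, pj_empty]
  have hsq' : s * C.pj Vᶜ = C.pj Vᶜ * s := by
    rw [C.pj_compl hVc, mul_sub, sub_mul, hsp, mul_one, one_mul]
  obtain ⟨u, hU⟩ : ∃ u, u = C.pj V * s + C.pj Vᶜ := ⟨_, rfl⟩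
  have u1 : star u = u := by rw [hU, star_add, star_mul, pj_star, pj_star, hs, hsp]
  have u2 : ∀ f, u * C.ι f * u = C.ι (ind V * f.comp α + ind Vᶜ * f) := fun f => by
    have a1 : C.pj V * s * C.ι f * (C.pj V * s) = C.pj V * C.ι (f.comp α) := by
      rw [mul_assoc, ← mul_assoc (C.ι f), ← pj_comm_ι, mul_assoc (C.pj V) s, ← mul_assoc s,
        ← mul_assoc s, hsp, ← hα]
      simp only [← mul_assoc, pj_idem]
    have a2 : C.pj V * s * C.ι f * C.pj Vᶜ = 0 := by
      rw [mul_assoc, ← pj_comm_ι, ← mul_assoc, mul_assoc (C.pj V), hsq', ← mul_assoc, hpq, zero_mul,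
        zero_mul]
    have a3 : C.pj Vᶜ * C.ι f * (C.pj V * s) = 0 := by
      rw [pj_comm_ι, mul_assoc, ← mul_assoc (C.pj Vᶜ), hqp, zero_mul, mul_zero]
    have a4 : C.pj Vᶜ * C.ι f * C.pj Vᶜ = C.pj Vᶜ * C.ι f := by
      rw [mul_assoc, ← pj_comm_ι, ← mul_assoc, pj_idem]
    rw [hU, add_mul, add_mul, mul_add, mul_add, a1, a2, a3, a4, add_zero, zero_add, map_add,
      map_mul, map_mul, pj, pj]
  have u3 : u * u = 1 := by
    have := u2 1
    rw [map_one, mul_one, ContinuousMap.one_comp, mul_one, mul_one, map_add] at this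
    rw [this]
    exact (congrArg _ (C.pj_compl hVc)).trans (add_sub_cancel _ _)
  have u4 : C.Bd u := by
    refine ⟨√η⁻¹ + 1, by positivity, fun F => ?_⟩
    let k : C(X, ℝ) := ⟨fun x => ‖(F * ind V) x‖ ^ 2, by fun_prop⟩
    obtain ⟨a1, a2⟩ := hμ (F * ind V) k fun _ => rfl
    have k0 : 0 ≤ k := fun x => sq_nonneg _
    have a3 := p2 (k * h - η • k) fun x => by
      change 0 ≤ k x * h x - η * k x
      by_cases hx : x ∈ V
      · nlinarith [mul_le_mul_of_nonneg_left (show η ≤ h x from v1 hx) (show 0 ≤ k x from k0 x)]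
      · simp [k, ind_of_notMem hVc hx]
    rw [map_sub, map_smul, ← hh, hρ, ← a1, ← a2, smul_eq_mul, map_mul] at a3
    have a4 : C.T.n2 (C.ι F * C.pj V * s) ≤ √η⁻¹ * C.T.n2 (C.ι F * C.pj V) := by
      refine (abs_le_of_sq_le_sq' ?_ (mul_nonneg (Real.sqrt_nonneg _) (C.T.n2_nonneg _))).2
      rw [mul_pow, Real.sq_sqrt (by positivity), le_inv_mul_iff₀ hη0, pj]
      nlinarith [sq_nonneg (C.T.n2 (C.ι F * C.ι (ind V)))]
    rw [hU, mul_add, ← mul_assoc, add_mul, one_mul]
    exact (C.T.n2_add_le _ _).trans (add_le_add (a4.trans (mul_le_mul_of_nonneg_left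
      (C.n2_mul_pj _ _) (Real.sqrt_nonneg _))) (C.n2_mul_pj _ _))
  refine ⟨V, hVc, ?_, ⟨⟨u, by rw [u1, u3], by rw [u1, u3]⟩,
    fun f => by simp only [u1]; exact ⟨⟨_, u2 f⟩, _, u2 f⟩, u4, by simpa only [u1] using u4⟩, ?_⟩
  · let i : C(X, ℝ) := ⟨fun x => (ind Vᶜ x).re, by fun_prop⟩
    have i0 : ∀ x ∈ V, i x = 0 := fun x hx =>
      congrArg Complex.re (ind_of_notMem hVc.compl (not_not.2 hx))
    have i1 : ∀ x ∉ V, i x = 1 := fun x hx => congrArg Complex.re (ind_of_mem hVc.compl hx)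
    have k0 : ∀ x, 0 ≤ i x * (1 - h x) ∧ i x * (1 - h x) ≤ 1 ∧ i x * (1 - h x) * h x ≤ η := by
      intro x
      by_cases hx : x ∈ V
      · simp [i0 x hx, hη0.le]
      · obtain ⟨b1, b2⟩ := h01 x
        rw [i1 x hx, one_mul]
        refine ⟨by linarith, by linarith, le_trans (le_min ?_ ?_) (v2 x hx)⟩ <;> nlinarith
    let K : C(X, ℂ) := cx ⟨fun x => √(i x * (1 - h x)), by fun_prop⟩
    obtain ⟨a1, a2⟩ := hμ K (i * (1 - h)) fun x => by
      rw [cx_apply, Complex.norm_real, Real.norm_eq_abs, sq_abs]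
      exact (Real.sq_sqrt (k0 x).1).symm
    have a3 := p2 (η • 1 - i * (1 - h) * h) fun x => by simpa using (k0 x).2.2
    rw [map_sub, ← hh, map_smul, hρ, ContinuousMap.one_comp, τR_one, ← a1, smul_eq_mul] at a3
    have a4 : C.T.n2 (C.ι K) < min δ (ε / 2) :=
      (abs_lt_of_sq_lt_sq' (by nlinarith) hm.le).2
    have a5 := hst _ ((C.norm_ι K).trans_le ((ContinuousMap.norm_le _ zero_le_one).2 fun x => by
      rw [cx_apply, Complex.norm_real, ContinuousMap.coe_mk,
        Real.norm_of_nonneg (Real.sqrt_nonneg _)]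
      exact Real.sqrt_le_one.2 (k0 x).2.1)) (a4.trans_le (min_le_left _ _))
    have a6 := a4.trans_le (min_le_right _ _)
    have e : i = i * (1 - h) + (i * (1 - h)).comp α := by
      ext x
      change i x = i x * (1 - h x) + i (α x) * (1 - h (α x))
      rw [hhα]
      by_cases hx : x ∈ V
      · rw [i0 x hx, i0 _ (v3 hx)]
        ring
      · rw [i1 x hx, i1 _ ((v4 x).not.2 hx)]
        ring
    have a7 := congrArg C.τR e
    rw [map_add, ← a1, ← a2, C.τR_apply i (ind Vᶜ) fun _ => rfl] at a7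
    have a8 := C.re_τ_pj (V := Vᶜ)
    rw [pj, a7] at a8
    refine (abs_lt_of_sq_lt_sq' ?_ hε.le).2
    rw [pj, ← a8]
    nlinarith [C.T.n2_nonneg (C.ι K), C.T.n2_nonneg (C.ι K * s)]
  · change u * C.pj V = s * C.pj V
    rw [hU, add_mul, hqp, add_zero, ← hsp, mul_assoc, pj_idem]

lemma orth_mul {w : M} (hw : ∀ n ∈ C.N0, C.T.τ (n * w) = 0) {n n' : M} (hn : n ∈ C.N0)
    (hn' : n' ∈ C.N0) : C.T.τ (n * w * n') = 0 := by
  obtain ⟨Γ, f, rfl⟩ := hn'
  rw [Finset.mul_sum, map_sum]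
  refine Finset.sum_eq_zero fun g _ => ?_
  have h1 : C.E (C.U g * (n * w)) = 0 := C.E_eq_of fun k => by
    rw [map_zero, mul_zero, map_zero, ← mul_assoc, ← mul_assoc]
    exact (hw _ (mul_mem (mul_mem (C.ι_mem_N0 k) (C.U_mem_N0 g)) hn)).symm
  have h2 : C.E (n * w * C.U g) = 0 := by
    ext x
    have := C.E_conj g (C.U g * (n * w)) x
    rwa [← mul_assoc, U_star_mul, one_mul, h1] at this
  rw [ι_mul_U, ← mul_assoc, ← C.cen, ← C.tr, h2, map_zero, mul_zero, map_zero]

lemma orth_star {w : M} (hw : ∀ n ∈ C.N0, C.T.τ (n * w) = 0) :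
    ∀ n ∈ C.N0, C.T.τ (n * star w) = 0 := fun n hn => by
  have := C.orth_mul hw (one_mem _) (star_mem hn)
  rw [← star_star n, ← star_mul, C.T.map_star, ← one_mul w, this, map_zero]

variable {C}

lemma Cl.of_mem {y : M} (h : y ∈ C.N0) : C.Cl y := fun ε hε =>
  ⟨y, h, by rwa [sub_self, C.T.n2_zero]⟩

lemma Cl.of_approx {y : M} (h : ∀ ε > 0, ∃ n, C.Cl n ∧ C.T.n2 (y - n) < ε) : C.Cl y := by
  intro ε hε
  obtain ⟨n, hn, h1⟩ := h _ (half_pos hε)
  obtain ⟨m, hm, h2⟩ := hn _ (half_pos hε)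
  exact ⟨m, hm, by linarith [C.T.n2_triangle y n m]⟩

lemma Cl.add {y z : M} (hy : C.Cl y) (hz : C.Cl z) : C.Cl (y + z) := fun ε hε => by
  obtain ⟨n, hn, h1⟩ := hy _ (half_pos hε)
  obtain ⟨m, hm, h2⟩ := hz _ (half_pos hε)
  refine ⟨n + m, add_mem hn hm, ?_⟩
  rw [add_sub_add_comm]
  linarith [C.T.n2_add_le (y - n) (z - m)]

lemma Cl.sum {κ : Type*} (s : Finset κ) {a : κ → M} (h : ∀ k ∈ s, C.Cl (a k)) :
    C.Cl (∑ k ∈ s, a k) :=
  Finset.sum_induction a C.Cl (fun _ _ => Cl.add) (Cl.of_mem (zero_mem _)) h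

lemma Cl.mul_ι {y : M} (hy : C.Cl y) (f : C(X, ℂ)) : C.Cl (y * C.ι f) := fun ε hε => by
  obtain ⟨n, hn, h1⟩ := hy (ε / (‖f‖ + 1)) (by positivity)
  refine ⟨n * C.ι f, mul_mem hn (C.ι_mem_N0 f), ?_⟩
  rw [← sub_mul]
  refine (C.n2_mul_ι _ _).trans_lt ?_
  exact mul_lt_of_lt_div (C.T.n2_nonneg _) (norm_nonneg _) h1

lemma Cl.eq_zero {y : M} (hy : C.Cl y) (hw : ∀ n ∈ C.N0, C.T.τ (n * y) = 0) : y = 0 := by
  refine C.fw.eq_zero fun ε hε => ?_
  obtain ⟨n, hn, h1⟩ := hy ε hε
  have h2 := C.T.norm_τ_star_mul (y - n) y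
  rw [star_sub, sub_mul, map_sub, hw _ (star_mem hn), sub_zero, C.T.n2_sq', Complex.norm_real,
    Real.norm_of_nonneg (sq_nonneg _), sq] at h2
  rcases (C.T.n2_nonneg y).eq_or_lt with h | h
  · rwa [← h]
  · exact (le_of_mul_le_mul_right h2 h).trans_lt h1

omit [T2Space X] in
lemma QN.bimod {v : M} (hv : C.QN v) (a b : C(X, ℂ)) : C.QN (C.ι a * v * C.ι b) := fun f => by
  obtain ⟨g, hg⟩ := (hv (star a * f * a)).1
  obtain ⟨g', hg'⟩ := (hv (b * f * star b)).2
  refine ⟨⟨star b * g * b, ?_⟩, a * g' * star a, ?_⟩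
  · rw [map_mul, map_mul, ← hg]
    simp only [star_mul, map_mul, map_star, mul_assoc]
  · rw [map_mul, map_mul, ← hg']
    simp only [star_mul, map_mul, map_star, mul_assoc]

lemma QN.mem_of_nil {t : M} (ht : C.QN t) (h1 : t * star t * t = t) (h2 : t * t = 0) :
    C.Cl t := by
  obtain ⟨⟨p, hp⟩, r, hr⟩ := ht 1
  rw [map_one, mul_one] at hp hr
  have h1' : star t * t * star t = star t := by simpa [mul_assoc] using congrArg star h1
  have h2' : star t * star t = 0 := by simpa using congrArg star h2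
  set z := C.ι (1 - p - r) with hz
  have hz' : z = 1 - star t * t - t * star t := by rw [hz, map_sub, map_sub, map_one, hp, hr]
  have e1 : t * z = 0 := by
    rw [hz', mul_sub, mul_sub, mul_one, ← mul_assoc, h1, ← mul_assoc, h2, zero_mul, sub_self,
      sub_zero]
  have e2 : z * t = 0 := by
    rw [hz', sub_mul, sub_mul, one_mul, h1, mul_assoc, h2, mul_zero, sub_zero, sub_self]
  have hzs : star z = z := by rw [hz']; simp
  have e3 : star t * z = 0 := by simpa [hzs] using congrArg star e2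
  have e4 : z * star t = 0 := by simpa [hzs] using congrArg star e1
  have e5 : ∀ f, t * C.ι f * t = 0 := fun f => by
    have : t * C.ι f = t * C.ι f * (star t * t) := by
      rw [hp, mul_assoc, C.ι_comm, ← mul_assoc, ← hp, ← mul_assoc, h1]
    rw [this, mul_assoc, mul_assoc (star t), h2, mul_zero, mul_zero]
  have e6 : ∀ f, star t * C.ι f * star t = 0 := fun f => by
    simpa [mul_assoc, ← map_star] using congrArg star (e5 (star f))
  have key : ∀ f, (t + star t + z) * C.ι f * (t + star t + z) =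
      t * C.ι f * star t + star t * C.ι f * t + z * C.ι f * z := fun f => by
    have a1 : z * C.ι f = C.ι f * z := C.ι_comm _ _
    have a2 : t * C.ι f * z = 0 := by rw [mul_assoc, ← a1, ← mul_assoc, e1, zero_mul]
    have a3 : star t * C.ι f * z = 0 := by rw [mul_assoc, ← a1, ← mul_assoc, e3, zero_mul]
    have a4 : z * C.ι f * t = 0 := by rw [a1, mul_assoc, e2, mul_zero]
    have a5 : z * C.ι f * star t = 0 := by rw [a1, mul_assoc, e4, mul_zero]
    simp only [add_mul, mul_add, a2, a3, a4, a5, e5, e6, zero_add, add_zero]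
    abel
  have hs : star (t + star t + z) = t + star t + z := by
    rw [star_add, star_add, star_star, hzs, add_comm (star t)]
  have hzz : z * z = z := by
    nth_rewrite 2 [hz']
    rw [mul_sub, mul_sub, mul_one, ← mul_assoc, ← mul_assoc, e2, e4, zero_mul, zero_mul, sub_zero,
      sub_zero]
  have hu : (t + star t + z) * (t + star t + z) = 1 := by
    have := key 1
    rw [map_one, mul_one, mul_one, mul_one, mul_one, hzz] at this
    rw [this, hz']
    abel
  have hq : C.QN (t + star t + z) := fun f => by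
    obtain ⟨⟨g, hg⟩, g', hg'⟩ := ht f
    have : (t + star t + z) * C.ι f * (t + star t + z) =
        C.ι (g' + g + (1 - p - r) * f * (1 - p - r)) := by
      rw [key, hg, hg', map_add, map_add, map_mul, map_mul]
    rw [hs]
    exact ⟨⟨_, this⟩, _, this⟩
  have h3 : t = (t + star t + z) * C.ι p := by
    rw [← hp, add_mul, add_mul, ← mul_assoc, h1, ← mul_assoc, h2', ← mul_assoc, e4, zero_mul,
      add_zero, add_zero]
  intro ε hε
  obtain ⟨V, hV, h4, g, hg⟩ := C.exists_bdd hs hu hq (ε := ε / (‖t‖ + 1)) (by positivity)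
  refine ⟨C.U g * C.pj V * C.ι p, mul_mem (mul_mem (C.U_mem_N0 g) (C.ι_mem_N0 _)) (C.ι_mem_N0 p), ?_⟩
  rw [hg, mul_assoc, pj_comm_ι, ← mul_assoc, ← h3, ← mul_one_sub, ← C.pj_compl hV]
  exact (C.T.n2_mul_le _ _).trans_lt
    ((mul_comm _ _).trans_lt (mul_lt_of_lt_div (C.T.n2_nonneg _) (norm_nonneg _) h4))

lemma QN.mem_of_pi {v : M} (hv : C.QN v) (h1 : v * star v * v = v) : C.Cl v := by
  classical
  refine Cl.of_approx fun ε hε => ?_
  obtain ⟨P, hP⟩ := C.pinch_tendsto v hε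
  set e : P → M := fun i => C.pj (P.proj ⁻¹' {i}) with he
  have hc : ∀ i : P, IsClopen (P.proj ⁻¹' {i}) := fun i => P.isClopen_preimage _
  have h2 : ∑ i, e i = 1 := by
    rw [he, C.sum_pj P.proj_isLocallyConstant, Finset.coe_univ, Set.preimage_univ, pj_univ]
  have h3 : v = ∑ i, (e i * v * e i + ∑ j ∈ Finset.univ.erase i, e i * v * e j) := by
    rw [Finset.sum_congr rfl fun i _ =>
      Finset.add_sum_erase _ (fun j => e i * v * e j) (Finset.mem_univ i)]
    simp only [← Finset.mul_sum, ← Finset.sum_mul, h2, mul_one, one_mul]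
  rw [Finset.sum_add_distrib] at h3
  refine ⟨C.ι (C.E v) + ∑ i, ∑ j ∈ Finset.univ.erase i, e i * v * e j,
    (Cl.of_mem (C.ι_mem_N0 _)).add (Cl.sum _ fun i _ => Cl.sum _ fun j hj => ?_), ?_⟩
  · have hi : e i * e i = e i := (C.pj_proj _).isIdempotentElem
    have hj' : e j * e j = e j := (C.pj_proj _).isIdempotentElem
    have si : star (e i) = e i := (C.pj_proj _).isSelfAdjoint
    have sj : star (e j) = e j := (C.pj_proj _).isSelfAdjoint
    have hij : e j * e i = 0 := by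
      rw [he, C.pj_mul (hc j) (hc i), ← Set.preimage_inter,
        Set.singleton_inter_eq_empty.2 (by simpa using Finset.ne_of_mem_erase hj),
        Set.preimage_empty, pj_empty]
    refine (hv.bimod _ _).mem_of_nil ?_ ?_
    · obtain ⟨g, hg⟩ := (hv (ind (P.proj ⁻¹' {i}))).1
      obtain ⟨r, hr⟩ := (hv 1).2
      rw [map_one, mul_one] at hr
      have a1 : e j * (star v * e i * v) = star v * e i * v * e j := by
        change e j * (star v * C.ι _ * v) = star v * C.ι _ * v * e j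
        rw [hg]; exact C.ι_comm _ _
      have a2 : v * star v * e i = e i * (v * star v) := by rw [hr]; exact C.ι_comm _ _
      change e i * v * e j * star (e i * v * e j) * (e i * v * e j) = e i * v * e j
      calc e i * v * e j * star (e i * v * e j) * (e i * v * e j)
          = e i * v * (e j * e j * (star v * (e i * e i) * v)) * e j := by
            simp only [star_mul, si, sj, mul_assoc]
        _ = e i * (v * star v * e i) * v * (e j * e j) := by
            rw [hi, hj', a1]; simp only [mul_assoc, hj']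
        _ = e i * v * e j := by
            rw [a2, hj', ← mul_assoc, hi, mul_assoc (e i), h1]
    · change e i * v * e j * (e i * v * e j) = 0
      rw [mul_assoc (e i) v (e j), mul_assoc (e i) (v * e j), mul_assoc v, ← mul_assoc (e j),
        hij, zero_mul, mul_zero, mul_zero]
  · have h4 := hP P le_rfl
    rwa [show v - (C.ι (C.E v) + ∑ i, ∑ j ∈ Finset.univ.erase i, e i * v * e j) =
      C.pinch P.proj v - C.ι (C.E v) by
        nth_rewrite 1 [h3]
        rw [add_sub_add_right_eq_sub]; rfl]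

variable (C)

theorem QN.mem_cl {v : M} (hv : C.QN v) : C.Cl v := by
  refine Cl.of_approx fun ε hε => ?_
  obtain ⟨h, hh⟩ := (hv 1).1
  rw [map_one, mul_one] at hh
  have h0 : ∀ x, 0 ≤ (h x).re ∧ (h x).im = 0 := fun x => by
    have := C.E_nonneg v x
    rwa [hh, C.E_ι] at this
  set δ := (ε / 2) ^ 2 with hδ
  have hδ0 : 0 < δ := by positivity
  set U := closure {x | 0 < (⟨fun x => (h x).re - δ, by fun_prop⟩ : C(X, ℝ)) x} with hU
  have hUc : IsClopen U := C.isClopen_closure _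
  have h1 : U ⊆ {x | δ ≤ (h x).re} :=
    closure_minimal (fun x (hx : 0 < (h x).re - δ) => le_of_lt (sub_pos.1 hx))
      (isClosed_le continuous_const (by fun_prop))
  have h2 : ∀ x ∉ U, (h x).re ≤ δ := fun x hx => not_lt.1 fun hlt =>
    hx (subset_closure (show 0 < (h x).re - δ from sub_pos.2 hlt))
  have hpos : ∀ x, 0 < √(max (h x).re δ) := fun x => Real.sqrt_pos.2 (lt_max_of_lt_right hδ0)
  set a : C(X, ℂ) := ⟨fun x => (√(max (h x).re δ) : ℝ), by fun_prop⟩ with ha
  set b : C(X, ℂ) := ⟨fun x => ((√(max (h x).re δ))⁻¹ : ℝ), Complex.continuous_ofReal.comp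
    (Continuous.inv₀ (by fun_prop) fun x => (hpos x).ne')⟩ with hb
  have e1 : star (b * ind U) * h * (b * ind U) = ind U := by
    ext x
    by_cases hx : x ∈ U
    · have e2 : h x = ((√(max (h x).re δ) * √(max (h x).re δ) : ℝ) : ℂ) := by
        rw [Real.mul_self_sqrt (le_max_of_le_right hδ0.le), max_eq_left (h1 hx)]
        exact Complex.ext rfl (h0 x).2
      have e3 : ((√(max (h x).re δ) : ℝ) : ℂ) ≠ 0 := Complex.ofReal_ne_zero.2 (hpos x).ne'
      simp only [ContinuousMap.mul_apply, ContinuousMap.star_apply, ind_apply hUc,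
        Set.indicator_of_mem hx, Pi.one_apply, mul_one, hb, ContinuousMap.coe_mk,
        Complex.star_def, Complex.conj_ofReal]
      nth_rewrite 2 [e2]
      push_cast
      field_simp
    · simp [ind_apply hUc, Set.indicator_of_notMem hx]
  have e2 : b * ind U * a = ind U := by
    ext x
    have e3 : ((√(max (h x).re δ) : ℝ) : ℂ) ≠ 0 := Complex.ofReal_ne_zero.2 (hpos x).ne'
    simp only [ContinuousMap.mul_apply, hb, ha, ContinuousMap.coe_mk]
    push_cast
    field_simp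
  have e3 : b * ind U * ind U = b * ind U := by
    ext x
    by_cases hx : x ∈ U <;> simp [ind_apply hUc, hx]
  have hq := hv.bimod 1 (b * ind U)
  rw [map_one, one_mul] at hq
  have h3 := hq.mem_of_pi (by
    rw [mul_assoc, star_mul, ← map_star, mul_assoc (C.ι _), ← mul_assoc (star v), hh, ← mul_assoc,
      ← mul_assoc, mul_assoc v, mul_assoc v, mul_assoc v, mul_assoc (C.ι _), mul_assoc (C.ι _),
      ← map_mul, ← map_mul, e1, ← map_mul, e3])
  refine ⟨v * C.ι (b * ind U) * C.ι a, h3.mul_ι a, ?_⟩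
  have h4 : v - v * C.ι (b * ind U) * C.ι a = v * C.ι (1 - ind U) := by
    rw [mul_assoc, ← map_mul, e2, map_sub, map_one, mul_sub, mul_one]
  have h5 : C.T.n2 (v * C.ι (1 - ind U)) ^ 2 ≤ δ := by
    rw [C.T.n2_sq, star_mul, ← map_star, mul_assoc, ← mul_assoc (star v), hh, ← map_mul,
      ← map_mul]
    refine (C.re_τ_mono (g := algebraMap ℂ _ (δ : ℂ)) fun x => ?_).trans_eq ?_
    · by_cases hx : x ∈ U
      · simp [ind_apply hUc, hx, hδ0.le]
      · simpa [ind_apply hUc, hx] using h2 x hx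
    · rw [AlgHomClass.commutes, Algebra.algebraMap_eq_smul_one, map_smul, C.T.one, smul_eq_mul,
        mul_one, Complex.ofReal_re]
  rw [h4]
  exact (abs_le_of_sq_le_sq' h5 (by positivity)).2.trans_lt (half_lt_self hε)

end Ctx

end Vale.Agent.P078G
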