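import Vale.Agent.P078G.Extr
import Vale.Agent.P078G.QN

/-! Elements orthogonal to the normaliser have small atoms. -/

namespace Vale.Agent.P078G.Ctx

open Filter Finset
open Vale.Agent.P078 (ind ind_apply ind_of_mem ind_of_notMem ind_val isClopen_preimage cx cx_apply
  mul_lt_of_lt_div)
open Vale.Agent.P078.Ctx (proj_eq_of_le mem_of_le_ofIsClopen)
open Msa Pre
open scoped Topology ComplexConjugate

variable {M X : Type*} [CStarAlgebra M] [TopologicalSpace X] [CompactSpace X] (C : Ctx M X)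

omit [CompactSpace X] in
lemma clopen_pre {κ : Type*} {c : X → κ} (hc : IsLocallyConstant c) (s : Set κ) :
    IsClopen (c ⁻¹' s) := ⟨⟨hc sᶜ⟩, hc s⟩

lemma sum_n2_pj {κ : Type*} [Fintype κ] {c : X → κ} (hc : IsLocallyConstant c) (z : M) :
    ∑ k, C.T.n2 (C.pj (c ⁻¹' {k}) * z) ^ 2 = C.T.n2 z ^ 2 := by
  have h : ∀ k, star (C.pj (c ⁻¹' {k}) * z) * (C.pj (c ⁻¹' {k}) * z) =
      star z * C.pj (c ⁻¹' {k}) * z := fun k => by
    rw [star_mul, (C.pj_proj _).isSelfAdjoint.star_eq, mul_assoc, ← mul_assoc (C.pj _),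
      (C.pj_proj _).isIdempotentElem.eq, mul_assoc]
  simp only [C.T.n2_sq, h]
  rw [← Complex.re_sum, ← map_sum, ← sum_mul, ← mul_sum, C.sum_pj hc]
  simp [C.pj_univ]

/-- Sum of the fourth powers of the 4-norms of the blocks of `w`. -/
noncomputable def A4 {ι ι' : Type*} [Fintype ι] [Fintype ι'] (a : X → ι) (b : X → ι') (w : M) : ℝ :=
  ∑ i, ∑ j, n4 C.T (C.pj (a ⁻¹' {i}) * w * C.pj (b ⁻¹' {j}))

omit [CompactSpace X] in
lemma exists_root_fun {f : C(X, ℂ)} (h : ∀ x, 0 ≤ (f x).re ∧ (f x).im = 0) :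
    ∃ g : C(X, ℂ), star g * g = f := by
  refine ⟨cx ⟨fun x => √(f x).re, by fun_prop⟩, ?_⟩
  ext x
  simp only [ContinuousMap.mul_apply, ContinuousMap.star_apply, cx_apply, ContinuousMap.coe_mk,
    Complex.star_def, Complex.conj_ofReal]
  rw [← Complex.ofReal_mul, Real.mul_self_sqrt (h x).1]
  exact Complex.ext rfl (h x).2.symm

/-- The square root of a sum of squares. -/
lemma exists_root (T : Sta M) {ι : Type*} (s : Finset ι) {b : ι → M} {R S : ℝ}
    (hb : ∀ i, ‖b i‖ ≤ R) (hS : ‖∑ i ∈ s, star (b i) * b i‖ ≤ S) : ∃ c : M, ‖c‖ ^ 2 ≤ R ^ 2 * S ∧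
      ∀ z, T.n2 (c * z) ^ 2 = ∑ i ∈ s, T.n2 (star (b i) * b i * z) ^ 2 := by
  let _ := CStarAlgebra.spectralOrder M
  have _ := CStarAlgebra.spectralOrderedRing M
  have h0 : 0 ≤ ∑ i ∈ s, star (star (b i) * b i) * (star (b i) * b i) :=
    sum_nonneg fun _ _ => star_mul_self_nonneg _
  obtain ⟨c, hc⟩ := CStarAlgebra.nonneg_iff_eq_star_mul_self.1 h0
  refine ⟨c, ?_, fun z => ?_⟩
  · have h1 : star c * c ≤ R ^ 2 • ∑ i ∈ s, star (b i) * b i := by
      rw [← hc, smul_sum]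
      refine sum_le_sum fun i _ => ?_
      have h2 : star (b i) * (b i * star (b i)) * b i ≤
          ‖b i * star (b i)‖ • (star (b i) * b i) :=
        CStarAlgebra.star_left_conjugate_le_norm_smul
      rw [star_mul, star_star, mul_assoc, ← mul_assoc (b i), ← mul_assoc]
      refine h2.trans (smul_le_smul_of_nonneg_right ?_ (star_mul_self_nonneg _))
      rw [CStarRing.norm_self_mul_star, ← sq]
      exact pow_le_pow_left₀ (norm_nonneg _) (hb i) 2
    have h3 := CStarAlgebra.norm_le_norm_of_nonneg_of_le (star_mul_self_nonneg c) h1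
    rw [CStarRing.norm_star_mul_self, ← sq, norm_smul, Real.norm_of_nonneg (sq_nonneg R)] at h3
    exact h3.trans (mul_le_mul_of_nonneg_left hS (sq_nonneg R))
  · have e : ∀ a : M, star (a * z) * (a * z) = star z * (star a * a) * z := fun a => by
      simp only [star_mul, mul_assoc]
    simp only [T.n2_sq]
    rw [← Complex.re_sum, ← map_sum, e, ← hc, mul_sum, sum_mul]
    simp only [e]

lemma sum_n2_pj_right {κ : Type*} [Fintype κ] {c : X → κ} (hc : IsLocallyConstant c) (z : M) :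
    ∑ k, C.T.n2 (z * C.pj (c ⁻¹' {k})) ^ 2 = C.T.n2 z ^ 2 := by
  have h : ∀ k, C.T.τ (star (z * C.pj (c ⁻¹' {k})) * (z * C.pj (c ⁻¹' {k}))) =
      C.T.τ (star z * z * C.pj (c ⁻¹' {k})) := fun k => by
    rw [star_mul, C.pj_star, mul_assoc, C.cen_pj, mul_assoc, mul_assoc, C.pj_idem, mul_assoc]
  simp only [C.T.n2_sq, h]
  rw [← Complex.re_sum, ← map_sum, ← mul_sum, C.sum_fib hc, mul_one]

lemma sum_n4_right_le {ι : Type*} (s : Finset ι) {U : ι → Set X} (hU : ∀ i, IsClopen (U i))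
    (ho : ∀ i ∈ s, ∀ j ∈ s, i ≠ j → C.pj (U i) * C.pj (U j) = 0) (t : M) :
    ∑ i ∈ s, n4 C.T (t * C.pj (U i)) ≤ n4 C.T (t * ∑ i ∈ s, C.pj (U i)) := by
  obtain ⟨e, he⟩ : ∃ e, e = ∑ i ∈ s, C.pj (U i) := ⟨_, rfl⟩
  have h1 : ∀ i ∈ s, C.pj (U i) * e = C.pj (U i) := fun i hi => by
    rw [he, mul_sum, sum_eq_single_of_mem i hi fun j hj hji => ho i hi j hj hji.symm, C.pj_idem]
  have hs : star e = e := by simp only [he, star_sum, C.pj_star]
  have h2 : ∀ i ∈ s, e * C.pj (U i) = C.pj (U i) := fun i hi => by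
    simpa only [star_mul, hs, C.pj_star] using congrArg star (h1 i hi)
  have h3 : e * e = e := by
    nth_rw 1 [he]
    rw [sum_mul, sum_congr rfl h1, he]
  rw [← he, n4_eq]
  obtain ⟨y, hy⟩ : ∃ y, y = star (t * e) * (t * e) := ⟨_, rfl⟩
  have h4 : e * y = y := by rw [hy, star_mul, hs, ← mul_assoc, ← mul_assoc, ← mul_assoc e e, h3]; simp only [mul_assoc]
  refine (sum_le_sum (g := fun i => C.T.n2 (C.pj (U i) * y) ^ 2) fun i hi => ?_).trans_eq ?_
  · have : star (t * C.pj (U i)) * (t * C.pj (U i)) = C.pj (U i) * y * C.pj (U i) := by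
      rw [hy, star_mul, star_mul, hs, C.pj_star, ← mul_assoc (C.pj _) (e * _),
        ← mul_assoc (C.pj _) e, h1 i hi]
      simp only [mul_assoc, h2 i hi]
    rw [n4_eq, this]
    exact pow_le_pow_left₀ (C.T.n2_nonneg _) (C.n2_mul_pj _ _) 2
  · simp only [C.T.n2_sq, ← C.conj_pj_eq]
    rw [← Complex.re_sum, ← map_sum, ← sum_mul, ← mul_sum, ← he, mul_assoc, h4, ← hy]

lemma A4_mono {ι ι' κ : Type*} [Fintype ι] [Fintype ι'] [Fintype κ] (a : X → ι) {b : X → ι'}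
    {c : X → κ} (hb : IsLocallyConstant b) (hc : IsLocallyConstant c)
    (h : ∀ x x', c x = c x' → b x = b x') (w : M) : C.A4 a c w ≤ C.A4 a b w := by
  classical
  refine sum_le_sum fun i _ => ?_
  have h1 : ∀ j, ∑ k with ∃ x, c x = k ∧ b x = j,
      n4 C.T (C.pj (a ⁻¹' {i}) * w * C.pj (c ⁻¹' {k})) ≤
        n4 C.T (C.pj (a ⁻¹' {i}) * w * C.pj (b ⁻¹' {j})) := fun j => by
    refine (C.sum_n4_right_le _ (fun _ => clopen_pre hc _) (fun _ _ _ _ => C.fib_mul hc)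
      _).trans_eq ?_
    rw [C.sum_pj hc]
    congr 3
    ext x
    simp only [coe_filter, mem_univ, true_and, Set.mem_preimage, Set.mem_ofPred_eq,
      Set.mem_singleton_iff]
    exact ⟨fun ⟨y, h1, h2⟩ => (h _ _ h1).symm.trans h2, fun h1 => ⟨x, rfl, h1⟩⟩
  refine le_trans ?_ (sum_le_sum fun j _ => h1 j)
  simp only [sum_filter]
  rw [sum_comm]
  refine sum_le_sum fun k _ => ?_
  have h0 : ∀ j ∈ univ, 0 ≤ if ∃ x, c x = k ∧ b x = j then
      n4 C.T (C.pj (a ⁻¹' {i}) * w * C.pj (c ⁻¹' {k})) else 0 :=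
    fun _ _ => ite_nonneg (n4_nonneg _) le_rfl
  by_cases hk : ∃ x, c x = k
  · obtain ⟨x, hx⟩ := hk
    exact le_trans (by rw [if_pos ⟨x, hx, rfl⟩]) (single_le_sum h0 (mem_univ (b x)))
  · have : c ⁻¹' {k} = ∅ := Set.eq_empty_of_forall_notMem fun x hx => hk ⟨x, hx⟩
    refine le_trans ?_ (sum_nonneg h0)
    rw [this, C.pj_empty, mul_zero, n4_eq, mul_zero, C.T.n2_zero]
    norm_num

/-- Small blocks of `star w` give small blocks of `w`. -/
lemma A4_transfer (w : M) {ε : ℝ} (hε : 0 < ε) : ∃ δ > 0, ∀ {ι ι' : Type} [Fintype ι] [Fintype ι']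
    (a : X → ι) (b : X → ι'), IsLocallyConstant a → IsLocallyConstant b →
      C.A4 b a (star w) < δ → C.A4 a b w < ε := by
  have hw := norm_nonneg w
  obtain ⟨δ, hδ, h1⟩ := C.fw.strong w (‖w‖ ^ 2) (ε / (‖w‖ + 1)) (by positivity)
  refine ⟨δ ^ 2, by positivity, fun {ι ι'} _ _ a b ha hb h => ?_⟩
  obtain ⟨t, ht⟩ : ∃ t : ι × ι' → M,
      ∀ α, t α = C.pj (b ⁻¹' {α.2}) * star w * C.pj (a ⁻¹' {α.1}) := ⟨_, fun _ => rfl⟩
  have hst : ∀ α, star (t α) = C.pj (a ⁻¹' {α.1}) * w * C.pj (b ⁻¹' {α.2}) := fun α => by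
    simp only [ht, star_mul, C.pj_star, star_star, mul_assoc]
  obtain ⟨c, hc, hc'⟩ := exists_root C.T univ (b := t) (R := ‖w‖) (S := ‖w‖ ^ 2) (fun α => by
      have h1 := (C.pj_proj (b ⁻¹' {α.2})).norm_le
      have h2 := (C.pj_proj (a ⁻¹' {α.1})).norm_le
      rw [ht]
      refine norm_mul₃_le.trans ?_
      rw [norm_star]
      exact (mul_le_of_le_one_right (by positivity) h2).trans (mul_le_of_le_one_left hw h1)) (by
      have e : ∑ α, star (t α) * t α = C.pinch a (w * star w) := by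
        rw [Fintype.sum_prod_type, pinch]
        refine sum_congr rfl fun i _ => ?_
        have : ∀ j, star (t (i, j)) * t (i, j) =
            C.pj (a ⁻¹' {i}) * w * C.pj (b ⁻¹' {j}) * (star w * C.pj (a ⁻¹' {i})) := fun j => by
          rw [hst, ht, mul_assoc (C.pj _) (star w), ← mul_assoc, mul_assoc _ (C.pj _) (C.pj _),
            C.pj_idem]
        simp only [this]
        rw [← sum_mul, ← mul_sum, C.sum_fib hb]
        simp only [mul_one, mul_assoc]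
      rw [e]
      exact (C.norm_pinch_le ha _).trans_eq (by rw [CStarRing.norm_self_mul_star, sq]))
  have h2 : C.T.n2 c ^ 2 = C.A4 b a (star w) := by
    have := hc' 1
    simp only [mul_one] at this
    rw [this, A4, Fintype.sum_prod_type, sum_comm]
    simp only [n4_eq, ht]
  have h3 := h1 c (abs_le_of_sq_le_sq' (by nlinarith) (sq_nonneg _)).2
    (lt_of_pow_lt_pow_left₀ 2 hδ.le (h2.trans_lt h))
  have h4 : ∑ α, C.T.n2 (star (t α)) ^ 2 = C.T.n2 w ^ 2 := by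
    rw [Fintype.sum_prod_type, sum_comm, ← C.sum_n2_pj_right hb]
    refine sum_congr rfl fun j _ => ?_
    simp only [hst, mul_assoc]
    exact C.sum_n2_pj ha _
  have h5 : C.A4 a b w ≤ ∑ α, C.T.n2 (star (t α)) * C.T.n2 (star (t α) * t α * w) := by
    rw [A4, Fintype.sum_prod_type]
    refine sum_le_sum fun i _ => sum_le_sum fun j _ => ?_
    refine le_trans ?_ (C.T.norm_τ_star_mul _ _)
    refine le_trans (le_of_eq ?_) (Complex.re_le_norm _)
    have e1 : C.pj (b ⁻¹' {j}) * t (i, j) = t (i, j) := by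
      rw [ht, ← mul_assoc, ← mul_assoc, C.pj_idem]
    have e2 : t (i, j) * C.pj (a ⁻¹' {i}) = t (i, j) := by rw [ht, mul_assoc, C.pj_idem]
    rw [← hst (i, j), n4, star_star]
    nth_rw 3 [← e1]
    rw [mul_assoc (C.pj _), C.cen_pj, sq]
    nth_rw 2 [hst]
    simp only [mul_assoc]
    rw [← mul_assoc (t _) (C.pj (a ⁻¹' {i})), e2]
  have h6 := h5.trans (Real.sum_mul_le_sqrt_mul_sqrt _ _ _)
  rw [h4, ← hc', Real.sqrt_sq (C.T.n2_nonneg _), Real.sqrt_sq (C.T.n2_nonneg _)] at h6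
  have h7 := mul_lt_of_lt_div (C.T.n2_nonneg _) hw h3
  nlinarith [C.T.n2_le_norm w, C.T.n2_nonneg (c * w)]

lemma n2_pinch_sq (P : DiscreteQuotient X) (y : M) : C.T.n2 (C.pinch P.proj y) ^ 2 =
    ∑ i, C.T.n2 (C.pj (P.proj ⁻¹' {i}) * y * C.pj (P.proj ⁻¹' {i})) ^ 2 := by
  rw [← C.sum_n2_pj P.proj_isLocallyConstant]
  refine sum_congr rfl fun i _ => ?_
  rw [pinch, mul_sum, sum_eq_single i (fun j _ hj => ?_) (by simp), ← mul_assoc, ← mul_assoc,
    (C.pj_proj _).isIdempotentElem.eq]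
  rw [← mul_assoc, ← mul_assoc, C.pj_fib_mul P hj.symm, zero_mul, zero_mul]

variable [T2Space X]

lemma exists_intertwiner' {w : M} {c : ℝ} (hc : 0 < c) (h : ∀ P, c ≤ C.SS w P)
    (hw : ∀ n ∈ C.N0, C.T.τ (n * w) = 0) :
    ∃ u, u ≠ 0 ∧ (∀ V, IsClopen V → ∃ V', IsClopen V' ∧ C.pj V * u = u * C.pj V') ∧
      (∀ f f', w * C.ι f = C.ι f' * w → u * C.ι f = C.ι f' * u) ∧
      ∀ n ∈ C.N0, C.T.τ (n * u) = 0 := by
  obtain ⟨U, -, h1, h2⟩ := C.exists_piece hc h
  obtain ⟨u, hu, h3, h4, h5⟩ := C.exists_intertwiner h1 h2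
  refine ⟨u, hu, h3, fun f f' hf => h4 f f' ?_, fun n hn => h5 n fun f f' => ?_⟩
  · rw [mul_assoc, hf, ← mul_assoc, pj, C.ι_comm, mul_assoc]
  · rw [← mul_assoc, ← mul_assoc, ← mul_assoc]
    exact C.orth_mul hw (mul_mem (mul_mem hn (C.ι_mem_N0 _)) (C.ι_mem_N0 _)) (C.ι_mem_N0 _)

lemma conj_mem {u : M} (h : ∀ V, IsClopen V → ∃ V', C.pj V * u = u * C.pj V') (f : C(X, ℂ)) :
    ∃ g, u * C.ι f * star u = C.ι g := by
  refine (C.mem_of_comm_pj fun V hV => ?_).imp fun _ => Eq.symm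
  obtain ⟨V', h1⟩ := h V hV
  have h2 := congr(star $h1)
  rw [star_mul, star_mul, (C.pj_proj _).isSelfAdjoint.star_eq,
    (C.pj_proj _).isSelfAdjoint.star_eq] at h2
  rw [mul_assoc, h2, ← mul_assoc, ← mul_assoc, ← mul_assoc, h1, mul_assoc u (C.ι f),
    mul_assoc u (C.pj V'), pj, C.ι_comm]

lemma SS_lower {u : M} (hu : u ≠ 0) (h : ∀ f, ∃ g, u * C.ι f * star u = C.ι g) :
    ∃ c > 0, ∀ P, c ≤ C.SS (star u) P := by
  obtain ⟨k, hk⟩ := exists_root_fun (C.E_nonneg u)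
  have h0 : 0 < C.T.n2 (C.ι k * star u) := (C.T.n2_nonneg _).lt_of_ne' fun h0 => hu <| by
    have h1 := congrArg star (C.fw.faithful _ h0)
    rw [star_mul, star_star, star_zero, ← map_star] at h1
    have h2 : star k * k * star k = 0 := by
      rw [hk, ← C.E_mul_right, mul_assoc, h1, mul_zero, map_zero]
    have h3 : k = 0 := by
      ext x
      have := congrArg (fun f : C(X, ℂ) => f x) h2
      simpa using this
    refine C.fw.faithful _ (pow_eq_zero_iff two_ne_zero |>.1 ?_)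
    rw [C.T.n2_sq, ← C.τ_E, ← hk, h3, mul_zero, map_zero, map_zero, Complex.zero_re]
  obtain ⟨c, hc⟩ : ∃ c, c = C.T.n2 (C.ι k * star u) ^ 2 / 2 := ⟨_, rfl⟩
  have hc0 : 0 < c := by rw [hc]; positivity
  have hn := C.T.n2_nonneg (star u)
  obtain ⟨δ, hδ, h1⟩ := C.fw.strong (star u) (‖star u * u‖ + ‖C.ι (C.E (star u * u))‖)
    (c / (C.T.n2 (star u) + 1)) (by positivity)
  obtain ⟨P₀, hP⟩ := C.pinch_tendsto (star u * u) hδ
  refine ⟨c, hc0, fun P => le_trans ?_ (C.SS_mono _ (inf_le_left : P ⊓ P₀ ≤ P))⟩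
  have h2 := h1 _ ((norm_sub_le _ _).trans (add_le_add
    (C.norm_pinch_le (P ⊓ P₀).proj_isLocallyConstant _) le_rfl)) (hP _ inf_le_right)
  generalize P ⊓ P₀ = Q at h2 ⊢
  have h3 : C.SS (star u) Q = (C.T.τ (u * (C.pinch Q.proj (star u * u) * star u))).re := by
    rw [SS, pinch, sum_mul, mul_sum, map_sum, Complex.re_sum]
    refine sum_congr rfl fun i _ => ?_
    obtain ⟨g, hg⟩ := h (ind (Q.proj ⁻¹' {i}))
    rw [star_star, pj, hg, C.E_ι, ← hg, ← pj, C.T.n2_sq]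
    simp only [star_mul, star_star, C.pj_star, mul_assoc]
  have h4 : 2 * c = (C.T.τ (u * (C.ι (C.E (star u * u)) * star u))).re := by
    rw [hc, mul_div_cancel₀ _ two_ne_zero, C.T.n2_sq, ← hk, map_mul C.ι, map_star C.ι]
    simp only [star_mul, star_star, mul_assoc]
  have h5 := (Complex.abs_re_le_norm _).trans (C.T.norm_τ_mul u
    ((C.pinch Q.proj (star u * u) - C.ι (C.E (star u * u))) * star u))
  have h6 := mul_lt_of_lt_div (C.T.n2_nonneg _) hn h2
  rw [mul_comm] at h6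
  have h7 := (abs_lt.1 (h5.trans_lt h6)).1
  rw [sub_mul, mul_sub, map_sub, Complex.sub_re, ← h3, ← h4] at h7
  linarith

theorem SS_small {w : M} (hw : ∀ n ∈ C.N0, C.T.τ (n * w) = 0) {ε : ℝ} (hε : 0 < ε) :
    ∃ P, C.SS w P < ε := by
  by_contra! h
  obtain ⟨u, hu, h1, -, h2⟩ := C.exists_intertwiner' hε h hw
  obtain ⟨c, hc, h4⟩ := C.SS_lower hu (C.conj_mem fun V hV => (h1 V hV).imp fun _ h => h.2)
  obtain ⟨v, hv, h5, h6, h7⟩ := C.exists_intertwiner' hc h4 (C.orth_star h2)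
  have h8 : C.QN v := fun f => ⟨by
    simpa only [star_star] using C.conj_mem (u := star v) (fun V hV => by
      obtain ⟨V', -, h⟩ := h1 V hV
      have h9 := congr(star $h)
      rw [star_mul, star_mul, (C.pj_proj _).isSelfAdjoint.star_eq,
        (C.pj_proj _).isSelfAdjoint.star_eq] at h9
      have h10 := congr(star $(h6 _ _ h9))
      refine ⟨V', ?_⟩
      rwa [star_mul, star_mul, ← pj, ← pj, (C.pj_proj _).isSelfAdjoint.star_eq,
        (C.pj_proj _).isSelfAdjoint.star_eq] at h10) f,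
    C.conj_mem (fun V hV => (h5 V hV).imp fun _ h => h.2) f⟩
  exact hv ((QN.mem_cl C h8).eq_zero h7)

theorem A4_small {w : M} (hw : ∀ n ∈ C.N0, C.T.τ (n * w) = 0) {ε : ℝ} (hε : 0 < ε) :
    ∃ P Q : DiscreteQuotient X, C.A4 P.proj Q.proj w < ε := by
  obtain ⟨P, hP⟩ := C.SS_small hw (ε := ε / 4) (by positivity)
  choose R hR using fun i : P => C.pinch_tendsto (star w * C.pj (P.proj ⁻¹' {i}) * w)
    (ε := √(ε / 4 / (Fintype.card P + 1))) (by positivity)
  set Q := univ.inf R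
  refine ⟨P, Q, ?_⟩
  have h1 : ∀ i : P, ∑ j, n4 C.T (C.pj (P.proj ⁻¹' {i}) * w * C.pj (Q.proj ⁻¹' {j})) ≤
      2 * C.T.n2 (C.ι (C.E (star w * C.pj (P.proj ⁻¹' {i}) * w))) ^ 2 +
        2 * (ε / 4 / (Fintype.card P + 1)) := fun i => by
    have h2 := hR i Q (inf_le (mem_univ i))
    rw [Real.lt_sqrt (C.T.n2_nonneg _)] at h2
    have h3 := C.T.n2_add_le (C.pinch Q.proj (star w * C.pj (P.proj ⁻¹' {i}) * w) -
      C.ι (C.E (star w * C.pj (P.proj ⁻¹' {i}) * w))) (C.ι (C.E (star w * C.pj (P.proj ⁻¹' {i}) * w)))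
    rw [sub_add_cancel] at h3
    have h4 := pow_le_pow_left₀ (C.T.n2_nonneg _) h3 2
    rw [n2_pinch_sq] at h4
    refine le_trans (le_of_eq (sum_congr rfl fun j _ => ?_)) (h4.trans (add_sq_le.trans ?_))
    · rw [n4_eq, C.conj_pj_eq, star_mul _ (C.pj _), (C.pj_proj _).isSelfAdjoint.star_eq]
      simp only [mul_assoc]
    · linarith
  refine (sum_le_sum fun i _ => h1 i).trans_lt ?_
  rw [sum_add_distrib, ← mul_sum, ← SS, sum_const, card_univ, nsmul_eq_mul]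
  have : (Fintype.card P : ℝ) * (ε / 4 / (Fintype.card P + 1)) ≤ ε / 4 := by
    rw [← mul_div_assoc, div_le_iff₀ (by positivity)]
    nlinarith
  nlinarith

theorem exists_fine {w : M} (hw : ∀ n ∈ C.N0, C.T.τ (n * w) = 0) (T : Finset C.Nor) {ε : ℝ}
    (hε : 0 < ε) : ∃ (N : ℕ) (a : X → Fin N), IsLocallyConstant a ∧ ∀ g ∈ T, ∀ h ∈ T,
      C.A4 (fun x => a (g • x)) (fun x => a (h • x)) w ≤ ε := by
  classical
  obtain ⟨δ, hδ, h1⟩ := C.A4_transfer w hε
  obtain ⟨δ', hδ', h2⟩ := C.A4_transfer (star w) hδ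
  obtain ⟨P, Q, h3⟩ := C.A4_small hw hδ'
  let eP := Fintype.equivFin P
  let eQ := Fintype.equivFin Q
  have hP := P.proj_isLocallyConstant.comp eP
  have hQ := Q.proj_isLocallyConstant.comp eQ
  let b : X → T → P × Q := fun x g => (P.proj ((g : C.Nor)⁻¹ • x), Q.proj ((g : C.Nor)⁻¹ • x))
  have hb : IsLocallyConstant b := (IsLocallyConstant.iff_continuous _).mpr
    (continuous_pi fun g => (P.proj_continuous.comp (continuous_const_smul _)).prodMk
      (Q.proj_continuous.comp (continuous_const_smul _)))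
  let e := Fintype.equivFin (T → P × Q)
  have ha : ∀ g : C.Nor, IsLocallyConstant fun x => e (b (g • x)) := fun g =>
    (hb.comp e).comp_continuous (continuous_const_smul g)
  have hr : ∀ g ∈ T, ∀ x x', e (b (g • x)) = e (b (g • x')) →
      P.proj x = P.proj x' ∧ Q.proj x = Q.proj x' := fun g hg x x' h => by
    simpa [b] using congrFun (e.injective h) ⟨g, hg⟩
  have h4 : C.A4 (eP ∘ P.proj) (eQ ∘ Q.proj) w = C.A4 P.proj Q.proj w := by
    rw [A4, A4, ← eP.sum_comp]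
    refine sum_congr rfl fun i _ => ?_
    rw [← eQ.sum_comp]
    have k1 : eP ⁻¹' {eP i} = {i} := by ext; simp
    have k2 : ∀ j, eQ ⁻¹' {eQ j} = {j} := fun j => by ext; simp
    simp only [Set.preimage_comp, k1, k2]
  refine ⟨_, fun x => e (b x), hb.comp e, fun g hg h hh => (h1 _ _ (ha g) (ha h) ?_).le⟩
  refine (C.A4_mono _ hP (ha g) (fun x x' hx => congrArg eP (hr g hg x x' hx).1) _).trans_lt ?_
  refine h2 _ _ (ha h) hP ?_
  rw [star_star]
  exact (C.A4_mono _ hQ (ha h) (fun x x' hx => congrArg eQ (hr h hh x x' hx).2) _).trans_lt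
    (h4.trans_lt h3)

end Vale.Agent.P078G.Ctx
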