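import Vale.Agent.P078G.Defs
import Mathlib.Analysis.Complex.TaylorSeries
import Mathlib.Analysis.Complex.Liouville
import Mathlib.Analysis.SpecialFunctions.Complex.LogDeriv

/-! Polynomial interpolation of logarithms along a strip. -/

namespace Vale.Agent.P078G

open Finset

namespace BarvX

open Polynomial Filter Topology

noncomputable def gg (a b : Multiset ℂ) (τ : ℂ) : ℂ := Complex.log (fac a τ / fac b τ)

def HH (w : ℝ) (a b : Multiset ℂ) (M : ℝ) : Prop :=
  ∀ τ ∈ strip w, fac b τ ≠ 0 ∧ fac a τ / fac b τ ∈ Complex.slitPlane ∧ ‖gg a b τ‖ ≤ M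

noncomputable def ev (Q : ℝ[X]) (a b : Multiset ℂ) : ℂ :=
  (a.map fun t => aeval t Q).sum - (b.map fun t => aeval t Q).sum

def Appr (w : ℝ) (l : Multiset ℂ → Multiset ℂ → ℂ) : Prop :=
  ∀ tol > 0, ∃ Q : ℝ[X], Q.coeff 0 = 0 ∧ ∀ a b M, HH w a b M → ‖l a b - ev Q a b‖ ≤ tol * M

variable {w : ℝ}

lemma ev_add (P Q : ℝ[X]) (a b : Multiset ℂ) : ev (P + Q) a b = ev P a b + ev Q a b := by
  simp only [ev, map_add, Multiset.sum_map_add]; ring

lemma ev_smul (c : ℝ) (Q : ℝ[X]) (a b : Multiset ℂ) : ev (C c * Q) a b = c * ev Q a b := by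
  simp only [ev, map_mul, aeval_C, Multiset.sum_map_mul_left, Complex.coe_algebraMap]; ring

lemma Appr.add {l l' : Multiset ℂ → Multiset ℂ → ℂ} (h : Appr w l) (h' : Appr w l') :
    Appr w fun a b => l a b + l' a b := fun tol ht => by
  obtain ⟨P, p0, p1⟩ := h (tol / 2) (by positivity)
  obtain ⟨Q, q0, q1⟩ := h' (tol / 2) (by positivity)
  refine ⟨P + Q, by simp [p0, q0], fun a b M H => ?_⟩
  rw [ev_add, add_sub_add_comm]
  exact (norm_add_le _ _).trans (by linarith [p1 a b M H, q1 a b M H])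

lemma zero_mem (hw : 0 < w) : (0 : ℂ) ∈ strip w := by
  simp only [strip, Set.mem_ofPred_eq, Complex.zero_re, Complex.zero_im, abs_zero]
  exact ⟨by linarith, by linarith, hw⟩

lemma HH.nonneg (hw : 0 < w) {a b : Multiset ℂ} {M : ℝ} (H : HH w a b M) : 0 ≤ M :=
  (norm_nonneg _).trans (H 0 (zero_mem hw)).2.2

lemma Appr.smul (hw : 0 < w) {l : Multiset ℂ → Multiset ℂ → ℂ} (h : Appr w l) (c : ℝ) :
    Appr w fun a b => c * l a b := fun tol ht => by
  obtain ⟨P, p0, p1⟩ := h (tol / (|c| + 1)) (by positivity)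
  refine ⟨C c * P, by simp [p0], fun a b M H => ?_⟩
  rw [ev_smul, ← mul_sub, norm_mul, Complex.norm_real, Real.norm_eq_abs]
  have := H.nonneg hw
  calc _ ≤ (|c| + 1) * (tol / (|c| + 1) * M) := by
        gcongr
        · linarith
        · exact p1 a b M H
    _ = _ := by field_simp

lemma Appr.of_eq (hw : 0 < w) {l : Multiset ℂ → Multiset ℂ → ℂ} (Q : ℝ[X]) (h0 : Q.coeff 0 = 0)
    (h : ∀ a b M, HH w a b M → l a b = ev Q a b) : Appr w l := fun tol ht =>
  ⟨Q, h0, fun a b M H => by
    rw [h a b M H, sub_self, norm_zero]; exact mul_nonneg ht.le (H.nonneg hw)⟩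

lemma Appr.sum (hw : 0 < w) {l : ℕ → Multiset ℂ → Multiset ℂ → ℂ} (h : ∀ i, Appr w (l i))
    (n : ℕ) : Appr w fun a b => ∑ i ∈ range n, l i a b := by
  induction n with
  | zero => exact Appr.of_eq hw 0 (by simp) fun a b M _ => by simp [ev]
  | succ n ih => simpa only [sum_range_succ] using ih.add (h n)

lemma Appr.lim {l : Multiset ℂ → Multiset ℂ → ℂ} (h : ∀ tol > 0, ∃ l', Appr w l' ∧
    ∀ a b M, HH w a b M → ‖l a b - l' a b‖ ≤ tol * M) : Appr w l := fun tol ht => by
  obtain ⟨l', h1, h2⟩ := h (tol / 2) (by positivity)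
  obtain ⟨Q, q0, q1⟩ := h1 (tol / 2) (by positivity)
  refine ⟨Q, q0, fun a b M H => ?_⟩
  exact (norm_sub_le_norm_sub_add_norm_sub _ (l' a b) _).trans
    (by linarith [h2 a b M H, q1 a b M H])

noncomputable def LL (k : ℕ) (a : Multiset ℂ) (τ : ℂ) : ℂ :=
  (a.map fun t => -(k.factorial : ℂ) * (t * (1 - τ * t)⁻¹) ^ (k + 1)).sum

lemma fac_cons (t : ℂ) (a : Multiset ℂ) (τ : ℂ) : fac (t ::ₘ a) τ = (1 - τ * t) * fac a τ := by
  simp [fac]

lemma fac_has (a : Multiset ℂ) {τ : ℂ} (h : fac a τ ≠ 0) :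
    HasDerivAt (fac a) (fac a τ * LL 0 a τ) τ := by
  induction a using Multiset.induction_on with
  | empty => exact (hasDerivAt_const τ (1 : ℂ)).congr_deriv (by simp [LL])
  | cons t a ih =>
    rw [fac_cons] at h
    have h1 := left_ne_zero_of_mul h
    have d := (((hasDerivAt_id τ).mul_const t).const_sub 1).fun_mul (ih (right_ne_zero_of_mul h))
    rw [funext (fac_cons t a)]
    refine HasDerivAt.congr_deriv d ?_
    have e : LL 0 (t ::ₘ a) τ = -(t / (1 - τ * t)) + LL 0 a τ := by simp [LL, div_eq_mul_inv]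
    rw [e, id]
    linear_combination (fac a τ) * mul_div_cancel₀ t h1

lemma LL_has (k : ℕ) (a : Multiset ℂ) {τ : ℂ} (h : fac a τ ≠ 0) :
    HasDerivAt (LL k a) (LL (k + 1) a τ) τ := by
  induction a using Multiset.induction_on with
  | empty => exact hasDerivAt_const τ (0 : ℂ)
  | cons t a ih =>
    rw [fac_cons] at h
    have h1 := left_ne_zero_of_mul h
    have d := (((((((hasDerivAt_id τ).mul_const t).const_sub 1).fun_inv h1).const_mul t).fun_pow
      (k + 1)).const_mul (-(k.factorial : ℂ))).fun_add (ih (right_ne_zero_of_mul h))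
    refine (d.congr_of_eventuallyEq (Eventually.of_forall fun z => by simp [LL])).congr_deriv ?_
    simp only [LL, Multiset.map_cons, Multiset.sum_cons, id, Nat.factorial_succ, Nat.cast_mul,
      Nat.add_sub_cancel]
    congr 1
    rw [pow_succ _ (k + 1), pow_succ _ k]
    field_simp

lemma isOpen_strip (w : ℝ) : IsOpen (strip w) :=
  (isOpen_lt continuous_const Complex.continuous_re).inter
    ((isOpen_lt Complex.continuous_re continuous_const).inter
      (isOpen_lt Complex.continuous_im.abs continuous_const))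

variable {a b : Multiset ℂ} {M : ℝ}

lemma HH.ne (H : HH w a b M) {τ : ℂ} (h : τ ∈ strip w) : fac a τ ≠ 0 := fun h0 =>
  Complex.slitPlane_ne_zero (H τ h).2.1 (by rw [h0, zero_div])

lemma gg_has (H : HH w a b M) {τ : ℂ} (h : τ ∈ strip w) :
    HasDerivAt (gg a b) (LL 0 a τ - LL 0 b τ) τ := by
  have h1 := H.ne h
  have h2 := (H τ h).1
  have d := ((fac_has a h1).fun_div (fac_has b h2) h2).clog (H τ h).2.1
  refine HasDerivAt.congr_deriv d ?_
  field_simp

lemma it_eq (H : HH w a b M) (k : ℕ) :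
    ∀ τ ∈ strip w, iteratedDeriv (k + 1) (gg a b) τ = LL k a τ - LL k b τ := by
  induction k with
  | zero => exact fun τ h => by rw [zero_add, iteratedDeriv_one, (gg_has H h).deriv]
  | succ k ih =>
    intro τ h
    rw [iteratedDeriv_succ, EventuallyEq.deriv_eq (f := fun z => LL k a z - LL k b z)
      (by filter_upwards [(isOpen_strip w).mem_nhds h] with z hz using ih z hz)]
    exact ((LL_has k a (H.ne h)).fun_sub (LL_has k b (H τ h).1)).deriv

lemma gg_diff (H : HH w a b M) : DifferentiableOn ℂ (gg a b) (strip w) := fun _ h =>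
  (gg_has H h).differentiableAt.differentiableWithinAt

lemma base (hw : 0 < w) (j : ℕ) : Appr w fun a b => iteratedDeriv j (gg a b) 0 := by
  cases j with
  | zero => exact Appr.of_eq hw 0 (by simp) fun a b M _ => by simp [ev, gg, fac]
  | succ k =>
    refine Appr.of_eq hw (C (-(k.factorial : ℝ)) * X ^ (k + 1)) (by simp) fun a b M H => ?_
    rw [it_eq H k 0 (zero_mem hw)]
    simp [LL, ev]

lemma ball_sub {x : ℝ} (hx : x ∈ Set.Icc (0 : ℝ) 1) : Metric.ball (x : ℂ) w ⊆ strip w := by
  intro z hz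
  rw [Metric.mem_ball, dist_eq_norm] at hz
  have h1 := abs_lt.1 ((Complex.abs_re_le_norm _).trans_lt hz)
  have h2 := (Complex.abs_im_le_norm _).trans_lt hz
  simp only [Complex.sub_re, Complex.ofReal_re, Complex.sub_im, Complex.ofReal_im, sub_zero] at h1 h2
  exact ⟨by linarith [hx.1], by linarith [hx.2], h2⟩

lemma step (hw : 0 < w) {x y : ℝ} (hx : x ∈ Set.Icc (0 : ℝ) 1) (hy : |y - x| ≤ w / 4)
    (h : ∀ j, Appr w fun a b => iteratedDeriv j (gg a b) x) (j : ℕ) :
    Appr w fun a b => iteratedDeriv j (gg a b) y := by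
  refine Appr.lim fun tol ht => ?_
  set s : ℕ → ℝ := fun n => (2 / w) ^ j * ((n + j).descFactorial j * (1 / 2) ^ n) with hs
  have s1 : Summable s :=
    (summable_descFactorial_mul_geometric_of_norm_lt_one j (r := (1 / 2 : ℝ))
      (by norm_num)).mul_left _
  obtain ⟨n, hn⟩ := ((tendsto_sum_nat_add s).eventually (gt_mem_nhds ht)).exists
  refine ⟨_, Appr.sum hw (fun i => (h (i + j)).smul hw ((i.factorial : ℝ)⁻¹ * (y - x) ^ i)) n,
    fun a b M H => ?_⟩
  have M0 := H.nonneg hw
  have d1 : DifferentiableOn ℂ (iteratedDeriv j (gg a b)) (Metric.ball (x : ℂ) w) := by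
    rw [iteratedDeriv_eq_iterate]
    exact (((gg_diff H).analyticOnNhd (isOpen_strip w)).iterated_deriv j).differentiableOn.mono
      (ball_sub hx)
  have d2 := Complex.hasSum_taylorSeries_on_ball d1 (z := y) (by
    rw [Metric.mem_ball, dist_eq_norm, ← Complex.ofReal_sub, Complex.norm_real, Real.norm_eq_abs]
    linarith)
  have e : ∀ i, ((i.factorial : ℂ)⁻¹ • ((y : ℂ) - x) ^ i •
      iteratedDeriv i (iteratedDeriv j (gg a b)) x) =
      (((i.factorial : ℝ)⁻¹ * (y - x) ^ i : ℝ) : ℂ) * iteratedDeriv (i + j) (gg a b) x := fun i => by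
    simp only [iteratedDeriv_eq_iterate, Function.iterate_add_apply, smul_eq_mul]
    push_cast; ring
  simp only [e] at d2
  have sub : Metric.closedBall (x : ℂ) (w / 2) ⊆ strip w :=
    (Metric.closedBall_subset_ball (by linarith)).trans (ball_sub hx)
  have bd : ∀ i, ‖(((i.factorial : ℝ)⁻¹ * (y - x) ^ i : ℝ) : ℂ) *
      iteratedDeriv (i + j) (gg a b) x‖ ≤ s i * M := fun i => by
    have c := Complex.norm_iteratedDeriv_le_of_forall_mem_sphere_norm_le (f := gg a b)
      (c := x) (R := w / 2) (C := M) (i + j) (by positivity)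
      ((gg_diff H).diffContOnCl_ball sub)
      fun z hz => (H z (sub (Metric.sphere_subset_closedBall hz))).2.2
    have f : (((i + j).factorial : ℕ) : ℝ) = i.factorial * (i + j).descFactorial j := by
      have := Nat.factorial_mul_descFactorial (n := i + j) (k := j) (by omega)
      rw [Nat.add_sub_cancel] at this
      exact_mod_cast this.symm
    rw [norm_mul, Complex.norm_real, norm_mul, norm_pow, Real.norm_eq_abs, Real.norm_eq_abs,
      abs_of_pos (by positivity)]
    calc _ ≤ (i.factorial : ℝ)⁻¹ * (w / 4) ^ i * ((i + j).factorial * M / (w / 2) ^ (i + j)) := by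
          gcongr
      _ = _ := by
          rw [f, hs, show w / 4 = w / 2 * (1 / 2) by ring, mul_pow, pow_add,
            show 2 / w = (w / 2)⁻¹ by simp]
          simp only [inv_pow]
          field_simp
  have d3 := (hasSum_nat_add_iff' n).2 d2
  have d4 := (((summable_nat_add_iff n).2 s1).hasSum).mul_right M
  exact (d3.norm_le_of_bounded d4 fun i => bd _).trans (by gcongr)

lemma all (hw : 0 < w) (m : ℕ) : ∀ x ∈ Set.Icc (0 : ℝ) 1, x ≤ m * (w / 4) →
    ∀ j, Appr w fun a b => iteratedDeriv j (gg a b) x := by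
  induction m with
  | zero =>
    intro x hx h j
    obtain rfl : x = 0 := le_antisymm (by simpa using h) hx.1
    exact base hw j
  | succ m ih =>
    intro x hx h
    push_cast at h
    have m0 : (0 : ℝ) ≤ m * (w / 4) := by positivity
    have hz : max 0 (x - w / 4) ∈ Set.Icc (0 : ℝ) 1 :=
      ⟨le_max_left _ _, max_le zero_le_one (by linarith [hx.2])⟩
    refine step hw hz ?_ (ih _ hz (max_le m0 (by linarith)))
    have := le_max_right 0 (x - w / 4)
    have := max_le hx.1 (show x - w / 4 ≤ x by linarith)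
    rw [abs_le]; constructor <;> linarith

end BarvX

theorem exists_BQ {w tol : ℝ} (hw : 0 < w) (ht : 0 < tol) : ∃ Q, BQ Q w tol := by
  obtain ⟨m, hm⟩ := exists_nat_ge (4 / w)
  obtain ⟨Q, q0, q1⟩ := BarvX.all hw m 1 ⟨zero_le_one, le_rfl⟩ (by
    rw [div_le_iff₀ hw] at hm; linarith) 0 tol ht
  refine ⟨Q, q0, fun a b M H => le_trans ?_ (q1 a b M H)⟩
  rw [norm_sub_rev, ← Complex.log_re, ← Complex.sub_re]
  simpa [BarvX.ev, BarvX.gg] using Complex.abs_re_le_norm (BarvX.ev Q a b - BarvX.gg a b 1)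

end Vale.Agent.P078G
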