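import Vale.Agent.P078G.Atom
import Mathlib.Algebra.Order.Chebyshev

/-! The coincidence estimate. -/

namespace Vale.Agent.P078G.Ctx

open Finset
open Vale.Agent.P078 (ind ind_apply ind_of_mem ind_of_notMem ind_val isClopen_preimage cx cx_apply
  mul_lt_of_lt_div)
open Vale.Agent.P078.Ctx (proj_eq_of_le mem_of_le_ofIsClopen)
open Msa Pre

variable {M X : Type*} [CStarAlgebra M] [TopologicalSpace X] [CompactSpace X] (C : Ctx M X)

lemma n2_pj_le_sum {κ : Type*} (s : Finset κ) {U : Set X} {V : κ → Set X} (hU : IsClopen U)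
    (hV : ∀ k, IsClopen (V k)) (h : ∀ x ∈ U, ∃ k ∈ s, x ∈ V k) (v : M) :
    C.T.n2 (C.pj U * v) ^ 2 ≤ ∑ k ∈ s, C.T.n2 (C.pj (V k) * v) ^ 2 := by
  obtain ⟨g, hg⟩ := exists_root_fun (f := ∑ k ∈ s, ind (V k) - ind U) fun x => by
    have h0 : ∀ k, 0 ≤ (ind (V k) x).re ∧ (ind (V k) x).im = 0 := fun k => by
      rcases ind_val (V k) x with h | h <;> simp [h]
    simp only [ContinuousMap.sub_apply, ContinuousMap.sum_apply, Complex.sub_re, Complex.sub_im,
      Complex.re_sum, Complex.im_sum, fun k => (h0 k).2, sum_const_zero]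
    by_cases hx : x ∈ U
    · obtain ⟨k, hk, hxk⟩ := h x hx
      have := single_le_sum (fun k _ => (h0 k).1) hk
      rw [ind_of_mem (hV k) hxk] at this
      rw [ind_of_mem hU hx]
      simpa using this
    · rw [ind_of_notMem hU hx]
      simpa using sum_nonneg fun k _ => (h0 k).1
  have h1 : star (C.ι g * v) * (C.ι g * v) =
      ∑ k ∈ s, star v * C.pj (V k) * v - star v * C.pj U * v := by
    rw [star_mul, ← map_star, mul_assoc, ← mul_assoc (C.ι _), ← map_mul, hg, map_sub, map_sum,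
      ← mul_assoc, mul_sub, sub_mul, mul_sum, sum_mul]
    rfl
  have h2 := sq_nonneg (C.T.n2 (C.ι g * v))
  rw [C.T.n2_sq, h1, map_sub, map_sum, Complex.sub_re, Complex.re_sum] at h2
  simp only [C.T.n2_sq, ← C.conj_pj_eq]
  linarith

section

variable {Γ ι : Type*} [Fintype Γ] [DecidableEq Γ] [DecidableEq ι]

/-- The values of `a` on the coordinates in `G`. -/
def pat (a : Γ → X → ι) (G : Finset Γ) (x : X) : Γ → Option ι :=
  fun g => if g ∈ G then some (a g x) else none

/-- The cylinder set of `i`. -/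
def cyl (a : Γ → X → ι) (i : Γ → Option ι) : Set X :=
  pat a (univ.filter fun g => i g ≠ none) ⁻¹' {i}

variable {a : Γ → X → ι}

omit [CompactSpace X] [DecidableEq ι] in
lemma lc_all (ha : ∀ g, IsLocallyConstant (a g)) : IsLocallyConstant fun x g => a g x :=
  (IsLocallyConstant.iff_eventually_eq _).mpr fun x =>
    (Filter.eventually_all.mpr fun g => (ha g).eventually_eq x).mono fun _ h => funext h

omit [CompactSpace X] [DecidableEq ι] in
lemma lc_pat (ha : ∀ g, IsLocallyConstant (a g)) (G : Finset Γ) : IsLocallyConstant (pat a G) :=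
  (lc_all ha).comp fun f g => if g ∈ G then some (f g) else none

omit [TopologicalSpace X] [CompactSpace X] in
lemma mem_cyl {i : Γ → Option ι} {x : X} : x ∈ cyl a i ↔ ∀ g, ∀ j ∈ i g, a g x = j := by
  simp only [cyl, Set.mem_preimage, Set.mem_singleton_iff, funext_iff, pat]
  refine forall_congr' fun g => ?_
  cases h : i g <;> simp [h]

lemma pj_expand (ha : ∀ g, IsLocallyConstant (a g)) (U : Finset ι) :
    C.pj {x | ∃ g, a g x ∈ U} =
      ∑ i ∈ (Fintype.piFinset fun _ : Γ => insertNone U).erase (fun _ => none),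
        (-∏ g, (i g).elim (1 : ℂ) fun _ => -1) • C.pj (cyl a i) := by
  simp only [pj, ← map_smul, ← map_sum]
  congr 1
  ext x
  have h1 : ∀ i : Γ → Option ι, (∏ g, (i g).elim (1 : ℂ) fun _ => -1) * ind (cyl a i) x =
      ∏ g, (i g).elim (1 : ℂ) fun j => -if j = a g x then 1 else 0 := fun i => by
    rw [ind_apply (U := cyl a i) (clopen_pre (lc_pat ha _) _)]
    by_cases hx : x ∈ cyl a i
    · rw [Set.indicator_of_mem hx, Pi.one_apply, mul_one]
      refine prod_congr rfl fun g _ => ?_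
      cases h : i g with
      | none => rfl
      | some j => simp [mem_cyl.mp hx g j h]
    · rw [Set.indicator_of_notMem hx, mul_zero]
      simp only [mem_cyl, not_forall] at hx
      obtain ⟨g, j, hj, hj'⟩ := hx
      exact (prod_eq_zero (mem_univ g) (by simp [Option.mem_def.mp hj, Ne.symm hj'])).symm
  have h2 := add_sum_erase (Fintype.piFinset fun _ : Γ => insertNone U)
    (fun i => ∏ g, (i g).elim (1 : ℂ) fun j => -if j = a g x then 1 else 0)
    (a := fun _ => none) (by simp)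
  rw [← prod_univ_sum (fun _ : Γ => insertNone U)
    fun g o => o.elim (1 : ℂ) fun j => -if j = a g x then 1 else 0] at h2
  simp only [ContinuousMap.sum_apply, ContinuousMap.smul_apply, smul_eq_mul, neg_mul, h1,
    sum_neg_distrib]
  rw [ind_apply (U := {x | ∃ g, a g x ∈ U}) (clopen_pre (lc_all ha) {f | ∃ g, f g ∈ U}),
    eq_sub_of_add_eq' h2]
  simp only [sum_insertNone, Option.elim, sum_neg_distrib, sum_ite_eq', prod_const_one]
  by_cases hx : ∃ g, a g x ∈ U
  · obtain ⟨g, hg⟩ := hx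
    rw [prod_eq_zero (mem_univ g) (by simp [hg]), Set.indicator_of_mem (by exact ⟨g, hg⟩)]
    simp
  · rw [Set.indicator_of_notMem (by exact hx), prod_eq_one fun g _ => by
      simp [not_exists.mp hx g]]
    simp

lemma sum_n4_cyl [Fintype ι] (ha : ∀ g, IsLocallyConstant (a g)) (y : M) :
    ∑ i ∈ univ.erase (fun _ => none), n4 C.T (y * C.pj (cyl a i)) ≤
      ∑ _G : Finset Γ, ∑ h, ∑ j, n4 C.T (y * C.pj (a h ⁻¹' {j})) := by
  have h0 : ∀ t, 0 ≤ n4 C.T t := fun t => by rw [n4_eq]; positivity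
  have h1 : ∀ G : Finset Γ, ∀ h j, ∑ i with h ∈ G ∧ i h = some j,
      n4 C.T (y * C.pj (pat a G ⁻¹' {i})) ≤ n4 C.T (y * C.pj (a h ⁻¹' {j})) := fun G h j => by
    by_cases hG : h ∈ G
    · refine (C.sum_n4_right_le _ (fun _ => clopen_pre (lc_pat ha _) _) (fun i _ i' _ hi => ?_)
        y).trans_eq ?_
      · rw [C.pj_mul (clopen_pre (lc_pat ha _) _) (clopen_pre (lc_pat ha _) _), ← C.pj_empty]
        congr 1
        exact Set.eq_empty_of_forall_notMem fun x hx => hi (hx.1.symm.trans hx.2)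
      · rw [C.sum_pj (lc_pat ha G)]
        congr 3
        ext x
        simp [hG, pat]
    · simp [hG, h0]
  refine le_trans ?_ (sum_le_sum fun G _ => sum_le_sum fun h _ => sum_le_sum fun j _ => h1 G h j)
  simp only [sum_filter]
  rw [sum_congr rfl fun G _ => (sum_congr rfl fun h _ => sum_comm).trans sum_comm, sum_comm]
  refine (sum_le_sum fun i hi => ?_).trans (sum_le_sum_of_subset_of_nonneg (subset_univ _)
    fun i _ _ => sum_nonneg fun _ _ => sum_nonneg fun _ _ => sum_nonneg fun _ _ =>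
      ite_nonneg (h0 _) le_rfl)
  obtain ⟨h, hh⟩ := Function.ne_iff.mp (mem_erase.mp hi).1
  obtain ⟨j, hj⟩ := Option.ne_none_iff_exists'.mp hh
  refine le_trans ?_ (single_le_sum (fun _ _ => sum_nonneg fun _ _ => sum_nonneg fun _ _ =>
    ite_nonneg (h0 _) le_rfl) (mem_univ (univ.filter fun g => i g ≠ none)))
  refine le_trans ?_ (single_le_sum (fun _ _ => sum_nonneg fun _ _ => ite_nonneg (h0 _) le_rfl)
    (mem_univ h))
  refine le_trans ?_ (single_le_sum (fun _ _ => ite_nonneg (h0 _) le_rfl) (mem_univ j))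
  rw [if_pos ⟨by simpa using hh, hj⟩, cyl]

lemma n2_cut_le [Fintype ι] (ha : ∀ g, IsLocallyConstant (a g)) (U : Finset ι) (w z : M) :
    C.T.n2 (C.pj {x | ∃ g, a g x ∈ U} * w * C.pj {x | ∃ g, a g x ∈ U} * z) ^ 2 ≤
      (U.card + 1) ^ Fintype.card Γ *
        ∑ α ∈ (univ ×ˢ U) ×ˢ (Fintype.piFinset fun _ : Γ => insertNone U).erase (fun _ => none),
          C.T.n2 (C.pj (a α.1.1 ⁻¹' {α.1.2}) * w * C.pj (cyl a α.2) * z) ^ 2 := by
  rw [mul_assoc, mul_assoc, sum_product, mul_sum]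
  refine (C.n2_pj_le_sum (univ ×ˢ U) (V := fun α : Γ × ι => a α.1 ⁻¹' {α.2})
    (clopen_pre (lc_all ha) {f | ∃ g, f g ∈ U}) (fun α => clopen_pre (ha _) _)
    (fun x ⟨g, hg⟩ => ⟨(g, a g x), by simpa using hg, rfl⟩) _).trans (sum_le_sum fun α _ => ?_)
  rw [C.pj_expand ha U, sum_mul, mul_sum, mul_sum]
  refine (pow_le_pow_left₀ (C.T.n2_nonneg _) (C.T.n2_sum_le _ _) 2).trans
    (sq_sum_le_card_mul_sum_sq.trans (mul_le_mul ?_ (le_of_eq (sum_congr rfl fun i _ => ?_))
      (sum_nonneg fun _ _ => sq_nonneg _) (by positivity)))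
  · have := card_erase_le (s := Fintype.piFinset fun _ : Γ => insertNone U) (a := fun _ => none)
    rw [Fintype.card_piFinset, prod_const, card_insertNone, card_univ] at this
    exact_mod_cast this
  · rw [smul_mul_assoc, mul_smul_comm, mul_smul_comm, C.T.n2_smul, norm_neg, norm_prod,
      prod_eq_one fun g _ => by cases i g <;> simp, one_mul, mul_assoc, mul_assoc]

lemma sum_n4_cut [Fintype ι] (ha : ∀ g, IsLocallyConstant (a g)) {w : M} {κ : ℝ}
    (hκ : ∀ g h, C.A4 (a g) (a h) w ≤ κ) :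
    ∑ α ∈ (univ : Finset (Γ × ι)) ×ˢ (univ : Finset (Γ → Option ι)).erase (fun _ => none),
      n4 C.T (C.pj (a α.1.1 ⁻¹' {α.1.2}) * w * C.pj (cyl a α.2)) ≤
      Fintype.card Γ * (2 ^ Fintype.card Γ * Fintype.card Γ) * κ := by
  have h1 : ∀ g, ∑ i, ∑ j ∈ (univ : Finset (Γ → Option ι)).erase (fun _ => none),
      n4 C.T (C.pj (a g ⁻¹' {i}) * w * C.pj (cyl a j)) ≤
      2 ^ Fintype.card Γ * Fintype.card Γ * κ := fun g => by
    refine (sum_le_sum fun i _ => C.sum_n4_cyl ha _).trans ?_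
    rw [sum_comm]
    refine (sum_le_card_nsmul _ _ (Fintype.card Γ * κ) fun G _ => ?_).trans_eq
      (by rw [nsmul_eq_mul, card_univ, Fintype.card_finset]; push_cast; ring)
    rw [sum_comm]
    exact (sum_le_card_nsmul _ _ κ fun h _ => hκ g h).trans_eq (by rw [nsmul_eq_mul, card_univ])
  rw [sum_product, Fintype.sum_prod_type]
  exact (sum_le_card_nsmul _ _ _ fun g _ => h1 g).trans_eq
    (by rw [nsmul_eq_mul, card_univ]; ring)

lemma norm_sum_cyl [Fintype ι] (ha : ∀ g, IsLocallyConstant (a g)) (y : M) :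
    ‖∑ i ∈ univ.erase (fun _ => none), C.pj (cyl a i) * y * C.pj (cyl a i)‖ ≤
      (2 ^ Fintype.card Γ + 1) * ‖y‖ := by
  have h1 : ∑ i, C.pj (cyl a i) * y * C.pj (cyl a i) = ∑ G : Finset Γ, C.pinch (pat a G) y := by
    simp only [pinch]
    rw [sum_comm]
    refine sum_congr rfl fun i _ => ?_
    rw [sum_eq_single (univ.filter fun g => i g ≠ none) (fun G _ hG => ?_) (by simp), cyl]
    have : pat a G ⁻¹' {i} = ∅ := Set.eq_empty_of_forall_notMem fun x hx => hG (by
      ext g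
      have := congrFun hx g
      by_cases h : g ∈ G <;> simp [pat, h] at this <;> simp [h, ← this])
    rw [this, C.pj_empty, mul_zero]
  rw [sum_erase_eq_sub (mem_univ _), h1, add_mul, one_mul]
  refine (norm_sub_le _ _).trans (add_le_add ((norm_sum_le _ _).trans ?_) ?_)
  · exact (sum_le_card_nsmul _ _ ‖y‖ fun G _ => C.norm_pinch_le (lc_pat ha G) y).trans_eq
      (by rw [nsmul_eq_mul, card_univ, Fintype.card_finset]; push_cast; ring)
  · have h2 := (C.pj_proj (cyl a fun _ => none)).norm_le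
    exact norm_mul₃_le.trans ((mul_le_of_le_one_right (by positivity) h2).trans
      (mul_le_of_le_one_left (norm_nonneg _) h2))

end

theorem coincide (Γ : Type*) [Fintype Γ] (L : ℕ) : ∃ K : ℝ, 0 ≤ K ∧
    ∀ {ι Ξ : Type} [Fintype ι] [Fintype Ξ] (a : Γ → X → ι), (∀ g, IsLocallyConstant (a g)) →
      ∀ (w : M) (κ : ℝ), ‖w‖ ≤ 1 → (∀ g h, C.A4 (a g) (a h) w ≤ κ) →
      ∃ c : M, ‖c‖ ≤ K ∧ C.T.n2 c ^ 2 ≤ K * κ ∧ ∀ (U : Ξ → Finset ι) (z : Ξ → M),
      (∀ χ, L < (U χ).card → z χ = 0) → ∑ χ, C.T.n2 (z χ) ^ 2 ≤ 1 →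
      ∑ χ, C.T.n2 (C.pj {x | ∃ g, a g x ∈ U χ} * w * C.pj {x | ∃ g, a g x ∈ U χ} * z χ) ^ 2 ≤
        K * √(∑ χ, C.T.n2 (c * z χ) ^ 2) := by
  classical
  set n := Fintype.card Γ with hn
  refine ⟨√(n * (2 ^ n + 1)) + n * (2 ^ n * n) + (L + 1) ^ n * √(n * L * (L + 1) ^ n),
    by positivity, fun {ι Ξ} _ _ a ha w κ hw hκ => ?_⟩
  let I₀ : Finset ((Γ × ι) × (Γ → Option ι)) := univ ×ˢ univ.erase (fun _ => none)
  let b := fun α : (Γ × ι) × (Γ → Option ι) => C.pj (a α.1.1 ⁻¹' {α.1.2}) * w * C.pj (cyl a α.2)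
  obtain ⟨c, hc, hc'⟩ := exists_root C.T I₀ (b := b) (R := 1) (S := n * (2 ^ n + 1)) (fun α =>
      norm_mul₃_le.trans (mul_le_one₀ (mul_le_one₀ (C.pj_proj _).norm_le (norm_nonneg _) hw)
        (norm_nonneg _) (C.pj_proj _).norm_le)) (by
      have e : ∑ α ∈ I₀, star (b α) * b α = ∑ _g : Γ, ∑ j ∈ univ.erase (fun _ => none),
          C.pj (cyl a j) * (star w * w) * C.pj (cyl a j) := by
        rw [sum_product, Fintype.sum_prod_type]
        refine sum_congr rfl fun g _ => sum_comm.trans (sum_congr rfl fun j _ => ?_)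
        have : ∀ i, star (b ((g, i), j)) * b ((g, i), j) = C.pj (cyl a j) * star w *
            C.pj (a g ⁻¹' {i}) * (w * C.pj (cyl a j)) := fun i => by
          simp only [b, star_mul, C.pj_star, mul_assoc]
          rw [← mul_assoc (C.pj (a g ⁻¹' {i})), C.pj_idem]
        simp only [this]
        rw [← sum_mul, ← mul_sum, C.sum_fib (ha g)]
        simp only [mul_one, mul_assoc]
      rw [e]
      refine (norm_sum_le _ _).trans ((sum_le_card_nsmul _ _ (2 ^ n + 1) fun _ _ => ?_).trans_eq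
        (by rw [nsmul_eq_mul, card_univ]))
      refine (C.norm_sum_cyl ha _).trans (mul_le_of_le_one_right (by positivity) ?_)
      rw [CStarRing.norm_star_mul_self]
      exact mul_le_one₀ hw (norm_nonneg _) hw)
  refine ⟨c, ?_, ?_, fun U z hz h4 => ?_⟩
  · rw [one_pow, one_mul] at hc
    refine (Real.le_sqrt_of_sq_le hc).trans ?_
    rw [add_assoc]
    exact le_add_of_nonneg_right (by positivity)
  · have h1 := hc' 1
    simp only [mul_one, ← n4_eq] at h1
    refine (h1.trans_le (C.sum_n4_cut ha hκ)).trans ?_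
    rcases isEmpty_or_nonempty Γ with h | ⟨⟨g⟩⟩
    · simp [hn]
    · refine mul_le_mul_of_nonneg_right ?_ (le_trans (sum_nonneg fun _ _ =>
        sum_nonneg fun _ _ => n4_nonneg _) (hκ g g))
      rw [add_right_comm]
      exact le_add_of_nonneg_left (by positivity)
  let I : Ξ → Finset ((Γ × ι) × (Γ → Option ι)) := fun χ => (univ ×ˢ U χ) ×ˢ
    (Fintype.piFinset fun _ : Γ => insertNone (U χ)).erase (fun _ => none)
  have h2 : ∀ χ, C.T.n2 (C.pj {x | ∃ g, a g x ∈ U χ} * w * C.pj {x | ∃ g, a g x ∈ U χ} * z χ) ^ 2 ≤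
      (L + 1) ^ n * √(n * L * (L + 1) ^ n) * (C.T.n2 (z χ) * C.T.n2 (c * z χ)) := fun χ => by
    rcases lt_or_ge L (U χ).card with h | h
    · simp [hz χ h, C.T.n2_zero]
    have h5 := card_erase_le (s := Fintype.piFinset fun _ : Γ => insertNone (U χ))
      (a := fun _ => none)
    rw [Fintype.card_piFinset, prod_const, card_insertNone, card_univ] at h5
    have h6 : (I χ).card ≤ n * L * (L + 1) ^ n := by
      rw [card_product, card_product, card_univ]
      exact Nat.mul_le_mul (Nat.mul_le_mul_left _ h) (h5.trans (by gcongr))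
    have h7 : ∑ α ∈ I χ, C.T.n2 (star (b α) * b α * z χ) ≤
        √(n * L * (L + 1) ^ n) * C.T.n2 (c * z χ) := by
      refine abs_le_of_sq_le_sq' (sq_sum_le_card_mul_sum_sq.trans ?_)
        (mul_nonneg (Real.sqrt_nonneg _) (C.T.n2_nonneg _)) |>.2
      rw [mul_pow, Real.sq_sqrt (by positivity), hc']
      refine mul_le_mul (by exact_mod_cast h6) (sum_le_sum_of_subset_of_nonneg (fun α hα => ?_)
        fun _ _ _ => sq_nonneg _) (sum_nonneg fun _ _ => sq_nonneg _) (by positivity)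
      simp only [I, I₀, mem_univ, mem_product, mem_erase, true_and, and_true] at hα ⊢
      exact hα.2.1
    have h8 : ∑ α ∈ I χ, C.T.n2 (b α * z χ) ^ 2 ≤
        C.T.n2 (z χ) * (√(n * L * (L + 1) ^ n) * C.T.n2 (c * z χ)) := by
      refine le_trans ?_ (mul_le_mul_of_nonneg_left h7 (C.T.n2_nonneg _))
      rw [mul_sum]
      refine sum_le_sum fun α _ => le_trans ?_ (C.T.norm_τ_star_mul _ _)
      rw [C.T.n2_sq, star_mul, mul_assoc (star (z χ)), mul_assoc (star (b α))]
      exact Complex.re_le_norm _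
    have h9 : ((U χ).card + 1 : ℝ) ^ n ≤ (L + 1) ^ n := by gcongr
    refine (C.n2_cut_le ha (U χ) w (z χ)).trans ((mul_le_mul h9 h8
      (sum_nonneg fun _ _ => sq_nonneg _) (by positivity)).trans_eq (by ring))
  refine (sum_le_sum fun χ _ => h2 χ).trans ?_
  rw [← mul_sum]
  refine mul_le_mul (le_add_of_nonneg_left (by positivity))
    ((Real.sum_mul_le_sqrt_mul_sqrt _ _ _).trans (mul_le_of_le_one_left (Real.sqrt_nonneg _)
      (Real.sqrt_le_one.2 h4)))
    (sum_nonneg fun _ _ => mul_nonneg (C.T.n2_nonneg _) (C.T.n2_nonneg _)) (by positivity)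

/-- Uniform absolute continuity along words in `w` and projections of the masa. -/
lemma ac_pow {w : M} (hw : ‖w‖ ≤ 1) (R : ℝ) (n : ℕ) {ε : ℝ} (hε : 0 < ε) : ∃ δ > 0, ∀ c : M,
    ‖c‖ ≤ R → C.T.n2 c < δ → ∀ U, ∀ j ≤ n,
      C.T.n2 (c * (C.pj U * (C.pj U * w * C.pj U) ^ j)) < ε := by
  have h0 : ∀ c U, C.T.n2 c < ε → C.T.n2 (c * (C.pj U * (C.pj U * w * C.pj U) ^ 0)) < ε :=
    fun c U h => by rw [pow_zero, mul_one]; exact (C.n2_mul_pj _ _).trans_lt h
  induction n generalizing ε with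
  | zero => exact ⟨ε, hε, fun c _ h U j hj => by rw [Nat.le_zero.1 hj]; exact h0 c U h⟩
  | succ n ih =>
    obtain ⟨δ₁, hδ₁, h1⟩ := C.fw.strong w R ε hε
    obtain ⟨δ, hδ, h2⟩ := ih hδ₁ fun c U h => by
      rw [pow_zero, mul_one]; exact (C.n2_mul_pj _ _).trans_lt h
    refine ⟨min δ ε, lt_min hδ hε, fun c hc h U j hj => ?_⟩
    cases j with
    | zero => exact h0 c U (h.trans_le (min_le_right _ _))
    | succ j =>
      have hp := (C.pj_proj U).norm_le
      have h3 : ‖C.pj U * w * C.pj U‖ ≤ 1 :=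
        norm_mul₃_le.trans (mul_le_one₀ (mul_le_one₀ hp (norm_nonneg _) hw) (norm_nonneg _) hp)
      have h4 : ∀ j, ‖C.pj U * (C.pj U * w * C.pj U) ^ j‖ ≤ 1 := fun j => by
        induction j with
        | zero => rwa [pow_zero, mul_one]
        | succ j ih =>
          rw [pow_succ, ← mul_assoc]
          exact (norm_mul_le _ _).trans (mul_le_one₀ ih (norm_nonneg _) h3)
      have h5 := h1 (c * (C.pj U * (C.pj U * w * C.pj U) ^ j) * C.pj U)
        (norm_mul₃_le.trans (((mul_le_of_le_one_right (by positivity) hp).trans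
          (mul_le_of_le_one_right (norm_nonneg _) (h4 j))).trans hc))
        ((C.n2_mul_pj _ _).trans_lt (h2 c hc (h.trans_le (min_le_left _ _)) U j (by omega)))
      refine lt_of_eq_of_lt ?_ ((C.n2_mul_pj _ U).trans_lt h5)
      simp only [pow_succ, mul_assoc]

end Vale.Agent.P078G.Ctx
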