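import Vale.Agent.P078G.Sta
import Mathlib.Analysis.CStarAlgebra.GelfandNaimarkSegal
import Mathlib.Analysis.CStarAlgebra.ContinuousLinearMap
import Mathlib.Analysis.InnerProductSpace.Adjoint
import Mathlib.Topology.ContinuousMap.Weierstrass

/-! Bounded approximation by strong resolvent convergence. -/

namespace Vale.Agent.P078G

open Filter Polynomial
open scoped Topology InnerProductSpace

namespace Kap

/-- The damping function. -/
noncomputable def gK (t : ℝ) : ℝ := (1 + t * t)⁻¹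

/-- The bounded transform. -/
noncomputable def fK (t : ℝ) : ℝ := 2 * (gK t * t)

/-- The inverse of the bounded transform. -/
noncomputable def hK (s : ℝ) : ℝ := s / (1 + √(1 - s * s))

lemma pos (t : ℝ) : 0 < 1 + t * t := by nlinarith [mul_self_nonneg t]

lemma cont_g : Continuous gK :=
  (continuous_const.add (continuous_id.mul continuous_id)).inv₀ fun t => (pos t).ne'

lemma cont_f : Continuous fK := continuous_const.mul (cont_g.mul continuous_id)

lemma cont_h : Continuous hK :=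
  continuous_id.div (continuous_const.add (continuous_const.sub
    (continuous_id.mul continuous_id)).sqrt) fun s => by positivity

lemma g_mul (t : ℝ) : gK t * (1 + t * t) = 1 := inv_mul_cancel₀ (pos t).ne'

lemma g_pos (t : ℝ) : 0 < gK t := inv_pos.2 (pos t)

lemma g_le (t : ℝ) : |gK t| ≤ 1 := by
  rw [abs_of_pos (g_pos t)]
  nlinarith [g_mul t, g_pos t, mul_nonneg (g_pos t).le (mul_self_nonneg t)]

lemma f_le (t : ℝ) : |fK t| ≤ 1 := by
  have h1 := mul_nonneg (g_pos t).le (mul_self_nonneg (t - 1))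
  have h2 := mul_nonneg (g_pos t).le (mul_self_nonneg (t + 1))
  have h3 := g_mul t
  rw [abs_le, fK]
  constructor <;> nlinarith

lemma gt_le (t : ℝ) : |gK t * t| ≤ 1 := by
  have := f_le t
  rw [fK, abs_le] at this
  rw [abs_le]
  constructor <;> linarith [this.1, this.2]

lemma gtt_le (t : ℝ) : |gK t * t * t| ≤ 1 := by
  have h1 := mul_nonneg (g_pos t).le (mul_self_nonneg t)
  have h3 := g_mul t
  have := g_pos t
  rw [abs_le]
  constructor <;> nlinarith

lemma h_le {s : ℝ} (hs : |s| ≤ 1) : |hK s| ≤ 1 := by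
  have h : 0 < 1 + √(1 - s * s) := by positivity
  rw [hK, abs_div, abs_of_pos h, div_le_one h]
  linarith [Real.sqrt_nonneg (1 - s * s)]

lemma h_f {t : ℝ} (ht : |t| ≤ 1) : hK (fK t) = t := by
  have h3 := g_mul t
  have h4 := g_pos t
  have h5 : t * t ≤ 1 := by rw [← abs_mul_abs_self]; nlinarith [abs_nonneg t]
  have h1 : √(1 - fK t * fK t) = gK t * (1 - t * t) := by
    rw [← Real.sqrt_mul_self (mul_nonneg h4.le (sub_nonneg.2 h5))]
    congr 1
    rw [fK]
    linear_combination (-(1 + gK t * (1 + t * t))) * h3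
  have h2 : 1 + gK t * (1 - t * t) = 2 * gK t := by linarith
  rw [hK, h1, h2, fK]
  field_simp

section
variable {A : Type*} [CStarAlgebra A]

lemma spec_le {a : A} {t : ℝ} (ht : t ∈ spectrum ℝ a) : |t| ≤ ‖a‖ := by
  rcases subsingleton_or_nontrivial A with h | h
  · simp [spectrum.of_subsingleton] at ht
  exact spectrum.norm_le_norm_of_mem ht

lemma exists_g {a : A} (ha : IsSelfAdjoint a) : ∃ g : A, g * (1 + a * a) = 1 ∧
    (1 + a * a) * g = 1 ∧ a * g = g * a ∧ ‖g‖ ≤ 1 ∧ ‖g * a‖ ≤ 1 ∧ ‖g * a * a‖ ≤ 1 ∧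
    cfc fK a = (2 : ℝ) • (g * a) := by
  have hg := cont_g
  have e1 : cfc (fun t : ℝ => 1 + t * t) a = 1 + a * a := by
    rw [cfc_add a (fun _ => 1) (fun t : ℝ => t * t), cfc_mul (fun t : ℝ => t) (fun t : ℝ => t) a,
      cfc_id' ℝ a, cfc_const_one ℝ a]
  have e2 : cfc (fun t : ℝ => gK t * t) a = cfc gK a * a := by
    rw [cfc_mul gK (fun t : ℝ => t) a, cfc_id' ℝ a]
  have e3 : cfc (fun t : ℝ => gK t * t * t) a = cfc gK a * a * a := by
    rw [cfc_mul (fun t : ℝ => gK t * t) (fun t : ℝ => t) a, cfc_id' ℝ a, e2]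
  have e4 : cfc (fun t : ℝ => t * gK t) a = a * cfc gK a := by
    rw [cfc_mul (fun t : ℝ => t) gK a, cfc_id' ℝ a]
  refine ⟨cfc gK a, ?_, ?_, ?_, norm_cfc_le one_pos.le fun t _ => g_le t, ?_, ?_, ?_⟩
  · rw [← e1, ← cfc_mul gK _ a, ← cfc_const_one ℝ a]
    exact cfc_congr fun t _ => g_mul t
  · rw [← e1, ← cfc_mul _ gK a, ← cfc_const_one ℝ a]
    exact cfc_congr fun t _ => (mul_comm _ _).trans (g_mul t)
  · rw [← e4, ← e2]
    exact cfc_congr fun t _ => mul_comm _ _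
  · rw [← e2]
    exact norm_cfc_le one_pos.le fun t _ => gt_le t
  · rw [← e3]
    exact norm_cfc_le one_pos.le fun t _ => gtt_le t
  · rw [← e2, ← cfc_const_mul (2 : ℝ) _ a]
    rfl

lemma aeval_near {a : A} (ha : IsSelfAdjoint a) {φ : ℝ → ℝ} (hφ : Continuous φ) {q : ℝ[X]}
    {η R : ℝ} (hη : 0 ≤ η) (hR : ‖a‖ ≤ R) (h : ∀ t ∈ Set.Icc (-R) R, |q.eval t - φ t| < η) :
    ‖aeval a q - cfc φ a‖ ≤ η := by
  rw [← cfc_polynomial q a, ← cfc_sub q.eval φ a]
  exact norm_cfc_le hη fun t ht => (h t (abs_le.1 ((spec_le ht).trans hR))).le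

end

variable {H : Type*} [NormedAddCommGroup H] [InnerProductSpace ℂ H]

lemma tendsto_bdd {L : ℕ → H →L[ℂ] H} {c : ℝ} (hL : ∀ k, ‖L k‖ ≤ c) {w : ℕ → H}
    (hw : Tendsto w atTop (𝓝 0)) : Tendsto (fun k => L k (w k)) atTop (𝓝 0) := by
  rw [tendsto_zero_iff_norm_tendsto_zero] at hw ⊢
  exact squeeze_zero (fun _ => norm_nonneg _)
    (fun k => (L k).le_of_opNorm_le (hL k) _) (by simpa using hw.const_mul c)

lemma tendsto_closure {L : ℕ → H →L[ℂ] H} {c : ℝ} (hL : ∀ k, ‖L k‖ ≤ c) {K : Set H}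
    (h : ∀ v ∈ K, Tendsto (fun k => L k v) atTop (𝓝 0)) {v : H} (hv : v ∈ closure K) :
    Tendsto (fun k => L k v) atTop (𝓝 0) := by
  have hc : 0 ≤ c := (norm_nonneg _).trans (hL 0)
  refine Metric.tendsto_nhds.2 fun ε hε => ?_
  obtain ⟨w, hw, h1⟩ := Metric.mem_closure_iff.1 hv (ε / 2 / (c + 1)) (by positivity)
  filter_upwards [Metric.tendsto_nhds.1 (h w hw) (ε / 2) (by positivity)] with k hk
  rw [dist_zero_right] at hk ⊢
  rw [dist_eq_norm, lt_div_iff₀ (by positivity)] at h1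
  have h2 := (L k).le_of_opNorm_le (hL k) (v - w)
  have h3 : L k v = L k (v - w) + L k w := by rw [map_sub, sub_add_cancel]
  have h4 := norm_add_le (L k (v - w)) (L k w)
  rw [h3]
  nlinarith [norm_nonneg (v - w)]

lemma strong_poly {K : Submodule ℂ H} {s : ℕ → H →L[ℂ] H} {S : H →L[ℂ] H} (hs : ∀ k, ‖s k‖ ≤ 1)
    (hS : ∀ v ∈ K, S v ∈ K) (h : ∀ v ∈ K, Tendsto (fun k => s k v) atTop (𝓝 (S v))) (p : ℝ[X])
    {v : H} (hv : v ∈ K) : Tendsto (fun k => aeval (s k) p v) atTop (𝓝 (aeval S p v)) := by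
  have hp : ∀ j : ℕ, (S ^ j) v ∈ K ∧ Tendsto (fun k => (s k ^ j) v) atTop (𝓝 ((S ^ j) v)) := by
    intro j
    induction j with
    | zero => simpa using hv
    | succ j ih =>
      simp only [pow_succ', mul_apply_eq_comp]
      refine ⟨hS _ ih.1, ?_⟩
      have h1 := (tendsto_bdd hs (tendsto_sub_nhds_zero_iff.2 ih.2)).add (h _ ih.1)
      simpa using h1
  induction p using Polynomial.induction_on' with
  | add p q hp hq => simpa using hp.add hq
  | monomial j r =>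
    simp only [aeval_monomial, ← Algebra.smul_def, smul_apply]
    exact (hp j).2.const_smul r

variable [CompleteSpace H]

lemma strong_f {K : Submodule ℂ H} {K₀ : Set H} (hK : ∀ v ∈ K, v ∈ closure K₀)
    {a : ℕ → H →L[ℂ] H} (ha : ∀ k, IsSelfAdjoint (a k)) {T : H →L[ℂ] H} (hT : IsSelfAdjoint T)
    (hTK : ∀ v, T v ∈ K) (h : ∀ v ∈ K₀, Tendsto (fun k => a k v) atTop (𝓝 (T v))) :
    (∀ v ∈ K, cfc fK T v ∈ K) ∧
      ∀ v ∈ K, Tendsto (fun k => cfc fK (a k) v) atTop (𝓝 (cfc fK T v)) := by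
  choose g g1 g2 g3 g4 g5 g6 g7 using fun k => exists_g (ha k)
  obtain ⟨G, G1, G2, G3, G4, G5, G6, G7⟩ := exists_g hT
  have hG : ∀ v ∈ K, G v ∈ K := fun v hv => by
    have : G v = v - T (T (G v)) := by
      have := congrArg (fun L : H →L[ℂ] H => L v) G2
      simp only [add_mul, one_mul, add_apply, mul_apply_eq_comp,
        one_apply_eq_self] at this
      exact eq_sub_of_add_eq this
    rw [this]
    exact sub_mem hv (hTK _)
  refine ⟨fun v _ => ?_, fun v hv => ?_⟩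
  · rw [G7, ← G3, smul_apply, ← Complex.coe_smul]
    exact K.smul_mem _ (hTK _)
  have key : ∀ {b : ℕ → H →L[ℂ] H}, (∀ k, ‖b k‖ ≤ 1) → (∀ k, ‖b k * a k‖ ≤ 1) → ∀ w ∈ K,
      Tendsto (fun k => (b k * (a k - T)) w) atTop (𝓝 0) := fun {b} h1 h2 w hw => by
    refine tendsto_closure (c := 1 + 1 * ‖T‖) (fun k => ?_) (fun u hu => ?_) (hK w hw)
    · rw [mul_sub]
      refine (norm_sub_le _ _).trans (add_le_add (h2 k) ((norm_mul_le _ _).trans ?_))
      gcongr
      exact h1 k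
    · exact tendsto_bdd h1 (tendsto_sub_nhds_zero_iff.2 (h u hu))
  have h1 := (key g4 g5 _ (hG v hv)).sub (key g5 g6 _ (hTK (G v)))
  have h2 : ∀ k, g k * a k - G * T =
      g k * (a k - T) * G - g k * a k * (a k - T) * (T * G) := fun k => by
    calc g k * a k - G * T = g k * a k * ((1 + T * T) * G) - g k * (1 + a k * a k) * (T * G) := by
          rw [G2, g1, mul_one, one_mul, G3]
      _ = _ := by noncomm_ring
  rw [← tendsto_sub_nhds_zero_iff]
  have h3 := h1.const_smul (2 : ℝ)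
  simp only [sub_zero, smul_zero] at h3
  refine h3.congr fun k => ?_
  rw [g7, G7, ← sub_apply, ← smul_sub, h2]
  rfl

end Kap

open Kap

theorem kap {M H : Type*} [CStarAlgebra M] [NormedAddCommGroup H] [InnerProductSpace ℂ H]
    [CompleteSpace H] (π : M →⋆ₐ[ℂ] (H →L[ℂ] H)) (ξ : H) (N : StarSubalgebra ℂ M) {x : M}
    (hx : star x = x) (h1 : ‖x‖ ≤ 1) {n : ℕ → M} (hn : ∀ k, n k ∈ N) (hs : ∀ k, star (n k) = n k)
    (hc : ∀ a ∈ N, CauchySeq fun k => π (n k * a) ξ)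
    (hl : ∀ a ∈ N, ∀ b ∈ N, Tendsto (fun k => ⟪π b ξ, π (n k * a) ξ⟫_ℂ) atTop
      (𝓝 ⟪π b ξ, π (x * a) ξ⟫_ℂ)) {ε : ℝ} (hε : 0 < ε) :
    ∃ m ∈ N, star m = m ∧ ‖m‖ ≤ 2 ∧ ∀ᶠ k in atTop, ‖π m ξ - π (n k) ξ‖ < ε := by
  let K₀ : Submodule ℂ H :=
    { carrier := {v | ∃ a ∈ N, π a ξ = v}
      add_mem' := by
        rintro _ _ ⟨a, ha, rfl⟩ ⟨b, hb, rfl⟩
        exact ⟨a + b, add_mem ha hb, by simp⟩
      zero_mem' := ⟨0, zero_mem _, by simp⟩
      smul_mem' := by
        rintro c _ ⟨a, ha, rfl⟩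
        exact ⟨c • a, N.smul_mem ha c, by simp⟩ }
  let K := K₀.topologicalClosure
  have hKc : IsClosed (K : Set H) := K₀.isClosed_topologicalClosure
  have := hKc.completeSpace_coe
  let P := K.starProjection
  have hP : IsSelfAdjoint P := isSelfAdjoint_starProjection K
  have hP1 : ‖P‖ ≤ 1 := K.starProjection_norm_le
  have hπ : ∀ a : M, star a = a → IsSelfAdjoint (π a) := fun a ha => by
    rw [IsSelfAdjoint, ← map_star, ha]
  have hπ1 : ∀ a : M, ‖π a‖ ≤ ‖a‖ := fun a => NonUnitalStarAlgHom.norm_apply_le π a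
  let T := P * π x * P
  have hT : IsSelfAdjoint T := by
    simp only [T, IsSelfAdjoint, star_mul, hP.star_eq, (hπ x hx).star_eq, mul_assoc]
  have hT1 : ‖T‖ ≤ 1 := by
    have h2 := (hπ1 x).trans h1
    refine (norm_mul₃_le).trans ?_
    exact mul_le_one₀ (mul_le_one₀ hP1 (norm_nonneg _) h2) (norm_nonneg _) hP1
  have hTK : ∀ v, T v ∈ K := fun v => K.starProjection_apply_mem _
  have hlim : ∀ v ∈ (K₀ : Set H), Tendsto (fun k => π (n k) v) atTop (𝓝 (T v)) := by
    rintro _ ⟨a, ha, rfl⟩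
    obtain ⟨w, hw⟩ := cauchySeq_tendsto_of_complete (hc a ha)
    have hwK : w ∈ K := hKc.mem_of_tendsto hw (.of_forall fun k =>
      K₀.le_topologicalClosure ⟨_, mul_mem (hn k) ha, rfl⟩)
    have h2 : P (π a ξ) = π a ξ :=
      Submodule.starProjection_eq_self_iff.2 (K₀.le_topologicalClosure ⟨a, ha, rfl⟩)
    have h3 : T (π a ξ) = w := by
      simp only [T, mul_apply_eq_comp, h2]
      refine Submodule.eq_starProjection_of_mem_orthogonal hwK ?_
      rw [Submodule.orthogonal_closure, Submodule.mem_orthogonal]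
      rintro _ ⟨b, hb, rfl⟩
      rw [inner_sub_right, sub_eq_zero, ← mul_apply_eq_comp, ← map_mul]
      exact tendsto_nhds_unique (hl a ha b hb) (tendsto_const_nhds.inner hw)
    rw [h3]
    simpa using hw
  have hξ : ξ ∈ (K₀ : Set H) := ⟨1, one_mem _, by simp⟩
  obtain ⟨hS1, hS2⟩ := strong_f (K := K) (K₀ := K₀) (fun v hv => hv) (fun k => hπ _ (hs k)) hT
    hTK hlim
  obtain ⟨η, hη, hη1, hη2⟩ : ∃ η : ℝ, 0 < η ∧ η ≤ 1 / 2 ∧ η * ‖ξ‖ ≤ ε / 4 := by
    refine ⟨min (1 / 2) (ε / 4 / (‖ξ‖ + 1)), by positivity, min_le_left _ _, ?_⟩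
    have h2 : min (1 / 2) (ε / 4 / (‖ξ‖ + 1)) ≤ ε / 4 / (‖ξ‖ + 1) := min_le_right _ _
    rw [le_div_iff₀ (by positivity)] at h2
    have h3 : 0 < min (1 / 2) (ε / 4 / (‖ξ‖ + 1)) := by positivity
    nlinarith
  obtain ⟨p, hp⟩ := exists_polynomial_near_of_continuousOn (-1) 1 hK cont_h.continuousOn η hη
  have hf := cont_f
  have hφ : Continuous fun t => p.eval (fK t) := p.continuous.comp hf
  have h2 := strong_poly (s := fun k => cfc fK (π (n k)))
    (fun k => norm_cfc_le one_pos.le fun t _ => f_le t) hS1 hS2 p (K₀.le_topologicalClosure hξ)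
  obtain ⟨k, hk⟩ := (Metric.tendsto_nhds.1 h2 (ε / 4) (by positivity)).exists
  rw [dist_eq_norm, ← cfc_map_polynomial p fK _ (hπ _ (hs k)), ← cfc_map_polynomial p fK _ hT] at hk
  obtain ⟨q, hq⟩ := exists_polynomial_near_of_continuousOn (-‖n k‖) ‖n k‖ _ hφ.continuousOn η hη
  have h3 := aeval_near (hs k) hφ hη.le le_rfl hq
  have h4 := aeval_near (hπ _ (hs k)) hφ hη.le (hπ1 _) hq
  have h5 : ‖cfc (fun t => p.eval (fK t)) (n k)‖ ≤ 1 + η := by
    refine norm_cfc_le (by positivity) fun t _ => ?_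
    have h6 := hp _ (abs_le.1 (f_le t))
    have h7 := h_le (f_le t)
    rw [Real.norm_eq_abs, abs_le]
    rw [abs_le] at h7
    rw [abs_lt] at h6
    constructor <;> linarith [h6.1, h6.2, h7.1, h7.2]
  have h6 : ‖cfc (fun t => p.eval (fK t)) T - T‖ ≤ η := by
    conv_lhs => rw [← congrArg (cfc (fun t => p.eval (fK t)) T - ·) (cfc_id' ℝ T hT)]
    rw [← cfc_sub (fun t => p.eval (fK t)) (fun t : ℝ => t) T]
    refine norm_cfc_le hη.le fun t ht => ?_
    have h7 := hp _ (abs_le.1 (f_le t))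
    rw [h_f ((spec_le ht).trans hT1)] at h7
    exact h7.le
  have h7 : aeval (n k) q ∈ N ∧ π (aeval (n k) q) = aeval (π (n k)) q := by
    clear hq h3 h4
    induction q using Polynomial.induction_on' with
    | add p q hp hq => exact ⟨by rw [map_add]; exact add_mem hp.1 hq.1, by simp [hp.2, hq.2]⟩
    | monomial j r =>
      simp only [aeval_monomial, ← Algebra.smul_def, ← Complex.coe_smul, map_smul, map_pow]
      exact ⟨N.smul_mem (pow_mem (hn k) _) _, trivial⟩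
  refine ⟨aeval (n k) q, h7.1, ?_, ?_, ?_⟩
  · have h8 : IsSelfAdjoint (n k) := hs k
    rw [← cfc_polynomial q (n k) h8]
    exact (cfc_predicate q.eval (n k) : IsSelfAdjoint (cfc q.eval (n k)))
  · linarith [norm_le_insert' (aeval (n k) q) (cfc (fun t => p.eval (fK t)) (n k))]
  · filter_upwards [Metric.tendsto_nhds.1 (hlim ξ hξ) (ε / 4) (by positivity)] with j hj
    rw [dist_comm, dist_eq_norm] at hj
    have h8 := ContinuousLinearMap.le_of_opNorm_le _ h4 ξ
    have h9 := ContinuousLinearMap.le_of_opNorm_le _ h6 ξ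
    rw [sub_apply] at h8 h9
    rw [h7.2]
    linarith [norm_sub_le_norm_sub_add_norm_sub (aeval (π (n k)) q ξ)
      (cfc (fun t => p.eval (fK t)) (π (n k)) ξ) (π (n j) ξ),
      norm_sub_le_norm_sub_add_norm_sub (cfc (fun t => p.eval (fK t)) (π (n k)) ξ)
      (cfc (fun t => p.eval (fK t)) T ξ) (π (n j) ξ),
      norm_sub_le_norm_sub_add_norm_sub (cfc (fun t => p.eval (fK t)) T ξ) (T ξ) (π (n j) ξ)]

end Vale.Agent.P078G
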