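import Vale.Agent.P078G.CondA

/-! Projection onto a subalgebra. -/

namespace Vale.Agent.P078G

open Filter
open scoped Topology InnerProductSpace

universe u

theorem exists_gns {M : Type u} [CStarAlgebra M] (T : Sta M) :
    ∃ (H : Type u) (_ : NormedAddCommGroup H) (_ : InnerProductSpace ℂ H) (_ : CompleteSpace H)
      (π : M →⋆ₐ[ℂ] (H →L[ℂ] H)) (ξ : H), ∀ a, T.τ a = ⟪ξ, π a ξ⟫_ℂ := by
  let _ := CStarAlgebra.spectralOrder M
  have _ := CStarAlgebra.spectralOrderedRing M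
  open scoped ComplexOrder in
  let f : M →ₚ[ℂ] ℂ := PositiveLinearMap.mk₀ T.τ fun a ha => by
    obtain ⟨b, rfl⟩ := CStarAlgebra.nonneg_iff_eq_star_mul_self.mp ha
    exact T.pos b
  refine ⟨f.GNS, inferInstance, inferInstance, inferInstance, f.gnsStarAlgHom,
    (f.toPreGNS 1 : f.PreGNS), fun a => ?_⟩
  have h : f.gnsStarAlgHom a (f.toPreGNS 1 : f.PreGNS) = (f.toPreGNS a : f.PreGNS) := by
    refine f.gnsNonUnitalStarAlgHom_apply_coe.trans ?_
    simp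
  rw [h, UniformSpace.Completion.inner_coe, f.preGNS_inner_def]
  simp only [PositiveLinearMap.ofPreGNS_toPreGNS, star_one, one_mul]
  rfl

theorem exists_cond_of {M : Type*} [CStarAlgebra M] {T : Sta M} (h : FW T)
    (N : StarSubalgebra ℂ M) {x : M}
    (hx : star x = x) (h1 : ‖x‖ ≤ 1) {n : ℕ → M} (hn : ∀ k, n k ∈ N) (hs : ∀ k, star (n k) = n k)
    (hc : ∀ a ∈ N, CauchySeq fun k => T.to2 (n k * a))
    (hl : ∀ a ∈ N, ∀ b ∈ N, Tendsto (fun k => T.τ (b * (n k * a))) atTop (𝓝 (T.τ (b * (x * a))))) :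
    ∃ y, star y = y ∧ ‖y‖ ≤ 2 ∧ (∀ b ∈ N, T.τ (b * (x - y)) = 0) ∧
      ∀ ε > 0, ∃ m ∈ N, star m = m ∧ ‖m‖ ≤ 2 ∧ T.n2 (y - m) < ε := by
  obtain ⟨H, _, _, _, π, ξ, hπ⟩ := exists_gns T
  have hi : ∀ a b, ⟪π b ξ, π a ξ⟫_ℂ = T.τ (star b * a) := fun a b => by
    rw [hπ, map_mul, map_star, mul_apply_eq_comp, ContinuousLinearMap.star_eq_adjoint,
      ContinuousLinearMap.adjoint_inner_right]
  have hn2 : ∀ a b, ‖π a ξ - π b ξ‖ = T.n2 (a - b) := fun a b => by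
    rw [← sq_eq_sq₀ (norm_nonneg _) (T.n2_nonneg _), T.n2_sq, ← hi,
      ← inner_self_eq_norm_sq (𝕜 := ℂ), map_sub, sub_apply]
    rfl
  have key : ∀ j : ℕ, ∃ m ∈ N, star m = m ∧ ‖m‖ ≤ 2 ∧
      ∀ᶠ k in atTop, T.n2 (m - n k) < 1 / ((j : ℝ) + 1) := fun j => by
    simp only [← hn2]
    refine kap π ξ N hx h1 hn hs (fun a ha => ?_) (fun a ha b hb => ?_) Nat.one_div_pos_of_nat
    · have := hc a ha
      rw [Metric.cauchySeq_iff] at this ⊢
      simpa only [dist_eq_norm, hn2, ← map_sub, Sta.n2] using this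
    · simp only [hi]
      exact hl a ha _ (star_mem hb)
  choose m m1 m2 m3 m4 using key
  have h0 := tendsto_one_div_add_atTop_nhds_zero_nat (𝕜 := ℝ)
  have hmono : ∀ i j : ℕ, i ≤ j → 1 / ((j : ℝ) + 1) ≤ 1 / ((i : ℝ) + 1) := fun i j hij =>
    Nat.one_div_le_one_div hij
  have hcau : CauchySeq fun j => T.to2 (m j) := by
    refine cauchySeq_of_le_tendsto_0 (fun j : ℕ => 2 * (1 / ((j : ℝ) + 1))) (fun i j N hi hj => ?_)
      (by simpa using h0.const_mul 2)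
    obtain ⟨k, hk1, hk2⟩ := ((m4 i).and (m4 j)).exists
    rw [dist_eq_norm, ← map_sub]
    have h2 := T.n2_triangle (m i) (n k) (m j)
    rw [T.n2_sub_rev (n k)] at h2
    have h3 := hmono _ _ hi
    have h4 := hmono _ _ hj
    change T.n2 _ ≤ _
    linarith
  obtain ⟨y, y1, y2⟩ := h.complete m 2 m3 hcau
  have y3 : Tendsto (fun k => T.n2 (n k - y)) atTop (𝓝 0) := by
    refine tendsto_order.2 ⟨fun a ha => .of_forall fun n => ha.trans_le (T.n2_nonneg _),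
      fun ε hε => ?_⟩
    obtain ⟨j, hj1, hj2⟩ := ((y2.eventually (gt_mem_nhds (half_pos hε))).and
      (h0.eventually (gt_mem_nhds (half_pos hε)))).exists
    filter_upwards [m4 j] with k hk
    have h2 := T.n2_triangle (n k) (m j) y
    rw [T.n2_sub_rev (n k) (m j)] at h2
    linarith
  refine ⟨y, h.star_lim m3 m2 y2, y1, fun b hb => ?_, fun ε hε => ?_⟩
  · have h2 := hl 1 (one_mem _) b hb
    simp only [mul_one] at h2
    rw [mul_sub, map_sub, tendsto_nhds_unique h2 (T.tendsto_τ y3 b), sub_self]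
  · obtain ⟨j, hj⟩ := (y2.eventually (gt_mem_nhds hε)).exists
    exact ⟨m j, m1 j, m2 j, m3 j, by rwa [T.n2_sub_rev]⟩

end Vale.Agent.P078G
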