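import Vale.Agent.P078G.Act
import Vale.Agent.P078.Defs

/-! Matrix coefficients along the orbits. -/

namespace Vale.Agent.P078G.Ctx

open Finset
open Vale.Agent.P078 (ind ind_apply ind_of_mem ind_of_notMem ind_val isClopen_preimage cx cx_apply
  mul_lt_of_lt_div)
open Vale.Agent.P078.Ctx (proj_eq_of_le mem_of_le_ofIsClopen)
open Msa Pre
open scoped ComplexConjugate

variable {M X : Type*} [CStarAlgebra M] [TopologicalSpace X] [CompactSpace X] [T2Space X]
  (C : Ctx M X)

/-- Base point of the orbit of `x`. -/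
noncomputable def base (x : X) : X := (Quotient.mk (MulAction.orbitRel C.Nor X) x).out

lemma exists_smul_base (x : X) : ∃ g : C.Nor, g • C.base x = x := by
  have h : (MulAction.orbitRel C.Nor X).r (C.base x) x := Quotient.mk_out (s := MulAction.orbitRel C.Nor X) x
  obtain ⟨g, hg⟩ := MulAction.mem_orbit_iff.mp (MulAction.orbitRel_apply.mp h)
  exact ⟨g⁻¹, by rw [← hg, inv_smul_smul]⟩

lemma base_smul (g : C.Nor) (x : X) : C.base (g • x) = C.base x := by
  unfold base
  congr 1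
  exact Quotient.sound (MulAction.orbitRel_apply.mpr (MulAction.mem_orbit x g))

/-- A normaliser moving the base point to `x`. -/
noncomputable def ux (x : X) : C.Nor := (C.exists_smul_base x).choose

lemma ux_spec (x : X) : C.ux x • C.base x = x := (C.exists_smul_base x).choose_spec

open Classical in
/-- The matrix of `y`. -/
noncomputable def ker (y : M) (a b : X) : ℂ :=
  if C.base a = C.base b then C.E (star (C.U (C.ux a)) * y * C.U (C.ux b)) (C.base a) else 0

omit [T2Space X] in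
lemma kerA_star_U_mul (g : C.Nor) : star (C.U g) * C.U g = 1 :=
  Unitary.star_mul_self_of_mem (C.U_mem g)

omit [T2Space X] in
lemma kerA_U_mul_star (g : C.Nor) : C.U g * star (C.U g) = 1 :=
  Unitary.mul_star_self_of_mem (C.U_mem g)

omit [T2Space X] in
lemma kerA_E_star (y : M) (x : X) : C.E (star y) x = conj (C.E y x) := by
  rw [C.E_star]
  rfl

lemma kerA_E_U_mul {g : C.Nor} {x : X} (h : g • x = x) (y : M) :
    C.E (C.U g * y) x = C.E (C.U g) x * C.E y x := by
  have h' : g⁻¹ • x = x := by rw [inv_smul_eq_iff, h]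
  have := C.E_star_U_mul h' y
  rwa [C.U_inv, star_star, kerA_E_star, Complex.conj_conj] at this

lemma kerA_star_mul_ι (g : C.Nor) (f : C(X, ℂ)) :
    star (C.U g) * C.ι f = C.ι (f.comp (C.act g)) * star (C.U g) := by
  rw [← C.conj_ι, mul_assoc, kerA_U_mul_star, mul_one]

lemma ker_sum {ι : Type*} (s : Finset ι) (y : ι → M) (a b : X) :
    C.ker (∑ i ∈ s, y i) a b = ∑ i ∈ s, C.ker (y i) a b := by
  unfold ker
  split_ifs
  · rw [Finset.mul_sum, Finset.sum_mul, map_sum, ContinuousMap.sum_apply]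
  · simp

lemma ker_diag (y : M) (a : X) : C.ker y a a = C.E y a := by
  unfold ker
  rw [if_pos rfl, C.E_conj, ux_spec]

lemma ker_star (y : M) (a b : X) : C.ker (star y) b a = conj (C.ker y a b) := by
  unfold ker
  by_cases h : C.base a = C.base b
  · rw [if_pos h, if_pos h.symm, ← kerA_E_star, h]
    simp only [star_mul, star_star, mul_assoc]
  · rw [if_neg h, if_neg (Ne.symm h), map_zero]

lemma ker_ι (f g : C(X, ℂ)) (y : M) (a b : X) :
    C.ker (C.ι f * y * C.ι g) a b = f a * C.ker y a b * g b := by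
  unfold ker
  split_ifs with h
  · have h1 : star (C.U (C.ux a)) * (C.ι f * y * C.ι g) * C.U (C.ux b) =
        C.ι (f.comp (C.act (C.ux a))) * (star (C.U (C.ux a)) * y * C.U (C.ux b)) *
          C.ι (g.comp (C.act (C.ux b))) := by
      calc _ = (star (C.U (C.ux a)) * C.ι f) * y * (C.ι g * C.U (C.ux b)) := by
            simp only [mul_assoc]
        _ = _ := by
            rw [kerA_star_mul_ι, C.ι_mul_U]
            simp only [mul_assoc]
    have h2 : C.act (C.ux a) (C.base a) = a := C.ux_spec a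
    have h3 : C.act (C.ux b) (C.base a) = b := by rw [h]; exact C.ux_spec b
    rw [h1, C.E_mul_right, C.E_mul_left]
    simp only [ContinuousMap.mul_apply, ContinuousMap.comp_apply, h2, h3]
  · simp

lemma ker_U {g : C.Nor} {a b : X} (h : C.ker (C.U g) a b ≠ 0) : a = g • b := by
  unfold ker at h
  split_ifs at h with hb
  · rw [← C.U_inv, ← C.U_mul, ← C.U_mul, ← C.smul_eq_iff, mul_smul, mul_smul, inv_smul_eq_iff,
      C.ux_spec] at h
    rw [hb, C.ux_spec] at h
    exact h.symm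
  · exact absurd rfl h

lemma ker_gauge (x : X) : ∃ u : C.Nor → ℂ, (∀ g, ‖u g‖ = 1) ∧ ∀ y g g',
    C.ker y (g • x) (g' • x) = conj (u g) * C.E (star (C.U g) * y * C.U g') x * u g' := by
  let h : C.Nor → C.Nor := fun g => (g * C.ux x)⁻¹ * C.ux (g • x)
  have hfix : ∀ g, h g • C.base x = C.base x := fun g => by
    simp only [h]
    rw [mul_smul, inv_smul_eq_iff, mul_smul, C.ux_spec, ← C.base_smul g x, C.ux_spec]
  have hU : ∀ g, C.U (C.ux (g • x)) = C.U g * C.U (C.ux x) * C.U (h g) := fun g => by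
    rw [← C.U_mul, ← C.U_mul]
    simp only [h, mul_inv_cancel_left]
  refine ⟨fun g => C.E (C.U (h g)) (C.base x), fun g => ?_, fun y g g' => ?_⟩
  · exact (C.norm_E_U _ _).resolve_left ((C.smul_eq_iff _ _).mp (hfix g))
  · unfold ker
    rw [C.base_smul, C.base_smul, if_pos rfl, hU, hU]
    have h1 : star (C.U g * C.U (C.ux x) * C.U (h g)) * y * (C.U g' * C.U (C.ux x) * C.U (h g')) =
        star (C.U (h g)) * (star (C.U (C.ux x)) * (star (C.U g) * y * C.U g') * C.U (C.ux x)) *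
          C.U (h g') := by
      simp only [star_mul, mul_assoc]
    rw [h1, C.E_mul_U (hfix g'), C.E_star_U_mul (hfix g), C.E_conj, C.ux_spec]

lemma ker_one_ne {a b : X} (h : a ≠ b) : C.ker 1 a b = 0 := by
  by_contra h0
  rw [← C.U_one] at h0
  exact h ((C.ker_U h0).trans (one_smul _ _))

lemma ker_one_self (a : X) : C.ker 1 a a = 1 := by
  rw [ker_diag, ← map_one C.ι, C.E_ι]
  rfl

lemma kerA_form (y : M) (Λ : Finset X) (o : X) (h : ∀ a ∈ Λ, C.base a = o) (ξ : X → ℂ) :
    ∑ a ∈ Λ, ∑ b ∈ Λ, conj (ξ a) * C.ker y a b * ξ b =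
      C.E (star (∑ b ∈ Λ, ξ b • C.U (C.ux b)) * y * ∑ b ∈ Λ, ξ b • C.U (C.ux b)) o := by
  rw [star_sum, Finset.sum_mul, Finset.sum_mul, map_sum, ContinuousMap.sum_apply]
  refine Finset.sum_congr rfl fun a ha => ?_
  rw [Finset.mul_sum, map_sum, ContinuousMap.sum_apply]
  refine Finset.sum_congr rfl fun b hb => ?_
  unfold ker
  rw [if_pos ((h a ha).trans (h b hb).symm), h a ha, star_smul, smul_mul_assoc, smul_mul_assoc,
    mul_smul_comm, map_smul, map_smul]
  simp only [ContinuousMap.smul_apply, smul_eq_mul, RCLike.star_def]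
  ring

lemma kerA_fib {y : M} (hs : star y = y) (h1 : ‖y‖ ≤ 1) (Λ : Finset X) (o : X)
    (h : ∀ a ∈ Λ, C.base a = o) (ξ : X → ℂ) :
    ‖∑ a ∈ Λ, ∑ b ∈ Λ, conj (ξ a) * C.ker y a b * ξ b‖ ≤ ∑ a ∈ Λ, ‖ξ a‖ ^ 2 := by
  have h2 := C.kerA_form 1 Λ o h ξ
  rw [mul_one] at h2
  have h3 : ∑ a ∈ Λ, ∑ b ∈ Λ, conj (ξ a) * C.ker 1 a b * ξ b = ((∑ a ∈ Λ, ‖ξ a‖ ^ 2 : ℝ) : ℂ) := by
    push_cast
    refine Finset.sum_congr rfl fun a ha => ?_
    rw [Finset.sum_eq_single_of_mem a ha, ker_one_self, mul_one, Complex.conj_mul']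
    intro b _ hb
    rw [C.ker_one_ne hb.symm, mul_zero, zero_mul]
  rw [C.kerA_form y Λ o h ξ]
  refine (C.norm_E_conj_le hs _ o).trans ?_
  rw [← h2, h3, Complex.ofReal_re]
  exact mul_le_of_le_one_left (Finset.sum_nonneg fun _ _ => sq_nonneg _) h1

lemma ker_ctr {y : M} (hs : star y = y) (h1 : ‖y‖ ≤ 1) : P078.Ctr (C.ker y) := by
  classical
  refine ⟨fun a b => by rw [← ker_star, hs], fun Λ ξ => ?_⟩
  rw [← Finset.sum_fiberwise_of_maps_to (s := Λ) (t := Λ.image C.base) (g := C.base)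
      (fun a ha => Finset.mem_image_of_mem _ ha),
    ← Finset.sum_fiberwise_of_maps_to (s := Λ) (t := Λ.image C.base) (g := C.base)
      (fun a ha => Finset.mem_image_of_mem _ ha) (f := fun a => ‖ξ a‖ ^ 2)]
  refine (norm_sum_le _ _).trans (Finset.sum_le_sum fun o _ => ?_)
  refine le_trans (le_of_eq ?_)
    (C.kerA_fib hs h1 (Λ.filter fun a => C.base a = o) o (fun a ha => (Finset.mem_filter.mp ha).2) ξ)
  congr 1
  refine Finset.sum_congr rfl fun a ha => ?_
  refine (Finset.sum_subset (Finset.filter_subset _ _) fun b hb hb' => ?_).symm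
  have : C.base a ≠ C.base b := fun h =>
    hb' (Finset.mem_filter.mpr ⟨hb, h.symm.trans (Finset.mem_filter.mp ha).2⟩)
  unfold ker
  rw [if_neg this, mul_zero, zero_mul]

lemma kerA_U_mul (g : C.Nor) (z : M) (a x : X) :
    C.ker (C.U g * z) a x = C.ker (C.U g) a (g⁻¹ • a) * C.ker z (g⁻¹ • a) x := by
  unfold ker
  rw [C.base_smul, if_pos rfl]
  split_ifs with h
  · have hfix : ((C.ux a)⁻¹ * g * C.ux (g⁻¹ • a)) • C.base a = C.base a := by
      rw [mul_smul, mul_smul, inv_smul_eq_iff, C.ux_spec]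
      conv_lhs => rw [← C.base_smul g⁻¹ a, C.ux_spec]
      exact smul_inv_smul g a
    have h1 : star (C.U (C.ux a)) * (C.U g * z) * C.U (C.ux x) =
        C.U ((C.ux a)⁻¹ * g * C.ux (g⁻¹ • a)) *
          (star (C.U (C.ux (g⁻¹ • a))) * z * C.U (C.ux x)) := by
      rw [C.U_mul, C.U_mul, C.U_inv]
      simp only [mul_assoc]
      rw [← mul_assoc (C.U (C.ux (g⁻¹ • a))), kerA_U_mul_star, one_mul]
    rw [h1, C.kerA_E_U_mul hfix, C.U_mul, C.U_mul, C.U_inv]
  · simp

lemma ker_ι_left (f : C(X, ℂ)) (y : M) (a b : X) :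
    C.ker (C.ι f * y) a b = f a * C.ker y a b := by
  have := C.ker_ι f 1 y a b
  rwa [map_one, mul_one, ContinuousMap.one_apply, mul_one] at this

/-- Matrix multiplication. -/
lemma ker_mul (Γ : Finset C.Nor) (f : C.Nor → C(X, ℂ)) (z : M) (a x : X) {Λ : Finset X}
    (hΛ : ∀ g ∈ Γ, g⁻¹ • a ∈ Λ) : C.ker ((∑ g ∈ Γ, C.ι (f g) * C.U g) * z) a x =
      ∑ b ∈ Λ, C.ker (∑ g ∈ Γ, C.ι (f g) * C.U g) a b * C.ker z b x := by
  simp only [Finset.sum_mul, ker_sum, mul_assoc, ker_ι_left]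
  rw [Finset.sum_comm]
  refine Finset.sum_congr rfl fun g hg => ?_
  rw [← Finset.mul_sum, Finset.sum_eq_single_of_mem _ (hΛ g hg), kerA_U_mul]
  intro b _ hb
  have : C.ker (C.U g) a b = 0 := by
    by_contra h0
    exact hb (by rw [C.ker_U h0, inv_smul_smul])
  rw [this, zero_mul]

end Vale.Agent.P078G.Ctx
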