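import Vale.Agent.P078G.CondB
import Vale.Agent.P078G.QN
import Vale.Agent.P078G.KerA

/-! Projection onto the normaliser algebra. -/

namespace Vale.Agent.P078G.Ctx

open Filter Finset Msa Pre
open Vale.Agent.P078 (cx cx_apply)
open scoped Topology

variable {M X : Type*} [CStarAlgebra M] [TopologicalSpace X] [CompactSpace X] [T2Space X]
  (C : Ctx M X)

lemma exists_proj (Γ : Finset C.Nor) (x : M) : ∃ f : C.Nor → C(X, ℂ),
    ∀ h ∈ Γ, C.E (star (C.U h) * (x - ∑ g ∈ Γ, C.U g * C.ι (f g))) = 0 := by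
  classical
  induction Γ using Finset.induction_on with
  | empty => exact ⟨0, by simp⟩
  | insert g Γ hg ih =>
    obtain ⟨f, hf⟩ := ih
    set x' := x - ∑ g ∈ Γ, C.U g * C.ι (f g) with hx'
    set k := C.E (star (C.U g) * x') with hk
    refine ⟨Function.update f g k, fun h hh => ?_⟩
    have e : x - ∑ a ∈ insert g Γ, C.U a * C.ι (Function.update f g k a) =
        x' - C.U g * C.ι k := by
      rw [sum_insert hg, Function.update_self, hx', sub_sub, add_comm]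
      congr 2
      exact sum_congr rfl fun a ha => by rw [Function.update_of_ne (ne_of_mem_of_not_mem ha hg)]
    rw [e, mul_sub, map_sub, ← mul_assoc, E_mul_right]
    rcases mem_insert.1 hh with rfl | hh
    · rw [U_star_mul, ← map_one C.ι, E_ι, one_mul, sub_self]
    rw [hf h hh, zero_sub, neg_eq_zero, ← U_inv, ← U_mul]
    ext p
    rw [ContinuousMap.mul_apply, ContinuousMap.zero_apply]
    by_cases hp : (h⁻¹ * g) • p = p
    · rw [hk, ← C.kerA_E_U_mul hp, U_mul, mul_assoc, ← mul_assoc (C.U g), U_mul_star, one_mul,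
        U_inv, hf h hh, ContinuousMap.zero_apply]
    · rw [not_not.1 ((C.smul_eq_iff _ _).not.1 hp), zero_mul]

/-- Self-adjoint elements have self-adjoint best approximations. -/
lemma exists_sa_approx {x m : M} (hx : star x = x) (hm : m ∈ C.N0) :
    ∃ n ∈ C.N0, star n = n ∧ C.T.n2 (x - n) ≤ C.T.n2 (x - m) := by
  classical
  obtain ⟨Γ₀, f₀, rfl⟩ := hm
  let Γ := Γ₀ ∪ Γ₀.image (·⁻¹)
  have hΓ : ∀ g ∈ Γ, g⁻¹ ∈ Γ := fun g hg => by
    rcases mem_union.1 hg with h | h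
    · exact mem_union_right _ (mem_image_of_mem _ h)
    · obtain ⟨a, ha, rfl⟩ := mem_image.1 h
      exact mem_union_left _ (by rwa [inv_inv])
  let S : AddSubgroup M :=
    { carrier := {s | ∀ w, (∀ h ∈ Γ, C.E (star (C.U h) * w) = 0) → C.T.τ (star s * w) = 0}
      add_mem' := fun ha hb w hw => by
        rw [star_add, add_mul, map_add, ha w hw, hb w hw, add_zero]
      zero_mem' := fun w _ => by simp
      neg_mem' := fun ha w hw => by rw [star_neg, neg_mul, map_neg, ha w hw, neg_zero] }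
  have h1 : ∀ g ∈ Γ, ∀ f, C.U g * C.ι f ∈ S := fun g hg f w hw => by
    rw [star_mul, ← map_star, mul_assoc, ← C.tr, hw g hg, map_zero, mul_zero, map_zero]
  have h2 : ∀ g ∈ Γ, ∀ f, C.ι f * C.U g ∈ S := fun g hg f => by
    rw [ι_mul_U]
    exact h1 g hg _
  obtain ⟨f, hf⟩ := C.exists_proj Γ x
  set n := ∑ g ∈ Γ, C.U g * C.ι (f g) with hn
  have h3 : n ∈ S := sum_mem fun g hg => h1 g hg _
  have h4 : star n ∈ S := by
    rw [hn, star_sum]
    refine sum_mem fun g hg => ?_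
    rw [star_mul, ← map_star, ← U_inv]
    exact h2 _ (hΓ g hg) _
  have h5 : ∑ g ∈ Γ₀, C.ι (f₀ g) * C.U g ∈ S := sum_mem fun g hg => h2 g (mem_union_left _ hg) _
  have h6 : ∀ h ∈ Γ, C.E (star (C.U h) * (x - star n)) = 0 := fun h hh => by
    have e : star (C.U h) * (x - star n) =
        star (star (C.U h) * (star (C.U h⁻¹) * (x - n)) * C.U h) := by
      rw [U_inv, star_star, ← mul_assoc, U_star_mul, one_mul, star_mul, star_sub, hx]
    rw [e, E_star, star_eq_zero]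
    ext p
    rw [E_conj, hf _ (hΓ h hh)]
    rfl
  refine ⟨n, sum_mem fun g _ => mul_mem (C.U_mem_N0 g) (C.ι_mem_N0 _), ?_, ?_⟩
  · have h7 := sub_mem h4 h3
    have h8 : C.T.τ (star (star n - n) * (star n - n)) = 0 := by
      have e : star n - n = (x - n) - (x - star n) := by abel
      conv_lhs => rw [congrArg (star (star n - n) * ·) e]
      rw [mul_sub, map_sub, h7 _ hf, h7 _ h6, sub_self]
    rw [C.T.n2_sq'] at h8
    exact sub_eq_zero.1 (C.fw.faithful _ (by simpa using h8))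
  · have h7 := sub_mem h3 h5 _ hf
    have h8 := C.T.n2_add_sq (n - ∑ g ∈ Γ₀, C.ι (f₀ g) * C.U g) (x - n)
    rw [h7, sub_add_sub_cancel', Complex.zero_re] at h8
    refine (abs_le_of_sq_le_sq' ?_ (C.T.n2_nonneg _)).2
    nlinarith [sq_nonneg (C.T.n2 (n - ∑ g ∈ Γ₀, C.ι (f₀ g) * C.U g))]

lemma n2_mul_U (g : C.Nor) : ∃ c : ℝ, 0 ≤ c ∧ ∀ y, C.T.n2 (y * C.U g) ≤ c * C.T.n2 y := by
  obtain ⟨c, hc, h⟩ := C.τ_comp_le g
  refine ⟨√c, Real.sqrt_nonneg _, fun y => ?_⟩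
  have h1 := h ⟨fun p => (C.E (star y * y) p).re, by fun_prop⟩ fun p => (C.E_nonneg y p).1
  rw [C.τR_apply _ (C.E (star (C.U g) * (star y * y) * C.U g)) fun p => by rw [E_conj]; rfl,
    C.τR_apply _ (C.E (star y * y)) fun p => rfl, τ_E, τ_E, ← C.T.n2_sq] at h1
  refine (abs_le_of_sq_le_sq' ?_ (mul_nonneg (Real.sqrt_nonneg _) (C.T.n2_nonneg _))).2
  rw [mul_pow, Real.sq_sqrt hc, C.T.n2_sq, star_mul]
  simpa only [mul_assoc] using h1

lemma n2_mul_N0 {a : M} (ha : a ∈ C.N0) : ∃ c : ℝ, 0 ≤ c ∧ ∀ y, C.T.n2 (y * a) ≤ c * C.T.n2 y := by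
  obtain ⟨Γ, f, rfl⟩ := ha
  choose c hc h using C.n2_mul_U
  refine ⟨∑ g ∈ Γ, c g * ‖f g‖, sum_nonneg fun g _ => mul_nonneg (hc g) (norm_nonneg _),
    fun y => ?_⟩
  rw [mul_sum, sum_mul]
  refine (C.T.n2_sum_le _ _).trans (sum_le_sum fun g _ => ?_)
  rw [← mul_assoc, mul_assoc (c g), mul_comm ‖f g‖]
  exact (h g _).trans (mul_le_mul_of_nonneg_left (C.n2_mul_ι y _) (hc g))

lemma exists_sharp_U (g : C.Nor) :
    ∃ d : C(X, ℂ), ∀ z, C.T.τ (z * C.U g) = C.T.τ (C.ι d * C.U g * z) := by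
  obtain ⟨D, -, -, -, hD⟩ := C.exists_D
  refine ⟨cx (D g⁻¹), ?_⟩
  have h1 : ∀ z, (C.T.τ (z * C.U g)).re = (C.T.τ (C.ι (cx (D g⁻¹)) * C.U g * z)).re := fun z => by
    have h2 := hD g⁻¹ ⟨fun p => (C.E (z * C.U g) p).re, by fun_prop⟩
      ⟨fun p => ((cx (D g⁻¹) * C.E (C.U g * z)) p).re, by fun_prop⟩ fun p => by
        have h3 := C.E_conj g (C.U g * z) (g⁻¹ • p)
        rw [← mul_assoc, U_star_mul, one_mul, smul_inv_smul] at h3
        simp [h3, mul_comm]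
    rw [C.τR_apply _ (cx (D g⁻¹) * C.E (C.U g * z)) fun p => rfl,
      C.τR_apply _ (C.E (z * C.U g)) fun p => rfl, τ_E, map_mul, C.tr] at h2
    rw [← h2, mul_assoc]
  intro z
  refine Complex.ext (h1 z) ?_
  have h2 := h1 (Complex.I • z)
  rw [smul_mul_assoc, mul_smul_comm, map_smul, map_smul] at h2
  simpa using h2

lemma exists_sharp {a : M} (ha : a ∈ C.N0) :
    ∃ a' ∈ C.N0, ∀ z, C.T.τ (z * a) = C.T.τ (a' * z) := by
  obtain ⟨Γ, f, rfl⟩ := ha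
  choose d hd using C.exists_sharp_U
  refine ⟨∑ g ∈ Γ, C.ι (f g) * (C.ι (d g) * C.U g), sum_mem fun g _ =>
    mul_mem (C.ι_mem_N0 _) (mul_mem (C.ι_mem_N0 _) (C.U_mem_N0 _)), fun z => ?_⟩
  rw [mul_sum, sum_mul, map_sum, map_sum]
  refine sum_congr rfl fun g _ => ?_
  rw [← mul_assoc, hd, ← mul_assoc, ← C.cen, mul_assoc (C.ι (f g))]

omit [T2Space X] in
lemma variation {w s : M} {δ : ℝ} (h : ∀ t : ℂ, C.T.n2 w ^ 2 - δ ≤ C.T.n2 (w - t • s) ^ 2) :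
    ‖C.T.τ (star s * w)‖ ^ 2 ≤ δ * (C.T.n2 s ^ 2 + 1) := by
  set β := C.T.τ (star s * w) with hβ
  set σ := C.T.n2 s ^ 2 with hσ
  have h0 : 0 ≤ σ := sq_nonneg _
  have h1 : 0 < σ + 1 := by linarith
  have h2 := h (((σ + 1)⁻¹ : ℝ) * β)
  have h3 : C.T.τ (star w * s) = (starRingEnd ℂ) β := by
    rw [hβ, ← C.T.map_star, star_mul, star_star]
  rw [C.T.n2_sub_sq, mul_smul_comm, map_smul, h3, smul_eq_mul, mul_assoc, Complex.mul_conj,
    ← Complex.ofReal_mul, Complex.ofReal_re, C.T.n2_smul, mul_pow, ← hσ, norm_mul,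
    Complex.norm_real, Real.norm_of_nonneg (inv_pos.2 h1).le, Complex.normSq_eq_norm_sq,
    mul_pow] at h2
  have h4 := inv_mul_cancel₀ h1.ne'
  have h5 := inv_pos.2 h1
  set r := (σ + 1)⁻¹
  have h6 : r * ‖β‖ ^ 2 ≤ δ := by
    have : r ^ 2 * ‖β‖ ^ 2 * σ ≤ r * ‖β‖ ^ 2 := by
      have h7 : r * σ ≤ 1 := by nlinarith
      nlinarith [mul_nonneg h5.le (sq_nonneg ‖β‖)]
    linarith
  calc ‖β‖ ^ 2 = r * ‖β‖ ^ 2 * (σ + 1) := by rw [mul_right_comm, h4, one_mul]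
    _ ≤ _ := mul_le_mul_of_nonneg_right h6 h1.le

theorem exists_cond {x : M} (hx : star x = x) (h1 : ‖x‖ ≤ 1) :
    ∃ y, star y = y ∧ ‖y‖ ≤ 2 ∧ (∀ b ∈ C.N0, C.T.τ (b * (x - y)) = 0) ∧
      ∀ ε > 0, ∃ m ∈ C.N0, star m = m ∧ ‖m‖ ≤ 2 ∧ C.T.n2 (y - m) < ε := by
  let S : Set ℝ := (fun m => C.T.n2 (x - m) ^ 2) '' C.N0
  have hb : BddBelow S := ⟨0, by rintro _ ⟨m, -, rfl⟩; exact sq_nonneg _⟩
  have hd : ∀ m ∈ C.N0, sInf S ≤ C.T.n2 (x - m) ^ 2 := fun m hm => csInf_le hb ⟨m, hm, rfl⟩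
  have key : ∀ k : ℕ, ∃ n ∈ C.N0, star n = n ∧
      C.T.n2 (x - n) ^ 2 ≤ sInf S + 1 / ((k : ℝ) + 1) := fun k => by
    obtain ⟨_, ⟨m, hm, rfl⟩, h⟩ := exists_lt_of_csInf_lt (s := S) ⟨_, 0, zero_mem _, rfl⟩
      (lt_add_of_pos_right _ (Nat.one_div_pos_of_nat (n := k)))
    obtain ⟨n, hn, h2, h3⟩ := C.exists_sa_approx hx hm
    exact ⟨n, hn, h2, (pow_le_pow_left₀ (C.T.n2_nonneg _) h3 2).trans h.le⟩
  choose n n1 n2 n3 using key
  have h0 := tendsto_one_div_add_atTop_nhds_zero_nat (𝕜 := ℝ)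
  refine exists_cond_of C.fw C.N0 hx h1 n1 n2 (fun a ha => ?_) fun a ha b hb => ?_
  · obtain ⟨c, hc, h⟩ := C.n2_mul_N0 ha
    refine C.T.cauchySeq (b := fun k : ℕ => c ^ 2 * (4 * (1 / ((k : ℝ) + 1))))
      (by simpa using (h0.const_mul 4).const_mul (c ^ 2)) fun i j N hi hj => ?_
    rw [← sub_mul]
    refine (pow_le_pow_left₀ (C.T.n2_nonneg _) (h _) 2).trans ?_
    rw [mul_pow]
    refine mul_le_mul_of_nonneg_left ?_ (sq_nonneg c)
    have h2 := C.T.parallelogram (x - n j) (x - n i)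
    have e : x - n j + (x - n i) = (2 : ℂ) • (x - (2⁻¹ : ℂ) • (n j + n i)) := by module
    have h3 := hd _ (C.N0.smul_mem (add_mem (n1 j) (n1 i)) (2⁻¹ : ℂ))
    rw [sub_sub_sub_cancel_left, e, C.T.n2_smul, mul_pow, Complex.norm_two] at h2
    have h4 : 1 / ((i : ℝ) + 1) ≤ 1 / ((N : ℝ) + 1) := Nat.one_div_le_one_div hi
    have h5 : 1 / ((j : ℝ) + 1) ≤ 1 / ((N : ℝ) + 1) := Nat.one_div_le_one_div hj
    linarith [n3 i, n3 j]
  · obtain ⟨a', ha', h⟩ := C.exists_sharp ha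
    have hs := star_mem (mul_mem ha' hb)
    refine tendsto_iff_norm_sub_tendsto_zero.2 (squeeze_zero (fun _ => norm_nonneg _)
      (g := fun k : ℕ => √(1 / ((k : ℝ) + 1) * (C.T.n2 (star (a' * b)) ^ 2 + 1))) (fun k => ?_)
      (by simpa using (h0.mul_const (C.T.n2 (star (a' * b)) ^ 2 + 1)).sqrt))
    refine Real.le_sqrt_of_sq_le ?_
    have h2 := C.variation (w := x - n k) (s := star (a' * b)) (δ := 1 / ((k : ℝ) + 1)) fun t => by
      rw [sub_sub]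
      linarith [n3 k, hd _ (add_mem (n1 k) (C.N0.smul_mem hs t))]
    rwa [star_star, mul_assoc, ← h, mul_assoc, sub_mul, mul_sub, map_sub, norm_sub_rev] at h2

end Vale.Agent.P078G.Ctx
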