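import Vale.Agent.P078G.Defs
import Mathlib.MeasureTheory.Integral.DominatedConvergence
import Mathlib.MeasureTheory.Integral.IntegralEqImproper
import Mathlib.Analysis.SpecialFunctions.ImproperIntegrals

/-! The local density integrated over the scales. -/

namespace Vale.Agent.P078G

open Finset Vale.Agent.P078 MeasureTheory
open scoped ComplexConjugate

variable {V J : Type*} [DecidableEq V] [Fintype J] [DecidableEq J] {Q : Polynomial ℝ}
  {Λ Λ' : Finset V} {v : V}

open Polynomial in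
lemma exists_prod_one_sub {p : ℂ[X]} (h : p.eval 0 = 1) :
    ∃ a : Multiset ℂ, p = (a.map fun t => 1 - C t * X).prod := by
  have hs := IsAlgClosed.splits p
  have hr : ∀ r ∈ p.roots, r ≠ 0 := fun r hr e => by
    have := isRoot_of_mem_roots hr
    rw [e, IsRoot, h] at this
    exact one_ne_zero this
  refine ⟨p.roots.map (·⁻¹), Polynomial.funext fun x => ?_⟩
  have h1 := hs.eval_eq_prod_roots 0
  rw [h] at h1
  have h2 : (p.roots.map (x - ·)).prod =
      (p.roots.map (0 - ·)).prod * (p.roots.map fun r => 1 - r⁻¹ * x).prod := by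
    rw [← Multiset.prod_map_mul]
    congr 1
    refine Multiset.map_congr rfl fun r h => ?_
    have := hr r h
    field_simp
    ring
  rw [hs.eval_eq_prod_roots, h2, ← mul_assoc, ← h1, one_mul, eval_multiset_prod,
    Multiset.map_map, Multiset.map_map]
  simp

open PowerSeries in
lemma euler_prodC (μ : Multiset ℂ) :
    (μ.card : ℂ⟦X⟧) * (μ.map fun t => 1 - C t * X).prod -
      X * d⁄dX ℂ (μ.map fun t => 1 - C t * X).prod =
    (μ.map fun t => 1 - C t * X).prod * (μ.map fun t => mk fun i => t ^ i).sum := by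
  induction μ using Multiset.induction_on with
  | empty => simp
  | cons t μ ih =>
    have h := geom_mul t
    have hd : d⁄dX ℂ (1 - C t * X) = -C t := by simp [derivative_C]
    simp only [Multiset.map_cons, Multiset.prod_cons, Multiset.sum_cons, Multiset.card_cons,
      Derivation.leibniz, hd, smul_eq_mul, Nat.cast_succ]
    linear_combination (1 - C t * X) * ih - (μ.map fun t => 1 - C t * X).prod * h

lemma sum_coeff_gsC {c : Finset V → ℂ} (h0 : c ∅ = 1) {a : Multiset ℂ}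
    (h1 : Pt c Λ = (a.map fun t => 1 - PowerSeries.C t * PowerSeries.X).prod) {i : ℕ}
    (hi : i ≠ 0) : ∑ v ∈ Λ, PowerSeries.coeff i (gs c Λ v) = (a.map (· ^ i)).sum := by
  have h2 := euler_prodC a
  rw [← h1] at h2
  have h3 : ∑ v ∈ Λ, gs c Λ v = PowerSeries.C ((Λ.card : ℂ) - a.card) +
      (a.map fun t => PowerSeries.mk fun i => t ^ i).sum := by
    have h4 := Pt_mul_inv (Λ := Λ) h0
    simp only [gs]
    rw [← sum_mul, euler_Pt, map_sub, map_natCast, map_natCast]
    linear_combination (Pt c Λ)⁻¹ * h2 + ((Λ.card : PowerSeries ℂ) - a.card +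
      (a.map fun t => PowerSeries.mk fun i => t ^ i).sum) * h4
  rw [← map_sum, h3, map_add, PowerSeries.coeff_C, if_neg hi, zero_add, map_multiset_sum,
    Multiset.map_map]
  simp

theorem exists_fac {c : Finset V → ℂ} (h0 : c ∅ = 1) (Λ : Finset V) : ∃ a : Multiset ℂ,
    (∀ τ, ∑ S ∈ Λ.powerset, c S * τ ^ S.card = fac a τ) ∧ ∀ Q : Polynomial ℝ, Q.coeff 0 = 0 →
      Tot Q c Λ = (a.map fun t => Polynomial.aeval t Q).sum.re := by
  obtain ⟨a, ha⟩ := exists_prod_one_sub
    (p := ∑ S ∈ Λ.powerset, Polynomial.C (c S) * Polynomial.X ^ S.card) (by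
      rw [Polynomial.eval_finsetSum, sum_eq_single ∅]
      · simp [h0]
      · intro S _ h
        simp [zero_pow fun h' => h (card_eq_zero.1 h')]
      · simp)
  refine ⟨a, fun τ => ?_, fun Q hQ => ?_⟩
  · have h := congrArg (Polynomial.eval τ) ha
    rw [Polynomial.eval_finsetSum, Polynomial.eval_multiset_prod, Multiset.map_map] at h
    simpa [fac, mul_comm τ] using h
  · have h3 := congrArg (Polynomial.coeToPowerSeries.ringHom (R := ℂ)) ha
    rw [map_sum, map_multiset_prod, Multiset.map_map] at h3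
    have h1 : Pt c Λ = (a.map fun t => 1 - PowerSeries.C t * PowerSeries.X).prod := by
      simpa [Pt, Function.comp_def] using h3
    have h2 : Tot Q c Λ = ∑ i ∈ range (Q.natDegree + 1), Q.coeff i * (a.map (· ^ i)).sum.re := by
      unfold Tot phi
      rw [sum_comm]
      refine sum_congr rfl fun i _ => ?_
      rcases eq_or_ne i 0 with rfl | hi
      · simp [hQ]
      · rw [← mul_sum, ← Complex.re_sum, sum_coeff_gsC h0 h1 hi]
    rw [h2]
    clear h1 h2 h3 ha
    induction a using Multiset.induction_on with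
    | empty => simp
    | cons t a ih =>
      simp only [Multiset.map_cons, Multiset.sum_cons, Complex.add_re, mul_add, sum_add_distrib,
        ih]
      rw [Polynomial.aeval_eq_sum_range, Complex.re_sum]
      simp

lemma gs_rescale {c : Finset V → ℂ} (h0 : c ∅ = 1) (m : ℂ) :
    gs (fun S => c S * m ^ S.card) Λ v = PowerSeries.rescale m (gs c Λ v) := by
  have h1 : ∀ Λ : Finset V, Pt (fun S => c S * m ^ S.card) Λ = PowerSeries.rescale m (Pt c Λ) := by
    intro Λ
    ext i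
    rw [PowerSeries.coeff_rescale, coeff_Pt, coeff_Pt, mul_sum]
    refine sum_congr rfl fun S _ => ?_
    split_ifs with h
    · rw [h, mul_comm]
    · simp
  have h2 : PowerSeries.rescale m (Pt c Λ)⁻¹ = (Pt (fun S => c S * m ^ S.card) Λ)⁻¹ := by
    rw [PowerSeries.eq_inv_iff_mul_eq_one (by rw [const_Pt, h0]; simp), h1, ← map_mul, mul_comm,
      Pt_mul_inv h0, map_one]
  rw [gs, gs, map_mul, h2, h1]

lemma coeff_one_gs {c : Finset V → ℂ} (h0 : c ∅ = 1) (h1 : c {v} = 0) :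
    PowerSeries.coeff 1 (gs c Λ v) = 0 := by
  have h2 : PowerSeries.X ^ 2 ∣ Pt c Λ - Pt c (Λ.erase v) := by
    unfold Pt
    rw [← sum_sdiff (powerset_mono.2 (erase_subset v Λ)), add_sub_cancel_right]
    refine dvd_sum fun S hS => ?_
    obtain ⟨hS, hn⟩ := mem_sdiff.1 hS
    have hv : v ∈ S := by
      by_contra hv
      exact hn (mem_powerset.2 (subset_erase.2 ⟨mem_powerset.1 hS, hv⟩))
    by_cases e : S = {v}
    · rw [e, h1, map_zero, zero_mul]
      exact dvd_zero _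
    · refine Dvd.dvd.mul_left (pow_dvd_pow _ ?_) _
      by_contra hlt
      have h3 : S.card ≤ 1 := by omega
      exact e (eq_singleton_iff_unique_mem.2 ⟨hv, fun x hx => card_le_one.1 h3 x hx v hv⟩)
  have h3 : gs c Λ v = 1 - (Pt c Λ - Pt c (Λ.erase v)) * (Pt c Λ)⁻¹ := by
    have := Pt_mul_inv (Λ := Λ) h0
    unfold gs
    linear_combination this
  rw [h3, map_sub, PowerSeries.X_pow_dvd_iff.1 (h2.mul_right _) 1 (by norm_num)]
  simp [PowerSeries.coeff_one]

lemma exists_phi_bound {X : Type*} [TopologicalSpace X] [CompactSpace X] {c : X → Finset V → ℂ}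
    (hc : ∀ S, Continuous fun x => c x S) (h0 : ∀ x, c x ∅ = 1) (h1 : ∀ x, c x {v} = 0)
    (hQ : Q.coeff 0 = 0) (hv : v ∈ Λ) (R : ℝ) : ∃ C, ∀ x (ζ : V → ℂ) (m : ℝ), 0 ≤ m → m ≤ R →
      (∀ y ∈ Λ, ‖ζ y‖ ≤ m) → |phi Q (fun S => c x S * ∏ y ∈ S, ζ y) Λ v| ≤ C * m ^ 2 := by
  have hK : IsCompact ((Set.univ : Set X) ×ˢ
      Set.pi Set.univ fun _ : V => Metric.closedBall (0 : ℂ) 1) :=
    isCompact_univ.prod (isCompact_univ_pi fun _ => isCompact_closedBall _ _)
  have hB : ∀ i : ℕ, ∃ B : ℝ, ∀ x (ζ : V → ℂ), (∀ y, ‖ζ y‖ ≤ 1) →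
      ‖PowerSeries.coeff i (gs (fun S => c x S * ∏ y ∈ S, ζ y) Λ v)‖ ≤ B := by
    intro i
    have h2 : Continuous fun p : X × (V → ℂ) =>
        PowerSeries.coeff i (gs (fun S => c p.1 S * ∏ y ∈ S, p.2 y) Λ v) :=
      coeff_gs_continuous (fun p => by simp [h0]) (fun S => ((hc S).comp continuous_fst).fun_mul
        (continuous_finsetProd _ fun y _ => (continuous_apply y).comp continuous_snd)) i
    obtain ⟨B, hB⟩ := hK.exists_bound_of_continuousOn h2.continuousOn
    exact ⟨B, fun x ζ h => hB (x, ζ) ⟨trivial, fun y _ => by simpa using h y⟩⟩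
  choose B hB using hB
  refine ⟨∑ i ∈ range (Q.natDegree + 1), |Q.coeff i| * (max R 1 ^ i * B i),
    fun x ζ m hm hR hζ => ?_⟩
  obtain ⟨ζ', h3, h4⟩ : ∃ ζ' : V → ℂ, (∀ y, ‖ζ' y‖ ≤ 1) ∧ ∀ y ∈ Λ, ζ y = ζ' y * m := by
    refine ⟨fun y => if y ∈ Λ then ζ y / m else 0, fun y => ?_, fun y hy => ?_⟩
    · beta_reduce
      split_ifs with hy
      · rw [norm_div, Complex.norm_real, Real.norm_of_nonneg hm]
        exact div_le_one_of_le₀ (hζ y hy) hm
      · simp
    · beta_reduce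
      rw [if_pos hy]
      rcases hm.eq_or_lt with rfl | hm'
      · simpa using hζ y hy
      · rw [div_mul_cancel₀ _ (Complex.ofReal_ne_zero.2 hm'.ne')]
  rw [phi_congr (c' := fun S => (c x S * ∏ y ∈ S, ζ' y) * (m : ℂ) ^ S.card) fun S hS => by
    rw [prod_congr rfl fun y hy => h4 y (hS hy), prod_mul_distrib, prod_const, mul_assoc],
    phi, gs_rescale (by simp [h0]), sum_mul]
  refine (abs_sum_le_sum_abs _ _).trans (sum_le_sum fun i _ => ?_)
  have hB0 : 0 ≤ B i := (norm_nonneg _).trans (hB i x ζ' h3)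
  have hM : (1 : ℝ) ≤ max R 1 := le_max_right _ _
  rw [PowerSeries.coeff_rescale]
  match i with
  | 0 => simp [hQ]
  | 1 =>
    rw [coeff_one_gs (by simp [h0]) (by simp [h1])]
    simp only [mul_zero, Complex.zero_re, abs_zero]
    positivity
  | i + 2 =>
    rw [abs_mul, mul_assoc]
    refine mul_le_mul_of_nonneg_left ((Complex.abs_re_le_norm _).trans ?_) (abs_nonneg _)
    rw [norm_mul, norm_pow, Complex.norm_real, Real.norm_of_nonneg hm, mul_right_comm]
    refine mul_le_mul ?_ (hB _ x ζ' h3) (norm_nonneg _) (by positivity)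
    rw [pow_add]
    refine mul_le_mul_of_nonneg_right ?_ (by positivity)
    exact (pow_le_pow_left₀ hm (hR.trans (le_max_left _ _)) i).trans
      (pow_le_pow_right₀ hM (by omega))

variable {A A' : J → V → V → ℂ} {t : ℝ} {ω ω' : V → ℝ} {σ σ' : V → Sx J}

lemma cc_singleton (hd : ∀ j, A j v v = 0) (q : V → J → ℝ) : cc A q {v} = 0 := by
  unfold cc PZ PP
  refine sum_eq_zero fun s hs => ?_
  by_cases h : ∃ j, v ∈ s j
  · obtain ⟨j, hj⟩ := h
    have h1 : s j = {v} := by
      have := mem_powerset.1 (Fintype.mem_piFinset.1 hs j)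
      exact Subset.antisymm this (singleton_subset_iff.2 hj)
    rw [prod_eq_zero (f := fun j => mm A j (s j)) (mem_univ j), mul_zero]
    rw [h1, mm, mnr_singleton, hd, neg_zero]
  · push Not at h
    rw [prod_singleton, filter_false_of_mem fun j _ => h j]
    simp [mix_apply, dl_apply]

lemma re_lev (t ω k u : ℝ) : (lev t ω k (u * Complex.I)).re = t := by
  simp [lev, Complex.div_re]

lemma im_lev (t ω k u : ℝ) : (lev t ω k (u * Complex.I)).im = u / ω + k * ω / u := by
  have h : (k * ω : ℂ) / (u * Complex.I) = -((k * ω / u : ℝ) * Complex.I) := by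
    rw [← div_div, Complex.div_I]
    push_cast
    rfl
  have h' : (u * Complex.I : ℂ) / ω = ((u / ω : ℝ) * Complex.I) := by
    push_cast
    ring
  rw [lev, h, h']
  simp

lemma cu_empty (u : ℝ) : cu A t ω σ u ∅ = 1 := by
  simp [cu, cc_empty]

lemma lev_ne_zero (ht : 0 < t) (ω k u : ℝ) : lev t ω k (u * Complex.I) ≠ 0 := fun h => by
  have := re_lev t ω k u
  rw [h, Complex.zero_re] at this
  exact ht.ne this

lemma norm_inv_lev_le {w k u D : ℝ} (ht : 0 < t) (hw : 0 < w) (hD : w ≤ D) (hD' : 1 / t ≤ D)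
    (hk : 0 ≤ k) (hu : 0 < u) : ‖(lev t w k (u * Complex.I))⁻¹‖ ≤ D / √(1 + u ^ 2) := by
  have hD0 : 0 < D := hw.trans_le hD
  have hn := norm_pos_iff.2 (lev_ne_zero ht w k u)
  rw [norm_inv, inv_eq_one_div, div_le_div_iff₀ hn (Real.sqrt_pos.2 (by positivity)), one_mul]
  refine Real.sqrt_le_iff.2 ⟨by positivity, ?_⟩
  rw [mul_pow, Complex.sq_norm, Complex.normSq_apply, re_lev, im_lev]
  have h1 : 1 ≤ D * t := by rwa [div_le_iff₀ ht] at hD'
  have h2 : u ≤ D * (u / w + k * w / u) := by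
    have h3 : u ≤ D * (u / w) := by
      rw [← mul_div_assoc, le_div_iff₀ hw]
      nlinarith
    have h4 : 0 ≤ D * (k * w / u) := by positivity
    linarith
  nlinarith [mul_le_mul h1 h1 zero_le_one (by linarith), mul_le_mul h2 h2 hu.le (by linarith)]

lemma int_ext {f g : ℝ → ℝ} (h : ∀ u, f u = g u) :
    ∫ u in Set.Ioi (0 : ℝ), f u = ∫ u in Set.Ioi (0 : ℝ), g u := by
  simp only [h]

section core

variable {X : Type*} [TopologicalSpace X] {c : X → Finset V → ℂ} {w : X → V → ℝ} {k : V → ℝ}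

/-- The density at scale `u` for abstract coefficients. -/
noncomputable def fu (Q : Polynomial ℝ) (t : ℝ) (c : Finset V → ℂ) (w k : V → ℝ) (Λ : Finset V)
    (v : V) (u : ℝ) : ℝ :=
  phi Q (fun S => c S * ∏ y ∈ S, (lev t (w y) (k y) (u * Complex.I))⁻¹) Λ v

lemma fu_bound [CompactSpace X] (hc : ∀ S, Continuous fun x => c x S) (h0 : ∀ x, c x ∅ = 1)
    (h1 : ∀ x, c x {v} = 0) (hw : ∀ y ∈ Λ, Continuous fun x => w x y)
    (hw' : ∀ x, ∀ y ∈ Λ, 0 < w x y) (hk : ∀ y ∈ Λ, 0 ≤ k y) (hQ : Q.coeff 0 = 0) (ht : 0 < t)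
    (hv : v ∈ Λ) : ∃ C, ∀ x u, 0 < u → ‖fu Q t (c x) (w x) k Λ v u‖ ≤ C * (1 + u ^ 2)⁻¹ := by
  obtain ⟨W, hW⟩ := isCompact_univ.exists_bound_of_continuousOn
    (continuous_finsetSum Λ hw).continuousOn
  set D := max W (1 / t) with hD
  have hD0 : 0 < D := lt_max_of_lt_right (by positivity)
  obtain ⟨C, hC⟩ := exists_phi_bound hc h0 h1 hQ hv D
  refine ⟨C * D ^ 2, fun x u hu => ?_⟩
  have hs : 1 ≤ √(1 + u ^ 2) := Real.one_le_sqrt.2 (by nlinarith)
  refine (hC x _ (D / √(1 + u ^ 2)) (by positivity) (div_le_self hD0.le hs) fun y hy => ?_).trans_eq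
    ?_
  · refine norm_inv_lev_le ht (hw' x y hy) (le_trans ?_ (le_max_left _ _)) (le_max_right _ _)
      (hk y hy) hu
    exact (single_le_sum (fun z hz => (hw' x z hz).le) hy).trans
      ((le_abs_self _).trans (hW x trivial))
  · rw [div_pow, Real.sq_sqrt (by positivity)]
    ring

lemma fu_continuousOn {c : Finset V → ℂ} {w : V → ℝ} (h0 : c ∅ = 1) (ht : 0 < t) :
    ContinuousOn (fu Q t c w k Λ v) (Set.Ioi 0) := by
  rw [continuousOn_iff_continuous_domRestrict]
  refine phi_continuous (c := fun u : Set.Ioi (0 : ℝ) => fun S => c S *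
    ∏ y ∈ S, (lev t (w y) (k y) ((u : ℝ) * Complex.I))⁻¹) (fun _ => by simp [h0]) fun S => ?_
  refine continuous_const.fun_mul (continuous_finsetProd _ fun y _ => ?_)
  refine Continuous.fun_inv₀ ?_ fun u => lev_ne_zero ht _ _ _
  unfold lev
  refine Continuous.fun_sub (by fun_prop) (continuous_const.div₀ (by fun_prop) fun u => ?_)
  exact mul_ne_zero (Complex.ofReal_ne_zero.2 (ne_of_gt u.2)) Complex.I_ne_zero

lemma fu_continuous (hc : ∀ S, Continuous fun x => c x S) (h0 : ∀ x, c x ∅ = 1)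
    (hw : ∀ y, Continuous fun x => w x y) (hw' : ∀ x y, 0 < w x y) (ht : 0 < t) (u : ℝ) :
    Continuous fun x => fu Q t (c x) (w x) k Λ v u := by
  refine phi_continuous (fun _ => by simp [h0]) fun S => ?_
  refine (hc S).fun_mul (continuous_finsetProd _ fun y _ => ?_)
  refine Continuous.fun_inv₀ ?_ fun x => lev_ne_zero ht _ _ _
  unfold lev
  have := hw y
  refine Continuous.fun_sub (continuous_const.fun_add (continuous_const.div₀ (by fun_prop)
    fun x => ?_)) (by fun_prop)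
  exact Complex.ofReal_ne_zero.2 (hw' x y).ne'

lemma fu_integral_continuous [CompactSpace X] [FirstCountableTopology X]
    (hc : ∀ S, Continuous fun x => c x S) (h0 : ∀ x, c x ∅ = 1)
    (h1 : ∀ x, c x {v} = 0) (hw : ∀ y, Continuous fun x => w x y)
    (hw' : ∀ x y, 0 < w x y) (hk : ∀ y ∈ Λ, 0 ≤ k y) (hQ : Q.coeff 0 = 0) (ht : 0 < t)
    (hv : v ∈ Λ) : Continuous fun x => ∫ u in Set.Ioi (0 : ℝ), fu Q t (c x) (w x) k Λ v u := by
  obtain ⟨C, hC⟩ := fu_bound hc h0 h1 (fun y _ => hw y) (fun x y _ => hw' x y) hk hQ ht hv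
  refine continuous_of_dominated (bound := fun u => C * (1 + u ^ 2)⁻¹)
    (fun x => (fu_continuousOn (h0 x) ht).aestronglyMeasurable measurableSet_Ioi)
    (fun x => ?_) (integrable_inv_one_add_sq.const_mul C).integrableOn
    (ae_of_all _ fun u => fu_continuous hc h0 hw hw' ht u)
  exact (ae_restrict_iff' measurableSet_Ioi).2 (ae_of_all _ fun u hu => hC x u hu)

end core

lemma integrable_phi (hQ : Q.coeff 0 = 0) (ht : 0 < t) (hd : ∀ j, A j v v = 0)
    (hω : ∀ y ∈ Λ, 0 < ω y) (hk : ∀ y ∈ Λ, 0 ≤ (σ y).2) (hv : v ∈ Λ) :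
    IntegrableOn (fun u => phi Q (cu A t ω σ u) Λ v) (Set.Ioi 0) := by
  obtain ⟨C, hC⟩ := fu_bound (X := Unit) (c := fun _ => cc A fun y => (σ y).1) (w := fun _ => ω)
    (fun _ => continuous_const) (fun _ => cc_empty) (fun _ => cc_singleton hd _)
    (fun _ _ => continuous_const) (fun _ => hω) hk hQ ht hv
  refine Integrable.mono' (integrable_inv_one_add_sq.const_mul C).integrableOn
    ((fu_continuousOn (c := cc A fun y => (σ y).1) (w := ω) (k := fun y => (σ y).2) cc_empty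
      ht).aestronglyMeasurable measurableSet_Ioi) ?_
  exact (ae_restrict_iff' measurableSet_Ioi).2 (ae_of_all _ fun u hu => hC () u hu)

lemma TT_eq (hQ : Q.coeff 0 = 0) (ht : 0 < t) (hd : ∀ j v, A j v v = 0)
    (hω : ∀ y ∈ Λ, 0 < ω y) (hk : ∀ y ∈ Λ, 0 ≤ (σ y).2) :
    IntegrableOn (fun u => Tot Q (cu A t ω σ u) Λ) (Set.Ioi 0) ∧
      TT Q A t ω σ Λ = ∫ u in Set.Ioi (0 : ℝ), Tot Q (cu A t ω σ u) Λ := by
  have h := fun v hv => integrable_phi (A := A) (σ := σ) (v := v) hQ ht (fun j => hd j v) hω hk hv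
  exact ⟨integrable_finsetSum Λ h, (integral_finsetSum Λ h).symm⟩

lemma continuous_ph {X : Type*} [TopologicalSpace X] [CompactSpace X] {A : X → J → V → V → ℂ}
    (hA : ∀ j a b, Continuous fun x => A x j a b) (hd : ∀ x j, A x j v v = 0) {ω : X → V → ℝ}
    (hω : ∀ y ∈ Λ, Continuous fun x => ω x y) (hω' : ∀ x, ∀ y ∈ Λ, 0 < ω x y)
    (hk : ∀ y ∈ Λ, 0 ≤ (σ y).2) (hQ : Q.coeff 0 = 0) (ht : 0 < t) (hv : v ∈ Λ) :
    Continuous fun x => ph Q (A x) t (ω x) σ Λ v := by
  let Φ : X → (Λ.powerset → ℂ) × (Λ → ℝ) := fun x =>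
    (fun S => cc (A x) (fun y => (σ y).1) S, fun y => ω x y)
  have hΦ : Continuous Φ := (continuous_pi fun S => cc_continuous hA).prodMk
    (continuous_pi fun y => hω y y.2)
  have : CompactSpace (Set.range Φ) := isCompact_iff_compactSpace.1 (isCompact_range hΦ)
  let c : Set.range Φ → Finset V → ℂ := fun p S =>
    if h : S ∈ Λ.powerset then p.1.1 ⟨S, h⟩ else 0
  let w : Set.range Φ → V → ℝ := fun p y => if h : y ∈ Λ then p.1.2 ⟨y, h⟩ else 1
  have h1 := fu_integral_continuous (c := c) (w := w) (k := fun y => (σ y).2) (v := v)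
    (fun S => by
      by_cases h : S ∈ Λ.powerset
      · simp only [c, dif_pos h]
        fun_prop
      · simp only [c, dif_neg h]
        exact continuous_const)
    (by
      rintro ⟨_, x, rfl⟩
      simp only [c, dif_pos (empty_mem_powerset Λ), Φ, cc_empty])
    (by
      rintro ⟨_, x, rfl⟩
      simp only [c, dif_pos (mem_powerset.2 (singleton_subset_iff.2 hv)), Φ, cc_singleton (hd x)])
    (fun y => by
      by_cases h : y ∈ Λ
      · simp only [w, dif_pos h]
        fun_prop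
      · simp only [w, dif_neg h]
        exact continuous_const)
    (by
      rintro ⟨_, x, rfl⟩ y
      by_cases h : y ∈ Λ
      · simpa only [w, dif_pos h, Φ] using hω' x y h
      · simp only [w, dif_neg h, zero_lt_one]) hk hQ ht hv
  refine (h1.comp (hΦ.rangeFactorization)).congr fun x => ?_
  simp only [Function.comp_apply, ph, fu]
  refine int_ext fun u => ?_
  refine phi_congr fun S hS => ?_
  simp only [c, dif_pos (mem_powerset.2 hS), cu, lv]
  congr 1
  refine prod_congr rfl fun y hy => ?_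
  simp only [w, dif_pos (hS hy)]
  rfl

lemma ph_congr (hA : ∀ j, ∀ a ∈ Λ, ∀ b ∈ Λ, A j a b = A' j a b) (hω : ∀ y ∈ Λ, ω y = ω' y)
    (hσ : ∀ y ∈ Λ, σ y = σ' y) : ph Q A t ω σ Λ v = ph Q A' t ω' σ' Λ v := by
  unfold ph
  refine int_ext fun u => ?_
  refine phi_congr fun S hS => ?_
  unfold cu lv
  rw [cc_congr (q' := fun v => (σ' v).1) (A' := A') (fun y hy => by rw [hσ y (hS hy)])
    fun j a ha b hb => hA j a (hS ha) b (hS hb),
    prod_congr rfl fun y hy => by rw [hω y (hS hy), hσ y (hS hy)]]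

lemma TT_congr (hA : ∀ j, ∀ a ∈ Λ, ∀ b ∈ Λ, A j a b = A' j a b) (hω : ∀ y ∈ Λ, ω y = ω' y)
    (hσ : ∀ y ∈ Λ, σ y = σ' y) : TT Q A t ω σ Λ = TT Q A' t ω' σ' Λ :=
  sum_congr rfl fun _ _ => ph_congr hA hω hσ

lemma ph_scale {c : ℝ} (hc : 0 < c) :
    ph Q A t (fun y => c * ω y) σ Λ v = c * ph Q A t ω σ Λ v := by
  have h := integral_comp_mul_left_Ioi (fun u => phi Q (cu A t ω σ u) Λ v) 0 (inv_pos.2 hc)
  rw [inv_inv, mul_zero, smul_eq_mul] at h
  unfold ph
  rw [← h]
  refine int_ext fun u => phi_congr fun S _ => ?_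
  unfold cu lv lev
  refine congrArg _ (prod_congr rfl fun y _ => congrArg _ ?_)
  push_cast
  simp only [div_eq_mul_inv, mul_inv, inv_inv]
  ring

lemma ph_image {V' : Type*} [DecidableEq V'] {e : V' → V} {Λ' : Finset V'} {v : V'}
    (he : Set.InjOn e Λ') (hv : v ∈ Λ') : ph Q A t ω σ (Λ'.image e) (e v) =
      ph Q (fun j a b => A j (e a) (e b)) t (fun a => ω (e a)) (fun a => σ (e a)) Λ' v := by
  unfold ph
  refine int_ext fun u => ?_
  rw [phi_image he hv]
  refine phi_congr fun S hS => ?_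
  unfold cu lv
  rw [cc_image (he.mono hS), prod_image (he.mono hS)]

lemma ph_gauge {g : V → ℂ} (hg : ∀ a, ‖g a‖ = 1) :
    ph Q (fun j a b => conj (g a) * A j a b * g b) t ω σ Λ v = ph Q A t ω σ Λ v := by
  unfold ph
  refine int_ext fun u => ?_
  refine phi_congr fun S _ => ?_
  unfold cu
  rw [cc_gauge hg]

lemma ph_perm (π : Equiv.Perm J) :
    ph Q (fun j => A (π j)) t ω (fun y => (fun j => (σ y).1 (π j), (σ y).2)) Λ v =
      ph Q A t ω σ Λ v := by
  unfold ph
  refine int_ext fun u => ?_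
  refine phi_congr fun S _ => ?_
  unfold cu lv
  rw [← cc_perm (A := A) π]

lemma cu_zero {S : Finset V} (hv : v ∈ S) (h : (σ v).1 = 0) (u : ℝ) : cu A t ω σ u S = 0 := by
  rw [cu, cc_zero hv h, zero_mul]

lemma ph_dead (hQ : Q.coeff 0 = 0) (h : (σ v).1 = 0) : ph Q A t ω σ Λ v = 0 := by
  unfold ph
  simp only [phi_dead (cu_empty _) fun S _ hv => cu_zero hv h _,
    ← Polynomial.coeff_zero_eq_eval_zero, hQ, integral_zero]

lemma ph_local {d : V → ℕ} (hv : d v = 0)
    (hm : ∀ a ∈ Λ, ∀ b ∈ Λ, d a + 1 < d b → (σ a).1 = 0 ∨ (σ b).1 = 0 ∨ ∀ j, A j a b = 0)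
    (hΛ : Λ' ⊆ Λ) (hd : ∀ y ∈ Λ, y ∉ Λ' → Q.natDegree + 1 < d y) :
    ph Q A t ω σ Λ v = ph Q A t ω σ Λ' v := by
  unfold ph
  refine int_ext fun u => ?_
  refine phi_local (cu_empty _) hv (fun S hS T hT h => ?_) hΛ hd
  by_cases h1 : ∃ a ∈ S, (σ a).1 = 0
  · obtain ⟨a, ha, h1⟩ := h1
    rw [cu_zero (mem_union_left _ ha) h1, cu_zero ha h1, zero_mul]
  by_cases h2 : ∃ b ∈ T, (σ b).1 = 0
  · obtain ⟨b, hb, h2⟩ := h2
    rw [cu_zero (mem_union_right _ hb) h2, cu_zero hb h2, mul_zero]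
  push Not at h1 h2
  have hdj : Disjoint S T := disjoint_left.2 fun a ha hb => by
    have := h a ha a hb
    omega
  unfold cu
  rw [cc_union hdj fun j a ha b hb => ((hm a (hS ha) b (hT hb) (h a ha b hb)).resolve_left
    (h1 a ha)).resolve_left (h2 b hb) j, prod_union hdj]
  ring

lemma Pt_dead {c : Finset V → ℂ} (h : ∀ S, v ∈ S → c S = 0) (Λ : Finset V) :
    Pt c (Λ.erase v) = Pt c Λ := by
  refine sum_subset (powerset_mono.2 (erase_subset _ _)) fun S hS hn => ?_
  rw [h S, map_zero, zero_mul]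
  by_contra hv
  exact hn (mem_powerset.2 (subset_erase.2 ⟨mem_powerset.1 hS, hv⟩))

lemma TT_dead (hQ : Q.coeff 0 = 0) (h : (σ v).1 = 0) :
    TT Q A t ω σ Λ = TT Q A t ω σ (Λ.erase v) := by
  unfold TT
  rw [← sum_erase Λ (ph_dead hQ h)]
  refine sum_congr rfl fun x _ => ?_
  unfold ph phi gs
  refine int_ext fun u => ?_
  rw [erase_right_comm, Pt_dead fun S hS => cu_zero hS h u, Pt_dead fun S hS => cu_zero hS h u]

lemma TT_empty : TT Q A t ω σ ∅ = 0 := by
  simp [TT]

end Vale.Agent.P078G
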