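import Vale.Agent.P078G.Defs
import Vale.Agent.P078G.TotC

/-! Partial fractions of the self energy. -/

namespace Vale.Agent.P078G

open Finset Vale.Agent.P078 Polynomial
open scoped ComplexConjugate

namespace PFX

open Filter Topology

lemma key {a : ℂ} {m : ℕ} (hm : 1 ≤ m) (h : ∀ w : ℂ, 0 < w.im → (a / w ^ m).im ≤ 0) :
    a.im = 0 ∧ 0 ≤ a.re ∧ (2 ≤ m → a.re = 0) := by
  have m1 : (1 : ℝ) ≤ m := by exact_mod_cast hm
  have pi0 := Real.pi_pos
  have h1 : ∀ θ ∈ Set.Ioo (0 : ℝ) (m * Real.pi), a.im * Real.cos θ - a.re * Real.sin θ ≤ 0 := by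
    intro θ hθ
    have := h (Complex.exp ((θ / m : ℝ) * Complex.I)) (by
      rw [Complex.exp_ofReal_mul_I_im]
      exact Real.sin_pos_of_pos_of_lt_pi (div_pos hθ.1 (by linarith))
        (by rw [div_lt_iff₀ (by linarith)]; linarith [hθ.2]))
    have m0 : (m : ℂ) ≠ 0 := by exact_mod_cast (by omega : m ≠ 0)
    rw [← Complex.exp_nat_mul, div_eq_mul_inv, ← Complex.exp_neg,
      show -((m : ℂ) * ((θ / m : ℝ) * Complex.I)) = (-θ : ℝ) * Complex.I by push_cast; field_simp,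
      Complex.mul_im, Complex.exp_ofReal_mul_I_im, Complex.exp_ofReal_mul_I_re, Real.sin_neg,
      Real.cos_neg] at this
    linarith
  have h2 : ∀ θ ∈ Set.Icc (0 : ℝ) (m * Real.pi), a.im * Real.cos θ - a.re * Real.sin θ ≤ 0 := by
    rw [← closure_Ioo (by positivity)]
    exact fun θ hθ => (isClosed_le (f := fun θ => a.im * Real.cos θ - a.re * Real.sin θ)
      (by fun_prop) continuous_const).closure_subset_iff.2 h1 hθ
  have a1 := h2 0 ⟨le_rfl, by positivity⟩
  have a2 := h2 Real.pi ⟨pi0.le, by nlinarith⟩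
  have a3 := h2 (Real.pi / 2) ⟨by positivity, by nlinarith⟩
  simp only [Real.cos_zero, Real.sin_zero, Real.cos_pi, Real.sin_pi, Real.cos_pi_div_two,
    Real.sin_pi_div_two] at a1 a2 a3
  refine ⟨by linarith, by linarith, fun h3 => ?_⟩
  have m2 : (2 : ℝ) ≤ m := by exact_mod_cast h3
  have a4 := h2 (Real.pi / 2 + Real.pi) ⟨by positivity, by nlinarith⟩
  simp only [Real.cos_add_pi, Real.sin_add_pi, Real.cos_pi_div_two, Real.sin_pi_div_two] at a4
  linarith

lemma lim {g : ℂ → ℂ} {ν C : ℝ} {m : ℕ} (hm : 1 ≤ m) (hg : ContinuousAt g ν)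
    (h : ∀ᶠ z in 𝓝 (ν : ℂ), 0 < z.im → (g z / (z - ν) ^ m).im ≤ C) {w : ℂ} (hw : 0 < w.im) :
    (g ν / w ^ m).im ≤ 0 := by
  have t1 : Tendsto (fun ε : ℝ => (ν : ℂ) + ε * w) (𝓝[>] 0) (𝓝 ν) := by
    have : Continuous fun ε : ℝ => (ν : ℂ) + ε * w := by fun_prop
    simpa using (this.tendsto 0).mono_left nhdsWithin_le_nhds
  have t2 : Tendsto (fun ε : ℝ => ε ^ m * C) (𝓝[>] 0) (𝓝 0) := by
    have : Continuous fun ε : ℝ => ε ^ m * C := by fun_prop
    simpa [zero_pow (by omega : m ≠ 0)] using (this.tendsto 0).mono_left nhdsWithin_le_nhds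
  refine le_of_tendsto_of_tendsto ((Complex.continuous_im.tendsto _).comp
    ((hg.tendsto.comp t1).div_const (w ^ m))) t2 ?_
  filter_upwards [t1.eventually h, self_mem_nhdsWithin] with ε h1 h2
  have e0 : (0 : ℝ) < ε := h2
  have := h1 (by simpa using mul_pos e0 hw)
  have e1 : (ε : ℂ) ≠ 0 := by exact_mod_cast e0.ne'
  have e2 : g (ν + ε * w) / w ^ m = (ε ^ m : ℝ) * (g (ν + ε * w) / (ν + ε * w - ν) ^ m) := by
    rw [add_sub_cancel_left, mul_pow]; push_cast; field_simp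
  simp only [Function.comp]
  rw [e2, Complex.im_ofReal_mul]
  gcongr

lemma bdd {g : ℂ → ℂ} {z : ℂ} (hg : ContinuousAt g z) : ∃ C, ∀ᶠ y in 𝓝 z, (g y).im ≤ C :=
  ⟨_, ((Complex.continuous_im.continuousAt.comp hg).eventually_lt continuousAt_const
    (lt_add_one _)).mono fun _ h => h.le⟩

lemma aux (T : Finset ℝ) (n : ℕ) : ∀ D N : ℂ[X], D.natDegree = n → D ≠ 0 →
    (∀ z, D.eval z = 0 → ∃ ν ∈ T, z = ν) → N.degree < D.degree →
    (∀ ν : ℝ, ∃ C, ∀ᶠ z in 𝓝 (ν : ℂ), 0 < z.im → (N.eval z / D.eval z).im ≤ C) →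
    ∃ ρ : ℝ → ℝ, (∀ ν, 0 ≤ ρ ν) ∧
      ∀ z, D.eval z ≠ 0 → N.eval z / D.eval z = ∑ ν ∈ T, (ρ ν : ℂ) / (z - ν) := by
  induction n with
  | zero =>
    intro D N h0 h1 _ h3 _
    rw [degree_eq_natDegree h1, h0, Nat.cast_zero, Nat.WithBot.lt_zero_iff, degree_eq_bot] at h3
    exact ⟨0, fun _ => le_rfl, fun z _ => by simp [h3]⟩
  | succ n ih =>
    intro D N h0 h1 h2 h3 h4
    obtain ⟨z₀, hz₀⟩ := Complex.exists_root (f := D) (natDegree_pos_iff_degree_pos.1 (by omega))
    obtain ⟨ν, hν, rfl⟩ := h2 z₀ hz₀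
    obtain ⟨a, D₁, N₁, a0, e1, e2, e3⟩ : ∃ (a : ℝ) (D₁ N₁ : ℂ[X]), 0 ≤ a ∧
        D = (X - C (ν : ℂ)) * D₁ ∧ N - C (a : ℂ) * D₁ = (X - C (ν : ℂ)) * N₁ ∧
        (a = 0 ∨ D₁.eval (ν : ℂ) ≠ 0) := by
      by_cases hN : N.IsRoot ν
      · obtain ⟨D₁, e1⟩ := dvd_iff_isRoot.2 hz₀
        obtain ⟨N₁, e2⟩ := dvd_iff_isRoot.2 hN
        exact ⟨0, D₁, N₁, le_rfl, e1, by simpa using e2, Or.inl rfl⟩
      obtain ⟨E, e1, e2⟩ := exists_eq_pow_rootMultiplicity_mul_and_not_dvd D h1 ν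
      have m1 : 1 ≤ D.rootMultiplicity (ν : ℂ) := (rootMultiplicity_pos h1).2 hz₀
      generalize D.rootMultiplicity (ν : ℂ) = m at e1 m1
      rw [dvd_iff_isRoot, IsRoot.def] at e2
      obtain ⟨C₀, hC⟩ := h4 ν
      obtain ⟨k1, k2, k3⟩ := key m1 fun w hw => lim (g := fun z => N.eval z / E.eval z) (C := C₀) m1
        (N.continuousAt.div E.continuousAt e2) (hC.mono fun z hz h => by
          have := hz h
          rwa [e1, eval_mul, eval_pow, eval_sub, eval_X, eval_C, mul_comm, ← div_div] at this) hw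
      have k4 : N.eval (ν : ℂ) / E.eval (ν : ℂ) = ((N.eval (ν : ℂ) / E.eval (ν : ℂ)).re : ℂ) :=
        Complex.ext (by simp) (by simp [k1])
      obtain rfl : m = 1 := by
        by_contra hm
        rw [k3 (by omega)] at k4
        exact div_ne_zero hN e2 (by simpa using k4)
      obtain ⟨N₁, e3⟩ := dvd_iff_isRoot.2 (show (N - C ((N.eval (ν : ℂ) / E.eval (ν : ℂ)).re : ℂ)
        * E).IsRoot ν by
          rw [IsRoot.def, eval_sub, eval_mul, eval_C, ← k4, div_mul_cancel₀ _ e2, sub_self])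
      exact ⟨_, E, N₁, k2, by rwa [pow_one] at e1, e3, Or.inr e2⟩
    have d0 : D₁ ≠ 0 := fun h => h1 (by rw [e1, h, mul_zero])
    have ev : ∀ z, D.eval z = (z - ν) * D₁.eval z := fun z => by rw [e1]; simp
    have q : ∀ z, D.eval z ≠ 0 → N.eval z / D.eval z = N₁.eval z / D₁.eval z + a / (z - ν) := by
      intro z hz
      have := congrArg (eval z) e2
      simp only [eval_sub, eval_mul, eval_C, eval_X] at this
      rw [ev] at hz ⊢
      have := left_ne_zero_of_mul hz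
      have := right_ne_zero_of_mul hz
      field_simp
      linear_combination ‹eval z N - _ = _›
    have dd : D.degree = 1 + D₁.degree := by rw [e1, degree_mul, degree_X_sub_C]
    obtain ⟨ρ, r1, r2⟩ := ih D₁ N₁
      (by rw [e1, natDegree_mul (X_sub_C_ne_zero _) d0, natDegree_X_sub_C] at h0; omega) d0
      (fun z hz => h2 z (by rw [ev, hz, mul_zero])) (by
        have : ((X - C (ν : ℂ)) * N₁).degree < D.degree := by
          rw [← e2]
          refine (degree_sub_le _ _).trans_lt (max_lt h3 ((degree_mul_le_of_le degree_C_le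
            le_rfl).trans_lt ?_))
          rw [dd]
          exact WithBot.add_lt_add_right (degree_ne_bot.2 d0) zero_lt_one
        rwa [dd, degree_mul, degree_X_sub_C, WithBot.add_lt_add_iff_left (by simp)] at this)
      (fun μ => by
        obtain ⟨C₀, hC⟩ := h4 μ
        have nz : ∀ z : ℂ, 0 < z.im → D.eval z ≠ 0 := fun z hz h => by
          obtain ⟨y, -, rfl⟩ := h2 z h
          simp at hz
        by_cases hμ : a = 0 ∨ μ ≠ ν
        · obtain ⟨C₁, h5⟩ := bdd (g := fun z => -((a : ℂ) / (z - ν))) (z := μ) (by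
            rcases hμ with rfl | hμ
            · simpa using continuousAt_const
            · exact (continuousAt_const.div (by fun_prop)
                (sub_ne_zero.2 (by exact_mod_cast hμ))).neg)
          refine ⟨C₀ + C₁, ?_⟩
          filter_upwards [hC, h5] with z h6 h7 hz
          have := h6 hz
          rw [q z (nz z hz), Complex.add_im] at this
          rw [Complex.neg_im] at h7
          linarith
        · rw [not_or, not_not] at hμ
          obtain ⟨C₁, h5⟩ := bdd (g := fun z => N₁.eval z / D₁.eval z) (z := μ)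
            (N₁.continuousAt.div D₁.continuousAt (hμ.2 ▸ e3.resolve_left hμ.1))
          exact ⟨C₁, h5.mono fun z h _ => h⟩)
    refine ⟨fun x => ρ x + if x = ν then a else 0, fun x => ?_, fun z hz => ?_⟩
    · have := r1 x
      positivity
    · rw [q z hz, r2 z (right_ne_zero_of_mul (ev z ▸ hz))]
      have : ∀ x : ℝ, ((ρ x + if x = ν then a else 0 : ℝ) : ℂ) / (z - x) =
          ρ x / (z - x) + if x = ν then a / (z - ν) else 0 := fun x => by
        split_ifs with h <;> simp [h, add_div]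
      simp only [this, sum_add_distrib, sum_ite_eq', hν, if_true]

end PFX

theorem exists_poles {D : ℂ[X]} (hD : ∀ z : ℂ, z.im ≠ 0 → D.eval z ≠ 0) : ∃ T : Finset ℝ,
    (∀ ν ∈ T, D.eval (ν : ℂ) = 0) ∧ ∀ N : ℂ[X], N.degree < D.degree →
      (∀ z : ℂ, 0 < z.im → (N.eval z / D.eval z).im ≤ 0) → ∃ ρ : ℝ → ℝ, (∀ ν, 0 ≤ ρ ν) ∧
        ∀ z, D.eval z ≠ 0 → N.eval z / D.eval z = ∑ ν ∈ T, (ρ ν : ℂ) / (z - ν) := by
  have h0 : D ≠ 0 := fun h => hD Complex.I (by simp) (by simp [h])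
  have re : ∀ z, D.eval z = 0 → z = z.re := fun z hz =>
    Complex.ext (by simp) (by simpa using not_not.1 fun h => hD z h hz)
  refine ⟨D.roots.toFinset.image Complex.re, fun ν hν => ?_, fun N h1 h2 =>
    PFX.aux _ _ D N rfl h0 (fun z hz => ⟨z.re, mem_image_of_mem _ ?_, re z hz⟩) h1
      fun ν => ⟨0, Filter.Eventually.of_forall h2⟩⟩
  · obtain ⟨z, hz, rfl⟩ := mem_image.1 hν
    have := isRoot_of_mem_roots (Multiset.mem_toFinset.1 hz)
    rw [← re z this]; exact this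
  · exact Multiset.mem_toFinset.2 ((mem_roots h0).2 hz)

variable {V J : Type*} [DecidableEq V] [Fintype J] [DecidableEq J]

namespace PFX

noncomputable def Pv (t ω k : ℝ) : ℂ[X] := C (ω⁻¹ : ℂ) * X ^ 2 + C (t : ℂ) * X + C (-(k * ω) : ℂ)

lemma Pv_eval (t ω k : ℝ) {s : ℂ} (hs : s ≠ 0) : (Pv t ω k).eval s = s * lev t ω k s := by
  simp only [Pv, lev, eval_add, eval_mul, eval_C, eval_pow, eval_X]
  field_simp
  ring

lemma Pv_deg (t k : ℝ) {ω : ℝ} (h : 0 < ω) : (Pv t ω k).natDegree = 2 :=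
  natDegree_quadratic (inv_ne_zero (by exact_mod_cast h.ne'))

lemma lev_im (t ω k : ℝ) (s : ℂ) : (lev t ω k s).im = s.im * (ω⁻¹ + k * ω / Complex.normSq s) := by
  rw [lev, Complex.sub_im, Complex.add_im, Complex.div_ofReal_im, ← Complex.ofReal_mul,
    div_eq_mul_inv _ s, Complex.im_ofReal_mul, Complex.inv_im, Complex.ofReal_im]
  ring

noncomputable def WW (c : Finset V → ℂ) (P : V → ℂ[X]) (Λ : Finset V) : ℂ[X] :=
  ∑ S ∈ Λ.powerset, C (c S) * (X ^ S.card * ∏ v ∈ Λ \ S, P v)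

lemma WW_eval (c : Finset V → ℂ) {P : V → ℂ[X]} {Λ : Finset V} {s : ℂ} {Z : V → ℂ}
    (h : ∀ v, (P v).eval s = s * Z v) :
    (WW c P Λ).eval s = s ^ Λ.card * ∑ S ∈ Λ.powerset, c S * ∏ v ∈ Λ \ S, Z v := by
  rw [WW, eval_finsetSum, mul_sum]
  refine sum_congr rfl fun S hS => ?_
  simp only [eval_mul, eval_C, eval_pow, eval_X, eval_prod, h, prod_mul_distrib, prod_const]
  rw [← card_sdiff_add_card_eq_card (mem_powerset.1 hS), pow_add]
  ring

lemma WW_coeff (c : Finset V → ℂ) {P : V → ℂ[X]} (hP : ∀ v, (P v).natDegree = 2) {Λ : Finset V}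
    {m : ℕ} (hm : 2 * Λ.card ≤ m) : (WW c P Λ).coeff m = c ∅ * (∏ v ∈ Λ, P v).coeff m := by
  rw [WW, finsetSum_coeff, sum_eq_single ∅ (fun S hS h => ?_) (by simp)]
  · simp
  rw [coeff_C_mul, coeff_eq_zero_of_natDegree_lt, mul_zero]
  have h1 := natDegree_prod_le (Λ \ S) P
  simp only [hP, sum_const, smul_eq_mul] at h1
  have h2 := card_sdiff_add_card_eq_card (mem_powerset.1 hS)
  have h3 := card_pos.2 (nonempty_iff_ne_empty.2 h)
  have h4 := natDegree_mul_le (p := X ^ S.card) (q := ∏ v ∈ Λ \ S, P v)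
  rw [natDegree_X_pow] at h4
  omega

lemma WW_lt {c c' : Finset V → ℂ} (h : c ∅ = 0) (h' : c' ∅ = 1) {P : V → ℂ[X]}
    (hP : ∀ v, (P v).natDegree = 2) (Λ : Finset V) : (WW c P Λ).degree < (WW c' P Λ).degree := by
  have n0 : ∀ v ∈ Λ, P v ≠ 0 := fun v _ e => by simpa [e] using hP v
  refine lt_of_lt_of_le ?_ (le_degree_of_ne_zero (n := 2 * Λ.card) ?_)
  · rw [degree_lt_iff_coeff_zero]
    exact fun m hm => by rw [WW_coeff c hP hm, h, zero_mul]
  · have e : (∏ v ∈ Λ, P v).natDegree = 2 * Λ.card := by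
      rw [natDegree_prod _ _ n0]; simp [hP, mul_comm]
    rw [WW_coeff c' hP le_rfl, h', one_mul, ← e]
    exact leadingCoeff_ne_zero.2 (prod_ne_zero_iff.2 n0)

lemma expand_zero (A : J → V → V → ℂ) (q : V → J → ℝ) {Λ : Finset V} {x : V} (hx : x ∈ Λ)
    (Z : V → ℂ) : PZ A q Λ (Function.update Z x 0) =
      ∑ S ∈ (Λ.erase x).powerset, cc A q (insert x S) * ∏ v ∈ Λ.erase x \ S, Z v := by
  rw [PZ_expand]
  conv_lhs => rw [← insert_erase hx, sum_powerset_insert (notMem_erase x Λ), insert_erase hx]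
  rw [sum_eq_zero, zero_add]
  · refine sum_congr rfl fun S _ => ?_
    rw [sdiff_insert, ← erase_sdiff_comm]
    congr 1
    exact prod_congr rfl fun v hv =>
      Function.update_of_ne (ne_of_mem_erase (mem_sdiff.1 hv).1) _ _
  · intro S hS
    rw [prod_eq_zero (i := x) (mem_sdiff.2 ⟨hx, fun h => notMem_erase x Λ (mem_powerset.1 hS h)⟩)
      (Function.update_self _ _ _), mul_zero]

end PFX

open PFX in
theorem exists_pf {A : J → V → V → ℂ} (hA : ∀ j, Ctr (A j)) (hd : ∀ j v, A j v v = 0) (t : ℝ)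
    {ω : V → ℝ} (hω : ∀ v, 0 < ω v) {σ : V → Sx J} {Λ : Finset V} (hq : ∀ v ∈ Λ, Sub (σ v).1)
    (hk : ∀ v ∈ Λ, 0 ≤ (σ v).2) {x : V} (hx : x ∈ Λ) : ∃ (T : Finset ℝ) (ρ : J → ℝ → ℝ),
      (∀ j ν, 0 ≤ ρ j ν) ∧
      (∀ ν ∈ T, ν = 0 ∨ PZ A (fun v => (σ v).1) (Λ.erase x) (lv t ω σ ν) = 0) ∧
      ∀ (p : Sx J) (s : ℂ), s ≠ 0 → PZ A (fun v => (σ v).1) (Λ.erase x) (lv t ω σ s) ≠ 0 →
        PZ A (fun v => (Function.update σ x p v).1) Λ (lv t ω (Function.update σ x p) s) /
          PZ A (fun v => (σ v).1) (Λ.erase x) (lv t ω σ s) =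
        Hc t (ω x) p.2 T (fun ν => ∑ j, p.1 j * ρ j ν) s := by
  set q : V → J → ℝ := fun v => (σ v).1 with hqd
  set P : V → ℂ[X] := fun v => Pv t (ω v) (σ v).2
  have hP : ∀ v, (P v).natDegree = 2 := fun v => Pv_deg _ _ (hω v)
  set D := WW (cc A q) P (Λ.erase x)
  set N : J → ℂ[X] := fun j =>
    WW (fun S => -cc A (Function.update q x (Pi.single j 1)) (insert x S)) P (Λ.erase x)
  have eD : ∀ s, s ≠ 0 → D.eval s = s ^ (Λ.erase x).card * PZ A q (Λ.erase x) (lv t ω σ s) :=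
    fun s hs => by rw [WW_eval _ (Z := lv t ω σ s) fun v => Pv_eval _ _ _ hs, PZ_expand]
  have eN : ∀ j s, s ≠ 0 → (N j).eval s / D.eval s =
      -(PZ A (Function.update q x (Pi.single j 1)) Λ (Function.update (lv t ω σ s) x 0) /
        PZ A q (Λ.erase x) (lv t ω σ s)) := fun j s hs => by
    rw [WW_eval _ (Z := lv t ω σ s) fun v => Pv_eval _ _ _ hs, eD s hs,
      mul_div_mul_left _ _ (pow_ne_zero _ hs), expand_zero _ _ hx, ← neg_div, ← sum_neg_distrib]
    simp only [neg_mul]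
  have ps : ∀ v ∈ Λ, ∀ s : ℂ, 0 < (ω v)⁻¹ + (σ v).2 * ω v / Complex.normSq s := fun v hv s => by
    have := hω v
    have := hk v hv
    have := Complex.normSq_nonneg s
    positivity
  have sq : ∀ v ∈ Λ.erase x, Sub (q v) := fun v hv => hq v (mem_of_mem_erase hv)
  obtain ⟨T, h1, h2⟩ := exists_poles (D := D) fun z hz => by
    have z0 : z ≠ 0 := fun h => hz (by simp [h])
    rw [eD z z0]
    refine mul_ne_zero (pow_ne_zero _ z0) ?_
    rcases lt_or_gt_of_ne hz with h | h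
    · exact PZ_ne_zero reg_lower hA sq fun v hv => by
        show (lev _ _ _ _).im < 0
        rw [lev_im]; exact mul_neg_of_neg_of_pos h (ps v (mem_of_mem_erase hv) z)
    · exact PZ_ne_zero reg_upper hA sq fun v hv => by
        show 0 < (lev _ _ _ _).im
        rw [lev_im]; exact mul_pos h (ps v (mem_of_mem_erase hv) z)
  have h3 := fun j => h2 (N j) (WW_lt (by simp [cc_singleton fun j => hd j x]) cc_empty hP _)
    fun z hz => by
      have := pick_slot hA hq hx j (Z := fun v => if v ∈ Λ then lv t ω σ z v else 0) fun v => by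
        split_ifs with h
        · show 0 ≤ (lev _ _ _ _).im
          rw [lev_im]; exact (mul_pos hz (ps v h z)).le
        · simp
      rw [PZ_congr (Z' := Function.update (lv t ω σ z) x 0) (fun _ _ => rfl) (fun v hv => by
          rcases eq_or_ne v x with rfl | h
          · simp
          · simp [h, hv]),
        PZ_congr (Λ := Λ.erase x) (Z' := lv t ω σ z) (fun _ _ => rfl)
          fun v hv => if_pos (mem_of_mem_erase hv)] at this
      rw [eN j z (fun h => by simp [h] at hz), Complex.neg_im, neg_nonpos, div_eq_mul_inv,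
        Complex.inv_def, ← mul_assoc, Complex.im_mul_ofReal]
      exact mul_nonneg this (inv_nonneg.2 (Complex.normSq_nonneg _))
  choose ρ r1 r2 using h3
  refine ⟨T, ρ, r1, fun ν hν => ?_, fun p s hs h0 => ?_⟩
  · by_cases h : ν = 0
    · exact Or.inl h
    · have h' : (ν : ℂ) ≠ 0 := by exact_mod_cast h
      have := h1 ν hν
      rw [eD _ h'] at this
      exact Or.inr ((mul_eq_zero.1 this).resolve_left (pow_ne_zero _ h'))
  · have e : PZ A (fun v => (Function.update σ x p v).1) Λ (lv t ω (Function.update σ x p) s) =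
        PZ A (Function.update q x p.1) Λ (Function.update (lv t ω σ s) x (lev t (ω x) p.2 s)) :=
      PZ_congr (fun v _ => by rcases eq_or_ne v x with rfl | h <;> simp [*])
        fun v _ => by rcases eq_or_ne v x with rfl | h <;> simp [*, lv]
    have d0 : D.eval s ≠ 0 := by rw [eD s hs]; exact mul_ne_zero (pow_ne_zero _ hs) h0
    rw [e, PZ_update hx, add_div, mul_div_cancel_right₀ _ h0, Hc, sub_eq_add_neg, sum_div]
    congr 1
    push_cast
    simp only [sum_div]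
    rw [sum_comm, ← sum_neg_distrib]
    refine sum_congr rfl fun j _ => ?_
    have := (eN j s hs).symm.trans (r2 j s d0)
    rw [mul_div_assoc, neg_eq_iff_eq_neg.1 this, mul_neg, mul_sum]
    simp only [mul_div_assoc]

end Vale.Agent.P078G
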