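import Vale.Agent.P078G.Vol

/-! Selection of a colour. -/

namespace Vale.Agent.P078G

open Finset Vale.Agent.P078 MeasureTheory

variable {t ω k : ℝ} {T : Finset ℝ} {ρ : ℝ → ℝ}

lemma vp_nonneg : 0 ≤ vp t ω k T ρ := ENNReal.toReal_nonneg

namespace SelX

lemma vol_le {S U : Set ℝ} {a : ℝ} (hU : volume U ≠ ⊤) (ha : 0 ≤ a) (h : S ⊆ Set.Ioc 0 a ∪ U) :
    (volume S).toReal ≤ a + (volume U).toReal := by
  have h1 := measureReal_mono (μ := volume) h (measure_union_ne_top (by simp) hU)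
  have h2 := measureReal_union_le (μ := volume) (Set.Ioc 0 a) U
  rw [Real.volume_real_Ioc_of_le ha, sub_zero] at h2
  exact h1.trans h2

lemma le_vol {S : Set ℝ} {a b : ℝ} (hS : volume S ≠ ⊤) (h : Set.Ioo a b ⊆ S) :
    b - a ≤ (volume S).toReal := by
  have h1 := measureReal_mono (μ := volume) h hS
  rw [Real.volume_real_Ioo] at h1
  exact (le_max_left _ _).trans h1

lemma div_anti {r u v x : ℝ} (hr : 0 ≤ r) (h : u ≤ v) (hx : x < u ∨ v < x) :
    r / (v - x) ≤ r / (u - x) := by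
  rcases hx with hx | hx
  · gcongr
  · rw [← neg_div_neg_eq r, ← neg_div_neg_eq r (u - x), neg_div, neg_div, neg_le_neg_iff]
    gcongr
    linarith

lemma Hr_lt (hω : 0 < ω) (hk : 0 ≤ k) (hρ : ∀ ν, 0 ≤ ρ ν) {u v : ℝ} (h : u < v)
    (h0 : 0 < u ∨ v < 0) (hT : ∀ ν ∈ T, ν < u ∨ v < ν) : Hr t ω k T ρ u < Hr t ω k T ρ v := by
  have h1 := div_anti (mul_nonneg hk hω.le) h.le h0
  have h2 := sum_le_sum fun ν hν => div_anti (hρ ν) h.le (hT ν hν)
  have h3 : u / ω < v / ω := by gcongr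
  simp only [sub_zero] at h1
  unfold Hr
  linarith

lemma split (u : ℝ) : ∑ ν ∈ T, ρ ν / (u - ν) =
    ∑ ν ∈ T.filter (· ≤ 0), ρ ν / (u - ν) + ∑ ν ∈ T.filter (0 < ·), ρ ν / (u - ν) := by
  rw [← sum_filter_add_sum_filter_not T (· ≤ 0)]
  simp only [not_le]

lemma neg_part (hω : 0 < ω) (hk : 0 ≤ k) (hρ : ∀ ν, 0 ≤ ρ ν) :
    vp t ω 0 (T.filter (· ≤ 0)) ρ ≤ vp t ω k T ρ := by
  have h1 := vp_sub_vn (t := t) (T := T) hω hk hρ
  have h2 := vp_sub_vn (t := t) (T := T.filter (· ≤ 0)) hω le_rfl hρ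
  have h3 : vn t ω 0 (T.filter (· ≤ 0)) ρ ≤ vn t ω k T ρ :=
    ENNReal.toReal_mono (vn_ne_top hω hk hρ) (measure_mono fun u hu => ⟨hu.1, by
      have a := hu.2
      have b : k * ω / u ≤ 0 := div_nonpos_of_nonneg_of_nonpos (by positivity) hu.1.le
      have c : ∑ ν ∈ T.filter (0 < ·), ρ ν / (u - ν) ≤ 0 := sum_nonpos fun ν hν =>
        div_nonpos_of_nonneg_of_nonpos (hρ ν) (by linarith [hu.1, (mem_filter.1 hν).2])
      simp only [Hr, zero_mul, zero_div] at a ⊢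
      rw [split]
      linarith⟩)
  linarith

lemma pos_part (hω : 0 < ω) (hk : 0 ≤ k) (hρ : ∀ ν, 0 ≤ ρ ν) :
    vp t ω 0 (T.filter (0 < ·)) ρ ≤ vp t ω k T ρ :=
  ENNReal.toReal_mono (vp_ne_top hω hk hρ) (measure_mono fun u hu => ⟨hu.1, by
    have a := hu.2
    have u0 : 0 < u := hu.1
    have b : 0 ≤ k * ω / u := by positivity
    have c : 0 ≤ ∑ ν ∈ T.filter (· ≤ 0), ρ ν / (u - ν) := sum_nonneg fun ν hν =>
      div_nonneg (hρ ν) (by linarith [(mem_filter.1 hν).2])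
    simp only [Hr, zero_mul, zero_div] at a ⊢
    rw [split]
    linarith⟩)

lemma Hr_neg (m : ℝ) (hω : 0 < ω) : Hr t ω 0 T ρ (-(t * ω + m)) =
    ∑ ν ∈ T, ρ ν / (t * ω + m + ν) - m / ω := by
  have : ∀ ν, ρ ν / (-(t * ω + m) - ν) = -(ρ ν / (t * ω + m + ν)) := fun ν => by
    rw [← div_neg]; congr 1; ring
  simp only [Hr, this, sum_neg_distrib]
  field_simp
  ring

lemma le_of_vp (hω : 0 < ω) (hρ : ∀ ν, 0 ≤ ρ ν) (hT : ∀ ν ∈ T, 0 < ν) {m : ℝ}
    (h : vp t ω 0 T ρ < m) : ∑ ν ∈ T, ρ ν / (t * ω + m + ν) ≤ m / ω := by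
  by_contra hn
  have h1 := vp_sub_vn (t := t) (T := T) hω le_rfl hρ
  have h2 : 0 - -(t * ω + m) ≤ vn t ω 0 T ρ := le_vol (vn_ne_top hω le_rfl hρ) fun u hu =>
    ⟨hu.2, lt_trans (by rw [Hr_neg m hω]; linarith) (Hr_lt hω le_rfl hρ hu.1 (Or.inr hu.2)
      fun ν hν => Or.inr (hu.2.trans (hT ν hν)))⟩
  linarith

lemma vp_le (ht : 0 < t) (hω : 0 < ω) (hρ : ∀ ν, 0 ≤ ρ ν) (hT : ∀ ν ∈ T, 0 < ν) {m : ℝ}
    (hm : 0 < m) (h : ∑ ν ∈ T, ρ ν / (t * ω + m + ν) ≤ m / ω) : vp t ω 0 T ρ ≤ m := by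
  have h1 := vp_sub_vn (t := t) (T := T) hω le_rfl hρ
  have p : 0 < t * ω + m := by positivity
  have h2 : vn t ω 0 T ρ ≤ volume.real (Set.Ico (-(t * ω + m)) 0) :=
    measureReal_mono (fun u hu => ⟨by
      by_contra hn
      have := Hr_lt (t := t) (T := T) hω le_rfl hρ (not_le.1 hn) (Or.inr (by linarith))
        fun ν hν => Or.inr (by linarith [hT ν hν])
      rw [Hr_neg m hω] at this
      linarith [hu.2], hu.1⟩) (by simp)
  rw [Real.volume_real_Ico_of_le (by linarith)] at h2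
  linarith

lemma half {r x y : ℝ} (hr : 0 ≤ r) (hx : 0 < x) (h : y ≤ 2 * x) (hy : 0 < y) :
    r / x ≤ 2 * (r / y) := by
  rw [← mul_div_assoc, div_le_div_iff₀ hx hy]
  nlinarith

end SelX

open SelX

lemma vp_empty_le (ht : 0 < t) (hω : 0 < ω) (hk : 0 ≤ k) : vp t ω k ∅ ρ ≤ k * ω / t := by
  have := vol_le (S := {u | 0 < u ∧ Hr t ω k ∅ ρ u < 0}) (U := ∅) (a := k * ω / t) (by simp)
    (by positivity) fun u hu => Or.inl ⟨hu.1, by
      have a := hu.2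
      have u0 : 0 < u := hu.1
      have b : 0 < u / ω := by positivity
      simp only [Hr, sum_empty, sub_zero] at a
      have c : t < k * ω / u := by linarith
      rw [lt_div_iff₀ u0] at c
      rw [le_div_iff₀ ht]
      linarith⟩
  simpa [vp] using this

lemma vp_eq_zero (h : ∀ u, 0 < u → u ∉ T → 0 ≤ Hr t ω k T ρ u) : vp t ω k T ρ = 0 := by
  rw [vp, measure_mono_null (t := (T : Set ℝ)) (fun u hu => by
    by_contra hn
    exact (h u hu.1 hn).not_gt hu.2) (T.finite_toSet.measure_zero _), ENNReal.toReal_zero]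

lemma pos_of_vp (hω : 0 < ω) (hk : 0 ≤ k) (hρ : ∀ ν, 0 ≤ ρ ν) {a s u : ℝ} (ha : 0 ≤ a)
    (hT : ∀ ν ∈ T, ν ≤ a) (h : vp t ω k T ρ < s) (hu : a + s ≤ u) : 0 < Hr t ω k T ρ u := by
  by_contra hn
  have : u - a ≤ vp t ω k T ρ := le_vol (vp_ne_top hω hk hρ) fun v hv =>
    ⟨ha.trans_lt hv.1, (Hr_lt hω hk hρ hv.2 (Or.inl (ha.trans_lt hv.1))
      fun ν hν => Or.inl ((hT ν hν).trans_lt hv.1)).trans_le (not_lt.1 hn)⟩
  linarith

theorem vp_switch (hω : 0 < ω) (hk : 0 ≤ k) (hρ : ∀ ν, 0 ≤ ρ ν) :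
    vp t ω k T ρ ≤ vp t ω 0 T ρ + 2 * √k * ω := by
  have s0 := Real.sqrt_nonneg k
  have h1 : vp t ω k T ρ ≤ √k * ω + vp (t - √k) ω 0 T ρ :=
    vol_le (vp_ne_top hω le_rfl hρ) (by positivity) fun u hu => by
      rcases le_or_gt u (√k * ω) with h | h
      · exact Or.inl ⟨hu.1, h⟩
      · refine Or.inr ⟨hu.1, ?_⟩
        have a := hu.2
        have b : k * ω / u ≤ √k := by
          rw [div_le_iff₀ hu.1]
          nlinarith [Real.mul_self_sqrt hk, mul_le_mul_of_nonneg_left h.le s0]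
        simp only [Hr, zero_mul, zero_div] at a ⊢
        linarith
  have h2 := vp_sub_vn (t := t) (T := T) hω le_rfl hρ
  have h3 := vp_sub_vn (t := t - √k) (T := T) hω le_rfl hρ
  have h4 : vn (t - √k) ω 0 T ρ ≤ vn t ω 0 T ρ :=
    ENNReal.toReal_mono (vn_ne_top hω le_rfl hρ) (measure_mono fun u hu => ⟨hu.1, by
      have a := hu.2
      simp only [Hr] at a ⊢
      linarith⟩)
  linarith

theorem vp_select {κ : Type*} [Fintype κ] [Nonempty κ] (ht : 0 < t) (hω : 0 < ω) (hk : 0 ≤ k)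
    {ρ : κ → ℝ → ℝ} (hρ : ∀ c ν, 0 ≤ ρ c ν) {η : ℝ} (hη : 0 < η) :
    ∃ c, vp t ω k T (fun ν => ρ c ν / 25) ≤
      vp t ω k T (fun ν => (∑ c, ρ c ν) / Fintype.card κ) + η + 3 * (k * ω / t) := by
  have r0 : (0 : ℝ) < Fintype.card κ := by exact_mod_cast Fintype.card_pos
  have hb : ∀ ν, 0 ≤ (∑ c, ρ c ν) / Fintype.card κ := fun ν =>
    div_nonneg (sum_nonneg fun c _ => hρ c ν) r0.le
  obtain ⟨m, hm⟩ : ∃ m, 2 * m = vp t ω k T (fun ν => (∑ c, ρ c ν) / Fintype.card κ) + η :=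
    ⟨_, mul_div_cancel₀ _ two_ne_zero⟩
  have m0 : 0 < m := by
    have := vp_nonneg (t := t) (ω := ω) (k := k) (T := T)
      (ρ := fun ν => (∑ c, ρ c ν) / Fintype.card κ)
    linarith
  rw [← hm]
  have mw : 0 < m / ω := by positivity
  have avg : ∀ (S : Finset ℝ) (d : ℝ → ℝ), ∑ c, ∑ ν ∈ S, ρ c ν / d ν =
      Fintype.card κ * ∑ ν ∈ S, (∑ c, ρ c ν) / Fintype.card κ / d ν := fun S d => by
    rw [sum_comm, mul_sum]
    refine sum_congr rfl fun ν _ => ?_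
    rw [← sum_div, ← mul_div_assoc, mul_div_cancel₀ _ r0.ne']
  have a1 := pos_of_vp (t := t) (T := T.filter (· ≤ 0)) hω le_rfl hb (a := 0) (s := 2 * m)
    (u := 2 * m) le_rfl (fun ν hν => (mem_filter.1 hν).2)
    ((neg_part hω hk hb).trans_lt (by linarith)) (by linarith)
  have a2 : ∑ ν ∈ T.filter (· ≤ 0), (∑ c, ρ c ν) / Fintype.card κ / (m - ν) ≤
      4 * (t + m / ω) := by
    have := sum_le_sum (s := T.filter (· ≤ 0)) fun ν hν => half (hb ν) (x := m - ν)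
      (y := 2 * m - ν) (by linarith [(mem_filter.1 hν).2]) (by linarith [(mem_filter.1 hν).2])
      (by linarith [(mem_filter.1 hν).2])
    rw [← mul_sum] at this
    simp only [Hr, zero_mul, zero_div, mul_div_assoc] at a1
    linarith
  have b1 := le_of_vp (T := T.filter (0 < ·)) hω hb (fun ν hν => (mem_filter.1 hν).2)
    (m := 2 * m) ((pos_part hω hk hb).trans_lt (by linarith))
  have tw : 0 < t * ω := by positivity
  have b2 : ∑ ν ∈ T.filter (0 < ·), (∑ c, ρ c ν) / Fintype.card κ / (t * ω + m + ν) ≤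
      4 * (m / ω) := by
    have := sum_le_sum (s := T.filter (0 < ·)) fun ν hν => half (hb ν) (x := t * ω + m + ν)
      (y := t * ω + 2 * m + ν) (by linarith [(mem_filter.1 hν).2])
      (by linarith [(mem_filter.1 hν).2]) (by linarith [(mem_filter.1 hν).2])
    rw [← mul_sum] at this
    rw [mul_div_assoc] at b1
    linarith
  obtain ⟨c, -, hc⟩ := exists_le_of_sum_le (s := univ) univ_nonempty
    (f := fun c => (∑ ν ∈ T.filter (· ≤ 0), ρ c ν / (m - ν)) / (t + m / ω) +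
      (∑ ν ∈ T.filter (0 < ·), ρ c ν / (t * ω + m + ν)) / (m / ω)) (g := fun _ => 8) (by
      rw [sum_add_distrib, ← sum_div, ← sum_div, avg, avg, sum_const, card_univ, nsmul_eq_mul,
        mul_div_assoc, mul_div_assoc, ← mul_add]
      rw [← div_le_iff₀ (by positivity)] at a2 b2
      gcongr
      linarith)
  have c1 : 0 ≤ ∑ ν ∈ T.filter (· ≤ 0), ρ c ν / (m - ν) := sum_nonneg fun ν hν =>
    div_nonneg (hρ c ν) (by linarith [(mem_filter.1 hν).2])
  have c2 : 0 ≤ ∑ ν ∈ T.filter (0 < ·), ρ c ν / (t * ω + m + ν) := sum_nonneg fun ν hν =>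
    div_nonneg (hρ c ν) (by linarith [(mem_filter.1 hν).2])
  have c3 : ∑ ν ∈ T.filter (· ≤ 0), ρ c ν / (m - ν) ≤ 8 * (t + m / ω) := by
    rw [← div_le_iff₀ (by positivity)]
    linarith [div_nonneg c2 mw.le]
  have c4 : ∑ ν ∈ T.filter (0 < ·), ρ c ν / (t * ω + m + ν) ≤ 8 * (m / ω) := by
    rw [← div_le_iff₀ mw]
    linarith [div_nonneg c1 (show 0 ≤ t + m / ω by positivity)]
  have sc : ∀ (S : Finset ℝ) (d : ℝ → ℝ) (a : ℝ), ∑ ν ∈ S, ρ c ν / a / d ν =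
      (∑ ν ∈ S, ρ c ν / d ν) / a := fun S d a => by
    rw [sum_div]
    exact sum_congr rfl fun ν _ => div_right_comm _ _ _
  have h8 : ∀ ν, 0 ≤ ρ c ν / (25 / 3) := fun ν => div_nonneg (hρ c ν) (by norm_num)
  have d1 := vp_le (T := T.filter (0 < ·)) ht hω h8 (fun ν hν => (mem_filter.1 hν).2) m0
    (by rw [sc]; linarith)
  have kt : 0 ≤ k * ω / t := by positivity
  refine ⟨c, le_trans (vol_le (a := m + 3 * (k * ω / t))
    (vp_ne_top (t := t) (T := T.filter (0 < ·)) hω le_rfl h8) (by positivity) fun u hu => ?_) ?_⟩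
  · rcases le_or_gt u (m + 3 * (k * ω / t)) with h | h
    · exact Or.inl ⟨hu.1, h⟩
    refine Or.inr ⟨hu.1, ?_⟩
    have a := hu.2
    have u0 : 0 < u := hu.1
    have e1 : k * ω / u ≤ t / 3 := by
      have : k * ω / t ≤ u / 3 := by linarith
      rw [div_le_iff₀ ht] at this
      rw [div_le_iff₀ u0]
      linarith
    have e2 := sum_le_sum (s := T.filter (· ≤ 0)) fun ν hν => div_anti (hρ c ν) (u := m) (v := u)
      (by linarith) (Or.inl ((mem_filter.1 hν).2.trans_lt m0))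
    have e3 : m / ω ≤ u / ω := by gcongr; linarith
    simp only [Hr, zero_mul, zero_div, sc] at a ⊢
    rw [split] at a
    linarith
  · unfold vp at d1
    linarith

end Vale.Agent.P078G
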