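import Vale.Agent.P078G.Near
import Vale.Agent.P078G.PF
import Vale.Agent.P078G.Sel

/-! The finite estimates for the scale invariant potential. -/

namespace Vale.Agent.P078G

open Finset Vale.Agent.P078 MeasureTheory
open scoped ComplexConjugate Real

variable {V C : Type*} [DecidableEq V] [Fintype C] [DecidableEq C]

section general

variable {J : Type*} [Fintype J] [DecidableEq J] {A : J → V → V → ℂ} {t : ℝ} {ω : V → ℝ}
  {σ : V → Sx J} {Λ : Finset V} {x : V}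

/-- The increments for all states of `x` in pole form. -/
theorem exists_inc (hA : ∀ j, Ctr (A j)) (hd : ∀ j v, A j v v = 0) (ht : 0 < t)
    (hω : ∀ v, 0 < ω v) (hq : ∀ v ∈ Λ, Sub (σ v).1) (hk : ∀ v ∈ Λ, 0 ≤ (σ v).2) (hx : x ∈ Λ) :
    ∃ (T : Finset ℝ) (ρ : J → ℝ → ℝ), (∀ j ν, 0 ≤ ρ j ν) ∧
      (∀ ν ∈ T, ν = 0 ∨ PZ A (fun v => (σ v).1) (Λ.erase x) (lv t ω σ ν) = 0) ∧
      ∀ p : Sx J, (∀ j, 0 ≤ p.1 j) → 0 ≤ p.2 →
        inc A t ω (Function.update σ x p) Λ x =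
          π * (vp t (ω x) p.2 T (fun ν => ∑ j, p.1 j * ρ j ν) - vp t (ω x) p.2 ∅ 0) ∧
        ∀ u : ℝ, u ≠ 0 → PZ A (fun v => (σ v).1) (Λ.erase x) (lv t ω σ u) ≠ 0 →
          PZ A (fun v => (Function.update σ x p v).1) Λ (lv t ω (Function.update σ x p) u) /
            PZ A (fun v => (σ v).1) (Λ.erase x) (lv t ω σ u) =
          Hr t (ω x) p.2 T (fun ν => ∑ j, p.1 j * ρ j ν) u := by
  obtain ⟨T, ρ, h1, h2, h3⟩ := exists_pf hA hd t hω hq hk hx
  refine ⟨T, ρ, h1, h2, fun p p1 p2 => ⟨?_, fun u hu h0 => ?_⟩⟩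
  · have e0 : vp t (ω x) p.2 ∅ 0 = vp t (ω x) p.2 ∅ fun ν => ∑ j, p.1 j * ρ j ν := by
      simp [vp, Hr]
    rw [e0, ← (int_log ht (hω x) p2 fun ν => sum_nonneg fun j _ => mul_nonneg (p1 j) (h1 j ν)).2]
    refine setIntegral_congr_fun measurableSet_Ioi fun u hu => ?_
    have u0 : (0 : ℝ) < u := hu
    have e : PZ A (fun v => (Function.update σ x p v).1) (Λ.erase x)
        (lv t ω (Function.update σ x p) (u * Complex.I)) =
        PZ A (fun v => (σ v).1) (Λ.erase x) (lv t ω σ (u * Complex.I)) :=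
      PZ_congr (fun v hv => by rw [Function.update_of_ne (ne_of_mem_erase hv)])
        fun v hv => by simp only [lv, Function.update_of_ne (ne_of_mem_erase hv)]
    rw [e, h3 p _ (mul_ne_zero (Complex.ofReal_ne_zero.2 u0.ne') Complex.I_ne_zero)
      (PZ_ne_zero reg_upper hA (fun v hv => hq v (mem_of_mem_erase hv)) fun v hv => ?_)]
    · simp only [lv, Function.update_self]
    · show 0 < (lev _ _ _ _).im
      have := hω v
      have := hk v (mem_of_mem_erase hv)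
      rw [im_lev]; positivity
  · rw [h3 p u (Complex.ofReal_ne_zero.2 hu) h0, Hc_coe]

namespace CoreX

noncomputable def lr (t : ℝ) (ω : V → ℝ) (σ : V → Sx J) (u : ℝ) (v : V) : ℝ :=
  t + u / ω v - (σ v).2 * ω v / u

lemma PZ_lv (hA : ∀ j, Ctr (A j)) (q : V → J → ℝ) (u : ℝ) :
    PZ A q Λ (lv t ω σ u) = PR A q Λ (lr t ω σ u) := by
  rw [PR_coe hA]
  exact PZ_congr (fun _ _ => rfl) fun v _ => by simp [lv, lr, lev]

lemma PZ_sc (q : V → J → ℝ) (Z : V → ℂ) (a : ℝ) :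
    PZ A (fun v j => a * q v j) Λ (fun v => a * Z v) = a ^ Λ.card * PZ A q Λ Z := by
  unfold PZ PP
  rw [mul_sum]
  refine sum_congr rfl fun t _ => ?_
  rw [← mul_assoc, ← prod_const, ← prod_mul_distrib]
  congr 1
  refine prod_congr rfl fun v _ => ?_
  beta_reduce
  rw [mix_apply, mix_apply, mul_add, mul_sum]
  push_cast
  simp only [mul_assoc]

lemma raise (hA : ∀ j, Ctr (A j)) {q : V → J → ℝ} {Z₀ Z : V → ℝ}
    (h : ∀ T ⊆ Λ, 0 < PR A q T Z₀) (hZ : ∀ v ∈ Λ, Z₀ v ≤ Z v) : ∀ T ⊆ Λ, 0 < PR A q T Z := by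
  have key : ∀ U : Finset V, ∀ T ⊆ Λ, 0 < PR A q T fun v => if v ∈ U then Z v else Z₀ v := by
    intro U
    induction U using Finset.induction_on with
    | empty => simpa using h
    | insert u U hu ih =>
      intro T hT
      by_cases huT : u ∈ T
      · have e : (fun v => if v ∈ insert u U then Z v else Z₀ v) =
            Function.update (fun v => if v ∈ U then Z v else Z₀ v) u
              ((fun v => if v ∈ U then Z v else Z₀ v) u + (Z u - Z₀ u)) := by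
          funext v
          rcases eq_or_ne v u with rfl | e <;> simp [*]
        rw [e, PR_shift hA huT]
        have := mul_nonneg (sub_nonneg.2 (hZ u (hT huT))) (ih _ ((erase_subset u T).trans hT)).le
        linarith [ih T hT]
      · rw [PR_congr (Z' := fun v => if v ∈ U then Z v else Z₀ v) (fun _ _ => rfl)
          fun v hv => by simp [ne_of_mem_of_not_mem hv huT]]
        exact ih T hT
  intro T hT
  rw [PR_congr (Z' := fun v => if v ∈ T then Z v else Z₀ v) (fun _ _ => rfl)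
    fun v hv => by simp [hv]]
  exact key T T hT

lemma comb {Q : Polynomial ℝ} {κ L tol : ℝ} {d : ℕ} (hQ : NQ V J Q t κ d L tol)
    (hA : ∀ j, Ctr (A j)) (hd : ∀ j v, A j v v = 0) (ht : 0 < t)
    (hω : ∀ v, 0 < ω v) (hq : ∀ v ∈ Λ, Sub (σ v).1) (hk : ∀ v ∈ Λ, 0 ≤ (σ v).2) (hx : x ∈ Λ)
    (hN : Nbr A ω d L Λ x) :
    ∃ (T : Finset ℝ) (ρ : J → ℝ → ℝ), (∀ j ν, 0 ≤ ρ j ν) ∧
      (∀ ν ∈ T, ν = 0 ∨ PR A (fun v => (σ v).1) (Λ.erase x) (lr t ω σ ν) = 0) ∧
      ∀ p : Sx J, Sub p.1 → 0 ≤ p.2 →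
        (Pos A (fun v => (Function.update σ x p v).1) Λ (t / 2) ∨
          ∀ v ∈ Λ, κ ≤ (Function.update σ x p v).2) →
        |TT Q A t ω (Function.update σ x p) Λ - TT Q A t ω σ (Λ.erase x) -
          π * (vp t (ω x) p.2 T (fun ν => ∑ j, p.1 j * ρ j ν) - vp t (ω x) p.2 ∅ 0)| ≤
            tol * ω x ∧
        ∀ u : ℝ, u ≠ 0 → PR A (fun v => (σ v).1) (Λ.erase x) (lr t ω σ u) ≠ 0 →
          PR A (fun v => (Function.update σ x p v).1) Λ (lr t ω (Function.update σ x p) u) /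
            PR A (fun v => (σ v).1) (Λ.erase x) (lr t ω σ u) =
          Hr t (ω x) p.2 T (fun ν => ∑ j, p.1 j * ρ j ν) u := by
  obtain ⟨T, ρ, h1, h2, h3⟩ := exists_inc hA hd ht hω hq hk hx
  refine ⟨T, ρ, h1, fun ν hν => (h2 ν hν).imp_right fun h => ?_, fun p p1 p2 p3 => ⟨?_, ?_⟩⟩
  · rw [PZ_lv hA] at h
    exact_mod_cast h
  · have := hQ.near A ω (Function.update σ x p) Λ x ⟨hA, hd, hω, fun v hv => ?_, fun v hv => ?_, p3⟩
      hx hN
    · rwa [(h3 p p1.nonneg p2).1, TT_congr (Λ := Λ.erase x) (σ' := σ) (fun _ _ _ _ _ => rfl)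
        (fun _ _ => rfl) fun v hv => Function.update_of_ne (ne_of_mem_erase hv) _ _] at this
    · rcases eq_or_ne v x with rfl | e
      · simpa using p1
      · simpa [e] using hq v hv
    · rcases eq_or_ne v x with rfl | e
      · simpa using p2
      · simpa [e] using hk v hv
  · intro u hu h0
    have := (h3 p p1.nonneg p2).2 u hu (by rw [PZ_lv hA]; exact_mod_cast h0)
    rw [PZ_lv hA, PZ_lv hA] at this
    exact_mod_cast this

lemma pos_unif (hA : ∀ j, Ctr (A j)) (hd : ∀ j v, A j v v = 0) (hk : 4 ≤ Fintype.card J)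
    {q : V → J → ℝ} (hq : ∀ v ∈ Λ, q v = unif J ∨ q v = 0) :
    Pos A q Λ (2 * tb (Fintype.card J) / 2) := by
  refine pos_of_ne_zero hA (fun v hv => ?_) fun T hT z hz =>
    PZ_barrier hA hd hk (fun v hv => hq v (hT hv)) (by linarith)
  rcases hq v hv with e | e <;> rw [e]
  exacts [sub_unif, sub_zero']

lemma Nbr_mono {d : ℕ} {L : ℝ} (h : Nbr A ω d L Λ x) {S : Finset V} (hS : S ⊆ Λ) :
    Nbr A ω d L S x := by
  obtain ⟨N, h1, h2, h3⟩ := h
  exact ⟨N, h1, fun v hv => h2 v (hS hv), h3⟩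

lemma pm_diag {Y : V → V → ℂ} (hd : ∀ v, Y v v = 0) (j : C × Bool) (v : V) : pm Y j v v = 0 := by
  simp [pm, hd]

lemma four_le (hC : 2 ≤ Fintype.card C) : 4 ≤ Fintype.card (C × Bool) := by
  rw [Fintype.card_prod, Fintype.card_bool]; omega

end CoreX

end general

open CoreX

variable {Y : V → V → ℂ} {Q : Polynomial ℝ} {t κ L tol : ℝ} {d : ℕ} {ω : V → ℝ}
  {σ : V → Sx (C × Bool)} {Λ : Finset V} {x : V}

lemma sub_colK (c : C) : Sub (colK c) := by
  have h := sub_col c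
  refine ⟨fun j => div_nonneg (h.nonneg j) (by norm_num), ?_⟩
  have := h.sum_le
  unfold colK
  rw [← sum_div]
  linarith

theorem TT_add (hQ : NQ V (C × Bool) Q t κ d L tol) (hY : Ctr Y) (hd : ∀ v, Y v v = 0)
    (hC : 2 ≤ Fintype.card C) (ht : t = 2 * tb (Fintype.card (C × Bool))) (hω : ∀ v, 0 < ω v)
    (hσ : ∀ v ∈ Λ, σ v = (unif _, 0) ∨ σ v = 0) (hx : x ∈ Λ) (hN : Nbr (pm (κ := C) Y) ω d L Λ x)
    (h : σ x = 0) : TT Q (pm Y) t ω (Function.update σ x (unif _, 0)) Λ ≤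
      TT Q (pm Y) t ω σ Λ + tol * ω x := by
  have k4 := four_le hC
  have t0 : 0 < t := by rw [ht]; linarith [tb_pos k4]
  have s1 : ∀ v ∈ Λ, ((σ v).1 = unif _ ∨ (σ v).1 = 0) ∧ (σ v).2 = 0 := fun v hv => by
    rcases hσ v hv with e | e <;> simp [e]
  have s2 : ∀ v ∈ Λ, ((Function.update σ x (unif _, 0) v).1 = unif _ ∨
      (Function.update σ x (unif _, 0) v).1 = 0) ∧ (Function.update σ x (unif _, 0) v).2 = 0 :=
    fun v hv => by
      rcases eq_or_ne v x with rfl | e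
      · simp
      · simpa [e] using s1 v hv
  have P1 := pos_unif hY.pm (pm_diag hd) k4 fun v hv => (s1 v hv).1
  have P2 := pos_unif hY.pm (pm_diag hd) k4 fun v hv => (s2 v hv).1
  rw [← ht] at P1 P2
  obtain ⟨T, ρ, h1, -, h3⟩ := comb (σ := σ) hQ hY.pm (pm_diag hd) t0 hω (fun v hv => by
    rcases (s1 v hv).1 with e | e <;> rw [e]
    exacts [sub_unif, sub_zero']) (fun v hv => (s1 v hv).2.ge) hx hN
  obtain ⟨h4, h5⟩ := h3 (unif _, 0) sub_unif le_rfl (Or.inl P2)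
  have lev : ∀ (τ : V → Sx (C × Bool)) (S : Finset V), S ⊆ Λ → (∀ v ∈ Λ, (τ v).2 = 0) →
      Pos (pm Y) (fun v => (τ v).1) Λ (t / 2) → ∀ u, 0 < u →
      0 < PR (pm Y) (fun v => (τ v).1) S (lr t ω τ u) := fun τ S hS h0 hP u hu => by
    rw [PR_congr (Z' := fun v => t + u / ω v) (fun _ _ => rfl)
      fun v hv => by simp [lr, h0 v (hS hv)]]
    exact hP S hS _ fun v => by
      have := div_pos hu (hω v)
      linarith
  rw [vp_eq_zero fun u hu _ => by
    have a := lev σ _ (erase_subset x Λ) (fun v hv => (s1 v hv).2) P1 u hu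
    rw [← h5 u hu.ne' a.ne']
    exact (div_pos (lev _ _ subset_rfl (fun v hv => (s2 v hv).2) P2 u hu) a).le] at h4
  rw [TT_dead (σ := σ) (v := x) hQ.zero (by rw [h]; rfl)]
  have := mul_nonneg Real.pi_pos.le (vp_nonneg (t := t) (ω := ω x) (k := 0) (T := ∅) (ρ := 0))
  linarith [(abs_le.1 h4).2]

theorem TT_switch (hQ : NQ V (C × Bool) Q t κ d L tol) (hY : Ctr Y) (hd : ∀ v, Y v v = 0)
    (hC : 2 ≤ Fintype.card C) (ht : t = 2 * tb (Fintype.card (C × Bool))) (hκ : 0 ≤ κ)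
    (hω : ∀ v, 0 < ω v) (hσ : ∀ v ∈ Λ, σ v = (unif _, 0) ∨ σ v = (unif _, κ)) (hx : x ∈ Λ)
    (hN : Nbr (pm (κ := C) Y) ω d L Λ x) (h : σ x = (unif _, 0)) :
    TT Q (pm Y) t ω (Function.update σ x (unif _, κ)) Λ ≤
      TT Q (pm Y) t ω σ Λ + (2 * π * √κ + 2 * tol) * ω x := by
  have k4 := four_le hC
  have t0 : 0 < t := by rw [ht]; linarith [tb_pos k4]
  have s1 : ∀ v ∈ Λ, (σ v).1 = unif _ ∧ 0 ≤ (σ v).2 := fun v hv => by
    rcases hσ v hv with e | e <;> simp [e, hκ]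
  have P : ∀ k, Pos (pm Y) (fun v => (Function.update σ x (unif _, k) v).1) Λ (t / 2) :=
    fun k => ht ▸ pos_unif hY.pm (pm_diag hd) k4 fun v hv => Or.inl (by
      rcases eq_or_ne v x with rfl | e
      · simp
      · simpa [e] using (s1 v hv).1)
  obtain ⟨T, ρ, h1, -, h3⟩ := comb (σ := σ) hQ hY.pm (pm_diag hd) t0 hω
    (fun v hv => (s1 v hv).1 ▸ sub_unif) (fun v hv => (s1 v hv).2) hx hN
  have h4 := (abs_le.1 (h3 (unif _, κ) sub_unif hκ (Or.inl (P κ))).1).2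
  have h5 := (abs_le.1 (h3 (unif _, 0) sub_unif le_rfl (Or.inl (P 0))).1).1
  rw [← h, Function.update_eq_self, h] at h5
  have a := vp_switch (t := t) (T := T) (hω x) hκ
    (ρ := fun ν => ∑ j, unif (C × Bool) j * ρ j ν)
    fun ν => sum_nonneg fun j _ => mul_nonneg (sub_unif.nonneg j) (h1 j ν)
  have b := vp_empty_le (ρ := 0) t0 (hω x) le_rfl
  have c := vp_nonneg (t := t) (ω := ω x) (k := κ) (T := ∅) (ρ := 0)
  rw [zero_mul, zero_div] at b
  have a' := mul_le_mul_of_nonneg_left a Real.pi_pos.le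
  have b' := mul_le_mul_of_nonneg_left b Real.pi_pos.le
  have c' := mul_nonneg Real.pi_pos.le c
  simp only at h4 h5
  linarith

theorem TT_col [Nonempty C] (hQ : NQ V (C × Bool) Q t κ d L tol) (hY : Ctr Y)
    (hd : ∀ v, Y v v = 0) (ht : 0 < t) (hκ : 0 < κ) (hω : ∀ v, 0 < ω v)
    (hσ : ∀ v ∈ Λ, Sub (σ v).1 ∧ (σ v).2 = κ) (hx : x ∈ Λ) (hN : Nbr (pm (κ := C) Y) ω d L Λ x)
    (h : σ x = (unif _, κ)) : ∃ c, TT Q (pm Y) t ω (Function.update σ x (colK c, κ)) Λ ≤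
      TT Q (pm Y) t ω σ Λ + (π * (κ + 3 * (κ / t)) + 2 * tol) * ω x := by
  obtain ⟨T, ρ, h1, -, h3⟩ := comb (σ := σ) hQ hY.pm (pm_diag hd) ht hω
    (fun v hv => (hσ v hv).1) (fun v hv => (hσ v hv).2 ▸ hκ.le) hx hN
  have P : ∀ q, ∀ v ∈ Λ, κ ≤ (Function.update σ x (q, κ) v).2 := fun q v hv => by
    rcases eq_or_ne v x with rfl | e
    · simp
    · simpa [e] using (hσ v hv).2.ge
  obtain ⟨c, hc⟩ := vp_select (T := T) (κ := C) ht (hω x) hκ.le
    (ρ := fun c ν => ∑ j, col c j * ρ j ν)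
    (fun c ν => sum_nonneg fun j _ => mul_nonneg ((sub_col c).nonneg j) (h1 j ν))
    (mul_pos hκ (hω x))
  have h4 := (abs_le.1 (h3 (colK c, κ) (sub_colK c) hκ.le (Or.inr (P _))).1).2
  have h5 := (abs_le.1 (h3 (unif _, κ) sub_unif hκ.le (Or.inr (P _))).1).1
  rw [← h, Function.update_eq_self, h] at h5
  have e1 : (fun ν => (∑ j, col c j * ρ j ν) / 25) = fun ν => ∑ j, colK c j * ρ j ν := by
    funext ν
    rw [sum_div]
    exact sum_congr rfl fun j _ => by unfold colK; ring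
  have e2 : (fun ν => (∑ c : C, ∑ j, col c j * ρ j ν) / Fintype.card C) =
      fun ν => ∑ j, unif (C × Bool) j * ρ j ν := by
    funext ν
    rw [sum_comm, sum_div]
    refine sum_congr rfl fun j _ => ?_
    have h2 : ∑ c : C, col c j = 1 / 2 := by simp [col]
    rw [← sum_mul, h2, unif, Fintype.card_prod, Fintype.card_bool]
    push_cast
    ring
  rw [e1, e2, mul_div_right_comm] at hc
  have := mul_le_mul_of_nonneg_left hc Real.pi_pos.le
  simp only at h4 h5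
  exact ⟨c, by linarith⟩

theorem TT_erase (hQ : NQ V (C × Bool) Q t κ d L tol) (hY : Ctr Y) (hd : ∀ v, Y v v = 0)
    (ht : 0 < t) (hκ : 0 ≤ κ) (hω : ∀ v, 0 < ω v) (hσ : ∀ v ∈ Λ, Sub (σ v).1 ∧ (σ v).2 = κ)
    (hx : x ∈ Λ) (hN : Nbr (pm (κ := C) Y) ω d L Λ x) : TT Q (pm Y) t ω σ (Λ.erase x) ≤
      TT Q (pm Y) t ω σ Λ + (π * (κ / t) + tol) * ω x := by
  obtain ⟨T, ρ, -, -, h3⟩ := comb (σ := σ) hQ hY.pm (pm_diag hd) ht hω
    (fun v hv => (hσ v hv).1) (fun v hv => (hσ v hv).2 ▸ hκ) hx hN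
  have h4 := (abs_le.1 (h3 (σ x) (hσ x hx).1 ((hσ x hx).2 ▸ hκ) (Or.inr fun v hv => by
    rw [Function.update_eq_self, (hσ v hv).2])).1).1
  rw [Function.update_eq_self, (hσ x hx).2] at h4
  have a := mul_le_mul_of_nonneg_left (vp_empty_le (ρ := 0) ht (hω x) hκ) Real.pi_pos.le
  have b := mul_nonneg Real.pi_pos.le (vp_nonneg (t := t) (ω := ω x) (k := κ) (T := T)
    (ρ := fun ν => ∑ j, (σ x).1 j * ρ j ν))
  rw [mul_div_right_comm] at a
  linarith

theorem TT_del (hQ : NQ V (C × Bool) Q t κ d L tol) (hY : Ctr Y) (hd : ∀ v, Y v v = 0)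
    (ht : 0 < t) (hκ : 0 ≤ κ) (hω : ∀ v, 0 < ω v) (hσ : ∀ v ∈ Λ, Sub (σ v).1 ∧ (σ v).2 = κ)
    (hx : x ∈ Λ) (hN : Nbr (pm (κ := C) Y) ω d L Λ x) :
    TT Q (pm Y) t ω (Function.update σ x (0, κ)) Λ ≤
      TT Q (pm Y) t ω σ Λ + (π * (κ / t) + tol) * ω x := by
  rw [TT_dead (v := x) hQ.zero (by simp), TT_congr (σ' := σ) (fun _ _ _ _ _ => rfl)
    (fun _ _ => rfl) fun v hv => Function.update_of_ne (ne_of_mem_erase hv) _ _]
  exact TT_erase hQ hY hd ht hκ hω hσ hx hN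

theorem TT_subset (hQ : NQ V (C × Bool) Q t κ d L tol) (hY : Ctr Y) (hd : ∀ v, Y v v = 0)
    (ht : 0 < t) (hκ : 0 ≤ κ) (hω : ∀ v, 0 < ω v) (hσ : ∀ v ∈ Λ, Sub (σ v).1 ∧ (σ v).2 = κ)
    (hN : ∀ x ∈ Λ, Nbr (pm (κ := C) Y) ω d L Λ x) {S : Finset V} (hS : S ⊆ Λ) :
    TT Q (pm Y) t ω σ S ≤ TT Q (pm Y) t ω σ Λ + (π * (κ / t) + tol) * ∑ v ∈ Λ \ S, ω v := by
  have key : ∀ U ⊆ Λ, TT Q (pm Y) t ω σ (Λ \ U) ≤
      TT Q (pm Y) t ω σ Λ + (π * (κ / t) + tol) * ∑ v ∈ U, ω v := by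
    intro U
    induction U using Finset.induction_on with
    | empty => simp
    | insert a U ha ih =>
      intro hU
      have h1 := ih ((subset_insert _ _).trans hU)
      have h2 := hU (mem_insert_self a U)
      have := TT_erase (Λ := Λ \ U) (σ := σ) hQ hY hd ht hκ hω
        (fun v hv => hσ v (sdiff_subset hv)) (mem_sdiff.2 ⟨h2, ha⟩)
        (Nbr_mono (hN a h2) sdiff_subset)
      rw [sdiff_insert, sum_insert ha]
      linarith
  have := key (Λ \ S) sdiff_subset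
  rwa [Finset.sdiff_sdiff_eq_self hS] at this

theorem TT_good (hQ : NQ V (C × Bool) Q t κ d L tol) (hY : Ctr Y) (hd : ∀ v, Y v v = 0)
    (ht : 0 < t) (hκ : 0 ≤ κ) (hω : ∀ v, 0 < ω v) {c : V → C}
    (hN : ∀ x ∈ Λ, Nbr (pm (κ := C) Y) ω d L Λ x) {s : ℝ}
    (h : TT Q (pm Y) t ω (fun v => (colK (c v), κ)) Λ + (π * (κ / t) + tol) * ∑ v ∈ Λ, ω v < π * s)
    (hs : ∀ v ∈ Λ, Λ.card * s ≤ t * ω v) {S : Finset V} (hS : S ⊆ Λ) {k : C}
    (hk : ∀ v ∈ S, c v = k) (ξ : V → ℂ) :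
    ‖∑ a ∈ S, ∑ b ∈ S, conj (ξ a) * Y a b * ξ b‖ ≤ 100 * t * ∑ a ∈ S, ‖ξ a‖ ^ 2 := by
  set σ : V → Sx (C × Bool) := fun v => (colK (c v), κ) with hσ
  have s1 : ∀ (T : Finset V), ∀ v ∈ T, Sub (σ v).1 ∧ (σ v).2 = κ :=
    fun _ v _ => ⟨sub_colK _, rfl⟩
  have key : ∀ T ⊆ Λ, ∀ u : ℝ, 0 < u → T.card * s ≤ u →
      0 < PR (pm Y) (fun v => (σ v).1) T (lr t ω σ u) ∧ (T.Nonempty → 0 < s) := by
    intro T
    induction T using Finset.induction_on with
    | empty => exact fun _ u _ _ => ⟨by simp [PR, PZ_empty], by simp⟩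
    | insert x T hx ih =>
      intro hT u u0 hu
      have m := mem_insert_self x T
      have ih := ih ((subset_insert _ _).trans hT)
      obtain ⟨N, ρ, h1, h2, h3⟩ := comb (σ := σ) hQ hY.pm (pm_diag hd) ht hω
        (fun v hv => (s1 _ v hv).1) (fun _ _ => hκ) m (Nbr_mono (hN x (hT m)) hT)
      obtain ⟨h4, h5⟩ := h3 (σ x) (sub_colK _) hκ (Or.inr fun v _ => by
        rw [Function.update_eq_self])
      rw [Function.update_eq_self, erase_insert hx] at h4 h5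
      rw [erase_insert hx] at h2
      have a1 := TT_subset (σ := σ) hQ hY hd ht hκ hω (s1 _) hN hT
      have a2 := TT_subset (Λ := T) (σ := σ) hQ hY hd ht hκ hω (s1 _)
        (fun y hy => Nbr_mono (hN y (hT (mem_insert_of_mem hy))) ((subset_insert _ _).trans hT))
        (empty_subset T)
      have a3 := mul_le_mul_of_nonneg_left (vp_empty_le (ρ := 0) ht (hω x) hκ) Real.pi_pos.le
      have a4 := sum_sdiff (f := ω) hT
      rw [TT_empty, sdiff_empty] at a2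
      rw [sum_insert hx] at a4
      rw [mul_div_right_comm] at a3
      rw [← a4] at h
      have a5 : vp t (ω x) κ N (fun ν => ∑ j, (σ x).1 j * ρ j ν) < s :=
        lt_of_mul_lt_mul_left (a := π) (by linarith [(abs_le.1 h4).1]) Real.pi_pos.le
      have s0 : 0 < s := vp_nonneg.trans_lt a5
      have c0 : 0 ≤ (T.card : ℝ) * s := by positivity
      rw [card_insert_of_notMem hx] at hu
      push_cast at hu
      have b1 := (ih u u0 (by linarith)).1
      have b2 := pos_of_vp (hω x) hκ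
        (fun ν => sum_nonneg fun j _ => mul_nonneg ((sub_colK _).nonneg j) (h1 j ν)) c0
        (fun ν hν => by
          by_contra hn
          have hn := not_le.1 hn
          rcases h2 ν hν with e | e
          · linarith
          · exact (ih ν (c0.trans_lt hn) hn.le).1.ne' e) a5 (u := u) (by linarith)
      rw [← h5 u u0.ne' b1.ne'] at b2
      exact ⟨(div_pos_iff_of_pos_right b1).1 b2, fun _ => s0⟩
  rcases Λ.eq_empty_or_nonempty with rfl | hΛ
  · simp [subset_empty.1 hS]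
  have s0 : 0 < s := (key Λ subset_rfl (|Λ.card * s| + 1) (by positivity)
    (by linarith [le_abs_self (Λ.card * s)])).2 hΛ
  have u0 : 0 < (Λ.card : ℝ) * s := mul_pos (by exact_mod_cast hΛ.card_pos) s0
  have := decouple hY hd (z₀ := 50 * t) (c := c) (by positivity) (fun T hT z hz => ?_) hS hk ξ
  · linarith
  have p := raise hY.pm (Z := fun _ => z / 25) (fun T hT => (key T hT _ u0 (by
    gcongr)).1) (fun v hv => by
      have a : Λ.card * s / ω v ≤ t := (div_le_iff₀ (hω v)).2 (hs v hv)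
      have b : 0 ≤ (σ v).2 * ω v / (Λ.card * s) := div_nonneg (mul_nonneg hκ (hω v).le) u0.le
      unfold lr
      linarith) T hT
  have e := PZ_sc (A := pm Y) (Λ := T) (fun v => (σ v).1) (fun _ => ((z / 25 : ℝ) : ℂ)) 25
  rw [← PR_coe hY.pm] at e
  rw [PZ_congr (q' := fun v j => 25 * (σ v).1 j) (Z' := fun _ => (25 : ℝ) * ((z / 25 : ℝ) : ℂ))
    (fun v _ => funext fun j => by simp only [hσ, colK]; ring)
    (fun v _ => by push_cast; ring), e]
  exact mul_ne_zero (pow_ne_zero _ (by norm_num)) (by exact_mod_cast p.ne')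

lemma TT_pm_perm (e : Equiv.Perm C) :
    TT Q (pm Y) t ω (fun v => (fun j : C × Bool => (σ v).1 (e j.1, j.2), (σ v).2)) Λ =
      TT Q (pm Y) t ω σ Λ := by
  exact sum_congr rfl fun v _ =>
    ph_perm (A := pm Y) (σ := σ) (Equiv.prodCongr e (Equiv.refl Bool))

end Vale.Agent.P078G
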