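import Vale.Agent.P078G.Msa

/-! A masa in the centraliser of a faithful normal state. -/

namespace Vale.Agent.P078G

open Filter
open Vale.Agent.P078 (ind ind_apply ind_of_mem ind_of_notMem ind_val isClopen_preimage cx cx_apply
  mul_lt_of_lt_div)
open Vale.Agent.P078.Ctx (proj_eq_of_le mem_of_le_ofIsClopen)
open scoped Topology ComplexConjugate

/-- A masa in the centraliser of a state. -/
structure Pre (M X : Type*) [CStarAlgebra M] [TopologicalSpace X] [CompactSpace X]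
    extends Msa M X where
  T : Sta M
  fw : FW T
  cen : ∀ f y, T.τ (ι f * y) = T.τ (y * ι f)

/-- The same with its conditional expectation. -/
structure Ctx (M X : Type*) [CStarAlgebra M] [TopologicalSpace X] [CompactSpace X]
    extends Pre M X where
  E : M →ₗ[ℂ] C(X, ℂ)
  tr : ∀ f x, T.τ (ι f * ι (E x)) = T.τ (ι f * x)

variable {M X : Type*} [CStarAlgebra M] [TopologicalSpace X] [CompactSpace X]

lemma comm_of_approx {T : Sta M} (h : FW T) {y a : M} {R : ℝ}
    (hy : ∀ ε > 0, ∃ x, ‖x‖ ≤ R ∧ x * a = a * x ∧ T.n2 (y - x) < ε) : y * a = a * y := by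
  refine sub_eq_zero.1 (h.eq_zero fun ε hε => ?_)
  have ha := norm_nonneg a
  obtain ⟨δ, hδ, h0⟩ := h.strong a (‖y‖ + R) (ε / 2) (half_pos hε)
  obtain ⟨x, hR, hx, h1⟩ := hy (min δ (ε / 2 / (‖a‖ + 1))) (by positivity)
  have e : y * a - a * y = (y - x) * a - a * (y - x) := by rw [sub_mul, mul_sub, hx]; abel
  have h2 := h0 (y - x) ((norm_sub_le _ _).trans (by linarith)) (h1.trans_le (min_le_left _ _))
  have h3 := T.n2_mul_le a (y - x)
  have h4 := T.n2_sub_le ((y - x) * a) (a * (y - x))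
  have h5 := mul_lt_of_lt_div (T.n2_nonneg (y - x)) ha (h1.trans_le (min_le_right _ _))
  rw [e]
  linarith

namespace Pre

open Msa

variable (C : Pre M X)

/-- The trace on real functions. -/
noncomputable def τR : C(X, ℝ) →ₗ[ℝ] ℝ where
  toFun f := (C.T.τ (C.ι ⟨fun x => (f x : ℂ), by fun_prop⟩)).re
  map_add' f g := by
    rw [← Complex.add_re, ← map_add, ← map_add]
    congr 3
    ext x
    simp
  map_smul' c f := by
    rw [RingHom.id_apply, smul_eq_mul, ← Complex.re_ofReal_mul, ← smul_eq_mul, ← map_smul,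
      ← map_smul]
    congr 3
    ext x
    simp

lemma τR_cx (f : C(X, ℝ)) : C.τR f = (C.T.τ (C.ι (cx f))).re := rfl

lemma τR_apply (f : C(X, ℝ)) (g : C(X, ℂ)) (h : ∀ x, (g x).re = f x) :
    C.τR f = (C.T.τ (C.ι g)).re := by
  have h1 : (C.T.τ (C.ι (cx f - g))).re = 0 := by
    refine C.T.re_τ_skew ?_
    rw [← map_star, ← map_neg]
    congr 1
    ext x
    apply Complex.ext <;> simp [h]
  rw [map_sub, map_sub, Complex.sub_re, sub_eq_zero] at h1
  exact h1

lemma τR_eq_sq {f : C(X, ℝ)} (hf : 0 ≤ f) :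
    C.τR f = C.T.n2 (C.ι (cx ⟨fun x => √(f x), by fun_prop⟩)) ^ 2 := by
  rw [C.T.n2_sq, ← map_star, ← map_mul]
  refine C.τR_apply _ _ fun x => ?_
  simpa using Real.mul_self_sqrt (hf x)

lemma τR_nonneg {f : C(X, ℝ)} (hf : 0 ≤ f) : 0 ≤ C.τR f := by
  rw [C.τR_eq_sq hf]
  positivity

lemma τR_one : C.τR 1 = 1 := by
  rw [C.τR_apply 1 1 fun x => by simp, map_one, C.T.one, Complex.one_re]

lemma τR_faithful {f : C(X, ℝ)} (hf : 0 ≤ f) (h : C.τR f = 0) : f = 0 := by
  rw [C.τR_eq_sq hf, sq_eq_zero_iff] at h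
  have h1 := C.inj ((C.fw.faithful _ h).trans (map_zero C.ι).symm)
  ext x
  have h2 := congrArg (fun g : C(X, ℂ) => g x) h1
  exact (Real.sqrt_eq_zero (hf x)).1 (by simpa using h2)

lemma re_τ_mono {f g : C(X, ℂ)} (h : ∀ x, (f x).re ≤ (g x).re) :
    (C.T.τ (C.ι f)).re ≤ (C.T.τ (C.ι g)).re := by
  have h1 := C.τR_nonneg (f := ⟨fun x => (g x).re - (f x).re, by fun_prop⟩)
    fun x => sub_nonneg.2 (h x)
  rwa [C.τR_apply _ (g - f) fun x => by simp, map_sub, map_sub, Complex.sub_re, sub_nonneg] at h1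

lemma n2_mul_ι_sq (y : M) (k : C(X, ℂ)) :
    C.T.n2 (y * C.ι k) ^ 2 = (C.T.τ (star y * y * C.ι (k * star k))).re := by
  rw [C.T.n2_sq, star_mul, ← map_star, mul_assoc, C.cen, map_mul C.ι]
  simp only [mul_assoc]

lemma n2_mul_ι (y : M) (f : C(X, ℂ)) : C.T.n2 (y * C.ι f) ≤ C.T.n2 y * ‖f‖ := by
  let g : C(X, ℂ) := cx ⟨fun x => √(‖f‖ ^ 2 - ‖f x‖ ^ 2), by fun_prop⟩
  have e : f * star f + g * star g = ((‖f‖ ^ 2 : ℝ) : ℂ) • 1 := by
    ext x
    have h := Real.mul_self_sqrt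
      (sub_nonneg.2 (pow_le_pow_left₀ (norm_nonneg _) (f.norm_coe_le_norm x) 2))
    simp only [g, ContinuousMap.add_apply, ContinuousMap.mul_apply, ContinuousMap.star_apply,
      cx_apply, ContinuousMap.coe_mk, Complex.star_def, Complex.conj_ofReal, Complex.mul_conj,
      ContinuousMap.smul_apply, ContinuousMap.one_apply, smul_eq_mul, mul_one]
    rw [← Complex.ofReal_mul, ← Complex.ofReal_add, h, Complex.normSq_eq_norm_sq]
    congr 1
    ring
  have h1 : C.T.n2 (y * C.ι f) ^ 2 + C.T.n2 (y * C.ι g) ^ 2 = ‖f‖ ^ 2 * C.T.n2 y ^ 2 := by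
    rw [n2_mul_ι_sq, n2_mul_ι_sq, ← Complex.add_re, ← map_add, ← mul_add, ← map_add, e, map_smul,
      map_one, mul_smul_comm, mul_one, map_smul, smul_eq_mul, Complex.re_ofReal_mul, C.T.n2_sq]
  refine (abs_le_of_sq_le_sq' ?_ (mul_nonneg (C.T.n2_nonneg _) (norm_nonneg _))).2
  nlinarith [sq_nonneg (C.T.n2 (y * C.ι g))]

lemma n2_mul_pj (y : M) (U : Set X) : C.T.n2 (y * C.pj U) ≤ C.T.n2 y := by
  have := C.n2_mul_ι y (ind U)
  rw [← C.norm_ι] at this
  exact this.trans (mul_le_of_le_one_right (C.T.n2_nonneg _) (C.pj_proj U).norm_le)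

lemma cen_pj (U : Set X) (y : M) : C.T.τ (C.pj U * y) = C.T.τ (y * C.pj U) := C.cen _ _

lemma n2_star_ι (f : C(X, ℂ)) : C.T.n2 (star (C.ι f)) = C.T.n2 (C.ι f) := by
  rw [← sq_eq_sq₀ (C.T.n2_nonneg _) (C.T.n2_nonneg _), C.T.n2_sq, C.T.n2_sq, star_star, C.cen]

/-- The range of `ι` is closed for bounded approximation in the 2-norm. -/
lemma mem_of_approx {y : M} {R : ℝ} (h : ∀ ε > 0, ∃ f, ‖f‖ ≤ R ∧ C.T.n2 (y - C.ι f) < ε) :
    ∃ f, C.ι f = y := by
  refine C.masa y fun f => comm_of_approx C.fw (R := R) fun ε hε => ?_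
  obtain ⟨g, hR, hg⟩ := h ε hε
  exact ⟨_, (C.norm_ι g).trans_le hR, C.ι_comm g f, hg⟩

lemma n2_cx (a b : C(X, ℝ)) : C.T.n2 (C.ι (cx a) - C.ι (cx b)) ^ 2 = C.τR ((a - b) ^ 2) := by
  rw [C.T.n2_sq, ← map_sub, ← map_star, ← map_mul]
  refine (C.τR_apply _ _ fun x => ?_).symm
  simp [sq]

lemma zero_of_lim {a : M} {z : ℕ → M} {R : ℝ} (hz : Tendsto (fun n => C.T.n2 (z n)) atTop (𝓝 0))
    (h : ∀ᶠ n in atTop, ∃ b, ‖b‖ ≤ R ∧ a = b * z n) : a = 0 := by
  refine C.fw.faithful _ (le_antisymm ?_ (C.T.n2_nonneg _))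
  have h1 := hz.const_mul R
  rw [mul_zero] at h1
  refine ge_of_tendsto h1 (h.mono fun n ⟨b, hb, e⟩ => ?_)
  rw [e]
  exact (C.T.n2_mul_le _ _).trans (mul_le_mul_of_nonneg_right hb (C.T.n2_nonneg _))

/-- Bounded Cauchy sequences of real functions converge. -/
lemma exists_lim {f : ℕ → C(X, ℝ)} {R : ℝ} (hR : ∀ n, ‖f n‖ ≤ R) {b : ℕ → ℝ}
    (hb : Tendsto b atTop (𝓝 0))
    (h : ∀ n m N, N ≤ n → N ≤ m → C.τR ((f n - f m) ^ 2) ≤ b N) :
    ∃ g : C(X, ℝ), Tendsto (fun n => C.τR ((f n - g) ^ 2)) atTop (𝓝 0) := by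
  have hn : ∀ n, ‖cx (f n)‖ ≤ R := fun n =>
    (ContinuousMap.norm_le _ ((norm_nonneg _).trans (hR n))).2 fun x => by
      rw [cx_apply, Complex.norm_real]
      exact ((f n).norm_coe_le_norm x).trans (hR n)
  have hn' : ∀ n, ‖C.ι (cx (f n))‖ ≤ R := fun n => (C.norm_ι _).trans_le (hn n)
  obtain ⟨y, -, hy⟩ := C.fw.complete (fun n => C.ι (cx (f n))) R hn'
    (C.T.cauchySeq hb fun n m N h1 h2 => by rw [n2_cx]; exact h n m N h1 h2)
  obtain ⟨k, rfl⟩ := C.mem_of_approx (y := y) (R := R) fun ε hε => by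
    obtain ⟨n, h1⟩ := (hy.eventually (gt_mem_nhds hε)).exists
    exact ⟨_, hn n, by rwa [C.T.n2_sub_rev]⟩
  have h1 := C.fw.star_lim hn' (fun n => by rw [← map_star]; congr 1; ext x; simp) hy
  rw [← map_star] at h1
  have h2 : k = cx ⟨fun x => (k x).re, by fun_prop⟩ := by
    ext x
    exact (Complex.conj_eq_iff_re.1 (congrArg (fun k : C(X, ℂ) => k x) (C.inj h1))).symm
  rw [h2] at hy
  exact ⟨_, by simpa only [n2_cx, ne_eq, OfNat.ofNat_ne_zero, not_false_eq_true, zero_pow]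
    using hy.pow 2⟩

lemma exists_lim_clopen {U : ℕ → Set X} (hU : ∀ n, IsClopen (U n)) (hm : Monotone U) :
    ∃ V, IsClopen V ∧ (∀ n, U n ⊆ V) ∧
      Tendsto (fun n => (C.T.τ (C.pj (U n))).re) atTop (𝓝 (C.T.τ (C.pj V)).re) := by
  obtain ⟨u, -, hu⟩ := exists_net_lim C.fw (D := ℕᵒᵈ) (z := fun n => C.pj (U (OrderDual.ofDual n))ᶜ)
    (R := 1) (fun n => (C.pj_proj _).norm_le) fun P Q h => C.T.n2_ext (by
      rw [pj_star, pj_idem, C.pj_mul (hU _).compl (hU _).compl]
      exact congrArg _ (Set.inter_eq_left.2 (Set.compl_subset_compl.2 (hm h))))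
  have ht : Tendsto (fun n => C.T.n2 (C.pj (U n)ᶜ - u)) atTop (𝓝 0) := by
    refine Metric.tendsto_atTop.2 fun ε hε => ?_
    obtain ⟨P, hP⟩ := hu ε hε
    refine ⟨OrderDual.ofDual P, fun n hn => ?_⟩
    rw [Real.dist_0_eq_abs, abs_of_nonneg (C.T.n2_nonneg _)]
    exact hP (OrderDual.toDual n) hn
  obtain ⟨f, rfl⟩ := C.mem_of_approx (y := u) (R := 1) fun ε hε => by
    obtain ⟨n, h1⟩ := (ht.eventually (gt_mem_nhds hε)).exists
    exact ⟨ind (U n)ᶜ, (C.norm_ι _).ge.trans (C.pj_proj _).norm_le, by rwa [C.T.n2_sub_rev]⟩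
  have h1 : C.ι f * C.ι f = C.ι f := by
    refine sub_eq_zero.1 (C.zero_of_lim ht (R := 1 + ‖C.ι f‖) (.of_forall fun n =>
      ⟨(1 - C.pj (U n)ᶜ) - C.ι f, (norm_sub_le _ _).trans
        (add_le_add_left (C.pj_proj _).one_sub.norm_le _), ?_⟩))
    simp only [sub_mul, mul_sub, one_mul, pj_idem, pj_comm_ι]
    abel
  have h2 : star (C.ι f) = C.ι f :=
    C.fw.star_lim (fun n => (C.pj_proj _).norm_le) (fun n => C.pj_star _) ht
  obtain ⟨W, hW, e⟩ := C.exists_pj ⟨h1, h2⟩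
  rw [e] at ht
  refine ⟨Wᶜ, hW.compl, fun n => ?_, ?_⟩
  · rw [Set.subset_compl_iff_disjoint_right, Set.disjoint_iff_inter_eq_empty]
    refine C.pj_eq_zero ((hU n).inter hW) ?_
    rw [← C.pj_mul (hU n) hW]
    refine C.zero_of_lim ht (R := 1) ?_
    filter_upwards [eventually_ge_atTop n] with m hnm
    refine ⟨-C.pj (U n), (norm_neg _).trans_le (C.pj_proj _).norm_le, ?_⟩
    rw [neg_mul, mul_sub, C.pj_mul (hU n) (hU m).compl, Set.disjoint_iff_inter_eq_empty.1
      (Set.disjoint_compl_right_iff_subset.2 (hm hnm)), pj_empty, zero_sub, neg_neg]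
  · have := (Complex.continuous_re.tendsto _).comp ((C.T.tendsto_τ ht 1).const_sub (C.T.τ 1))
    simp only [one_mul, ← map_sub, C.pj_compl (hU _), sub_sub_cancel] at this
    rw [C.pj_compl hW]
    exact this

section pinch

variable {κ : Type*} [Fintype κ] {c : X → κ}

lemma τ_pinch_mul (a b : M) : C.T.τ (C.pinch c a * b) = C.T.τ (a * C.pinch c b) := by
  simp only [pinch, Finset.sum_mul, Finset.mul_sum, map_sum]
  refine Finset.sum_congr rfl fun k _ => ?_
  rw [mul_assoc, mul_assoc, C.cen_pj]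
  simp only [mul_assoc]

lemma τ_pinch_pinch (hc : IsLocallyConstant c) {κ' : Type*} [Fintype κ'] {c' : X → κ'}
    (hc' : IsLocallyConstant c') (h : ∀ x x', c' x = c' x' → c x = c x') (y : M) :
    C.T.τ (star (C.pinch c' y) * C.pinch c y) = C.T.τ (star (C.pinch c' y) * y) := by
  rw [← τ_pinch_mul, pinch_star, C.pinch_pinch hc hc' h]

lemma n2_pinch_le (hc : IsLocallyConstant c) (y : M) : C.T.n2 (C.pinch c y) ≤ C.T.n2 y := by
  have h1 := C.T.norm_τ_star_mul (C.pinch c y) y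
  rw [← C.τ_pinch_pinch hc hc (fun _ _ h => h), C.T.n2_sq', Complex.norm_real,
    Real.norm_of_nonneg (sq_nonneg _), sq] at h1
  rcases (C.T.n2_nonneg (C.pinch c y)).eq_or_lt with h | h
  · rw [← h]
    exact C.T.n2_nonneg y
  · exact le_of_mul_le_mul_left h1 h

end pinch

end Pre

/-- Radon-Nikodym theorem for a complete positive functional. -/
theorem exists_rn {ρ ν : C(X, ℝ) →ₗ[ℝ] ℝ} (hρ : ∀ f, 0 ≤ f → 0 ≤ ρ f)
    (hf : ∀ f, 0 ≤ f → ρ f = 0 → f = 0)
    (hc : ∀ (f : ℕ → C(X, ℝ)) (R : ℝ) (b : ℕ → ℝ), (∀ n, ‖f n‖ ≤ R) → Tendsto b atTop (𝓝 0) →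
      (∀ n m N, N ≤ n → N ≤ m → ρ ((f n - f m) ^ 2) ≤ b N) →
      ∃ g, Tendsto (fun n => ρ ((f n - g) ^ 2)) atTop (𝓝 0))
    {l u : ℝ} (h : ∀ f, 0 ≤ f → l * ρ f ≤ ν f ∧ ν f ≤ u * ρ f) :
    ∃ g : C(X, ℝ), (∀ x, l ≤ g x ∧ g x ≤ u) ∧ ∀ f, ν f = ρ (f * g) := by
  have h10 : (0 : C(X, ℝ)) ≤ 1 := fun _ => zero_le_one
  by_cases hlu : l ≤ u
  swap
  · have h1 : (1 : C(X, ℝ)) = 0 := hf 1 h10 (le_antisymm (by
      nlinarith [h 1 h10, not_le.1 hlu]) (hρ 1 h10))
    refine ⟨0, fun x => absurd (congrArg (fun k : C(X, ℝ) => k x) h1) one_ne_zero, fun f => ?_⟩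
    rw [← mul_one f, h1]
    simp
  have hsq0 : ∀ f : C(X, ℝ), 0 ≤ f ^ 2 := fun f x => sq_nonneg (f x)
  have hsq : ∀ f : C(X, ℝ), 0 ≤ ρ (f ^ 2) := fun f => hρ _ (hsq0 f)
  obtain ⟨J, hJ⟩ : ∃ J : C(X, ℝ) → ℝ, ∀ f, J f = ρ (f ^ 2) - 2 * ν f := ⟨_, fun _ => rfl⟩
  let cl : C(X, ℝ) → C(X, ℝ) := fun f => ⟨fun x => max l (min u (f x)), by fun_prop⟩
  have c1 : ∀ f x, l ≤ cl f x ∧ cl f x ≤ u := fun f x =>
    ⟨le_max_left _ _, max_le hlu (min_le_left _ _)⟩
  have c2 : ∀ f, J (cl f) ≤ J f := fun f => by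
    let p : C(X, ℝ) := ⟨fun x => max (f x - u) 0, by fun_prop⟩
    let q : C(X, ℝ) := ⟨fun x => max (l - f x) 0, by fun_prop⟩
    have e : f = cl f + p - q := by
      ext x
      simp only [cl, p, q, ContinuousMap.sub_apply, ContinuousMap.add_apply, ContinuousMap.coe_mk,
        max_def, min_def]
      split_ifs <;> linarith
    have a1 := (h p fun x => le_max_right _ _).2
    have a2 := (h q fun x => le_max_right _ _).1
    have a3 := hρ (f ^ 2 - cl f ^ 2 - (2 * u) • p + (2 * l) • q) fun x => by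
      change 0 ≤ f x ^ 2 - max l (min u (f x)) ^ 2 - 2 * u * max (f x - u) 0 +
        2 * l * max (l - f x) 0
      rcases le_total u (f x) with b1 | b1
      · rw [min_eq_left b1, max_eq_right hlu, max_eq_left (by linarith), max_eq_right (by linarith)]
        nlinarith [sq_nonneg (f x - u)]
      rw [min_eq_right b1, max_eq_right (a := f x - u) (by linarith)]
      rcases le_total l (f x) with b2 | b2
      · rw [max_eq_right b2, max_eq_right (by linarith)]
        linarith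
      · rw [max_eq_left b2, max_eq_left (by linarith)]
        nlinarith [sq_nonneg (f x - l)]
    have a4 := congrArg ν e
    simp only [map_add, map_sub, map_smul, smul_eq_mul] at a3 a4
    rw [hJ, hJ]
    linarith
  have hb : BddBelow (Set.range J) := by
    refine ⟨-(2 * (|u| * ((u - l) * ρ 1) + l * ν 1)), ?_⟩
    rintro _ ⟨f, rfl⟩
    refine le_trans ?_ (c2 f)
    have a0 : 0 ≤ cl f - l • 1 := fun x => by simpa using (c1 f x).1
    have a1 := (h _ a0).2
    have a2 := hρ _ a0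
    have a3 := hρ (u • 1 - cl f) fun x => by simpa using (c1 f x).2
    simp only [map_sub, map_smul, smul_eq_mul] at a1 a2 a3
    have a4 := mul_le_mul (le_abs_self u) (show ρ (cl f) - l * ρ 1 ≤ (u - l) * ρ 1 by linarith) a2
      (abs_nonneg u)
    rw [hJ]
    linarith [hsq (cl f)]
  have hle : ∀ f, sInf (Set.range J) ≤ J f := fun f => csInf_le hb ⟨f, rfl⟩
  have : ∀ n : ℕ, ∃ f, (∀ x, l ≤ f x ∧ f x ≤ u) ∧ J f < sInf (Set.range J) + 1 / (n + 1) :=
    fun n => by
    obtain ⟨_, ⟨f, rfl⟩, hx'⟩ := exists_lt_of_csInf_lt (Set.range_nonempty J)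
      (lt_add_of_pos_right _ (Nat.one_div_pos_of_nat (n := n)))
    exact ⟨cl f, c1 f, (c2 f).trans_lt hx'⟩
  choose c hc1 hc2 using this
  have h0 : Tendsto (fun n : ℕ => (1 / (n + 1) : ℝ)) atTop (𝓝 0) :=
    tendsto_one_div_add_atTop_nhds_zero_nat
  obtain ⟨g, hg⟩ := hc c (|l| + |u|) (fun n => 4 * (1 / (n + 1)))
    (fun n => (ContinuousMap.norm_le _ (by positivity)).2 fun x => abs_le.2
      ⟨by linarith [(hc1 n x).1, neg_abs_le l, abs_nonneg u],
        by linarith [(hc1 n x).2, le_abs_self u, abs_nonneg l]⟩)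
    (by simpa using h0.const_mul 4) fun n m N hn hm => by
      have a1 := hle ((1 / 2 : ℝ) • (c n + c m))
      have a2 := hc2 n
      have a3 := hc2 m
      have e : (c n - c m) ^ 2 = (2 : ℝ) • c n ^ 2 + (2 : ℝ) • c m ^ 2 -
          (4 : ℝ) • ((1 / 2 : ℝ) • (c n + c m)) ^ 2 := by
        ext x
        simp
        ring
      have e2 : (1 / (n + 1) : ℝ) ≤ 1 / (N + 1) := by gcongr
      have e3 : (1 / (m + 1) : ℝ) ≤ 1 / (N + 1) := by gcongr
      rw [hJ] at a1 a2 a3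
      rw [map_smul, map_add] at a1
      rw [e, map_sub, map_add, map_smul, map_smul, map_smul]
      simp only [smul_eq_mul] at a1 ⊢
      linarith
  have key : ∀ f, ν f = ρ (f * g) := fun f => by
    have a1 : ∀ t : ℝ, 0 ≤ 2 * ρ (f ^ 2) * (t * t) + 2 * (ρ (f * g) - ν f) * t + 0 := fun t => by
      have a2 := (h0.add hg).const_add (2 * ρ (f ^ 2) * (t * t) + 2 * (ρ (f * g) - ν f) * t)
      rw [add_zero (0 : ℝ)] at a2
      refine ge_of_tendsto' a2 fun n => ?_
      have b1 := hle (c n + t • f)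
      have b2 := hc2 n
      have b3 := hsq (c n - g - t • f)
      have e : (c n + t • f) ^ 2 + (c n - g - t • f) ^ 2 = c n ^ 2 + (c n - g) ^ 2 +
          (2 * (t * t)) • f ^ 2 + (2 * t) • (f * g) := by
        ext x
        simp
        ring
      have b4 := congrArg ρ e
      rw [hJ] at b1 b2
      simp only [map_add, map_smul, smul_eq_mul] at b1 b4
      linarith
    have a3 := discrim_le_zero a1
    rw [discrim] at a3
    nlinarith
  refine ⟨g, fun x => ⟨?_, ?_⟩, key⟩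
  · let q : C(X, ℝ) := ⟨fun x => max (l - g x) 0, by fun_prop⟩
    have e : q ^ 2 = l • q - q * g := by
      ext x
      simp only [q, ContinuousMap.sub_apply, ContinuousMap.mul_apply, ContinuousMap.coe_mk,
        ContinuousMap.pow_apply, ContinuousMap.smul_apply, smul_eq_mul, max_def]
      split_ifs <;> ring
    have a1 := (h q fun x => le_max_right _ _).1
    have a2 := hf (q ^ 2) (hsq0 q) (le_antisymm (by
      rw [e, map_sub, map_smul, smul_eq_mul, ← key]; linarith) (hsq q))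
    have a3 : max (l - g x) 0 = 0 := pow_eq_zero_iff two_ne_zero |>.1
      (congrArg (fun k : C(X, ℝ) => k x) a2)
    linarith [le_max_left (l - g x) 0]
  · let q : C(X, ℝ) := ⟨fun x => max (g x - u) 0, by fun_prop⟩
    have e : q ^ 2 = q * g - u • q := by
      ext x
      simp only [q, ContinuousMap.sub_apply, ContinuousMap.mul_apply, ContinuousMap.coe_mk,
        ContinuousMap.pow_apply, ContinuousMap.smul_apply, smul_eq_mul, max_def]
      split_ifs <;> ring
    have a1 := (h q fun x => le_max_right _ _).2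
    have a2 := hf (q ^ 2) (hsq0 q) (le_antisymm (by
      rw [e, map_sub, map_smul, smul_eq_mul, ← key]; linarith) (hsq q))
    have a3 : max (g x - u) 0 = 0 := pow_eq_zero_iff two_ne_zero |>.1
      (congrArg (fun k : C(X, ℝ) => k x) a2)
    linarith [le_max_left (g x - u) 0]

lemma Pre.exists_re (P : Pre M X) (y : M) :
    ∃ g : C(X, ℝ), ∀ f, (P.T.τ (P.ι (cx f) * y)).re = P.τR (f * g) := by
  let ν : C(X, ℝ) →ₗ[ℝ] ℝ :=
    { toFun := fun f => (P.T.τ (P.ι (cx f) * y)).re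
      map_add' := fun f g => by
        rw [← Complex.add_re, ← map_add, ← add_mul, ← map_add]
        congr 4
        ext x
        simp
      map_smul' := fun c f => by
        rw [RingHom.id_apply, smul_eq_mul, ← Complex.re_ofReal_mul, ← smul_eq_mul (c : ℂ),
          ← map_smul, ← smul_mul_assoc, ← map_smul]
        congr 4
        ext x
        simp }
  obtain ⟨g, -, hg⟩ := exists_rn (ρ := P.τR) (ν := ν) (fun _ => P.τR_nonneg)
    (fun _ => P.τR_faithful) (fun _ _ _ h1 h2 h3 => P.exists_lim h1 h2 h3) (l := -‖y‖) (u := ‖y‖)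
    fun f hf => by
      let s : C(X, ℂ) := cx ⟨fun x => √(f x), by fun_prop⟩
      have e : cx f = s * star s := by
        ext x
        simp only [s, ContinuousMap.mul_apply, ContinuousMap.star_apply, cx_apply,
          ContinuousMap.coe_mk, Complex.star_def, Complex.conj_ofReal]
        rw [← Complex.ofReal_mul, Real.mul_self_sqrt (show 0 ≤ f x from hf x)]
      have h1 : ν f = (P.T.τ (star (P.ι s) * (y * P.ι s))).re := by
        change (P.T.τ (P.ι (cx f) * y)).re = _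
        rw [e, map_mul P.ι, mul_assoc, P.cen, map_star, mul_assoc]
      have h2 := (Complex.abs_re_le_norm _).trans ((P.T.norm_τ_star_mul (P.ι s) (y * P.ι s)).trans
        (mul_le_mul_of_nonneg_left (P.T.n2_mul_le _ _) (P.T.n2_nonneg _)))
      rw [← h1, abs_le] at h2
      rw [P.τR_eq_sq hf]
      constructor <;> nlinarith [h2.1, h2.2]
  exact ⟨g, hg⟩

lemma Pre.exists_E (P : Pre M X) (y : M) :
    ∃ g : C(X, ℂ), ∀ f, P.T.τ (P.ι f * P.ι g) = P.T.τ (P.ι f * y) := by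
  obtain ⟨g₁, h1⟩ := P.exists_re y
  obtain ⟨g₂, h2⟩ := P.exists_re (-Complex.I • y)
  have h3 : ∀ a b : C(X, ℝ), P.T.τ (P.ι (cx a) * P.ι (cx b)) = P.τR (a * b) := fun a b => by
    rw [← map_mul]
    refine Complex.ext (P.τR_apply _ _ fun x => by simp).symm (P.T.im_τ_sa ?_)
    rw [← map_star]
    congr 1
    ext x
    simp
  have h4 : ∀ f : C(X, ℝ), P.T.τ (P.ι (cx f) * P.ι (cx g₁ + Complex.I • cx g₂)) =
      P.T.τ (P.ι (cx f) * y) := fun f => by
    rw [map_add, map_smul, mul_add, mul_smul_comm, map_add, map_smul, h3, h3, ← h1, ← h2,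
      mul_smul_comm, map_smul]
    apply Complex.ext <;> simp
  refine ⟨cx g₁ + Complex.I • cx g₂, fun f => ?_⟩
  have e : f = cx ⟨fun x => (f x).re, by fun_prop⟩ +
      Complex.I • cx ⟨fun x => (f x).im, by fun_prop⟩ := by
    ext x
    apply Complex.ext <;> simp
  generalize cx g₁ + Complex.I • cx g₂ = k at h4 ⊢
  rw [e, map_add P.ι, map_smul, add_mul, add_mul, smul_mul_assoc, smul_mul_assoc, map_add, map_add,
    map_smul, map_smul, h4, h4]

theorem exists_ctx (P : Pre M X) : ∃ C : Ctx M X, C.toPre = P := by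
  choose E hE using P.exists_E
  have hu : ∀ y g, (∀ f, P.T.τ (P.ι f * P.ι g) = P.T.τ (P.ι f * y)) → E y = g := fun y g h => by
    have h1 := (hE y (star (E y - g))).trans (h _).symm
    rw [← sub_eq_zero, ← map_sub, ← mul_sub, ← map_sub, map_star, P.T.n2_sq'] at h1
    exact sub_eq_zero.1 (P.inj ((P.fw.faithful _ (by simpa using h1)).trans (map_zero _).symm))
  refine ⟨⟨P, ⟨⟨E, fun a b => hu _ _ fun f => ?_⟩, fun c a => hu _ _ fun f => ?_⟩,
    fun f x => hE x f⟩, rfl⟩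
  · rw [map_add, mul_add, mul_add, map_add, map_add, hE, hE]
  · rw [RingHom.id_apply, map_smul, mul_smul_comm, mul_smul_comm, map_smul, map_smul, hE]

namespace Ctx

open Msa Pre

variable (C : Ctx M X)

lemma E_eq_of {y : M} {g : C(X, ℂ)} (h : ∀ f, C.T.τ (C.ι f * C.ι g) = C.T.τ (C.ι f * y)) :
    C.E y = g := by
  have h1 := (C.tr (star (C.E y - g)) y).trans (h _).symm
  rw [← sub_eq_zero, ← map_sub, ← mul_sub, ← map_sub, map_star, C.T.n2_sq'] at h1
  exact sub_eq_zero.1 (C.inj ((C.fw.faithful _ (by simpa using h1)).trans (map_zero _).symm))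

lemma E_ι (f : C(X, ℂ)) : C.E (C.ι f) = f := by
  exact C.E_eq_of fun _ => rfl

lemma E_mul_left (f : C(X, ℂ)) (y : M) : C.E (C.ι f * y) = f * C.E y := by
  refine C.E_eq_of fun g => ?_
  rw [map_mul C.ι, ← mul_assoc, ← mul_assoc, ← map_mul C.ι, C.tr]

lemma E_mul_right (f : C(X, ℂ)) (y : M) : C.E (y * C.ι f) = C.E y * f := by
  refine C.E_eq_of fun g => ?_
  rw [map_mul C.ι, ← mul_assoc, ← mul_assoc, ← C.cen f, ← C.cen f, ← mul_assoc, ← mul_assoc,
    ← map_mul C.ι, C.tr]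

lemma E_star (y : M) : C.E (star y) = star (C.E y) := by
  refine C.E_eq_of fun g => ?_
  have := congrArg conj (C.tr (star g) y)
  rwa [← C.T.map_star, ← C.T.map_star, star_mul, star_mul, ← map_star C.ι, ← map_star C.ι,
    star_star, ← C.cen g, ← C.cen g] at this

lemma τ_E (y : M) : C.T.τ (C.ι (C.E y)) = C.T.τ y := by
  simpa using C.tr 1 y

lemma n2_E_le (y : M) : C.T.n2 (C.ι (C.E y)) ≤ C.T.n2 y := by
  have h1 := C.T.norm_τ_star_mul (C.ι (C.E y)) y
  rw [← map_star, ← C.tr, map_star, C.T.n2_sq', Complex.norm_real,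
    Real.norm_of_nonneg (sq_nonneg _), sq] at h1
  rcases (C.T.n2_nonneg (C.ι (C.E y))).eq_or_lt with h | h
  · rw [← h]
    exact C.T.n2_nonneg y
  · exact le_of_mul_le_mul_left h1 h

lemma E_nonneg (y : M) (x : X) : 0 ≤ (C.E (star y * y) x).re ∧ (C.E (star y * y) x).im = 0 := by
  set g := C.E (star y * y) with hg
  have h1 : star g = g := by rw [hg, ← C.E_star, star_mul, star_star]
  refine ⟨?_, Complex.conj_eq_iff_im.1 (congrArg (fun k : C(X, ℂ) => k x) h1)⟩
  let n : C(X, ℝ) := ⟨fun x => max (-(g x).re) 0, by fun_prop⟩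
  let s : C(X, ℂ) := cx ⟨fun x => √(n x), by fun_prop⟩
  have hs : star s = s := by ext x; simp [s]
  have hn : ∀ x, 0 ≤ n x := fun x => le_max_right _ _
  have h2 : 0 ≤ (C.T.τ (C.ι (s * s * g))).re := by
    rw [map_mul, hg, C.tr, map_mul C.ι, mul_assoc, C.cen]
    have := (C.T.pos (y * C.ι s)).1
    rwa [star_mul, ← map_star, hs, mul_assoc, ← mul_assoc (star y), ← mul_assoc] at this
  have h3 : C.τR (-(n * n)) = (C.T.τ (C.ι (s * s * g))).re := by
    refine C.τR_apply _ _ fun x => ?_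
    have : (s * s * g) x = n x * g x := by
      simp only [s, ContinuousMap.mul_apply, cx_apply, ContinuousMap.coe_mk]
      rw [← Complex.ofReal_mul, Real.mul_self_sqrt (hn x)]
    rw [this, Complex.re_ofReal_mul]
    simp only [n, ContinuousMap.neg_apply, ContinuousMap.mul_apply, ContinuousMap.coe_mk]
    rcases le_total (-(g x).re) 0 with h | h
    · simp [max_eq_right h]
    · rw [max_eq_left h]; ring
  have h4 : 0 ≤ n * n := fun x => mul_self_nonneg (n x)
  rw [← h3, map_neg, neg_nonneg] at h2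
  have h5 := congrArg (fun k : C(X, ℝ) => k x)
    (C.τR_faithful h4 (le_antisymm h2 (C.τR_nonneg h4)))
  have h6 : max (-(g x).re) 0 = 0 := mul_self_eq_zero.1 h5
  linarith [le_max_left (-(g x).re) 0]

lemma norm_E_conj_le {y : M} (hy : star y = y) (z : M) (x : X) :
    ‖C.E (star z * y * z) x‖ ≤ ‖y‖ * (C.E (star z * z) x).re := by
  let _ := CStarAlgebra.spectralOrder M
  have _ := CStarAlgebra.spectralOrderedRing M
  have key : ∀ w : M, star w = w → ‖w‖ = ‖y‖ →
      (C.E (star z * w * z) x).re ≤ ‖y‖ * (C.E (star z * z) x).re := by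
    intro w hw hn
    obtain ⟨b, hb⟩ := CStarAlgebra.nonneg_iff_eq_star_mul_self.mp
      (sub_nonneg.2 (IsSelfAdjoint.le_algebraMap_norm_self hw))
    have h1 := (C.E_nonneg (b * z) x).1
    have e : star (b * z) * (b * z) = (‖y‖ : ℂ) • (star z * z) - star z * w * z := by
      rw [star_mul, mul_assoc, ← mul_assoc (star b), ← hb, hn, Algebra.algebraMap_eq_smul_one,
        ← Complex.coe_smul]
      simp [sub_mul, mul_sub, mul_assoc]
    rw [e, map_sub, map_smul] at h1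
    simpa using h1
  have h1 := key y hy rfl
  have h2 := key (-y) (by rw [star_neg, hy]) (norm_neg y)
  have h3 : star (C.E (star z * y * z)) = C.E (star z * y * z) := by
    rw [← C.E_star, star_mul, star_mul, star_star, hy, mul_assoc]
  have h4 := Complex.conj_eq_iff_im.1 (congrArg (fun k : C(X, ℂ) => k x) h3)
  rw [mul_neg, neg_mul, map_neg, ContinuousMap.neg_apply, Complex.neg_re] at h2
  rw [← Complex.abs_re_eq_norm.2 h4, abs_le]
  constructor <;> linarith

lemma norm_E_le {y : M} (hy : star y = y) : ‖C.E y‖ ≤ ‖y‖ := by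
  refine (ContinuousMap.norm_le _ (norm_nonneg y)).2 fun x => ?_
  have := C.norm_E_conj_le hy 1 x
  rwa [star_one, one_mul, mul_one, one_mul, ← map_one C.ι, E_ι, ContinuousMap.one_apply,
    Complex.one_re, mul_one] at this

variable [T2Space X]

/-- Pinchings converge to the conditional expectation. -/
theorem pinch_tendsto (y : M) {ε : ℝ} (hε : 0 < ε) : ∃ P : DiscreteQuotient X, ∀ Q ≤ P,
    C.T.n2 (C.pinch Q.proj y - C.ι (C.E y)) < ε := by
  obtain ⟨u, -, hu⟩ := exists_net_lim C.fw (z := fun P : DiscreteQuotient X => C.pinch P.proj y)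
    (fun P => C.norm_pinch_le P.proj_isLocallyConstant y) fun P Q h => by
      have hP := P.proj_isLocallyConstant
      have hQ := Q.proj_isLocallyConstant
      rw [C.T.n2_sub_rev, C.T.n2_sub_sq, C.τ_pinch_pinch hP hQ (proj_eq_of_le h),
        ← C.τ_pinch_pinch hQ hQ fun _ _ h => h, ← C.T.n2_sq]
      ring
  obtain ⟨g, rfl⟩ := C.mem_of_comm_pj (y := u) fun U hU => comm_of_approx C.fw (R := ‖y‖)
    fun δ hδ => by
    obtain ⟨P, hP⟩ := hu δ hδ
    refine ⟨_, C.norm_pinch_le (DiscreteQuotient.proj_isLocallyConstant _) y,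
      C.pinch_comm (P ⊓ DiscreteQuotient.ofIsClopen hU).proj_isLocallyConstant hU
      (mem_of_le_ofIsClopen hU inf_le_right) y, ?_⟩
    rw [C.T.n2_sub_rev]
    exact hP _ inf_le_left
  have : C.E y = g := by
    refine C.E_eq_of fun f => ?_
    refine eq_of_forall_dist_le fun δ hδ => ?_
    obtain ⟨P, hP⟩ := hu (δ / (C.T.n2 (C.ι f) + 1))
      (div_pos hδ (by linarith [C.T.n2_nonneg (C.ι f)]))
    have h1 : C.T.τ (C.ι f * y) = C.T.τ (C.ι f * C.pinch P.proj y) := by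
      rw [← τ_pinch_mul, C.pinch_ι P.proj_isLocallyConstant]
    rw [h1, dist_comm, dist_eq_norm, ← map_sub, ← mul_sub]
    refine (C.T.norm_τ_mul _ _).trans ?_
    rw [mul_comm, n2_star_ι]
    exact (mul_lt_of_lt_div (C.T.n2_nonneg _) (C.T.n2_nonneg _) (hP P le_rfl)).le
  rw [this]
  exact hu ε hε

end Ctx

end Vale.Agent.P078G
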