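import Mathlib.Analysis.InnerProductSpace.Basic
import Mathlib.Data.ZMod.Basic
import Mathlib.Algebra.BigOperators.Expect
import Mathlib.Analysis.Complex.Basic

/-! Balancing sums of vectors. -/

namespace Vale.Agent.P078G

open Filter Finset
open scoped Topology InnerProductSpace

variable {E : Type*} [NormedAddCommGroup E] [InnerProductSpace ℂ E]

/-- Weakly null families can be chosen almost orthogonal. -/
theorem exists_greedy {ι D κ : Type*} [Fintype ι] [Fintype κ] (l : Filter D) [l.NeBot]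
    (v : κ → ι → D → E) (h : ∀ k i w, Tendsto (fun d => ⟪w, v k i d⟫_ℂ) l (𝓝 0)) {ε : ℝ}
    (hε : 0 < ε) : ∃ d : ι → D, ∀ k, ‖∑ i, v k i (d i)‖ ^ 2 ≤ ∑ i, ‖v k i (d i)‖ ^ 2 + ε := by
  classical
  obtain ⟨d0⟩ := l.nonempty_of_neBot
  suffices H : ∀ (s : Finset ι) (ε : ℝ), 0 < ε → ∃ d : ι → D, ∀ k,
      ‖∑ i ∈ s, v k i (d i)‖ ^ 2 ≤ ∑ i ∈ s, ‖v k i (d i)‖ ^ 2 + ε from H univ ε hε
  intro s
  induction s using Finset.induction_on with
  | empty => exact fun ε hε => ⟨fun _ => d0, fun k => by simpa using hε.le⟩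
  | insert a s ha ih =>
    intro ε hε
    obtain ⟨d, hd⟩ := ih (ε / 2) (half_pos hε)
    have h1 : ∀ᶠ δ in l, ∀ k, ‖⟪∑ i ∈ s, v k i (d i), v k a δ⟫_ℂ‖ < ε / 4 :=
      eventually_all.2 fun k => by
        have := (h k a (∑ i ∈ s, v k i (d i))).norm
        rw [norm_zero] at this
        exact this.eventually (gt_mem_nhds (by positivity))
    obtain ⟨δ, hδ⟩ := h1.exists
    refine ⟨Function.update d a δ, fun k => ?_⟩
    have e1 : ∀ i ∈ s, Function.update d a δ i = d i := fun i hi =>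
      Function.update_of_ne (ne_of_mem_of_not_mem hi ha) _ _
    rw [sum_insert ha, sum_insert ha, Function.update_self,
      sum_congr rfl fun i hi => congrArg (v k i) (e1 i hi),
      sum_congr rfl fun i hi => congrArg (fun x => ‖v k i x‖ ^ 2) (e1 i hi), add_comm (v k a δ),
      @norm_add_sq ℂ]
    have h2 := (RCLike.re_le_norm _).trans (hδ k).le
    linarith [hd k]

namespace ColX

variable {r : ℕ} [NeZero r]

/-- The centred indicator of equality. -/
noncomputable def ce (a b : ZMod r) : ℝ := (if a = b then 1 else 0) - (r : ℝ)⁻¹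

omit [NeZero r] in
lemma ce_comm (a b : ZMod r) : ce a b = ce b a := by simp only [ce, eq_comm]

lemma abs_ce (a b : ZMod r) : |ce a b| ≤ 1 := by
  have h1 : (1 : ℝ) ≤ r := by exact_mod_cast NeZero.one_le
  have h2 : (r : ℝ)⁻¹ ≤ 1 := inv_le_one_of_one_le₀ h1
  have h3 : 0 ≤ (r : ℝ)⁻¹ := by positivity
  rw [ce, abs_le]
  split_ifs <;> constructor <;> linarith

lemma sum_ce (a b : ZMod r) : ∑ s, ce (a + s) b = 0 := by
  have h1 : (r : ℝ) ≠ 0 := by exact_mod_cast NeZero.ne r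
  simp only [ce, sum_sub_distrib, ← eq_sub_iff_add_eq', sum_ite_eq', mem_univ, if_true,
    sum_const, card_univ, ZMod.card, nsmul_eq_mul, mul_inv_cancel₀ h1, sub_self]

variable {ι : Type*} [Fintype ι] [DecidableEq ι]

lemma orth {i j k l : ι} (hij : i ≠ j) (hik : i ≠ k) (hil : i ≠ l) :
    ∑ c : ι → ZMod r, ce (c i) (c j) * ce (c k) (c l) = 0 := by
  have h1 : (r : ℝ) ≠ 0 := by exact_mod_cast NeZero.ne r
  have h2 : ∀ s : ZMod r, ∑ c : ι → ZMod r, ce (c i) (c j) * ce (c k) (c l) =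
      ∑ c : ι → ZMod r, ce (c i + s) (c j) * ce (c k) (c l) := fun s => by
    rw [← Equiv.sum_comp (Equiv.addRight (Pi.single i s : ι → ZMod r))]
    refine sum_congr rfl fun c _ => ?_
    simp [Pi.single_eq_of_ne hij.symm, Pi.single_eq_of_ne hik.symm, Pi.single_eq_of_ne hil.symm]
  have h3 := sum_congr (rfl : (univ : Finset (ZMod r)) = univ) fun s _ => h2 s
  rw [sum_const, sum_comm, card_univ, ZMod.card, nsmul_eq_mul] at h3
  simp only [← sum_mul, sum_ce, zero_mul, sum_const_zero] at h3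
  exact (mul_eq_zero.1 h3).resolve_left h1

/-- The coefficient of a pair. -/
noncomputable def cx (c : ι → ZMod r) (p : ι × ι) : ℝ := if p.1 = p.2 then 0 else ce (c p.1) (c p.2)

lemma gram (p p' : ι × ι) : |∑ c : ι → ZMod r, cx c p * cx c p'| ≤
    Fintype.card (ι → ZMod r) * ((if p' = p then 1 else 0) + if p' = p.swap then 1 else 0) := by
  obtain ⟨i, j⟩ := p
  obtain ⟨k, l⟩ := p'
  have h0 : (0 : ℝ) ≤ Fintype.card (ι → ZMod r) * ((if (k, l) = (i, j) then 1 else 0) +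
      if (k, l) = (i, j).swap then 1 else 0) := by
    refine mul_nonneg (Nat.cast_nonneg _) (add_nonneg ?_ ?_) <;> split_ifs <;> norm_num
  by_cases hij : i = j
  · simpa only [cx, hij, if_true, zero_mul, sum_const_zero, abs_zero] using h0
  by_cases hkl : k = l
  · simpa only [cx, hkl, if_true, mul_zero, sum_const_zero, abs_zero] using h0
  simp only [cx, hij, hkl, if_false]
  by_cases hi : i ≠ k ∧ i ≠ l
  · rw [orth hij hi.1 hi.2, abs_zero]; exact h0
  by_cases hj : j ≠ k ∧ j ≠ l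
  · have := orth (r := r) (Ne.symm hij) hj.1 hj.2
    rw [sum_congr rfl fun c _ => by rw [ce_comm (c j)]] at this
    rw [this, abs_zero]; exact h0
  have h1 : |∑ c : ι → ZMod r, ce (c i) (c j) * ce (c k) (c l)| ≤ Fintype.card (ι → ZMod r) := by
    refine (abs_sum_le_sum_abs _ _).trans ((sum_le_card_nsmul _ _ 1 fun c _ => ?_).trans ?_)
    · rw [abs_mul]
      exact mul_le_one₀ (abs_ce _ _) (abs_nonneg _) (abs_ce _ _)
    · simp
  refine h1.trans (le_mul_of_one_le_right (Nat.cast_nonneg _) ?_)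
  have h2 : (k, l) = (i, j) ∨ (k, l) = (i, j).swap := by
    simp only [Prod.swap, Prod.mk.injEq]
    grind
  split_ifs with a b b
  · norm_num
  · norm_num
  · norm_num
  · exact absurd h2 (not_or.2 ⟨a, b⟩)

lemma avg (w : ι × ι → E) : ∑ c : ι → ZMod r, ‖∑ p, (cx c p : ℂ) • w p‖ ^ 2 ≤
    Fintype.card (ι → ZMod r) * (2 * ∑ p, ‖w p‖ ^ 2) := by
  have h1 : ∀ c : ι → ZMod r, ‖∑ p, (cx c p : ℂ) • w p‖ ^ 2 =
      ∑ p, ∑ p', cx c p * cx c p' * (⟪w p, w p'⟫_ℂ).re := fun c => by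
    rw [← inner_self_eq_norm_sq (𝕜 := ℂ), sum_inner, map_sum]
    refine sum_congr rfl fun p _ => ?_
    rw [inner_sum, map_sum]
    refine sum_congr rfl fun p' _ => ?_
    rw [inner_smul_left, inner_smul_right, Complex.conj_ofReal, ← mul_assoc, ← Complex.ofReal_mul]
    exact Complex.re_ofReal_mul _ _
  simp only [h1]
  rw [sum_comm]
  have h2 : ∀ p, ∑ c : ι → ZMod r, ∑ p', cx c p * cx c p' * (⟪w p, w p'⟫_ℂ).re ≤
      Fintype.card (ι → ZMod r) * (‖w p‖ ^ 2 + (‖w p‖ ^ 2 + ‖w p.swap‖ ^ 2) / 2) := fun p => by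
    rw [sum_comm]
    have h3 : ∀ p', ∑ c : ι → ZMod r, cx c p * cx c p' * (⟪w p, w p'⟫_ℂ).re ≤
        Fintype.card (ι → ZMod r) * (((if p' = p then 1 else 0) + if p' = p.swap then 1 else 0) *
          ((‖w p‖ ^ 2 + ‖w p'‖ ^ 2) / 2)) := fun p' => by
      rw [← sum_mul, ← mul_assoc]
      refine (le_abs_self _).trans ?_
      rw [abs_mul]
      refine mul_le_mul (gram p p') ?_ (abs_nonneg _) ((abs_nonneg _).trans (gram p p'))
      refine (Complex.abs_re_le_norm _).trans ((norm_inner_le_norm _ _).trans ?_)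
      nlinarith [sq_nonneg (‖w p‖ - ‖w p'‖)]
    refine (sum_le_sum fun p' _ => h3 p').trans (le_of_eq ?_)
    rw [← mul_sum]
    simp only [add_mul, ite_mul, one_mul, zero_mul, sum_add_distrib, sum_ite_eq', mem_univ, if_true]
    ring
  refine (sum_le_sum fun p _ => h2 p).trans (le_of_eq ?_)
  have h4 : ∑ p : ι × ι, ‖w p.swap‖ ^ 2 = ∑ p, ‖w p‖ ^ 2 :=
    Equiv.sum_comp (Equiv.prodComm ι ι) fun p => ‖w p‖ ^ 2
  rw [← mul_sum, sum_add_distrib, ← sum_div, sum_add_distrib, h4]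
  ring

end ColX

open ColX in
/-- Random colourings. -/
theorem exists_col {ι κ : Type*} [Fintype ι] [DecidableEq ι] [Fintype κ] (r : ℕ) [NeZero r]
    (v : κ → ι → ι → E) : ∃ c : ι → ZMod r,
      ∑ k, ‖∑ i, ∑ j ∈ univ.erase i, ((if c i = c j then 1 else 0) - (r : ℂ)⁻¹) • v k i j‖ ^ 2 ≤
        2 * ∑ k, ∑ i, ∑ j, ‖v k i j‖ ^ 2 := by
  have h1 : ∀ (c : ι → ZMod r) k,
      ∑ i, ∑ j ∈ univ.erase i, ((if c i = c j then 1 else 0) - (r : ℂ)⁻¹) • v k i j =
        ∑ p : ι × ι, (cx c p : ℂ) • v k p.1 p.2 := fun c k => by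
    rw [Fintype.sum_prod_type]
    refine sum_congr rfl fun i _ => ?_
    rw [← add_sum_erase _ _ (mem_univ i)]
    simp only [cx, if_true, Complex.ofReal_zero, zero_smul, zero_add]
    refine sum_congr rfl fun j hj => ?_
    rw [if_neg (ne_of_mem_erase hj).symm, ce]
    split_ifs <;> simp
  simp only [h1]
  obtain ⟨c, -, hc⟩ := exists_le_of_sum_le (s := (univ : Finset (ι → ZMod r))) univ_nonempty
    (f := fun c => ∑ k, ‖∑ p : ι × ι, (cx c p : ℂ) • v k p.1 p.2‖ ^ 2)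
    (g := fun _ => 2 * ∑ k, ∑ i, ∑ j, ‖v k i j‖ ^ 2) (by
      rw [sum_comm, sum_const, card_univ, nsmul_eq_mul, mul_sum, mul_sum]
      refine sum_le_sum fun k _ => (avg fun p : ι × ι => v k p.1 p.2).trans (le_of_eq ?_)
      rw [Fintype.sum_prod_type])
  exact ⟨c, hc⟩

end Vale.Agent.P078G
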