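import Vale.Agent.P078G.Msa
import Vale.Agent.P096.NrmC
import Vale.Agent.P085.VN

/-! Normal states and pavings in a von Neumann algebra. -/

namespace Vale.Agent.P078G

open Filter
open Vale.Agent.P085 (WT vn_closed)
open scoped Topology InnerProductSpace

attribute [local instance] vn_closed

variable {H : Type*} [NormedAddCommGroup H] [InnerProductSpace ℂ H] [CompleteSpace H]
  {M : VonNeumannAlgebra H}

/-- Weak continuity on bounded sets. -/
def Nml (f : M.toStarSubalgebra →ₗ[ℂ] ℂ) : Prop :=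
  ∀ (l : Filter M.toStarSubalgebra) (y : M.toStarSubalgebra) (R : ℝ), (∀ᶠ x in l, ‖x‖ ≤ R) →
    WT l (fun x => x.1) y.1 → Tendsto f l (𝓝 (f y))

/-- `A` lies in the centraliser. -/
def Cen (A : StarSubalgebra ℂ M.toStarSubalgebra) (T : Sta M.toStarSubalgebra) : Prop :=
  ∀ a ∈ A, ∀ y, T.τ (a * y) = T.τ (y * a)

/-- Support projection. -/
def Supp (T : Sta M.toStarSubalgebra) (s : M.toStarSubalgebra) : Prop :=
  IsStarProjection s ∧ T.τ s = 1 ∧ ∀ y, T.n2 y = 0 → y * s = 0

/-- Paving of `x` under the projection `e`. -/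
def Pav (A : StarSubalgebra ℂ M.toStarSubalgebra) (e : M.toStarSubalgebra) (r : ℕ)
    (x : M.toStarSubalgebra) (F : Finset H) (δ ε : ℝ) : Prop :=
  ∃ (p : Fin r → M.toStarSubalgebra) (a q : M.toStarSubalgebra),
    (∀ i, p i ∈ A ∧ IsStarProjection (p i)) ∧ (∀ i j, i ≠ j → p i * p j = 0) ∧ ∑ i, p i = 1 ∧
    a ∈ A ∧ star a = a ∧ ‖a‖ ≤ ‖x‖ ∧ IsStarProjection q ∧ e * q = q ∧
    (∀ ξ ∈ F, ‖(e - q).1 ξ‖ < δ) ∧ ‖q * (∑ i, p i * x * p i - a) * q‖ ≤ ε

lemma rp_vn : RP M.toStarSubalgebra := P085.vn_rp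

lemma proj_coe {e : M.toStarSubalgebra} (he : IsStarProjection e) : IsStarProjection e.1 :=
  ⟨congr($(he.isIdempotentElem.eq).1), congr($(he.isSelfAdjoint.star_eq).1)⟩

lemma Nml.tendsto {f : M.toStarSubalgebra →ₗ[ℂ] ℂ} (h : Nml f) {ι : Type*} {l : Filter ι}
    {x : ι → M.toStarSubalgebra} {y : M.toStarSubalgebra} {R : ℝ} (hx : ∀ i, ‖x i‖ ≤ R)
    (hy : WT l (fun i => (x i).1) y.1) : Tendsto (fun i => f (x i)) l (𝓝 (f y)) :=
  h (l.map x) y R (eventually_map.2 (.of_forall hx)) hy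

/-- Supremum of a directed family of projections. -/
theorem exists_sup {S : Set M.toStarSubalgebra} (hne : S.Nonempty)
    (hS : ∀ s ∈ S, IsStarProjection s) (hd : ∀ s ∈ S, ∀ t ∈ S, ∃ u ∈ S, u * s = s ∧ u * t = t) :
    ∃ z, IsStarProjection z ∧ (∀ s ∈ S, z * s = s) ∧ (∀ a, (∀ s ∈ S, a * s = 0) → a * z = 0) ∧
      (∀ a, (∀ s ∈ S, a * s = s * a) → a * z = z * a) ∧
      ∀ (F : Finset H) (δ : ℝ), 0 < δ → ∃ s ∈ S, ∀ ξ ∈ F, ‖(z - s).1 ξ‖ < δ := by
  classical
  have hap : ∀ (a b : M.toStarSubalgebra) ξ, (a * b).1 ξ = a.1 (b.1 ξ) := fun _ _ _ => rfl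
  let K₀ : Submodule ℂ H :=
    { carrier := {v | ∃ s ∈ S, s.1 v = v}
      add_mem' := by
        rintro v w ⟨s, hs, hv⟩ ⟨t, ht, hw⟩
        obtain ⟨u, hu, h1, h2⟩ := hd s hs t ht
        refine ⟨u, hu, ?_⟩
        rw [map_add, ← hv, ← hw, ← hap, ← hap, h1, h2]
      zero_mem' := hne.imp fun s hs => ⟨hs, map_zero _⟩
      smul_mem' := by
        rintro c v ⟨s, hs, hv⟩
        exact ⟨s, hs, by rw [map_smul, hv]⟩ }
  obtain ⟨e, heM, he, hK⟩ := P096.vn_proj (M := M) K₀.topologicalClosure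
    K₀.isClosed_topologicalClosure fun g hg ξ hξ => map_mem_closure g.continuous hξ (by
      rintro v ⟨s, hs, hv⟩
      refine ⟨s, hs, ?_⟩
      have := congr($(P096.vn_comm s.2 hg) v)
      simpa [hv] using this)
  let z : M.toStarSubalgebra := ⟨e, heM⟩
  have hz : IsStarProjection z := ⟨Subtype.ext he.1, Subtype.ext he.2⟩
  have h1 : ∀ s ∈ S, z * s = s := fun s hs => Subtype.ext (ContinuousLinearMap.ext fun ξ =>
    (hK _).2 (K₀.le_topologicalClosure ⟨s, hs, congr($((hS s hs).isIdempotentElem.eq).1 ξ)⟩))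
  have hzK : ∀ ξ, e ξ ∈ K₀.topologicalClosure := fun ξ =>
    (hK _).1 congr($(he.isIdempotentElem.eq) ξ)
  have h2 : ∀ a, (∀ s ∈ S, a * s = 0) → a * z = 0 := fun a ha => by
    refine Subtype.ext (ContinuousLinearMap.ext fun ξ => ?_)
    refine K₀.topologicalClosure_minimal (t := a.1.ker) ?_ a.1.isClosed_ker (hzK ξ)
    rintro v ⟨s, hs, hv⟩
    show a.1 v = 0
    rw [← hv, ← hap, ha s hs]
    rfl
  have h3 : ∀ a, (∀ s ∈ S, a * s = s * a) → a * z = z * a * z := fun a ha => by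
    have := h2 ((1 - z) * a) fun s hs => by
      rw [mul_assoc, ha s hs, ← mul_assoc, sub_mul, one_mul, h1 s hs, sub_self, zero_mul]
    rwa [sub_mul, sub_mul, one_mul, sub_eq_zero] at this
  refine ⟨z, hz, h1, h2, fun a ha => ?_, fun F δ hδ => ?_⟩
  · have h4 := congrArg star (h3 (star a) fun s hs => by
      have := congrArg star (ha s hs)
      rw [star_mul, star_mul, (hS s hs).isSelfAdjoint.star_eq] at this
      exact this.symm)
    rw [star_mul, star_mul, star_mul, star_star, hz.isSelfAdjoint.star_eq, ← mul_assoc] at h4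
    rw [h3 a ha, ← h4]
  suffices h : ∃ s ∈ S, ∀ u ∈ S, u * s = s → ∀ ξ ∈ F, ‖(z - u).1 ξ‖ < δ by
    obtain ⟨s, hs, h⟩ := h
    exact ⟨s, hs, h s hs (hS s hs).isIdempotentElem.eq⟩
  induction F using Finset.induction_on with
  | empty => exact hne.imp fun s hs => ⟨hs, by simp⟩
  | insert ξ F _ ih =>
    obtain ⟨s, hs, h⟩ := ih
    obtain ⟨w, ⟨t, ht, hw⟩, hw'⟩ := Metric.mem_closure_iff.1 (hzK ξ) δ hδ
    obtain ⟨s', hs', a1, a2⟩ := hd s hs t ht
    refine ⟨s', hs', fun u hu hus v hv => ?_⟩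
    rcases Finset.mem_insert.1 hv with rfl | hv
    · have b1 : u.1 w = w := by rw [← hw, ← hap, ← a2, ← mul_assoc, hus]
      have b2 : u * z = u := by
        have := congrArg star (h1 u hu)
        rwa [star_mul, (hS u hu).isSelfAdjoint.star_eq, hz.isSelfAdjoint.star_eq] at this
      have b3 : (z - u).1 v = (1 - u.1) (e v - w) := by
        have : u.1 (e v) = u.1 v := congr($(b2).1 v)
        simp [b1, this, z]
      rw [b3]
      refine lt_of_le_of_lt ?_ (dist_eq_norm (e v) w ▸ hw')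
      simpa using (1 - u.1).le_of_opNorm_le (proj_coe (hS u hu)).one_sub.norm_le (e v - w)
    · exact h u hu (by rw [← a1, ← mul_assoc, hus]) v hv

/-- Cutting off the large part of a self-adjoint element that is small on `F`. -/
theorem exists_small_cut {q b : M.toStarSubalgebra} (hq : IsStarProjection q) (hb : star b = b)
    {σ : ℝ} (hσ : 0 < σ) : ∃ q', IsStarProjection q' ∧ q * q' = q' ∧ ‖q' * b * q'‖ ≤ σ ∧
      ∀ ξ, σ * ‖(q - q').1 ξ‖ ≤ ‖(q * b * q).1 ξ‖ := by
  let _ := CStarAlgebra.spectralOrder M.toStarSubalgebra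
  have _ := CStarAlgebra.spectralOrderedRing M.toStarSubalgebra
  set c := q * b * q with hc
  have hqs := hq.isSelfAdjoint.star_eq
  have hqq := hq.isIdempotentElem.eq
  have hcs : star c = c := by rw [hc, star_mul, star_mul, hqs, hb, mul_assoc]
  have hqc : q * c = c := by rw [hc, ← mul_assoc, ← mul_assoc, hqq]
  obtain ⟨e, he, h1, h2, h3, h4⟩ := exists_spec rp_vn (b := c * c) (by rw [star_mul, hcs]) (σ ^ 2)
  have hes := he.isSelfAdjoint.star_eq
  have hqe : q * e = e := by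
    have := h4 (1 - q) (sq_nonneg σ) (by rw [← mul_assoc, sub_mul, one_mul, hqc, sub_self, zero_mul])
    rw [sub_mul, one_mul, sub_eq_zero] at this
    exact this.symm
  have heq : e * q = e := by
    have := congrArg star hqe
    rwa [star_mul, hes, hqs] at this
  have hce : c * e = e * c := h1 c (mul_assoc _ _ _).symm
  have hf := he.one_sub
  refine ⟨q - e, he.sub_of_mul_eq_left hq heq, by rw [mul_sub, hqq, hqe], ?_, fun ξ => ?_⟩
  · have e1 : (q - e) * b * (q - e) = (1 - e) * (c * (1 - e)) := by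
      have a1 : q - e = (1 - e) * q := by rw [sub_mul, one_mul, heq]
      have a2 : q - e = q * (1 - e) := by rw [mul_sub, mul_one, hqe]
      nth_rewrite 1 [a1]
      rw [a2, hc]
      simp only [mul_assoc]
    have e2 : star (c * (1 - e)) * (c * (1 - e)) = (1 - e) * (c * c) * (1 - e) := by
      rw [star_mul, hcs, hf.isSelfAdjoint.star_eq]
      simp only [mul_assoc]
    have e3 := CStarAlgebra.norm_le_norm_of_nonneg_of_le (e2 ▸ star_mul_self_nonneg _) h2
    rw [← e2, CStarRing.norm_star_mul_self, norm_smul, Real.norm_of_nonneg (sq_nonneg σ)] at e3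
    have e4 : ‖c * (1 - e)‖ ≤ σ := by
      have := hf.norm_le
      apply abs_le_of_sq_le_sq' _ hσ.le |>.2
      nlinarith [sq_nonneg σ]
    rw [e1]
    exact (norm_mul_le_of_le hf.norm_le e4).trans_eq (one_mul σ)
  · rw [sub_sub_cancel]
    have e2 : e * (c * c) * e = star (e * c) * (e * c) := by
      rw [← hce, star_mul, hcs, hes]
      simp only [mul_assoc]
    have e3 : σ ^ 2 • e = ((σ ^ 2 : ℝ) : ℂ) • (star e * e) := by
      rw [hes, he.isIdempotentElem.eq, Complex.coe_smul]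
    rw [e2, e3] at h3
    have e1 := P096.re_inner_nonneg
      (sub_nonneg.2 (P096.hom_mono M.toStarSubalgebra.subtype h3)) ξ
    rw [map_smul, map_mul, map_mul _ (star e), map_star, map_star,
      sub_apply, inner_sub_right, Complex.sub_re,
      smul_apply, inner_smul_right, Complex.re_ofReal_mul,
      P096.re_inner_star_mul, P096.re_inner_star_mul] at e1
    have e4 : ‖(e * c).1 ξ‖ ≤ ‖c.1 ξ‖ := by
      simpa using e.1.le_of_opNorm_le (proj_coe he).norm_le (c.1 ξ)
    apply abs_le_of_sq_le_sq' _ (norm_nonneg _) |>.2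
    have e5 := pow_le_pow_left₀ (norm_nonneg _) e4 2
    rw [mul_pow]
    exact (sub_nonneg.1 e1).trans e5

end Vale.Agent.P078G
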