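import Vale.Agent.P078G.Msa
import Vale.Agent.P085.VN

/-! Faithful normal states on weakly closed algebras. -/

namespace Vale.Agent.P078G

open Filter
open Vale.Agent.P085 (WT)
open scoped Topology InnerProductSpace

variable {H : Type*} [NormedAddCommGroup H] [InnerProductSpace ℂ H] [CompleteSpace H]
  {N : Type*} [CStarAlgebra N] (π : N →⋆ₐ[ℂ] (H →L[ℂ] H)) (hi : Function.Injective π)
  (hc : ∀ (U : Ultrafilter ℕ) (x : ℕ → N) (R : ℝ) (y : H →L[ℂ] H), (∀ n, ‖x n‖ ≤ R) →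
    WT (U : Filter ℕ) (fun n => π (x n)) y → ∃ n, π n = y)
  {T : Sta N} (hf : ∀ a, T.n2 a = 0 → a = 0)
  (hn : ∀ (U : Ultrafilter ℕ) (x : ℕ → N) (R : ℝ) (y : N), (∀ n, ‖x n‖ ≤ R) →
    WT (U : Filter ℕ) (fun n => π (x n)) (π y) → Tendsto (fun n => T.τ (x n)) U (𝓝 (T.τ y)))

include hc hn in
lemma exists_wlim (U : Ultrafilter ℕ) {x : ℕ → N} {R : ℝ} (hx : ∀ n, ‖x n‖ ≤ R) :
    ∃ y, WT (U : Filter ℕ) (fun n => π (x n)) (π y) ∧
      ∀ a b, Tendsto (fun n => T.τ (a * x n * b)) U (𝓝 (T.τ (a * y * b))) := by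
  obtain ⟨y, hy⟩ := P085.exists_WT U (x := fun n => π (x n)) (R := R) fun n =>
    (NonUnitalStarAlgHom.norm_apply_le π _).trans (hx n)
  obtain ⟨y, rfl⟩ := hc U x R y hx hy
  refine ⟨y, hy, fun a b => hn U _ (‖a‖ * R * ‖b‖) _ (fun n => norm_mul_le_of_le
    (norm_mul_le_of_le le_rfl (hx n)) le_rfl) fun ξ η => ?_⟩
  simp only [map_mul]
  exact hy.mul_left (π a) (π b ξ) η

include hc hf hn in
lemma null_lim {z : ℕ → N} {R : ℝ} (hz : ∀ n, ‖z n‖ ≤ R)
    (h0 : ∀ n : ℕ, T.n2 (z n) < 1 / ((n : ℝ) + 1)) :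
    WT (hyperfilter ℕ : Filter ℕ) (fun n => π (star (z n) * z n)) 0 ∧
      ∀ b, Tendsto (fun n => T.τ (star b * (star (z n) * z n) * b)) (hyperfilter ℕ) (𝓝 0) := by
  obtain ⟨y, h1, h2⟩ := exists_wlim π hc hn (hyperfilter ℕ) (x := fun n => star (z n) * z n)
    (R := R * R) fun n => norm_mul_le_of_le ((norm_star _).trans_le (hz n)) (hz n)
  have h3 : Tendsto (fun n => T.n2 (star (z n) * z n - 0)) atTop (𝓝 0) := by
    refine squeeze_zero (fun n => T.n2_nonneg _) (fun n => ?_)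
      (by simpa using tendsto_one_div_add_atTop_nhds_zero_nat.const_mul R)
    rw [sub_zero, ← one_div]
    exact (T.n2_mul_le _ _).trans (mul_le_mul ((norm_star _).trans_le (hz n)) (h0 n).le
      (T.n2_nonneg _) ((norm_nonneg _).trans (hz 0)))
  obtain rfl : y = 0 := hf _ (sq_eq_zero_iff.mp (by
    have h4 := h2 (star y) 1
    simp only [mul_one] at h4
    rw [T.n2_sq, tendsto_nhds_unique h4
      ((T.tendsto_τ h3 (star y)).mono_left Nat.hyperfilter_le_atTop)]
    simp))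
  exact ⟨by simpa using h1, fun b => by simpa using h2 (star b) b⟩

include hi hc hf hn

theorem small_vec (ξ : H) (R : ℝ) {ε : ℝ} (hε : 0 < ε) :
    ∃ δ > 0, ∀ z, ‖z‖ ≤ R → T.n2 z < δ → ‖π z ξ‖ < ε := by
  by_contra! h
  choose z hz h1 h2 using fun n : ℕ => h (1 / ((n : ℝ) + 1)) Nat.one_div_pos_of_nat
  have h5 := (Complex.continuous_re.tendsto _).comp ((null_lim π hc hf hn hz h1).1 ξ ξ)
  have h6 := ge_of_tendsto' h5 (b := ε ^ 2) fun n => by
    have : ⟪ξ, π (star (z n) * z n) ξ⟫_ℂ = ⟪π (z n) ξ, π (z n) ξ⟫_ℂ := by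
      rw [map_mul, map_star, ContinuousLinearMap.mul_apply, ContinuousLinearMap.star_eq_adjoint,
        ContinuousLinearMap.adjoint_inner_right]
    simp only [Function.comp, this, inner_self_eq_norm_sq_to_K]
    norm_cast
    exact pow_le_pow_left₀ hε.le (h2 n) 2
  simp only [ContinuousLinearMap.zero_apply, inner_zero_right, Complex.zero_re] at h6
  nlinarith

theorem fw_of_nml : FW T := by
  refine ⟨hf, fun x R hx h => ?_, fun b R ε hε => ?_⟩
  · obtain ⟨y, h1, h2⟩ := exists_wlim π hc hn (hyperfilter ℕ) hx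
    refine ⟨y, ?_, Metric.tendsto_atTop.2 fun ε hε => ?_⟩
    · rw [← NonUnitalStarAlgHom.norm_map π hi]
      exact h1.norm_le fun n => (NonUnitalStarAlgHom.norm_apply_le π _).trans (hx n)
    · obtain ⟨K, hK⟩ := Metric.cauchySeq_iff.1 h (ε / 2) (half_pos hε)
      refine ⟨K, fun n hn' => ?_⟩
      have h3 := ((h2 (star (x n - y)) 1).const_sub (T.τ (star (x n - y) * x n))).norm
      simp only [mul_one, ← map_sub, ← mul_sub] at h3
      have h4 := le_of_tendsto h3 (b := T.n2 (x n - y) * (ε / 2)) (by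
        filter_upwards [Nat.hyperfilter_le_atTop (eventually_ge_atTop K)] with m hm
        refine (T.norm_τ_star_mul _ _).trans (mul_le_mul_of_nonneg_left ?_ (T.n2_nonneg _))
        have := hK n hn' m hm
        rw [dist_eq_norm, ← map_sub] at this
        exact this.le)
      rw [T.n2_sq', Complex.norm_real, Real.norm_of_nonneg (sq_nonneg _)] at h4
      rw [Real.dist_eq, sub_zero, abs_of_nonneg (T.n2_nonneg _)]
      nlinarith [T.n2_nonneg (x n - y)]
  · by_contra! h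
    choose z hz h1 h2 using fun n : ℕ => h (1 / ((n : ℝ) + 1)) Nat.one_div_pos_of_nat
    have h5 := (Complex.continuous_re.tendsto _).comp ((null_lim π hc hf hn hz h1).2 b)
    have h6 := ge_of_tendsto' h5 (b := ε ^ 2) fun n => by
      have := T.n2_sq (z n * b)
      rw [star_mul, mul_assoc, ← mul_assoc (star (z n)), ← mul_assoc] at this
      exact (pow_le_pow_left₀ hε.le (h2 n) 2).trans_eq this
    rw [Complex.zero_re] at h6
    nlinarith

end Vale.Agent.P078G
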