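import Vale.Agent.P078G.DDef

/-! Gluing two pavings. -/

namespace Vale.Agent.P078G

open Filter Finset
open Vale.Agent.P085 (WT vn_closed)
open scoped Topology InnerProductSpace ComplexOrder

attribute [local instance] vn_closed

variable {H : Type*} [NormedAddCommGroup H] [InnerProductSpace ℂ H] [CompleteSpace H]
  {M : VonNeumannAlgebra H} {A : StarSubalgebra ℂ M.toStarSubalgebra}

lemma norm_add_orth {B : Type*} [CStarAlgebra B] {s a b : B} (hs : IsStarProjection s) {r : ℝ}
    (ha : ‖a‖ ≤ r) (hb : ‖b‖ ≤ r) : ‖s * a * s + (1 - s) * b * (1 - s)‖ ≤ r := by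
  let _ := CStarAlgebra.spectralOrder B
  have _ := CStarAlgebra.spectralOrderedRing B
  have hr := (norm_nonneg a).trans ha
  have key : ∀ {e c : B}, IsStarProjection e → ‖c‖ ≤ r →
      star (e * c * e) * (e * c * e) ≤ r ^ 2 • e := fun {e c} he hc => by
    have h := CStarAlgebra.star_left_conjugate_le_norm_smul (a := e) (b := star (e * c) * (e * c))
      (IsSelfAdjoint.star_mul_self _)
    rw [CStarRing.norm_star_mul_self, ← sq, he.isSelfAdjoint.star_eq, he.isIdempotentElem.eq] at h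
    rw [star_mul, he.isSelfAdjoint.star_eq, mul_assoc, ← mul_assoc (star _), ← mul_assoc]
    exact h.trans (smul_le_smul_of_nonneg_right (pow_le_pow_left₀ (norm_nonneg _)
      ((norm_mul_le_of_le he.norm_le hc).trans_eq (one_mul _)) 2) he.nonneg)
  have e1 : star (s * a * s) * ((1 - s) * b * (1 - s)) = 0 := by
    simp only [star_mul, hs.isSelfAdjoint.star_eq, mul_assoc]
    rw [← mul_assoc s (1 - s), hs.mul_one_sub_self]
    simp
  have e2 : star ((1 - s) * b * (1 - s)) * (s * a * s) = 0 := by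
    simpa only [star_mul _ (_ * _ * _), star_star, star_zero] using congrArg star e1
  have h1 := add_le_add (key hs ha) (key hs.one_sub hb)
  rw [← smul_add, add_sub_cancel] at h1
  have h2 := CStarAlgebra.norm_le_norm_of_nonneg_of_le
    (star_mul_self_nonneg (s * a * s + (1 - s) * b * (1 - s))) (b := r ^ 2 • (1 : B)) (by
      rw [star_add, add_mul, mul_add, mul_add, e1, e2, add_zero, zero_add]
      exact h1)
  rw [CStarRing.norm_star_mul_self, norm_smul, ← sq, norm_pow, Real.norm_of_nonneg hr] at h2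
  exact abs_le_of_sq_le_sq' (h2.trans (mul_le_of_le_one_right (by positivity)
    (IsStarProjection.one B).norm_le)) hr |>.2

theorem Pav.glue (hA : ∀ a ∈ A, ∀ b ∈ A, a * b = b * a) {s z x : M.toStarSubalgebra}
    (hs : s ∈ A) (hs' : IsStarProjection s) (hz : s * z = 0) {r r' : ℕ} {F : Finset H}
    {δ ε : ℝ} (hx : star x = x) (h1 : Pav A s r x F δ ε) (h2 : Pav A z r' x F δ ε)
    (h : ∀ ξ ∈ F, ‖(1 - s - z).1 ξ‖ < δ) : Pav A 1 (r + r') x F (3 * δ) ε := by
  obtain ⟨p, a, q, a1, a2, a3, a4, a5, a6, a7, a8, a9, a10⟩ := h1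
  obtain ⟨p', a', q', b1, b2, b3, b4, b5, b6, b7, b8, b9, b10⟩ := h2
  have ht : 1 - s ∈ A := sub_mem (one_mem _) hs
  have ht' := hs'.one_sub
  have st := hs'.mul_one_sub_self
  have ts := hs'.one_sub_mul_self
  have ss := hs'.isIdempotentElem.eq
  have tt := ht'.isIdempotentElem.eq
  have c1 : s * q' = 0 := by rw [← b8, ← mul_assoc, hz, zero_mul]
  have c2 : (1 - s) * q' = q' := by rw [sub_mul, c1, one_mul, sub_zero]
  have c3 : q * s = q := by
    simpa [a7.isSelfAdjoint.star_eq, hs'.isSelfAdjoint.star_eq] using congrArg star a8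
  have c4 : q' * (1 - s) = q' := by
    simpa only [star_mul, b7.isSelfAdjoint.star_eq, ht'.isSelfAdjoint.star_eq] using
      congrArg star c2
  have cut : ∀ {e u v : M.toStarSubalgebra}, e ∈ A → v ∈ A → e * e = e →
      u * e * (v * e) = u * v * e := fun {e u v} he hv h => by
    rw [mul_assoc, ← mul_assoc e, hA e he v hv, mul_assoc, h, mul_assoc]
  have cut' : ∀ {e f u v : M.toStarSubalgebra}, e ∈ A → v ∈ A → e * f = 0 →
      u * e * (v * f) = 0 := fun {e f u v} he hv h => by
    rw [mul_assoc, ← mul_assoc e, hA e he v hv, mul_assoc, h, mul_zero, mul_zero]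
  refine ⟨Fin.append (fun i => p i * s) fun i => p' i * (1 - s),
    s * a * s + (1 - s) * a' * (1 - s), q + q', fun i => ?_, fun i j hij => ?_, ?_,
    add_mem (mul_mem (mul_mem hs a4) hs) (mul_mem (mul_mem ht b4) ht), ?_,
    norm_add_orth hs' a6 b6, a7.add b7 (by rw [← c3, mul_assoc, c1, mul_zero]), one_mul _,
    fun ξ hξ => ?_, ?_⟩
  · induction i using Fin.addCases with
    | left i =>
      rw [Fin.append_left]
      exact ⟨mul_mem (a1 i).1 hs, (a1 i).2.mul hs' (hA _ (a1 i).1 _ hs)⟩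
    | right i =>
      rw [Fin.append_right]
      exact ⟨mul_mem (b1 i).1 ht, (b1 i).2.mul ht' (hA _ (b1 i).1 _ ht)⟩
  · induction i using Fin.addCases <;> induction j using Fin.addCases <;>
      simp only [Fin.append_left, Fin.append_right]
    · rw [cut hs (a1 _).1 ss, a2 _ _ fun h => hij (by rw [h]), zero_mul]
    · exact cut' hs (b1 _).1 st
    · exact cut' ht (a1 _).1 ts
    · rw [cut ht (b1 _).1 tt, b2 _ _ fun h => hij (by rw [h]), zero_mul]
  · simp only [Fin.sum_univ_add, Fin.append_left, Fin.append_right, ← sum_mul, a3, b3, one_mul,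
      add_sub_cancel]
  · simp only [star_add, star_mul, a5, b5, hs'.isSelfAdjoint.star_eq, ht'.isSelfAdjoint.star_eq,
      mul_assoc]
  · have e : (1 - (q + q')).1 ξ = (1 - s - z).1 ξ + (s - q).1 ξ + (z - q').1 ξ := by
      rw [show 1 - (q + q') = (1 - s - z) + (s - q) + (z - q') by abel]
      rfl
    rw [e]
    linarith [norm_add₃_le (a := (1 - s - z).1 ξ) (b := (s - q).1 ξ) (c := (z - q').1 ξ), h ξ hξ,
      a9 ξ hξ, b9 ξ hξ]
  · have e1 : ∀ {k : ℕ} {u : Fin k → M.toStarSubalgebra} {e : M.toStarSubalgebra}, e ∈ A →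
        (∀ i, u i ∈ A) → ∑ i, u i * e * x * (u i * e) = e * (∑ i, u i * x * u i) * e :=
      fun {k u e} he hu => by
        rw [mul_sum, sum_mul]
        refine sum_congr rfl fun i _ => ?_
        rw [hA _ (hu i) e he]
        simp only [mul_assoc, hA _ (hu i) e he]
    simp only [Fin.sum_univ_add, Fin.append_left, Fin.append_right]
    rw [e1 hs fun i => (a1 i).1, e1 ht fun i => (b1 i).1, add_sub_add_comm, ← sub_mul, ← mul_sub,
      ← sub_mul, ← mul_sub]
    refine le_trans (le_of_eq ?_) (norm_add_orth hs' a10 b10)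
    have d1 : (q + q') * s = s * q := by
      rw [add_mul, c3, a8, ← c4, mul_assoc, ts, mul_zero, add_zero]
    have d2 : s * (q + q') = q * s := by rw [mul_add, c3, a8, c1, add_zero]
    have d3 : (q + q') * (1 - s) = (1 - s) * q' := by
      rw [add_mul, c4, c2, ← c3, mul_assoc, st, mul_zero, zero_add]
    have d4 : (1 - s) * (q + q') = q' * (1 - s) := by
      rw [mul_add, c4, c2, ← a8, ← mul_assoc, ts, zero_mul, zero_add]
    generalize q + q' = w at *
    rw [mul_add, add_mul]
    simp only [mul_assoc, d2, d4]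
    simp only [← mul_assoc, d1, d3]

lemma single_part {r : ℕ} (i₀ : Fin r) : (∀ i, (Pi.single i₀ 1 : Fin r → M.toStarSubalgebra) i ∈ A ∧
    IsStarProjection ((Pi.single i₀ 1 : Fin r → M.toStarSubalgebra) i)) ∧
    ∀ i j, i ≠ j → (Pi.single i₀ 1 : Fin r → M.toStarSubalgebra) i *
      (Pi.single i₀ 1 : Fin r → M.toStarSubalgebra) j = 0 := by
  refine ⟨fun i => ?_, fun i j hij => ?_⟩
  · rcases eq_or_ne i i₀ with rfl | h
    · simpa using IsStarProjection.one _
    · simpa [h] using IsStarProjection.zero _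
  · rcases eq_or_ne i i₀ with rfl | h
    · simp [hij.symm]
    · simp [h]

lemma Pav.zero {r : ℕ} (hr : r ≠ 0) (x : M.toStarSubalgebra) (F : Finset H) {δ ε : ℝ} (hδ : 0 < δ)
    (hε : 0 ≤ ε) : Pav A 0 r x F δ ε :=
  ⟨Pi.single ⟨0, Nat.pos_of_ne_zero hr⟩ 1, 0, 0, (single_part _).1, (single_part (A := A) _).2,
    by simp,
    zero_mem _, star_zero _, by simp, .zero _, mul_zero _, by simpa using fun _ _ => hδ,
    by simpa using hε⟩

lemma Pav.of_zero {r : ℕ} (hr : r ≠ 0) (F : Finset H) {δ : ℝ} (hδ : 0 < δ) :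
    Pav A 1 r 0 F δ 0 :=
  ⟨Pi.single ⟨0, Nat.pos_of_ne_zero hr⟩ 1, 0, 1, (single_part _).1, (single_part (A := A) _).2,
    by simp,
    zero_mem _, star_zero _, le_rfl, .one _, mul_one _, by simpa using fun _ _ => hδ, by simp⟩

/-- Supports of normal central states form a directed family. -/
lemma supp_directed {T T' : Sta M.toStarSubalgebra} (h : Nml T.τ) (h' : Nml T'.τ) (c : Cen A T)
    (c' : Cen A T') : ∃ S : Sta M.toStarSubalgebra, Nml S.τ ∧ Cen A S ∧
      ∀ s s' u, Supp T s → Supp T' s' → Supp S u → u * s = s ∧ u * s' = s' := by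
  refine ⟨⟨(2⁻¹ : ℂ) • (T.τ + T'.τ), fun a => ?_, ?_⟩, fun l y R h1 h2 => ?_, fun a ha y => ?_,
    fun s s' u hs hs' hu => ?_⟩
  · simp only [LinearMap.smul_apply, LinearMap.add_apply, smul_eq_mul]
    exact mul_nonneg (by positivity) (add_nonneg (T.pos a) (T'.pos a))
  · simp only [LinearMap.smul_apply, LinearMap.add_apply, T.one, T'.one, smul_eq_mul]
    norm_num
  · exact ((h l y R h1 h2).add (h' l y R h1 h2)).const_smul (2⁻¹ : ℂ)
  · simp only [LinearMap.smul_apply, LinearMap.add_apply, c a ha, c' a ha]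
  · have e := hu.1.one_sub
    have h1 := hu.2.1
    have k : ∀ S : Sta M.toStarSubalgebra, S.n2 (1 - u) ^ 2 = 1 - (S.τ u).re := fun S => by
      rw [S.n2_sq, e.isSelfAdjoint.star_eq, e.isIdempotentElem.eq, map_sub, S.one, Complex.sub_re,
        Complex.one_re]
    have h2 : 2⁻¹ * (T.τ u).re + 2⁻¹ * (T'.τ u).re = 1 := by
      have := congrArg (fun c : ℂ => (2 * c).re) h1
      simpa [← mul_assoc] using this
    have h3 := hs.2.2 (1 - u) (by nlinarith [k T, k T', sq_nonneg (T'.n2 (1 - u))])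
    have h4 := hs'.2.2 (1 - u) (by nlinarith [k T, k T', sq_nonneg (T.n2 (1 - u))])
    rw [sub_mul, one_mul, sub_eq_zero] at h3 h4
    exact ⟨h3.symm, h4.symm⟩

end Vale.Agent.P078G
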