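import Vale.Agent.P078G.Main

/-! Paving over a masa in the centraliser of a faithful normal state. -/

namespace Vale.Agent.P078G

open Msa Pre

universe u

theorem exists_msa {M : Type u} [CStarAlgebra M] (h : RP M) (A : StarSubalgebra ℂ M)
    (hA : ∀ m, m ∈ A ↔ ∀ a ∈ A, m * a = a * m) :
    ∃ (X : Type u) (_ : TopologicalSpace X) (_ : CompactSpace X) (_ : T2Space X) (C : Msa M X),
      ∀ a, a ∈ A ↔ ∃ f, C.ι f = a := by
  have hc : IsClosed (A : Set M) := by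
    have : (A : Set M) = Set.centralizer (A : Set M) :=
      Set.ext fun m => (hA m).trans (forall₂_congr fun _ _ => eq_comm)
    rw [this]
    exact Set.isClosed_centralizer _
  let : CommCStarAlgebra A :=
    { StarSubalgebra.cstarAlgebra A with
      mul_comm := fun a b => Subtype.ext ((hA _).mp a.2 _ b.2) }
  let ι : C(WeakDual.characterSpace ℂ A, ℂ) →⋆ₐ[ℂ] M :=
    A.subtype.comp (gelfandStarTransform A).symm
  have hι : ∀ f, ι f ∈ A := fun f => ((gelfandStarTransform A).symm f).2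
  have hs : ∀ a ∈ A, ∃ f, ι f = a := fun a ha =>
    ⟨gelfandStarTransform A ⟨a, ha⟩, by simp [ι]⟩
  exact ⟨_, _, inferInstance, inferInstance,
    ⟨ι, Subtype.val_injective.comp (gelfandStarTransform A).symm.injective,
      fun m hm => hs m ((hA m).mpr fun a ha => by obtain ⟨f, rfl⟩ := hs a ha; exact hm f), h⟩,
    fun a => ⟨hs a, by rintro ⟨f, rfl⟩; exact hι f⟩⟩

theorem paving_abs {M : Type*} [CStarAlgebra M] {T : Sta M} (h : FW T) (hrp : RP M)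
    (A : StarSubalgebra ℂ M) (hA : ∀ m, m ∈ A ↔ ∀ a ∈ A, m * a = a * m)
    (cen : ∀ a ∈ A, ∀ y, T.τ (a * y) = T.τ (y * a)) {ε : ℝ} (hε : 0 < ε) (hε1 : ε < 1) {r : ℕ}
    (hr : 10 ^ 10 / ε ^ 2 ≤ r) {x : M} (hx : star x = x) {δ : ℝ} (hδ : 0 < δ) :
    ∃ (p : Fin r → M) (a q : M), (∀ i, p i ∈ A ∧ IsStarProjection (p i)) ∧
      (∀ i j, i ≠ j → p i * p j = 0) ∧ ∑ i, p i = 1 ∧ a ∈ A ∧ star a = a ∧ ‖a‖ ≤ ‖x‖ ∧
      IsStarProjection q ∧ (T.τ (1 - q)).re < δ ∧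
      ‖q * (∑ i, p i * x * p i - a) * q‖ ≤ ε * ‖x‖ := by
  obtain ⟨X, _, _, _, C₀, hC⟩ := exists_msa hrp A hA
  obtain ⟨C, hC'⟩ := exists_ctx ⟨C₀, T, h, fun f => cen _ ((hC _).2 ⟨f, rfl⟩)⟩
  obtain rfl : C.T = T := by rw [hC']
  obtain rfl : C.toMsa = C₀ := by rw [hC']
  have hr0 : r ≠ 0 := by
    rintro rfl
    have : (0 : ℝ) < 10 ^ 10 / ε ^ 2 := by positivity
    simp only [Nat.cast_zero] at hr
    linarith
  have : NeZero r := ⟨hr0⟩
  obtain ⟨c, q, hc, hq, h1, h2⟩ := C.paving hε hε1 hr hx hδ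
  let e := (ZMod.finEquiv r).toEquiv
  have hι' : ∀ f, C.ι f ∈ A := fun f => (hC _).2 ⟨f, rfl⟩
  refine ⟨fun i => C.pj (c ⁻¹' {e i}), C.ι (C.E x), q, fun i => ⟨hι' _, C.pj_proj _⟩,
    fun i j hij => C.fib_mul hc (e.injective.ne hij), ?_, hι' _, ?_, ?_, hq, h1, ?_⟩
  · rw [e.sum_comp fun k => C.pj (c ⁻¹' {k}), C.sum_fib hc]
  · rw [← map_star, ← C.E_star, hx]
  · rw [C.norm_ι]
    exact C.norm_E_le hx
  · rw [e.sum_comp fun k => C.pj (c ⁻¹' {k}) * x * C.pj (c ⁻¹' {k})]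
    exact h2

end Vale.Agent.P078G
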