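import Vale.Agent.P078G.DDef
import Vale.Agent.P078G.DFW
import Vale.Agent.P078G.VN

/-! Paving under the support of a normal central state. -/

namespace Vale.Agent.P078G

open Filter Finset
open Vale.Agent.P085 (WT vn_closed)
open scoped Topology InnerProductSpace ComplexOrder

attribute [local instance] vn_closed

variable {H : Type*} [NormedAddCommGroup H] [InnerProductSpace ℂ H] [CompleteSpace H]
  {M : VonNeumannAlgebra H} {A : StarSubalgebra ℂ M.toStarSubalgebra}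

section corner

open P096

lemma xt_star {S : Submodule ℂ H} [CompleteSpace S] (T : S →L[ℂ] S) :
    xt S (star T) = star (xt S T) := by
  have hP : IsStarProjection S.starProjection := isStarProjection_starProjection
  conv_lhs => rw [← cmp_xt T, ← cmp_star, xt_cmp, ← hP.isSelfAdjoint.star_eq, ← star_mul,
    ← star_mul, xt_mul_proj, proj_mul_xt]

/-- The corner of a subalgebra. -/
def corner (S : Submodule ℂ H) [CompleteSpace S] (Q : StarSubalgebra ℂ (H →L[ℂ] H))
    (hp : S.starProjection ∈ Q) : StarSubalgebra ℂ (S →L[ℂ] S) where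
  carrier := {T | xt S T ∈ Q}
  mul_mem' h1 h2 := by
    show xt S _ ∈ Q
    rw [xt_mul]
    exact mul_mem h1 h2
  add_mem' h1 h2 := by
    show xt S _ ∈ Q
    rw [map_add]
    exact add_mem h1 h2
  algebraMap_mem' c := by
    show xt S _ ∈ Q
    rw [Algebra.algebraMap_eq_smul_one, map_smul]
    exact Q.smul_mem hp c
  star_mem' h := by
    show xt S _ ∈ Q
    rw [xt_star]
    exact star_mem h

lemma cmp_mem {S : Submodule ℂ H} [CompleteSpace S] {Q : StarSubalgebra ℂ (H →L[ℂ] H)}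
    (hp : S.starProjection ∈ Q) {y : H →L[ℂ] H} (hy : y ∈ Q) : cmp S y ∈ corner S Q hp :=
  mul_mem (mul_mem hp hy) hp

end corner

lemma cut_sum {B ι : Type*} [Ring B] [Fintype ι] {p u : ι → B} {q s x a : B}
    (h1 : ∀ i, q * u i = 0) (h2 : ∀ i, u i * q = 0) (h3 : ∀ i, s * p i = p i)
    (h4 : ∀ i, p i * s = p i) : q * (∑ i, (p i + u i) * x * (p i + u i) - a) * q =
      q * (∑ i, p i * (s * x * s) * p i - a) * q := by
  rw [mul_sub, mul_sub, sub_mul, sub_mul, mul_sum, mul_sum, sum_mul, sum_mul]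
  congr 1
  refine sum_congr rfl fun i _ => ?_
  calc _ = q * (p i + u i) * x * ((p i + u i) * q) := by simp only [mul_assoc]
    _ = q * (p i * s) * x * (s * p i * q) := by
        rw [mul_add, add_mul (p i), h1, h2, add_zero, add_zero, h3, h4]
    _ = _ := by simp only [mul_assoc]

lemma pav_abs (hA : ∀ m, m ∈ A ↔ ∀ a ∈ A, m * a = a * m) {T : Sta M.toStarSubalgebra}
    (hn : Nml T.τ) (hc : Cen A T) {s : M.toStarSubalgebra} (hs : Supp T s) (hsA : s ∈ A)
    {B K : Type*} [CStarAlgebra B] [NormedAddCommGroup K] [InnerProductSpace ℂ K] [CompleteSpace K]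
    (π : B →⋆ₐ[ℂ] (K →L[ℂ] K)) (hi : Function.Injective π)
    (hcl : ∀ (U : Ultrafilter ℕ) (x : ℕ → B) (R : ℝ) (y : K →L[ℂ] K), (∀ n, ‖x n‖ ≤ R) →
      WT (U : Filter ℕ) (fun n => π (x n)) y → ∃ n, π n = y)
    (j : B →⋆ₙₐ[ℂ] M.toStarSubalgebra) (v : H → K) (j0 : Function.Injective j) (j1 : j 1 = s)
    (j2 : ∀ y, ∃ t, j t = s * y * s) (j3 : ∀ t ξ, ‖(j t).1 ξ‖ = ‖π t (v ξ)‖)
    (j4 : ∀ t ξ η, ⟪η, (j t).1 ξ⟫_ℂ = ⟪v η, π t (v ξ)⟫_ℂ) {ε : ℝ}
    (hε : 0 < ε) (hε1 : ε < 1) {r : ℕ} (hr : 10 ^ 10 / ε ^ 2 ≤ r) {x : M.toStarSubalgebra}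
    (hx : star x = x) (F : Finset H) {δ : ℝ} (hδ : 0 < δ) : Pav A s r x F δ (ε * ‖x‖) := by
  have ss := hs.1.isSelfAdjoint.star_eq
  have sl : ∀ t, s * j t = j t := fun t => by rw [← j1, ← map_mul, one_mul]
  have sr : ∀ t, j t * s = j t := fun t => by rw [← j1, ← map_mul, mul_one]
  have jn : ∀ t, ‖j t‖ = ‖t‖ := NonUnitalStarAlgHom.norm_map j j0
  let T' : Sta B := ⟨T.τ ∘ₗ (j : B →ₗ[ℂ] M.toStarSubalgebra), fun a => by
    change 0 ≤ T.τ (j (star a * a))
    rw [map_mul, map_star]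
    exact T.pos _, by
    change T.τ (j 1) = 1
    rw [j1, hs.2.1]⟩
  have hT : ∀ t, T'.τ t = T.τ (j t) := fun _ => rfl
  have hf : ∀ a, T'.n2 a = 0 → a = 0 := fun a ha => j0 (by
    have := T'.n2_sq a
    rw [ha, hT, map_mul, map_star, ← T.n2_sq] at this
    rw [map_zero, ← sr, hs.2.2 _ (by simpa using this.symm)])
  have hn' : ∀ (U : Ultrafilter ℕ) (x : ℕ → B) (R : ℝ) (y : B), (∀ n, ‖x n‖ ≤ R) →
      WT (U : Filter ℕ) (fun n => π (x n)) (π y) →
      Tendsto (fun n => T'.τ (x n)) U (𝓝 (T'.τ y)) := fun U x R y h1 h2 =>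
    hn.tendsto (x := fun n => j (x n)) (fun n => (jn _).trans_le (h1 n)) fun ξ η => by
      have := h2 (v ξ) (v η)
      simp only [← j4] at this
      exact this
  have hrp : RP B := fun a ha => by
    obtain ⟨e, he, h1⟩ := rp_vn (j a) (by rw [← map_star, ha])
    obtain ⟨t, ht⟩ := j2 e
    have h2 := (h1 (1 - s)).1 (by rw [sub_mul, one_mul, sl, sub_self])
    rw [sub_mul, one_mul, sub_eq_zero] at h2
    have h3 := congrArg star h2
    rw [star_mul, ss, he.isSelfAdjoint.star_eq] at h3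
    rw [← h2, ← h3] at ht
    refine ⟨t, ⟨j0 (by rw [map_mul, ht, he.isIdempotentElem.eq]),
      j0 (by rw [map_star, ht, he.isSelfAdjoint.star_eq])⟩, fun y => ?_⟩
    rw [← map_eq_zero_iff j j0, ← map_eq_zero_iff j j0, map_mul, map_mul, ht, h1]
  let A' : StarSubalgebra ℂ B :=
    { carrier := {t | j t ∈ A}
      mul_mem' := fun h1 h2 => by simpa only [Set.mem_setOf_eq, map_mul] using mul_mem h1 h2
      add_mem' := fun h1 h2 => by simpa only [Set.mem_setOf_eq, map_add] using add_mem h1 h2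
      algebraMap_mem' := fun c => by
        rw [Set.mem_setOf_eq, Algebra.algebraMap_eq_smul_one, map_smul, j1]
        exact A.smul_mem hsA c
      star_mem' := fun h => by simpa only [Set.mem_setOf_eq, map_star] using star_mem h }
  have hA' : ∀ m, m ∈ A' ↔ ∀ a ∈ A', m * a = a * m := fun m =>
    ⟨fun hm a ha => j0 (by rw [map_mul, map_mul]; exact (hA _).1 hm _ ha), fun h =>
      (hA _).2 fun a ha => by
        obtain ⟨t, ht⟩ := j2 a
        have h1 := congrArg j (h t (show j t ∈ A from ht ▸ mul_mem (mul_mem hsA ha) hsA))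
        have h2 := (hA s).1 hsA a ha
        rw [map_mul, map_mul, ht, ← mul_assoc, ← mul_assoc, sr, mul_assoc _ s, sl, mul_assoc, ← h2,
          ← mul_assoc, sr, h2, mul_assoc, sl] at h1
        exact h1⟩
  choose d hd hd' using fun ξ => small_vec π hi hcl hf hn' (v ξ) 1 hδ
  obtain ⟨δ', h0, hδ'⟩ : ∃ δ' > 0, ∀ ξ ∈ F, δ' ≤ d ξ := by
    rcases F.eq_empty_or_nonempty with rfl | hF
    · exact ⟨1, one_pos, by simp⟩
    · obtain ⟨ξ, -, h⟩ := F.exists_min_image d hF
      exact ⟨d ξ, hd ξ, h⟩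
  obtain ⟨t, ht⟩ := j2 x
  have tn : ‖t‖ ≤ ‖x‖ := by
    rw [← jn, ht]
    exact (norm_mul_le_of_le (norm_mul_le_of_le hs.1.norm_le le_rfl) hs.1.norm_le).trans
      (by simp)
  obtain ⟨p, a, q, a1, a2, a3, a4, a5, a6, a7, a8, a9⟩ := paving_abs (fw_of_nml π hi hcl hf hn')
    hrp A' hA' (fun a ha y => by rw [hT, hT, map_mul j, map_mul j, hc _ ha]) hε hε1 hr (x := t)
    (j0 (by rw [map_star, ht, star_mul, star_mul, ss, hx, mul_assoc])) (pow_pos h0 2)
  have hr0 : 0 < r := Nat.cast_pos.1 (lt_of_lt_of_le (by positivity) hr)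
  let u : Fin r → M.toStarSubalgebra := Pi.single ⟨0, hr0⟩ (1 - s)
  have hu : ∀ i, u i = 1 - s ∨ u i = 0 := fun i => by
    rcases eq_or_ne i ⟨0, hr0⟩ with rfl | h
    · exact .inl (Pi.single_eq_same _ _)
    · exact .inr (Pi.single_eq_of_ne h _)
  have u1 : ∀ b i, j b * u i = 0 := fun b i => by
    rcases hu i with h | h <;> rw [h]
    · rw [mul_sub, mul_one, sr, sub_self]
    · exact mul_zero _
  have u2 : ∀ b i, u i * j b = 0 := fun b i => by
    rcases hu i with h | h <;> rw [h]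
    · rw [sub_mul, one_mul, sl, sub_self]
    · exact zero_mul _
  refine ⟨fun i => j (p i) + u i, j a, j q, fun i => ⟨add_mem (a1 i).1 ?_,
    ((a1 i).2.map j).add ?_ (u1 _ _)⟩, fun i k hik => ?_, ?_, a4, by rw [← map_star, a5],
    (jn a).trans_le (a6.trans tn), a7.map j, sl q, fun ξ hξ => ?_, ?_⟩
  · rcases hu i with h | h <;> rw [h]
    exacts [sub_mem (one_mem _) hsA, zero_mem _]
  · rcases hu i with h | h <;> rw [h]
    exacts [hs.1.one_sub, .zero _]
  · rw [add_mul, mul_add, mul_add, u1, u2, ← map_mul, a2 i k hik, map_zero, zero_add, zero_add,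
      zero_add]
    rcases eq_or_ne i ⟨0, hr0⟩ with rfl | h
    · rw [show u k = 0 from Pi.single_eq_of_ne hik.symm _, mul_zero]
    · rw [show u i = 0 from Pi.single_eq_of_ne h _, zero_mul]
  · rw [sum_add_distrib, ← map_sum, a3, j1, sum_pi_single', if_pos (mem_univ _), add_sub_cancel]
  · rw [← j1, ← map_sub, j3]
    refine hd' ξ _ a7.one_sub.norm_le (lt_of_lt_of_le ?_ (hδ' ξ hξ))
    refine lt_of_pow_lt_pow_left₀ 2 h0.le ?_
    rwa [T'.n2_sq, a7.one_sub.isSelfAdjoint.star_eq, a7.one_sub.isIdempotentElem.eq]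
  · refine le_trans (le_of_eq ?_) (a9.trans (mul_le_mul_of_nonneg_left tn hε.le))
    rw [cut_sum (u1 q) (u2 q) (fun i => sl _) fun i => sr _, ← jn]
    simp only [map_mul, map_sub, map_sum, ht]

open P096 in
theorem pav_reg (hA : ∀ m, m ∈ A ↔ ∀ a ∈ A, m * a = a * m) {T : Sta M.toStarSubalgebra}
    (hn : Nml T.τ) (hc : Cen A T) {s : M.toStarSubalgebra} (hs : Supp T s) (hsA : s ∈ A) {ε : ℝ}
    (hε : 0 < ε) (hε1 : ε < 1) {r : ℕ} (hr : 10 ^ 10 / ε ^ 2 ≤ r) {x : M.toStarSubalgebra}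
    (hx : star x = x) (F : Finset H) {δ : ℝ} (hδ : 0 < δ) : Pav A s r x F δ (ε * ‖x‖) := by
  have hp := proj_coe hs.1
  let S := s.1.range
  have : CompleteSpace S := (ContinuousLinearMap.IsIdempotentElem.isClosed_range hp.isIdempotentElem).completeSpace_coe
  obtain ⟨_, hS⟩ := isStarProjection_iff_eq_starProjection_range.1 hp
  have hS' : S.starProjection = s.1 := hS.symm
  let N := corner S M.toStarSubalgebra (hS' ▸ s.2)
  have hxc : Continuous (xt S) := (AddMonoidHomClass.continuous_of_bound (xt S) 1 fun t => by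
    simpa using norm_xt_le t)
  have hN : IsClosed (N : Set (S →L[ℂ] S)) := (vn_closed M).preimage hxc
  have j4 : ∀ (t : S →L[ℂ] S) ξ η,
      ⟪η, xt S t ξ⟫_ℂ = ⟪S.orthogonalProjection η, t (S.orthogonalProjection ξ)⟫_ℂ := fun t ξ η => by
    rw [xt_apply, Submodule.inner_orthogonalProjection_eq_of_mem_right]
  let j : N →⋆ₙₐ[ℂ] M.toStarSubalgebra :=
    { toFun := fun t => ⟨xt S t.1, t.2⟩
      map_smul' := fun c t => Subtype.ext (map_smul (xt S) c t.1)
      map_zero' := Subtype.ext (map_zero (xt S))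
      map_add' := fun a b => Subtype.ext (map_add (xt S) a.1 b.1)
      map_mul' := fun a b => Subtype.ext (xt_mul a.1 b.1)
      map_star' := fun a => Subtype.ext (xt_star a.1) }
  refine pav_abs hA hn hc hs hsA N.subtype Subtype.val_injective ?_ j S.orthogonalProjection ?_ ?_ ?_
    (fun (t : N) ξ => congrArg norm (xt_apply t.1 ξ)) (fun t : N => j4 t.1) hε hε1 hr hx F hδ
  · exact fun U x R y _ h => ⟨⟨y, P085.WT.mem (M := M) (l := (U : Filter ℕ))
      (x := fun n => xt S (x n).1) (fun ξ η => by simp only [j4]; exact h _ _) fun n => (x n).2⟩, rfl⟩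
  · refine fun a b h => Subtype.ext ?_
    have h1 : xt S a.1 = xt S b.1 := congrArg Subtype.val h
    rw [← cmp_xt a.1, h1, cmp_xt]
  · have h1 : xt S 1 = s.1 := by rw [← cmp_one, xt_cmp, hS', mul_one, hp.isIdempotentElem.eq]
    exact Subtype.ext h1
  · intro y
    have h1 : xt S (cmp S y.1) = s.1 * y.1 * s.1 := by rw [xt_cmp, hS']
    exact ⟨⟨cmp S y.1, cmp_mem _ y.2⟩, Subtype.ext h1⟩

end Vale.Agent.P078G
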