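import Vale.Agent.P078G.DSing
import Vale.Agent.P078G.DReg
import Vale.Agent.P078G.DGlue
import Vale.Agent.P078.VN

/-! Strong operator paving in every von Neumann algebra. -/

namespace Vale.Agent.P078G

open Filter Finset
open Vale.Agent.P085 (WT vn_closed)
open scoped Topology InnerProductSpace

attribute [local instance] vn_closed

variable {H : Type*} [NormedAddCommGroup H] [InnerProductSpace ℂ H] [CompleteSpace H]
  {M : VonNeumannAlgebra H}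

theorem pav_all {A : StarSubalgebra ℂ M.toStarSubalgebra}
    (hA : ∀ m, m ∈ A ↔ ∀ a ∈ A, m * a = a * m) {ε : ℝ}
    (hε : 0 < ε) (hε1 : ε < 1) {r : ℕ} (hr : 10 ^ 10 / ε ^ 2 ≤ r) {x : M.toStarSubalgebra}
    (hx : star x = x) (F : Finset H) {δ : ℝ} (hδ : 0 < δ) :
    Pav A 1 (r + r) x F δ (ε * ‖x‖) := by
  have hr' : (0 : ℝ) < r := lt_of_lt_of_le (by positivity) hr
  have hr0 : r ≠ 0 := Nat.cast_ne_zero.1 hr'.ne'
  have : NeZero r := ⟨hr0⟩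
  rcases eq_or_ne x 0 with rfl | h0
  · simpa using Pav.of_zero (A := A) (r := r + r) (by omega) F hδ
  have hx0 := norm_pos_iff.2 h0
  have hab : ∀ a ∈ A, ∀ b ∈ A, a * b = b * a := fun a ha => (hA a).1 ha
  obtain ⟨X, _, _, _, C, hC⟩ := exists_msa rp_vn A hA
  let S : Set M.toStarSubalgebra :=
    {s | s = 0 ∨ ∃ T : Sta M.toStarSubalgebra, Nml T.τ ∧ Cen A T ∧ Supp T s}
  have hS : ∀ s ∈ S, s ∈ A ∧ IsStarProjection s := by
    rintro s (rfl | ⟨T, -, h2, h3⟩)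
    exacts [⟨zero_mem _, .zero _⟩, ⟨h3.mem hA h2, h3.1⟩]
  obtain ⟨z, hz, h1, -, h2, h3⟩ := exists_sup (S := S) ⟨0, .inl rfl⟩ (fun s hs => (hS s hs).2) (by
    rintro s (rfl | ⟨T, a1, a2, a3⟩) t ht
    · exact ⟨t, ht, mul_zero _, (hS t ht).2.isIdempotentElem.eq⟩
    · rcases ht with rfl | ⟨T', b1, b2, b3⟩
      · exact ⟨s, .inr ⟨T, a1, a2, a3⟩, a3.1.isIdempotentElem.eq, mul_zero _⟩
      · obtain ⟨R, c1, c2, c3⟩ := supp_directed a1 b1 a2 b2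
        obtain ⟨u, hu⟩ := exists_supp c1
        exact ⟨u, .inr ⟨R, c1, c2, hu⟩, c3 _ _ _ a3 b3 hu⟩)
  have hzA : z ∈ A := (hA z).2 fun a ha => (h2 a fun s hs => hab a ha s (hS s hs).1).symm
  obtain ⟨s, hs, h4⟩ := h3 F (δ / 3) (by positivity)
  have k1 : Pav A s r x F (δ / 3) (ε * ‖x‖) := by
    rcases hs with rfl | ⟨T, a1, a2, a3⟩
    · exact Pav.zero hr0 x F (by positivity) (by positivity)
    · exact pav_reg hA a1 a2 a3 (a3.mem hA a2) hε hε1 hr hx F (by positivity)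
  have k2 : Pav A (1 - z) r x F (δ / 3) (ε * ‖x‖) := by
    obtain ⟨p, a, q, b1, b2, b3, b4, b5, b6, b7, b8, b9, b10⟩ := pav_sing C hC (z := 1 - z) (F := F)
      (δ := δ / 6) (by positivity) (fun η hη => exists_thin C hC (sub_mem (one_mem _) hzA)
        hz.one_sub (fun T a1 a2 a3 => by
          obtain ⟨u, hu⟩ := exists_supp a1
          have e1 : T.n2 z = 0 := by
            have := T.n2_sq z
            rw [map_sub, T.one, sub_eq_self] at a3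
            rw [hz.isSelfAdjoint.star_eq, hz.isIdempotentElem.eq, a3, Complex.zero_re] at this
            exact pow_eq_zero_iff two_ne_zero |>.1 this
          have e2 := hu.2.1
          rw [← h1 u (.inr ⟨T, a1, a2, hu⟩), hu.2.2 z e1, map_zero] at e2
          exact zero_ne_one e2) F (by positivity) hη) hx r (σ := ε * ‖x‖ / 2) (by positivity)
    refine ⟨p, a, q, b1, b2, b3, b4, b5, b6, b7, b8, fun ξ hξ => (b9 ξ hξ).trans_eq (by ring),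
      b10.trans ?_⟩
    have : 4 ≤ ε * r := by
      rw [div_le_iff₀ (by positivity)] at hr
      nlinarith [mul_pos hε hr']
    have : 2 * ‖x‖ / r ≤ ε * ‖x‖ / 2 := by
      rw [div_le_iff₀ hr']
      nlinarith
    linarith
  have e1 : s * (1 - z) = 0 := by
    rw [mul_sub, mul_one, hab s (hS s hs).1 z hzA, h1 s hs, sub_self]
  have := Pav.glue hab (hS s hs).1 (hS s hs).2 e1 hx k1 k2 fun ξ hξ => by
    rw [show 1 - s - (1 - z) = z - s by abel]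
    exact h4 ξ hξ
  rwa [show 3 * (δ / 3) = δ by ring] at this

theorem so_paving (M : VonNeumannAlgebra H)
    (A : StarSubalgebra ℂ (H →L[ℂ] H)) (sub : ∀ a ∈ A, a ∈ M)
    (abelian : ∀ a ∈ A, ∀ b ∈ A, a * b = b * a)
    (maximal : ∀ B : StarSubalgebra ℂ (H →L[ℂ] H), A ≤ B → (∀ b ∈ B, b ∈ M) →
      (∀ a ∈ B, ∀ b ∈ B, a * b = b * a) → B = A)
    (ε : ℝ) (hε : 0 < ε) (hε1 : ε < 1) :
    ∃ r : ℕ, 1 ≤ r ∧ (r : ℝ) ≤ 40000000000 / ε ^ 2 ∧ ∀ x ∈ M, IsSelfAdjoint x →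
      ∀ (F : Finset H) (δ : ℝ), 0 < δ → ∃ (p : Fin r → H →L[ℂ] H) (a q : H →L[ℂ] H),
        (∀ i, p i ∈ A ∧ IsStarProjection (p i)) ∧ (∀ i j, i ≠ j → p i * p j = 0) ∧
        ∑ i, p i = 1 ∧ a ∈ A ∧ IsSelfAdjoint a ∧ ‖a‖ ≤ ‖x‖ ∧ q ∈ M ∧ IsStarProjection q ∧
        (∀ ξ ∈ F, ‖(1 - q) ξ‖ < δ) ∧ ‖q * (∑ i, p i * x * p i - a) * q‖ ≤ ε * ‖x‖ := by
  have h1 : (1 : ℝ) ≤ 10 ^ 10 / ε ^ 2 := by
    rw [le_div_iff₀ (by positivity)]
    nlinarith
  have h0 : 1 ≤ ⌈10 ^ 10 / ε ^ 2⌉₊ := Nat.one_le_ceil_iff.mpr (by positivity)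
  refine ⟨⌈10 ^ 10 / ε ^ 2⌉₊ + ⌈10 ^ 10 / ε ^ 2⌉₊, by omega, ?_, fun x hx hs F δ hδ => ?_⟩
  · have := Nat.ceil_lt_add_one (show (0 : ℝ) ≤ 10 ^ 10 / ε ^ 2 by positivity)
    have h2 : (40000000000 : ℝ) / ε ^ 2 = 4 * (10 ^ 10 / ε ^ 2) := by ring
    push_cast
    linarith
  obtain ⟨p, a, q, hp, hp', hp'', ha, ha', ha'', hq, -, h2, h3⟩ := pav_all
    (A := A.comap M.toStarSubalgebra.subtype) (fun m =>
      ⟨fun hm a ha => Subtype.ext (abelian _ hm _ ha), fun h => P078.mem_of_comm sub abelian maximal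
        m.2 fun a ha => congr($(h ⟨a, sub a ha⟩ ha).1)⟩) hε hε1 (Nat.le_ceil _)
    (x := ⟨x, hx⟩) (Subtype.ext hs) F hδ
  refine ⟨fun i => (p i).1, a.1, q.1, fun i => ⟨(hp i).1, proj_coe (hp i).2⟩,
    fun i j hij => congr($(hp' i j hij).1), by simpa using congr($(hp'').1), ha, congr($(ha').1),
    ha'', q.2, proj_coe hq, h2, ?_⟩
  have h4 : (q * (∑ i, p i * ⟨x, hx⟩ * p i - a) * q).1 =
      q.1 * (∑ i, (p i).1 * x * (p i).1 - a.1) * q.1 := by simp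
  rw [← h4]
  exact h3

end Vale.Agent.P078G
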