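import Vale.Agent.P078G.DDef
import Vale.Agent.P078G.CondB

/-! The normal part of a central state. -/

namespace Vale.Agent.P078G

open Filter Finset
open Vale.Agent.P085 (WT vn_closed)
open scoped Topology InnerProductSpace

namespace NmlX

variable {B : Type*} [CStarAlgebra B] (T : Sta B)

/-- The centraliser. -/
def cz : StarSubalgebra ℂ B where
  carrier := {a | ∀ y, T.τ (a * y) = T.τ (y * a)}
  mul_mem' := fun {a b} ha hb y => by rw [mul_assoc, ha, mul_assoc, hb, mul_assoc]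
  add_mem' := fun {a b} ha hb y => by rw [add_mul, mul_add, map_add, map_add, ha, hb]
  algebraMap_mem' := fun c y => by rw [Algebra.commutes]
  star_mem' := fun {a} ha y => by
    rw [← star_star y, ← star_mul, ← star_mul, T.map_star, T.map_star, ha]

lemma cz_closed : IsClosed (cz T : Set B) := by
  have hc : Continuous T.τ := AddMonoidHomClass.continuous_of_bound T.τ 1 fun a => by
    simpa using T.norm_τ_le a
  have : (cz T : Set B) = ⋂ y, {a | T.τ (a * y) = T.τ (y * a)} := by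
    ext a
    simp only [Set.mem_iInter]
    rfl
  rw [this]
  exact isClosed_iInter fun y => isClosed_eq (by fun_prop) (by fun_prop)

lemma n2_mul_cz {a : B} (ha : a ∈ cz T) (y : B) : T.n2 (y * a) ≤ ‖a‖ * T.n2 y := by
  have := cz_closed T
  let _ := CStarAlgebra.spectralOrder (cz T)
  have _ := CStarAlgebra.spectralOrderedRing (cz T)
  obtain ⟨g, hg⟩ := CStarAlgebra.nonneg_iff_eq_star_mul_self.1
    (sub_nonneg.2 (CStarAlgebra.mul_star_le_algebraMap_norm_sq (a := (⟨a, ha⟩ : cz T))))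
  have h1 : ((‖a‖ ^ 2 : ℝ) : ℂ) • (1 : B) - a * star a = star g.1 * g.1 := by
    have := congrArg Subtype.val hg
    rw [Algebra.algebraMap_eq_smul_one] at this
    rw [Complex.coe_smul]
    exact this
  have h2 : T.τ (star (y * star g.1) * (y * star g.1)) =
      ((‖a‖ ^ 2 : ℝ) : ℂ) * T.τ (star y * y) - T.τ (star (y * a) * (y * a)) := by
    rw [star_mul, star_star, ← mul_assoc, ← star_mem g.2, ← mul_assoc, ← mul_assoc, ← h1,
      star_mul, ← mul_assoc _ y a, ← ha, sub_mul, sub_mul, map_sub, smul_mul_assoc, smul_mul_assoc,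
      one_mul, map_smul, smul_eq_mul]
    simp only [mul_assoc]
  rw [T.n2_sq', T.n2_sq', T.n2_sq'] at h2
  have h3 : T.n2 (y * star g.1) ^ 2 = ‖a‖ ^ 2 * T.n2 y ^ 2 - T.n2 (y * a) ^ 2 := by
    exact_mod_cast h2
  apply abs_le_of_sq_le_sq' _ (mul_nonneg (norm_nonneg _) (T.n2_nonneg _)) |>.2
  nlinarith [sq_nonneg (T.n2 (y * star g.1))]

open scoped ComplexOrder in
theorem exists_part (L : Submodule ℂ B) (hL : ∀ c, ∀ b ∈ L, c * b ∈ L) {q : B} (hq : q ∈ L)
    (h0 : T.τ q ≠ 0) : ∃ T' : Sta B,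
      (∀ δ > 0, ∃ b ∈ L, ∀ y, ‖T'.τ y - T.τ (y * b)‖ ≤ δ * ‖y‖) ∧
      (∀ a ∈ cz T, (∀ b ∈ L, b * a ∈ L) → (∀ b ∈ L, b * star a ∈ L) → a ∈ cz T') ∧
      ∀ y, T.n2 y = 0 → T'.n2 y = 0 := by
  obtain ⟨G, _, _, _, π, ξ, hξ⟩ := exists_gns T
  have hadj : ∀ a (v w : G), ⟪v, π (star a) w⟫_ℂ = ⟪π a v, w⟫_ℂ := fun a v w => by
    rw [map_star, ContinuousLinearMap.star_eq_adjoint, ContinuousLinearMap.adjoint_inner_right]
  have hap : ∀ a b (v : G), π (a * b) v = π a (π b v) := fun a b v => by rw [map_mul]; rfl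
  have hin : ∀ a b, T.τ (star a * b) = ⟪π a ξ, π b ξ⟫_ℂ := fun a b => by rw [hξ, hap, hadj]
  have hn : ∀ a, ‖π a ξ‖ = T.n2 a := fun a => by
    rw [← sq_eq_sq₀ (norm_nonneg _) (T.n2_nonneg _), T.n2_sq, hin,
      ← inner_self_eq_norm_sq (𝕜 := ℂ)]
    rfl
  have hξ1 : ‖ξ‖ = 1 := by simpa [T.n2_one] using hn 1
  let ev : G → B →ₗ[ℂ] G := fun v =>
    { toFun := fun a => π a v
      map_add' := fun a b => by rw [map_add]; rfl
      map_smul' := fun c a => by rw [map_smul]; rfl }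
  let K := (L.map (ev ξ)).topologicalClosure
  have hKc : IsClosed (K : Set G) := Submodule.isClosed_topologicalClosure _
  have := hKc.completeSpace_coe
  have hLK : ∀ b ∈ L, π b ξ ∈ K := fun b hb => Submodule.le_topologicalClosure _ ⟨b, hb, rfl⟩
  have hinv : ∀ c, ∀ v ∈ K, π c v ∈ K := fun c v hv => map_mem_closure (π c).continuous hv (by
    rintro _ ⟨b, hb, rfl⟩
    exact ⟨c * b, hL c b hb, hap c b ξ⟩)
  obtain ⟨η, hηK, hη⟩ : ∃ η ∈ K, ξ - η ∈ Kᗮ :=
    ⟨_, K.starProjection_apply_mem ξ, K.sub_starProjection_mem_orthogonal ξ⟩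
  have hp : ∀ v ∈ K, ⟪ξ, v⟫_ℂ = ⟪η, v⟫_ℂ := fun v hv => by
    rw [← sub_eq_zero, ← inner_sub_left]
    exact Submodule.inner_left_of_mem_orthogonal hv hη
  have hN : 0 < ‖η‖ ^ 2 := by
    refine pow_pos (norm_pos_iff.2 fun h => h0 ?_) 2
    rw [hξ, hp _ (hLK q hq), h, inner_zero_left]
  obtain ⟨N, hNd⟩ : ∃ N, N = ‖η‖ ^ 2 := ⟨_, rfl⟩
  rw [← hNd] at hN
  let ψ : B →ₗ[ℂ] ℂ := innerₛₗ ℂ ξ ∘ₗ ev η
  have hψ : ∀ y, ψ y = ⟪ξ, π y η⟫_ℂ := fun y => rfl
  have hψ2 : ∀ y, ψ (star y * y) = ((‖π y η‖ ^ 2 : ℝ) : ℂ) := fun y => by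
    rw [hψ, hp _ (hinv _ _ hηK), hap, hadj, inner_self_eq_norm_sq_to_K]
    simp
  let T' : Sta B :=
    { τ := ((N⁻¹ : ℝ) : ℂ) • ψ
      pos := fun a => by
        rw [LinearMap.smul_apply, hψ2, smul_eq_mul, ← Complex.ofReal_mul]
        exact Complex.zero_le_real.2 (by positivity)
      one := by
        have := hψ2 1
        rw [star_one, one_mul] at this
        rw [LinearMap.smul_apply, this, map_one, smul_eq_mul, ← Complex.ofReal_mul, one_apply_eq_self,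
          ← hNd, inv_mul_cancel₀ hN.ne', Complex.ofReal_one] }
  have hT' : ∀ y, T'.τ y = ((N⁻¹ : ℝ) : ℂ) * ψ y := fun y => rfl
  have hb : ∀ δ > 0, ∃ b ∈ L, ‖η - π b ξ‖ < δ := fun δ hδ => by
    obtain ⟨_, ⟨b, hb, rfl⟩, h⟩ := Metric.mem_closure_iff.1 hηK δ hδ
    exact ⟨b, hb, by rwa [dist_eq_norm] at h⟩
  have hψb : ∀ y b, ‖ψ y - T.τ (y * b)‖ ≤ ‖y‖ * ‖η - π b ξ‖ := fun y b => by
    rw [hψ, hξ, hap, ← inner_sub_right, ← map_sub]
    refine (norm_inner_le_norm _ _).trans ?_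
    rw [hξ1, one_mul]
    exact (π y).le_of_opNorm_le (NonUnitalStarAlgHom.norm_apply_le π y) _
  refine ⟨T', fun δ hδ => ?_, fun a ha h1 h2 y => ?_, fun y hy => ?_⟩
  · obtain ⟨b, hbL, h⟩ := hb (δ * N) (by positivity)
    refine ⟨((N⁻¹ : ℝ) : ℂ) • b, L.smul_mem _ hbL, fun y => ?_⟩
    rw [hT', mul_smul_comm, map_smul, smul_eq_mul, ← mul_sub, norm_mul, Complex.norm_real,
      Real.norm_of_nonneg (by positivity), inv_mul_le_iff₀ hN]
    refine (hψb y b).trans ((mul_le_mul_of_nonneg_left h.le (norm_nonneg y)).trans_eq ?_)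
    ring
  · rw [hT', hT']
    congr 1
    rw [← sub_eq_zero, ← norm_le_zero_iff]
    refine le_of_forall_pos_le_add fun ε hε => ?_
    obtain ⟨C, hC⟩ : ∃ C, C = ‖a * y‖ + ‖y * a‖ + ‖y‖ * (2 * ‖a‖) := ⟨_, rfl⟩
    have hC0 : 0 < C + 1 := by rw [hC]; positivity
    obtain ⟨b, hbL, h⟩ := hb (ε / (C + 1)) (by positivity)
    obtain ⟨δ, hδ⟩ : ∃ δ, δ = ‖η - π b ξ‖ := ⟨_, rfl⟩
    have hδ0 : 0 ≤ δ := hδ ▸ norm_nonneg _
    obtain ⟨w, hw⟩ : ∃ w, w = a * b - b * a := ⟨_, rfl⟩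
    have hwL : w ∈ L := hw ▸ sub_mem (hL a b hbL) (h1 b hbL)
    obtain ⟨u, hu⟩ : ∃ u, u = star a * w - w * star a := ⟨_, rfl⟩
    have huL : u ∈ L := hu ▸ sub_mem (hL _ w hwL) (h2 w hwL)
    have hus : star u = star w * a - a * star w := by
      rw [hu, star_sub, star_mul, star_mul, star_star]
    have e1 : ⟪π u ξ, η⟫_ℂ = 0 := by
      rw [← inner_conj_symm, ← hp _ (hLK u huL), ← hξ, ← T.map_star, hus, map_sub, ha, sub_self]
    have e2 : T.τ (star w * w) = -⟪π u ξ, η - π b ξ⟫_ℂ := by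
      rw [inner_sub_right, e1, zero_sub, neg_neg, ← hin, hus, sub_mul, map_sub, mul_assoc a, ha]
      nth_rewrite 2 [hw]
      rw [mul_sub, map_sub]
      simp only [mul_assoc]
    have e3 : T.n2 u ≤ 2 * ‖a‖ * T.n2 w := by
      have a1 := T.n2_mul_le (star a) w
      have a2 := n2_mul_cz T (star_mem ha) w
      have a3 := T.n2_sub_le (star a * w) (w * star a)
      rw [norm_star] at a1 a2
      rw [hu]
      linarith
    have e4 : T.n2 w ≤ 2 * ‖a‖ * δ := by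
      have a1 := norm_inner_le_norm (𝕜 := ℂ) (π u ξ) (η - π b ξ)
      rw [← norm_neg, ← e2, T.n2_sq', Complex.norm_real, Real.norm_of_nonneg (sq_nonneg _), hn,
        ← hδ] at a1
      have a2 := mul_le_mul_of_nonneg_right e3 hδ0
      by_contra! a3
      have a4 : 0 < T.n2 w := lt_of_le_of_lt (by positivity) a3
      nlinarith
    have e5 : ψ (a * y) - ψ (y * a) = (ψ (a * y) - T.τ (a * y * b)) -
        (ψ (y * a) - T.τ (y * a * b)) - T.τ (y * w) := by
      rw [hw, mul_sub, map_sub, mul_assoc a y b, ha (y * b)]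
      simp only [mul_assoc]
      ring
    have e6 := (T.norm_τ_le_n2 (y * w)).trans ((T.n2_mul_le y w).trans
      (mul_le_mul_of_nonneg_left e4 (norm_nonneg y)))
    have e7 := hψb (a * y) b
    have e8 := hψb (y * a) b
    rw [← hδ] at h e7 e8
    rw [lt_div_iff₀ hC0] at h
    rw [e5, zero_add]
    refine (norm_sub_le _ _).trans ((add_le_add (norm_sub_le _ _) le_rfl).trans ?_)
    rw [hC] at h
    nlinarith
  · have h1 : π y ξ = 0 := by rw [← norm_eq_zero, hn, hy]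
    have h2 : ψ (star y * y) = 0 := by rw [hψ, hap, hadj, h1, inner_zero_left]
    have h3 := T'.n2_sq y
    rw [hT', h2, mul_zero, Complex.zero_re] at h3
    exact pow_eq_zero_iff two_ne_zero |>.1 h3

end NmlX

attribute [local instance] vn_closed

variable {H : Type*} [NormedAddCommGroup H] [InnerProductSpace ℂ H] [CompleteSpace H]
  {M : VonNeumannAlgebra H} {A : StarSubalgebra ℂ M.toStarSubalgebra}

lemma nml_of_dom (T : Sta M.toStarSubalgebra) {q : M.toStarSubalgebra} {η : H}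
    (h : ∀ y, T.n2 (y * q) ≤ ‖(y * q).1 η‖) : Nml (T.τ ∘ₗ LinearMap.mulRight ℂ q) := by
  set f := T.τ ∘ₗ LinearMap.mulRight ℂ q
  let L : M.toStarSubalgebra →ₗ[ℂ] H :=
    { toFun := fun y => y.1 (q.1 η)
      map_add' := fun _ _ => rfl
      map_smul' := fun _ _ => rfl }
  have hf : ∀ y, ‖f y‖ ≤ ‖L y‖ := fun y => (T.norm_τ_le_n2 _).trans (h y)
  obtain ⟨s, hs⟩ := L.rangeRestrict.exists_rightInverse_of_surjective L.range_rangeRestrict
  have hs' : ∀ v, L (s v) = v := fun v => congr(($hs v).1)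
  obtain ⟨g, hg, -⟩ := exists_extension_norm_eq (LinearMap.range L)
    ((f ∘ₗ s).mkContinuous 1 fun v => by
      rw [one_mul]
      exact (hf (s v)).trans_eq (congrArg norm (hs' v)))
  have h1 : ∀ y, f y = ⟪(InnerProductSpace.toDual ℂ H).symm g, y.1 (q.1 η)⟫_ℂ := fun y => by
    rw [InnerProductSpace.toDual_symm_apply]
    refine Eq.trans ?_ (hg ⟨L y, y, rfl⟩).symm
    have := hf (y - s ⟨L y, y, rfl⟩)
    rw [map_sub L, hs', sub_self, norm_zero, norm_le_zero_iff, map_sub, sub_eq_zero] at this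
    exact this
  intro l y R _ hw
  rw [h1 y]
  exact (hw _ _).congr fun x => (h1 x).symm

theorem exists_nml {T : Sta M.toStarSubalgebra} (hA : ∀ a ∈ A, ∀ b ∈ A, a * b = b * a)
    (hc : Cen A T) {q : M.toStarSubalgebra} (h : Nml (T.τ ∘ₗ LinearMap.mulRight ℂ q))
    (h0 : T.τ q ≠ 0) : ∃ T' : Sta M.toStarSubalgebra, Nml T'.τ ∧ Cen A T' ∧
      ∀ y, T.n2 y = 0 → T'.n2 y = 0 := by
  let L : Submodule ℂ M.toStarSubalgebra :=
    { carrier := {b | Nml (T.τ ∘ₗ LinearMap.mulRight ℂ b)}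
      add_mem' := fun {a b} ha hb l y R h1 h2 => by
        simpa [Function.comp_def, mul_add] using (ha l y R h1 h2).add (hb l y R h1 h2)
      zero_mem' := fun l y R _ _ => tendsto_const_nhds.congr fun x => by simp
      smul_mem' := fun c b hb l y R h1 h2 => by
        simpa [Function.comp_def] using (hb l y R h1 h2).const_mul c }
  have hL : ∀ c, ∀ b ∈ L, c * b ∈ L := fun c b hb l y R h1 h2 => by
    have := hb (l.map (· * c)) (y * c) (R * ‖c‖)
      (eventually_map.2 (h1.mono fun x hx => norm_mul_le_of_le hx le_rfl))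
      fun ξ η => h2 (c.1 ξ) η
    simpa [Function.comp_def, mul_assoc] using this
  have hR : ∀ a ∈ A, ∀ b ∈ L, b * a ∈ L := fun a ha b hb l y R h1 h2 => by
    have := hb (l.map (a * ·)) (a * y) (‖a‖ * R)
      (eventually_map.2 (h1.mono fun x hx => norm_mul_le_of_le le_rfl hx)) (h2.mul_left a.1)
    simpa [Function.comp_def, mul_assoc, hc a ha] using this
  obtain ⟨T', h1, h2, h3⟩ := NmlX.exists_part T L hL h h0
  refine ⟨T', fun l y R hR hw => ?_,
    fun a ha => h2 a (hc a ha) (hR a ha) (hR _ (star_mem ha)), h3⟩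
  rw [Metric.tendsto_nhds]
  intro ε hε
  have h4 : 0 < |R| + ‖y‖ + 1 := by positivity
  obtain ⟨b, hb, hb'⟩ := h1 (ε / 2 / (|R| + ‖y‖ + 1)) (by positivity)
  filter_upwards [hR, Metric.tendsto_nhds.1 (hb l y R hR hw) _ (half_pos hε)] with x hx hx'
  have a1 := hb' x
  have a2 := hb' y
  rw [← dist_eq_norm, div_mul_eq_mul_div, le_div_iff₀ h4] at a1 a2
  have a3 := dist_triangle4 (T'.τ x) (T.τ (x * b)) (T.τ (y * b)) (T'.τ y)
  rw [dist_comm (T.τ (y * b))] at a3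
  have a4 : dist (T.τ (x * b)) (T.τ (y * b)) < ε / 2 := hx'
  have a5 := hx.trans (le_abs_self R)
  have a6 : (dist (T'.τ x) (T.τ (x * b)) + dist (T'.τ y) (T.τ (y * b))) * (|R| + ‖y‖ + 1) ≤
      ε / 2 * (|R| + ‖y‖ + 1) := by nlinarith
  have a7 := le_of_mul_le_mul_right a6 h4
  linarith

end Vale.Agent.P078G
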