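import Vale.Agent.P078G.DThin
import Vale.Agent.P078G.DCol

/-! Paving on the singular part. -/

namespace Vale.Agent.P078G

open Filter Finset
open Vale.Agent.P085 (WT vn_closed)
open Vale.Agent.P078 (isClopen_preimage)
open scoped Topology InnerProductSpace

attribute [local instance] vn_closed

section alg

variable {N X : Type*} [CStarAlgebra N] [TopologicalSpace X] [CompactSpace X] (C : Msa N X)

lemma pinch_comp {κ κ' : Type*} [Fintype κ] [Fintype κ'] [DecidableEq κ'] {b : X → κ}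
    (hb : IsLocallyConstant b) (c : κ → κ') (x : N) : C.pinch (c ∘ b) x =
      ∑ i, ∑ j, (if c i = c j then 1 else 0 : ℂ) • (C.pj (b ⁻¹' {i}) * x * C.pj (b ⁻¹' {j})) := by
  have h1 : ∀ k, C.pj ((c ∘ b) ⁻¹' {k}) = ∑ i ∈ univ.filter (c · = k), C.pj (b ⁻¹' {i}) :=
    fun k => by
      rw [C.sum_pj hb]
      congr 1
      ext y
      simp
  simp only [Msa.pinch, h1, sum_mul, mul_sum]
  rw [← sum_fiberwise (s := univ) (g := c)]
  refine sum_congr rfl fun k _ => ?_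
  rw [sum_comm]
  refine sum_congr rfl fun i hi => ?_
  rw [sum_filter]
  refine sum_congr rfl fun j _ => ?_
  rw [(mem_filter.1 hi).2]
  by_cases h : c j = k
  · simp [h]
  · simp [h, Ne.symm h]

lemma pinch_split {κ κ' : Type*} [Fintype κ] [DecidableEq κ] [Fintype κ'] [DecidableEq κ']
    {b : X → κ} (hb : IsLocallyConstant b) (c : κ → κ') (x : N) (t : ℂ) :
    C.pinch (c ∘ b) x - C.pinch b x - t • (x - C.pinch b x) = ∑ i, ∑ j ∈ univ.erase i,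
      ((if c i = c j then 1 else 0) - t) • (C.pj (b ⁻¹' {i}) * x * C.pj (b ⁻¹' {j})) := by
  have h1 : x = ∑ i, ∑ j, C.pj (b ⁻¹' {i}) * x * C.pj (b ⁻¹' {j}) := by
    simp only [← mul_sum, ← sum_mul, C.sum_fib hb, one_mul, mul_one]
  rw [pinch_comp C hb, congrArg (fun y => t • (y - C.pinch b x)) h1, Msa.pinch, ← sum_sub_distrib,
    ← sum_sub_distrib, smul_sum, ← sum_sub_distrib]
  refine sum_congr rfl fun i _ => ?_
  rw [← add_sum_erase _ _ (mem_univ i), ← add_sum_erase _ _ (mem_univ i), if_pos rfl, one_smul,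
    add_sub_cancel_left, add_sub_cancel_left, smul_sum, ← sum_sub_distrib]
  simp only [sub_smul]

lemma norm_mul_proj_sq {q e : N} (hq : IsStarProjection q) (he : IsStarProjection e) :
    ‖q * e‖ ^ 2 = ‖e * q * e‖ := by
  rw [sq, ← CStarRing.norm_star_mul_self, star_mul, he.isSelfAdjoint.star_eq,
    hq.isSelfAdjoint.star_eq, mul_assoc, ← mul_assoc q, hq.isIdempotentElem.eq, mul_assoc]

/-- Common refinement of partitions chosen on the atoms of `P`. -/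
def rf (P : DiscreteQuotient X) (d : P → DiscreteQuotient X) (y : X) : Σ i, d i :=
  ⟨P.proj y, (d (P.proj y)).proj y⟩

omit [CompactSpace X] in
lemma rf_pre (P : DiscreteQuotient X) (d : P → DiscreteQuotient X) (i : P) (j : d i) :
    rf P d ⁻¹' {⟨i, j⟩} = P.proj ⁻¹' {i} ∩ (d i).proj ⁻¹' {j} := by
  ext y
  simp only [Set.mem_preimage, Set.mem_singleton_iff, Set.mem_inter_iff, rf]
  constructor
  · intro h
    cases h
    exact ⟨rfl, rfl⟩
  · rintro ⟨rfl, rfl⟩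
    rfl

omit [CompactSpace X] in
lemma rf_lc (P : DiscreteQuotient X) (d : P → DiscreteQuotient X) : IsLocallyConstant (rf P d) :=
  IsLocallyConstant.iff_isOpen_fiber.2 fun ⟨i, j⟩ => by
    rw [rf_pre]
    exact (P.isOpen_preimage _).inter ((d i).isOpen_preimage _)

lemma pinch_rf (P : DiscreteQuotient X) (d : P → DiscreteQuotient X) (x : N) :
    C.pinch (rf P d) x =
      ∑ i : P, C.pj (P.proj ⁻¹' {i}) * C.pinch (d i).proj x * C.pj (P.proj ⁻¹' {i}) := by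
  rw [Msa.pinch, Fintype.sum_sigma]
  refine sum_congr rfl fun i _ => ?_
  rw [Msa.pinch, mul_sum, sum_mul]
  refine sum_congr rfl fun j _ => ?_
  rw [rf_pre, ← mul_assoc, ← mul_assoc, C.pj_mul (P.isClopen_preimage _)
    ((d i).isClopen_preimage _), mul_assoc _ _ (C.pj (P.proj ⁻¹' {i})), C.pj_mul
    ((d i).isClopen_preimage _) (P.isClopen_preimage _), Set.inter_comm ((d i).proj ⁻¹' {j})]

end alg

variable {H : Type*} [NormedAddCommGroup H] [InnerProductSpace ℂ H] [CompleteSpace H]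
  {M : VonNeumannAlgebra H} {A : StarSubalgebra ℂ M.toStarSubalgebra}

variable {X : Type*} [TopologicalSpace X] [CompactSpace X] [T2Space X]

omit [T2Space X] in
lemma sum_pj_sq (C : Msa M.toStarSubalgebra X) {κ : Type*} [Fintype κ] {c : X → κ}
    (hc : IsLocallyConstant c) (w : H) : ∑ k, ‖(C.pj (c ⁻¹' {k})).1 w‖ ^ 2 = ‖w‖ ^ 2 := by
  simp only [← inner_proj (C.pj_proj _)]
  rw [← Complex.re_sum, ← inner_sum, ← _root_.sum_apply, ← AddSubmonoidClass.coe_finsetSum,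
    C.sum_fib hc, inner_proj (.one _)]
  rfl

lemma sq_apply_le {a : M.toStarSubalgebra} {t : ℝ} (h : ‖a‖ ^ 2 ≤ t) (w : H) :
    ‖a.1 w‖ ^ 2 ≤ t * ‖w‖ ^ 2 := by
  refine (pow_le_pow_left₀ (norm_nonneg _) (a.1.le_opNorm w) 2).trans ?_
  rw [mul_pow]
  exact mul_le_mul_of_nonneg_right h (sq_nonneg _)

lemma wt_sa {ι : Type*} {l : Filter ι} [l.NeBot] {x : ι → M.toStarSubalgebra}
    {y : M.toStarSubalgebra} (h : WT l (fun i => (x i).1) y.1) (hx : ∀ i, star (x i) = x i) :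
    star y = y := by
  refine Subtype.ext (ContinuousLinearMap.ext fun ξ => ext_inner_left ℂ fun η => ?_)
  have h1 := (Complex.continuous_conj.tendsto _).comp (h η ξ)
  have h2 : ⟪η, (star y).1 ξ⟫_ℂ = ⟪y.1 η, ξ⟫_ℂ := ContinuousLinearMap.adjoint_inner_right _ _ _
  rw [inner_conj_symm, ← h2] at h1
  refine tendsto_nhds_unique (h1.congr fun i => ?_) (h ξ η)
  rw [Function.comp_apply, inner_conj_symm, ← inner_sa (hx i)]

omit [T2Space X] in
lemma sing_greedy (C : Msa M.toStarSubalgebra X) {U : Ultrafilter (DiscreteQuotient X)}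
    {x q : M.toStarSubalgebra} {g : C(X, ℂ)}
    (hΦ : WT (U : Filter (DiscreteQuotient X)) (fun P => (C.pinch P.proj x).1) (C.ι g).1)
    (q1 : IsStarProjection q) {P : DiscreteQuotient X} {η : ℝ} (hη : 0 ≤ η)
    (e1 : ∀ i : P, ‖q * C.pj (P.proj ⁻¹' {i})‖ ^ 2 ≤ η) (F : Finset H) {t : ℝ} (ht : 0 < t) :
    ∃ d : P → DiscreteQuotient X, ∀ ξ : F, ‖(q * (C.pinch (rf P d) x - C.ι g) * q).1 ξ‖ ^ 2 ≤
      η * (4 * ‖x‖ ^ 2 * ‖ξ.1‖ ^ 2) + t := by
  have a1 : ‖C.ι g‖ ≤ ‖x‖ := hΦ.norm_le fun P => C.norm_pinch_le P.proj_isLocallyConstant x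
  have hP := P.proj_isLocallyConstant
  obtain ⟨d, hd⟩ := exists_greedy (U : Filter (DiscreteQuotient X))
    (fun (ξ : F) (i : P) (d : DiscreteQuotient X) => (q * C.pj (P.proj ⁻¹' {i})).1
      ((C.pinch d.proj x - C.ι g).1 ((C.pj (P.proj ⁻¹' {i})).1 (q.1 ξ)))) (fun ξ i w => by
      simp only [← ContinuousLinearMap.adjoint_inner_left _ _ w, AddSubgroupClass.coe_sub,
        sub_apply, inner_sub_right]
      exact tendsto_sub_nhds_zero_iff.2 (hΦ _ _)) ht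
  refine ⟨d, fun ξ => ?_⟩
  have h1 : q * (C.pinch (rf P d) x - C.ι g) * q = ∑ i : P, q * C.pj (P.proj ⁻¹' {i}) *
      ((C.pinch (d i).proj x - C.ι g) * (C.pj (P.proj ⁻¹' {i}) * q)) := by
    have h0 : C.ι g = ∑ i : P, C.pj (P.proj ⁻¹' {i}) * C.ι g * C.pj (P.proj ⁻¹' {i}) :=
      (C.pinch_ι hP g).symm
    conv_lhs => rw [pinch_rf, h0, ← sum_sub_distrib, mul_sum, sum_mul]
    exact sum_congr rfl fun i _ => by noncomm_ring
  rw [h1, AddSubmonoidClass.coe_finsetSum, _root_.sum_apply]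
  refine (hd ξ).trans (add_le_add ?_ le_rfl)
  have h2 : ∀ i : P, ‖C.pinch (d i).proj x - C.ι g‖ ^ 2 ≤ 4 * ‖x‖ ^ 2 := fun i => by
    have := (norm_sub_le _ _).trans (add_le_add
      (C.norm_pinch_le (d i).proj_isLocallyConstant x) a1)
    nlinarith [norm_nonneg (C.pinch (d i).proj x - C.ι g)]
  refine (sum_le_sum fun i _ => (sq_apply_le (e1 i) _).trans
    (mul_le_mul_of_nonneg_left (sq_apply_le (h2 i) _) hη)).trans ?_
  rw [← mul_sum, ← mul_sum, sum_pj_sq C hP]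
  gcongr
  exact proj_apply_le q1 _

omit [T2Space X] in
lemma sing_col (C : Msa M.toStarSubalgebra X) {κ : Type*} [Fintype κ] {b : X → κ}
    (hb : IsLocallyConstant b) (x : M.toStarSubalgebra) {q : M.toStarSubalgebra}
    (q1 : IsStarProjection q) {η : ℝ} (hη : 0 ≤ η) (e2 : ∀ i, ‖q * C.pj (b ⁻¹' {i})‖ ^ 2 ≤ η)
    (F : Finset H) (r : ℕ) [NeZero r] : ∃ c : κ → ZMod r, ∀ ξ : F,
      ‖(q * (C.pinch (c ∘ b) x - C.pinch b x - (r : ℂ)⁻¹ • (x - C.pinch b x)) * q).1 ξ‖ ^ 2 ≤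
        2 * (η * (‖x‖ ^ 2 * ∑ ξ : F, ‖ξ.1‖ ^ 2)) := by
  classical
  obtain ⟨c, hc⟩ := exists_col r fun (ξ : F) i j =>
    (q * C.pj (b ⁻¹' {i})).1 ((C.pj (b ⁻¹' {i})).1 (x.1 ((C.pj (b ⁻¹' {j})).1 (q.1 ξ))))
  refine ⟨c, fun ξ => ?_⟩
  have h1 : ∀ ξ : H, (q * (C.pinch (c ∘ b) x - C.pinch b x -
      (r : ℂ)⁻¹ • (x - C.pinch b x)) * q).1 ξ = ∑ i, ∑ j ∈ univ.erase i,
        ((if c i = c j then 1 else 0) - (r : ℂ)⁻¹) • (q * C.pj (b ⁻¹' {i})).1
          ((C.pj (b ⁻¹' {i})).1 (x.1 ((C.pj (b ⁻¹' {j})).1 (q.1 ξ)))) := fun ξ => by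
    rw [pinch_split C hb, mul_sum, sum_mul, AddSubmonoidClass.coe_finsetSum, _root_.sum_apply]
    refine sum_congr rfl fun i _ => ?_
    rw [mul_sum, sum_mul, AddSubmonoidClass.coe_finsetSum, _root_.sum_apply]
    refine sum_congr rfl fun j _ => ?_
    have h2 : q * (C.pj (b ⁻¹' {i}) * x * C.pj (b ⁻¹' {j})) * q =
        q * C.pj (b ⁻¹' {i}) * (C.pj (b ⁻¹' {i}) * (x * (C.pj (b ⁻¹' {j}) * q))) := by
      rw [mul_assoc q _ (_ * _), ← mul_assoc (C.pj (b ⁻¹' {i})), C.pj_idem]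
      simp only [mul_assoc]
    rw [mul_smul_comm, smul_mul_assoc, h2]
    rfl
  simp only [← h1] at hc
  refine ((single_le_sum (f := fun ξ : F => ‖(q * (C.pinch (c ∘ b) x - C.pinch b x -
    (r : ℂ)⁻¹ • (x - C.pinch b x)) * q).1 ξ‖ ^ 2) (fun _ _ => sq_nonneg _) (mem_univ ξ)).trans
      hc).trans (mul_le_mul_of_nonneg_left ?_ zero_le_two)
  rw [mul_sum, mul_sum]
  refine sum_le_sum fun ξ _ => ?_
  rw [sum_comm]
  refine (sum_le_sum fun j _ => sum_le_sum fun i _ => sq_apply_le (e2 i) _).trans ?_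
  simp only [← mul_sum, sum_pj_sq C hb]
  refine mul_le_mul_of_nonneg_left ((sum_le_sum fun j _ => sq_apply_le le_rfl _).trans ?_) hη
  rw [← mul_sum, sum_pj_sq C hb]
  gcongr
  exact proj_apply_le q1 _

theorem pav_sing (C : Msa M.toStarSubalgebra X) (hC : ∀ a, a ∈ A ↔ ∃ f, C.ι f = a)
    {z : M.toStarSubalgebra} {F : Finset H} {δ : ℝ} (hδ : 0 < δ)
    (h : ∀ η > 0, ∃ (P : DiscreteQuotient X) (q : M.toStarSubalgebra),
      IsStarProjection q ∧ z * q = q ∧ (∀ ξ ∈ F, ‖(z - q).1 ξ‖ < δ) ∧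
      ∀ i : P, ‖C.pj (P.proj ⁻¹' {i}) * q * C.pj (P.proj ⁻¹' {i})‖ ≤ η)
    {x : M.toStarSubalgebra} (hx : star x = x) (r : ℕ) [NeZero r] {σ : ℝ} (hσ : 0 < σ) :
    Pav A z r x F (2 * δ) (2 * ‖x‖ / r + σ) := by
  obtain ⟨U, Φ, -, -, -, hΦ⟩ := exists_Phi C
  obtain ⟨g, hΦ⟩ : ∃ g, WT (U : Filter (DiscreteQuotient X)) (fun P => (C.pinch P.proj x).1)
    (C.ι g).1 := ⟨_, hΦ x⟩
  have a1 : ‖C.ι g‖ ≤ ‖x‖ := hΦ.norm_le fun P => C.norm_pinch_le P.proj_isLocallyConstant x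
  have a2 : star (C.ι g) = C.ι g := wt_sa hΦ fun P => by rw [C.pinch_star, hx]
  obtain ⟨W, hW⟩ : ∃ W, W = ∑ ξ : F, ‖ξ.1‖ ^ 2 := ⟨_, rfl⟩
  have hW0 : 0 ≤ W := hW ▸ sum_nonneg fun _ _ => sq_nonneg _
  have hW1 : ∀ ξ : F, ‖ξ.1‖ ^ 2 ≤ W := fun ξ => hW ▸
    single_le_sum (f := fun ξ : F => ‖ξ.1‖ ^ 2) (fun _ _ => sq_nonneg _) (mem_univ ξ)
  have ht0 : 0 < (σ * δ / 2) ^ 2 := by positivity
  obtain ⟨η, hη, hη1⟩ : ∃ η > 0, η * (‖x‖ ^ 2 * W) ≤ (σ * δ / 2) ^ 2 / 8 := by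
    refine ⟨(σ * δ / 2) ^ 2 / 8 / (‖x‖ ^ 2 * W + 1), by positivity, ?_⟩
    rw [div_mul_eq_mul_div, div_le_iff₀ (by positivity)]
    nlinarith
  obtain ⟨P, q, q1, q2, q3, q4⟩ := h η hη
  have e1 : ∀ i : P, ‖q * C.pj (P.proj ⁻¹' {i})‖ ^ 2 ≤ η := fun i =>
    (norm_mul_proj_sq q1 (C.pj_proj _)).trans_le (q4 i)
  obtain ⟨d, hd⟩ := sing_greedy C hΦ q1 hη.le e1 F (half_pos (half_pos ht0))
  have hb := rf_lc P d
  obtain ⟨c, hc⟩ := sing_col C hb x q1 hη.le (fun ⟨i, j⟩ => by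
    refine (pow_le_pow_left₀ (norm_nonneg _) ?_ 2).trans (e1 i)
    rw [rf_pre, ← C.pj_mul (P.isClopen_preimage _) ((d i).isClopen_preimage _), ← mul_assoc]
    exact (norm_mul_le _ _).trans (mul_le_of_le_one_right (norm_nonneg _) (C.pj_proj _).norm_le))
    F r
  generalize rf P d = b at hb hc hd
  have s1 : ∀ ξ : F, ‖(q * (C.pinch b x - C.ι g) * q).1 ξ‖ < σ * δ / 2 := fun ξ => by
    refine (abs_lt_of_sq_lt_sq' ((hd ξ).trans_lt ?_) (by positivity)).2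
    have h4 := mul_le_mul_of_nonneg_left (hW1 ξ) (mul_nonneg hη.le (sq_nonneg ‖x‖))
    nlinarith
  have s2 : ∀ ξ : F, ‖(q * (C.pinch (c ∘ b) x - C.pinch b x -
      (r : ℂ)⁻¹ • (x - C.pinch b x)) * q).1 ξ‖ < σ * δ / 2 := fun ξ => by
    refine (abs_lt_of_sq_lt_sq' ((hc ξ).trans_lt ?_) (by positivity)).2
    rw [← hW]
    linarith
  have hcb := hb.comp c
  obtain ⟨q', p1, p2, p3, p4⟩ := exists_small_cut (b := C.pinch (c ∘ b) x - C.ι g -
    (r : ℂ)⁻¹ • (x - C.pinch b x)) q1 (by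
      simp only [star_sub, star_smul, C.pinch_star, hx, a2, star_inv₀, star_natCast]) hσ
  let e := (ZMod.finEquiv r).toEquiv
  have hι : ∀ f, C.ι f ∈ A := fun f => (hC _).2 ⟨f, rfl⟩
  refine ⟨fun i => C.pj ((c ∘ b) ⁻¹' {e i}), C.ι g, q', fun i => ⟨hι _, C.pj_proj _⟩,
    fun i j hij => C.fib_mul hcb (e.injective.ne hij), ?_, hι _, a2, a1, p1, ?_, fun ξ hξ => ?_, ?_⟩
  · rw [e.sum_comp fun k => C.pj ((c ∘ b) ⁻¹' {k}), C.sum_fib hcb]
  · rw [← p2, ← mul_assoc, q2]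
  · have h1 := p4 ξ
    have h2 : q * (C.pinch (c ∘ b) x - C.ι g - (r : ℂ)⁻¹ • (x - C.pinch b x)) * q =
        q * (C.pinch b x - C.ι g) * q + q * (C.pinch (c ∘ b) x - C.pinch b x -
          (r : ℂ)⁻¹ • (x - C.pinch b x)) * q := by
      rw [← add_mul, ← mul_add]
      congr 2
      abel
    rw [h2] at h1
    have h3 := h1.trans_lt ((norm_add_le _ _).trans_lt (add_lt_add (s1 ⟨ξ, hξ⟩) (s2 ⟨ξ, hξ⟩)))
    rw [add_halves, mul_lt_mul_iff_right₀ hσ] at h3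
    have h4 : (z - q').1 ξ = (z - q).1 ξ + (q - q').1 ξ := by
      rw [← sub_add_sub_cancel z q q']
      rfl
    rw [h4, two_mul]
    exact (norm_add_le _ _).trans_lt (add_lt_add (q3 ξ hξ) h3)
  · rw [e.sum_comp fun k => C.pj ((c ∘ b) ⁻¹' {k}) * x * C.pj ((c ∘ b) ⁻¹' {k})]
    have h2 : q' * (C.pinch (c ∘ b) x - C.ι g) * q' = q' * ((r : ℂ)⁻¹ • (x - C.pinch b x)) * q' +
        q' * (C.pinch (c ∘ b) x - C.ι g - (r : ℂ)⁻¹ • (x - C.pinch b x)) * q' := by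
      rw [← add_mul, ← mul_add, add_sub_cancel]
    refine (congrArg norm h2).trans_le ((norm_add_le _ _).trans (add_le_add ?_ p3))
    have h3 : ‖(r : ℂ)⁻¹ • (x - C.pinch b x)‖ ≤ 2 * ‖x‖ / r := by
      rw [norm_smul, norm_inv, Complex.norm_natCast, mul_comm, ← div_eq_mul_inv, two_mul]
      gcongr
      exact (norm_sub_le _ _).trans (add_le_add le_rfl (C.norm_pinch_le hb x))
    refine norm_mul₃_le.trans (le_trans ?_ h3)
    exact (mul_le_of_le_one_right (by positivity) p1.norm_le).trans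
      (mul_le_of_le_one_left (norm_nonneg _) p1.norm_le)

end Vale.Agent.P078G
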