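import Vale.Agent.P078G.DDef

/-! Supports, dominated and null projections. -/

namespace Vale.Agent.P078G

open Filter Finset
open Vale.Agent.P085 (WT vn_closed)
open scoped Topology InnerProductSpace

attribute [local instance] vn_closed

variable {H : Type*} [NormedAddCommGroup H] [InnerProductSpace ℂ H] [CompleteSpace H]
  {M : VonNeumannAlgebra H} {A : StarSubalgebra ℂ M.toStarSubalgebra}

lemma re_nonneg_coe (T : Sta M.toStarSubalgebra) {a : M.toStarSubalgebra} (h : 0 ≤ a.1) :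
    0 ≤ (T.τ a).re := by
  have hs : CFC.sqrt a.1 ∈ M := P096.vn_mem fun S hS => by
    rw [CFC.sqrt_eq_cfc]
    exact Commute.cfc_nnreal (P096.vn_comm a.2 hS) _
  have : a = star (⟨_, hs⟩ : M.toStarSubalgebra) * ⟨_, hs⟩ := Subtype.ext (by
    change a.1 = star (CFC.sqrt a.1) * CFC.sqrt a.1
    rw [(CFC.sqrt_nonneg a.1).isSelfAdjoint.star_eq, CFC.sqrt_mul_sqrt_self a.1 h])
  rw [this]
  exact (T.pos _).1

lemma exists_ub {c : Set M.toStarSubalgebra} (hne : c.Nonempty) (hd : DirectedOn (· ≤ ·) c)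
    {e : H →L[ℂ] H} (h : ∀ z ∈ c, 0 ≤ z.1 ∧ z.1 ≤ e) : ∃ (y : M.toStarSubalgebra) (l : Filter c),
      l.NeBot ∧ WT l (fun z => z.1.1) y.1 ∧ 0 ≤ y.1 ∧ y.1 ≤ e ∧ ∀ z ∈ c, z ≤ y := by
  have : Nonempty c := hne.to_subtype
  have : IsDirectedOrder c := hd.isDirectedOrder
  let U : Ultrafilter c := Ultrafilter.of atTop
  have hU : (U : Filter c) ≤ atTop := Ultrafilter.of_le _
  obtain ⟨y, hy⟩ := P085.exists_WT U (x := fun z : c => z.1.1) (R := ‖e‖) fun z =>
    CStarAlgebra.norm_le_norm_of_nonneg_of_le (h z z.2).1 (h z z.2).2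
  have hy' := P096.WT_iff.2 hy
  refine ⟨⟨y, hy.mem fun z => z.1.2⟩, U, inferInstance, hy,
    hy'.nonneg (.of_forall fun z => (h z z.2).1), sub_nonneg.1 (P096.WT.nonneg
      (P082.WL.T.sub (.const e) hy') (.of_forall fun z => sub_nonneg.2 (h z z.2).2)), fun z hz => ?_⟩
  refine sub_nonneg.1 (P096.WT.nonneg (hy'.sub (.const z.1)) ?_)
  exact ((eventually_ge_atTop (⟨z, hz⟩ : c)).filter_mono hU).mono fun w hw => sub_nonneg.2 hw

lemma conj_le {q : M.toStarSubalgebra} (hq : IsStarProjection q) (y : M.toStarSubalgebra) {δ : ℝ}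
    (hδ : 0 < δ) : ∃ c : ℝ, 0 < c ∧ ((c : ℂ) • (star (y * q) * (y * q))).1 ≤ δ • q.1 := by
  have hN := norm_nonneg (star y.1 * y.1)
  refine ⟨δ / (‖star y.1 * y.1‖ + 1), by positivity, ?_⟩
  have h7 := CStarAlgebra.star_left_conjugate_le_norm_smul (a := q.1) (b := star y.1 * y.1)
    (IsSelfAdjoint.star_mul_self y.1)
  have h8 : star q.1 * (star y.1 * y.1) * q.1 = (star (y * q) * (y * q)).1 := by
    simp [mul_assoc]
  rw [h8, (proj_coe hq).isSelfAdjoint.star_eq, (proj_coe hq).isIdempotentElem.eq] at h7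
  rw [SetLike.val_smul, Complex.coe_smul]
  refine (smul_le_smul_of_nonneg_left h7 (by positivity)).trans ?_
  rw [smul_smul]
  refine smul_le_smul_of_nonneg_right ?_ (proj_coe hq).nonneg
  rw [div_mul_eq_mul_div, div_le_iff₀ (by positivity)]
  nlinarith

theorem exists_supp {T : Sta M.toStarSubalgebra} (h : Nml T.τ) : ∃ s, Supp T s := by
  obtain ⟨b, -, ⟨b0, b1, b2⟩, hb⟩ := zorn_le_nonempty₀
    {y : M.toStarSubalgebra | 0 ≤ y.1 ∧ y.1 ≤ 1 ∧ (T.τ y).re ≤ 0} (fun c hc hch z hz => by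
      obtain ⟨y, l, _, h1, h2, h3, h4⟩ := exists_ub ⟨z, hz⟩ hch.directedOn (e := 1)
        fun w hw => ⟨(hc hw).1, (hc hw).2.1⟩
      refine ⟨y, ⟨h2, h3, le_of_tendsto' ((Complex.continuous_re.tendsto _).comp
        (h.tendsto (R := 1) (fun w => ?_) h1)) fun w => (hc w.2).2.2⟩, h4⟩
      exact (CStarAlgebra.norm_le_one_iff_of_nonneg _ (hc w.2).1).2 (hc w.2).2.1)
    0 ⟨le_rfl, zero_le_one, by simp⟩
  have key : ∀ c : M.toStarSubalgebra, 0 ≤ c.1 → b.1 + c.1 ≤ 1 → (T.τ c).re ≤ 0 → c = 0 :=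
    fun c c0 c1 c2 => by
      have h1 := hb (y := b + c) ⟨add_nonneg b0 c0, c1, by
        rw [map_add, Complex.add_re]; linarith⟩ (le_add_of_nonneg_right c0 : b.1 ≤ b.1 + c.1)
      exact Subtype.ext (le_antisymm ((add_le_iff_nonpos_right b.1).1 h1) c0)
  have bs : star b = b := Subtype.ext (IsSelfAdjoint.of_nonneg b0).star_eq
  have bs' : star b.1 = b.1 := (IsSelfAdjoint.of_nonneg b0).star_eq
  have hp : IsStarProjection b := ⟨(sub_eq_zero.1 (key (b - b * b) (by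
    have : Commute b.1 (1 - b.1) := (Commute.one_right _).sub_right (.refl _)
    simpa [mul_sub] using this.mul_nonneg b0 (sub_nonneg.2 b1)) (by
    have := star_mul_self_nonneg (1 - b.1)
    rw [star_sub, star_one, bs'] at this
    rw [← sub_nonneg]
    refine this.trans_eq ?_
    simp only [AddSubgroupClass.coe_sub, MulMemClass.coe_mul]
    noncomm_ring) (by
    have := (T.pos b).1
    rw [bs] at this
    rw [map_sub, Complex.sub_re]
    exact sub_nonpos.2 (b2.trans this)))).symm, bs⟩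
  have h0 : T.n2 b = 0 := by
    have := T.n2_sq b
    rw [bs, hp.isIdempotentElem.eq] at this
    exact pow_eq_zero_iff two_ne_zero |>.1 (le_antisymm (this.trans_le b2) (sq_nonneg _))
  refine ⟨1 - b, hp.one_sub, ?_, fun y hy => ?_⟩
  · rw [map_sub, T.one, norm_le_zero_iff.1 ((T.norm_τ_le_n2 b).trans h0.le), sub_zero]
  · obtain ⟨c, hc, h1⟩ := conj_le hp.one_sub y one_pos
    have h2 : T.n2 (y * (1 - b)) ≤ 0 := by
      have := T.n2_mul_le y b
      rw [mul_sub, mul_one]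
      rw [h0, mul_zero] at this
      linarith [T.n2_sub_le y (y * b)]
    have h3 := key ((c : ℂ) • (star (y * (1 - b)) * (y * (1 - b)))) (by
      rw [SetLike.val_smul, Complex.coe_smul]
      exact smul_nonneg hc.le (star_mul_self_nonneg (y * (1 - b)).1))
      (le_sub_iff_add_le'.1 (by simpa using h1)) (by
      rw [map_smul, smul_eq_mul, Complex.re_ofReal_mul, ← T.n2_sq,
        le_antisymm h2 (T.n2_nonneg _)]
      simp)
    exact (CStarRing.star_mul_self_eq_zero_iff _).1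
      ((smul_eq_zero.1 h3).resolve_left (Complex.ofReal_ne_zero.2 hc.ne'))

lemma Supp.n2_compl {T : Sta M.toStarSubalgebra} {s : M.toStarSubalgebra} (h : Supp T s) :
    T.n2 (1 - s) = 0 := by
  have := T.n2_sq (1 - s)
  rw [h.1.one_sub.isSelfAdjoint.star_eq, h.1.one_sub.isIdempotentElem.eq, map_sub, T.one, h.2.1,
    sub_self, Complex.zero_re] at this
  exact pow_eq_zero_iff two_ne_zero |>.1 this

lemma Supp.mem {T : Sta M.toStarSubalgebra} {s : M.toStarSubalgebra} (h : Supp T s)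
    (hA : ∀ m, m ∈ A ↔ ∀ a ∈ A, m * a = a * m) (hc : Cen A T) : s ∈ A := by
  have key : ∀ a ∈ A, a * s = s * a * s := fun a ha => by
    have h1 := T.norm_τ_mul (a * star ((1 - s) * a)) (1 - s)
    rw [h.n2_compl, mul_zero, mul_assoc, hc a ha, mul_assoc, T.n2_sq', norm_le_zero_iff] at h1
    have h2 := h.2.2 _ (by simpa using h1)
    rwa [sub_mul, sub_mul, one_mul, sub_eq_zero] at h2
  refine (hA s).2 fun a ha => ?_
  have h1 := congrArg star (key _ (star_mem ha))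
  rw [star_mul, star_mul, star_mul, star_star, h.1.isSelfAdjoint.star_eq, ← mul_assoc] at h1
  rw [h1, ← key a ha]

/-- Every state is locally dominated by a vector functional. -/
theorem exists_dom (T : Sta M.toStarSubalgebra) {p : M.toStarSubalgebra} (hp : IsStarProjection p)
    (h0 : p ≠ 0) : ∃ q, IsStarProjection q ∧ q ≠ 0 ∧ p * q = q ∧
      ∃ η : H, ∀ y, T.n2 (y * q) ≤ ‖(y * q).1 η‖ := by
  have he := proj_coe hp
  obtain ⟨η, hη⟩ : ∃ η : H, 1 < (⟪η, p.1 η⟫_ℂ).re := by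
    obtain ⟨v, hv⟩ : ∃ v, p.1 v ≠ 0 := by
      by_contra! h1
      exact h0 (Subtype.ext (ContinuousLinearMap.ext h1))
    have hv' := norm_pos_iff.2 hv
    refine ⟨((2 / ‖p.1 v‖ : ℝ) : ℂ) • v, ?_⟩
    have e1 : ∀ w, (⟪w, p.1 w⟫_ℂ).re = ‖p.1 w‖ ^ 2 := fun w => by
      rw [← P096.re_inner_star_mul, he.isSelfAdjoint.star_eq, he.isIdempotentElem.eq]
    rw [e1, map_smul, norm_smul, Complex.norm_real, Real.norm_of_nonneg
      (by positivity), div_mul_cancel₀ _ hv'.ne']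
    norm_num
  obtain ⟨b, -, ⟨b0, b1, b2⟩, hb⟩ := zorn_le_nonempty₀
    {y : M.toStarSubalgebra | 0 ≤ y.1 ∧ y.1 ≤ p.1 ∧ (⟪η, y.1 η⟫_ℂ).re ≤ (T.τ y).re}
    (fun c hc hch z hz => by
      obtain ⟨y, l, _, h1, h2, h3, h4⟩ := exists_ub ⟨z, hz⟩ hch.directedOn (e := p.1)
        fun w hw => ⟨(hc hw).1, (hc hw).2.1⟩
      refine ⟨y, ⟨h2, h3, le_of_tendsto' ((Complex.continuous_re.tendsto _).comp (h1 η η))
        fun w => (hc w.2).2.2.trans ?_⟩, h4⟩
      have := re_nonneg_coe T (a := y - w) (sub_nonneg.2 (h4 w w.2 : w.1.1 ≤ y.1))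
      rwa [map_sub, Complex.sub_re, sub_nonneg] at this)
    0 ⟨le_rfl, he.nonneg, by simp⟩
  have h5 : p.1 - b.1 ≠ 0 := fun h5 => by
    rw [← Subtype.ext (sub_eq_zero.1 h5)] at b2
    linarith [(Complex.re_le_norm _).trans ((T.norm_τ_le p).trans hp.norm_le)]
  obtain ⟨δ, q, hδ, hqM, hq, hq0, hq1⟩ := P096.vn_cut (M := M) (p - b).2 (sub_nonneg.2 b1) h5
  have hq' : IsStarProjection (⟨q, hqM⟩ : M.toStarSubalgebra) :=
    ⟨Subtype.ext hq.isIdempotentElem.eq, Subtype.ext hq.isSelfAdjoint.star_eq⟩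
  refine ⟨⟨q, hqM⟩, hq', fun h => hq0 (congrArg Subtype.val h),
    Subtype.ext (P096.proj_le hδ hq he (hq1.trans (sub_le_self _ b0))), η, fun x => ?_⟩
  obtain ⟨c, hc, h6⟩ := conj_le hq' x hδ
  set y := x * ⟨q, hqM⟩
  by_contra! h8
  have h7 : 0 ≤ ((c : ℂ) • (star y * y)).1 := by
    rw [SetLike.val_smul, Complex.coe_smul]
    exact smul_nonneg hc.le (star_mul_self_nonneg y.1)
  have h9 := hb (y := b + (c : ℂ) • (star y * y)) ⟨add_nonneg b0 h7,
    le_sub_iff_add_le'.1 (h6.trans hq1), by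
      have e1 : (⟪η, (b + (c : ℂ) • (star y * y)).1 η⟫_ℂ).re =
          (⟪η, b.1 η⟫_ℂ).re + c * ‖y.1 η‖ ^ 2 := by
        rw [← P096.re_inner_star_mul, ← Complex.re_ofReal_mul, ← Complex.add_re,
          ← inner_smul_right, ← inner_add_right]
        rfl
      rw [e1, map_add, map_smul, smul_eq_mul, Complex.add_re, Complex.re_ofReal_mul, ← T.n2_sq]
      gcongr⟩ (le_add_of_nonneg_right h7 : b.1 ≤ b.1 + _)
  have h10 : (c : ℂ) • (star y * y) = 0 :=
    Subtype.ext (le_antisymm ((add_le_iff_nonpos_right b.1).1 h9) h7)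
  rw [(CStarRing.star_mul_self_eq_zero_iff _).1
    ((smul_eq_zero.1 h10).resolve_left (Complex.ofReal_ne_zero.2 hc.ne')), T.n2_zero] at h8
  exact (norm_nonneg _).not_gt h8

/-- A singular state vanishes on large projections. -/
theorem exists_null (T : Sta M.toStarSubalgebra) {z : M.toStarSubalgebra} (hz : IsStarProjection z)
    (h : ∀ p, IsStarProjection p → p ≠ 0 → z * p = p →
      ∃ f, IsStarProjection f ∧ f ≠ 0 ∧ p * f = f ∧ T.n2 f = 0) (F : Finset H) {δ : ℝ}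
    (hδ : 0 < δ) : ∃ q, IsStarProjection q ∧ z * q = q ∧ T.n2 q = 0 ∧
      ∀ ξ ∈ F, ‖(z - q).1 ξ‖ < δ := by
  classical
  obtain ⟨S, ⟨hS, ho⟩, hm⟩ := zorn_subset {S : Set M.toStarSubalgebra |
      (∀ q ∈ S, IsStarProjection q ∧ z * q = q ∧ T.n2 q = 0) ∧ S.Pairwise fun a b => a * b = 0}
    fun c hc hch => ⟨⋃₀ c, ⟨fun q ⟨s, hs, hq⟩ => (hc hs).1 q hq,
      (Set.pairwise_sUnion hch.directedOn).2 fun s hs => (hc hs).2⟩,
      fun s hs => Set.subset_sUnion_of_mem hs⟩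
  have k1 : ∀ t : Finset M.toStarSubalgebra, ↑t ⊆ S → ∀ q ∈ t, (∑ r ∈ t, r) * q = q :=
    fun t ht q hq => by
      rw [sum_mul, sum_eq_single_of_mem q hq fun r hr hne => ho (ht hr) (ht hq) hne]
      exact (hS q (ht hq)).1.isIdempotentElem.eq
  have k2 : ∀ t u : Finset M.toStarSubalgebra, ↑u ⊆ S → t ⊆ u →
      (∑ r ∈ u, r) * ∑ r ∈ t, r = ∑ r ∈ t, r := fun t u hu htu => by
    rw [mul_sum]
    exact sum_congr rfl fun q hq => k1 u hu q (htu hq)
  have k3 : ∀ t : Finset M.toStarSubalgebra, ↑t ⊆ S → IsStarProjection (∑ r ∈ t, r) ∧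
      z * ∑ r ∈ t, r = ∑ r ∈ t, r ∧ T.n2 (∑ r ∈ t, r) = 0 := fun t ht =>
    ⟨⟨k2 t t ht Subset.rfl, by
      rw [IsSelfAdjoint, star_sum]
      exact sum_congr rfl fun q hq => (hS q (ht hq)).1.isSelfAdjoint⟩, by
      rw [mul_sum]
      exact sum_congr rfl fun q hq => (hS q (ht hq)).2.1,
      le_antisymm ((T.n2_sum_le _ _).trans_eq (sum_eq_zero fun q hq => (hS q (ht hq)).2.2))
        (T.n2_nonneg _)⟩
  obtain ⟨y, hy, h1, h2, -, h3⟩ := exists_sup
    (S := {q | ∃ t : Finset M.toStarSubalgebra, ↑t ⊆ S ∧ ∑ r ∈ t, r = q}) ⟨0, ∅, by simp, rfl⟩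
    (by rintro _ ⟨t, ht, rfl⟩; exact (k3 t ht).1) (by
      rintro _ ⟨t, ht, rfl⟩ _ ⟨u, hu, rfl⟩
      have : (↑(t ∪ u) : Set _) ⊆ S := by simp [ht, hu]
      exact ⟨_, ⟨t ∪ u, this, rfl⟩, k2 _ _ this subset_union_left, k2 _ _ this subset_union_right⟩)
  have h4 : z * y = y := by
    have := h2 (1 - z) (by rintro _ ⟨t, ht, rfl⟩; rw [sub_mul, one_mul, (k3 t ht).2.1, sub_self])
    rw [sub_mul, one_mul, sub_eq_zero] at this
    exact this.symm
  have h4' : y * z = y := by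
    simpa [hy.isSelfAdjoint.star_eq, hz.isSelfAdjoint.star_eq] using congrArg star h4
  obtain rfl : z = y := by
    by_contra hne
    obtain ⟨f, hf, f0, f1, f2⟩ := h (z - y) (hy.sub_of_mul_eq_right hz h4) (sub_ne_zero.2 hne)
      (by rw [mul_sub, hz.isIdempotentElem.eq, h4])
    have a1 : ∀ q ∈ S, q * f = 0 := fun q hq => by
      have a2 := congrArg star (h1 q ⟨{q}, by simpa using hq, by simp⟩)
      have a3 := congrArg star (hS q hq).2.1
      rw [star_mul, (hS q hq).1.isSelfAdjoint.star_eq] at a2 a3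
      rw [hy.isSelfAdjoint.star_eq] at a2
      rw [hz.isSelfAdjoint.star_eq] at a3
      rw [← f1, ← mul_assoc, mul_sub, a2, a3, sub_self, zero_mul]
    have a2 : ∀ q ∈ S, f * q = 0 := fun q hq => by
      simpa [hf.isSelfAdjoint.star_eq, (hS q hq).1.isSelfAdjoint.star_eq] using
        congrArg star (a1 q hq)
    have a3 : insert f S ⊆ S := hm (y := insert f S) ⟨fun q hq => by
      rcases hq with rfl | hq
      · exact ⟨hf, by rw [← f1, ← mul_assoc, mul_sub, hz.isIdempotentElem.eq, h4], f2⟩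
      · exact hS q hq, Set.pairwise_insert.2 ⟨ho, fun q hq _ => ⟨a2 q hq, a1 q hq⟩⟩⟩
      (Set.subset_insert _ _)
    exact f0 (by rw [← hf.isIdempotentElem.eq, a1 f (a3 (Set.mem_insert _ _))])
  obtain ⟨_, ⟨t, ht, rfl⟩, h5⟩ := h3 F δ hδ
  exact ⟨_, (k3 t ht).1, (k3 t ht).2.1, (k3 t ht).2.2, h5⟩

end Vale.Agent.P078G
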