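import Vale.Agent.P078G.DSup
import Vale.Agent.P078G.DNml

/-! Thin projections on the singular part. -/

namespace Vale.Agent.P078G

open Filter Finset
open Vale.Agent.P085 (WT vn_closed)
open Vale.Agent.P078.Ctx (mem_of_le_ofIsClopen)
open scoped Topology InnerProductSpace ComplexOrder

attribute [local instance] vn_closed

lemma thin_abs {N : Type*} [CStarAlgebra N] [PartialOrder N] [StarOrderedRing N] (h : RP N)
    {z q b : N} (hz : IsStarProjection z) (hq : IsStarProjection q) (hzq : z * q = q) (hb : 0 ≤ b)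
    (hzb : z * b = b * z) {η : ℝ} (hη : 0 < η) : ∃ q' f, IsStarProjection q' ∧
      IsStarProjection f ∧ z * q' = q' ∧ η • f ≤ b ∧
      z - q' ≤ (2 : ℝ) • (z - (1 - f) * q * (1 - f)) ∧
      ∀ e, IsStarProjection e → e * b = b * e → e * b * e = e * q * e → ‖e * q' * e‖ ≤ 2 * η := by
  have cut : ∀ {c e : N}, 0 ≤ c → IsStarProjection e → c * e = e * c →
      c = e * c * e + (1 - e) * c * (1 - e) ∧ 0 ≤ e * c * e ∧ 0 ≤ (1 - e) * c * (1 - e) :=
    fun {c e} hc he hce => by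
      refine ⟨?_, he.isSelfAdjoint.conjugate_nonneg hc, he.one_sub.isSelfAdjoint.conjugate_nonneg hc⟩
      have h1 : e * c * e = c * e := by rw [← hce, mul_assoc, he.isIdempotentElem.eq]
      calc c = e * c * e + (c - c * e - e * c + e * c * e) := by rw [h1, ← hce]; abel
        _ = _ := by noncomm_ring
  obtain ⟨f, f1, f2, f3, f4, -⟩ := exists_spec h hb.isSelfAdjoint.star_eq η
  set c := (1 - f) * q * (1 - f) with hc
  have c0 : 0 ≤ c := f1.one_sub.isSelfAdjoint.conjugate_nonneg hq.nonneg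
  have c1 : c ≤ 1 := by
    have h1 := f1.one_sub.isSelfAdjoint.conjugate_le_conjugate hq.le_one
    rw [mul_one, f1.one_sub.isIdempotentElem.eq] at h1
    exact h1.trans f1.one_sub.le_one
  obtain ⟨q', q1, q2, q3, q4, q5⟩ := exists_spec h c0.isSelfAdjoint.star_eq (1 / 2)
  have zf : z * (1 - f) = (1 - f) * z := by rw [mul_sub, sub_mul, f2 z hzb, mul_one, one_mul]
  have zc : z * c = c := by rw [hc, ← mul_assoc, ← mul_assoc, zf, mul_assoc _ z, hzq]
  have cz : c * z = c := by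
    have := congrArg star zc
    rwa [star_mul, c0.isSelfAdjoint.star_eq, hz.isSelfAdjoint.star_eq] at this
  have zq : z * q' = q' := by
    have := q5 (1 - z) (by norm_num) (by rw [sub_mul, one_mul, zc, sub_self])
    rw [sub_mul, one_mul, sub_eq_zero] at this
    exact this.symm
  have qz : q' * z = q' := by
    have := congrArg star zq
    rwa [star_mul, q1.isSelfAdjoint.star_eq, hz.isSelfAdjoint.star_eq] at this
  obtain ⟨d1, d2, d3⟩ := cut c0 q1 (q2 c rfl)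
  obtain ⟨b1, b2, b3⟩ := cut hb f1 (f2 b rfl)
  refine ⟨q', f, q1, f1, zq, f4.trans ?_, ?_, fun e he e1 e2 => ?_⟩
  · conv_rhs => rw [b1]
    exact le_add_of_nonneg_right b3
  · have h1 := hz.isSelfAdjoint.conjugate_le_conjugate q3
    have h2 : z * ((1 - q') * c * (1 - q')) * z = (1 - q') * c * (1 - q') := by
      have h3 : z * (1 - q') = (1 - q') * z := by rw [mul_sub, sub_mul, zq, qz, mul_one, one_mul]
      calc _ = (z * (1 - q')) * c * ((1 - q') * z) := by simp only [mul_assoc]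
        _ = ((1 - q') * z) * c * (z * (1 - q')) := by rw [h3]
        _ = (1 - q') * (z * (c * z)) * (1 - q') := by simp only [mul_assoc]
        _ = _ := by rw [cz, zc]
    rw [h2, mul_smul_comm, smul_mul_assoc, mul_sub z, sub_mul (z * 1), mul_one, zq, qz,
      hz.isIdempotentElem.eq] at h1
    have h4 := q1.isSelfAdjoint.conjugate_le_conjugate c1
    rw [mul_one, q1.isIdempotentElem.eq] at h4
    have h5 : (2 : ℝ) • (z - c) - (z - q') = (2 : ℝ) • ((1 / 2 : ℝ) • (z - q') -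
        (1 - q') * c * (1 - q') + (q' - q' * c * q')) := by
      conv_lhs => rw [d1]
      module
    rw [← sub_nonneg, h5]
    exact smul_nonneg zero_le_two (add_nonneg (sub_nonneg.2 h1) (sub_nonneg.2 h4))
  · have h1 : (1 / 2 : ℝ) • q' ≤ c := q4.trans (by
      conv_rhs => rw [d1]
      exact le_add_of_nonneg_right d3)
    have h2 := he.isSelfAdjoint.conjugate_le_conjugate h1
    have h3 := he.isSelfAdjoint.conjugate_le_conjugate f3
    have ef : e * (1 - f) = (1 - f) * e := by rw [mul_sub, sub_mul, f2 e e1, mul_one, one_mul]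
    have h4 : ∀ y, e * ((1 - f) * y * (1 - f)) * e = (1 - f) * (e * y * e) * (1 - f) := fun y => by
      rw [mul_assoc, mul_assoc, ← ef, ← mul_assoc, ← mul_assoc, ← mul_assoc, ef]
      simp only [mul_assoc]
    rw [h4, e2, ← h4] at h3
    have h5 := CStarAlgebra.norm_le_norm_of_nonneg_of_le
      (he.isSelfAdjoint.conjugate_nonneg (smul_nonneg (by norm_num) q1.nonneg)) (h2.trans h3)
    rw [mul_smul_comm, smul_mul_assoc, mul_smul_comm, smul_mul_assoc, norm_smul, norm_smul,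
      Real.norm_of_nonneg hη.le, Real.norm_of_nonneg (by norm_num)] at h5
    have h6 : ‖e * (1 - f) * e‖ ≤ 1 := norm_mul₃_le.trans (mul_le_one₀ (mul_le_one₀ he.norm_le
      (norm_nonneg _) f1.one_sub.norm_le) (norm_nonneg _) he.norm_le)
    nlinarith

lemma thin_msa {N X : Type*} [CStarAlgebra N] [TopologicalSpace X] [CompactSpace X] (C : Msa N X)
    {g : C(X, ℂ)} {q : N} (hz : IsStarProjection (C.ι g)) (hq : IsStarProjection q)
    (hzq : C.ι g * q = q) (P : DiscreteQuotient X) {η : ℝ} (hη : 0 < η) : ∃ q' f,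
      IsStarProjection q' ∧ IsStarProjection f ∧ C.ι g * q' = q' ∧
      (∃ y, C.pinch P.proj q - η • f = star y * y) ∧
      (∃ y, (2 : ℝ) • (C.ι g - (1 - f) * q * (1 - f)) - (C.ι g - q') = star y * y) ∧
      ∀ i : P, ‖C.pj (P.proj ⁻¹' {i}) * q' * C.pj (P.proj ⁻¹' {i})‖ ≤ 2 * η := by
  let _ := CStarAlgebra.spectralOrder N
  have _ := CStarAlgebra.spectralOrderedRing N
  have hc := P.proj_isLocallyConstant
  have hqz : q * C.ι g = q := by
    have := congrArg star hzq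
    rwa [star_mul, hq.isSelfAdjoint.star_eq, hz.isSelfAdjoint.star_eq] at this
  obtain ⟨q', f, q1, f1, q2, f2, q3, q4⟩ := thin_abs C.rp (b := C.pinch P.proj q) hz hq hzq
    (sum_nonneg fun k _ => (C.pj_proj _).isSelfAdjoint.conjugate_nonneg hq.nonneg) (by
      simp only [Msa.pinch, mul_sum, sum_mul]
      refine sum_congr rfl fun k _ => ?_
      rw [← mul_assoc, ← mul_assoc, ← C.pj_comm_ι, mul_assoc _ _ q, hzq, mul_assoc _ _ (C.ι g),
        C.pj_comm_ι, ← mul_assoc, mul_assoc _ q (C.ι g), hqz]) hη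
  refine ⟨q', f, q1, f1, q2, CStarAlgebra.nonneg_iff_eq_star_mul_self.mp (sub_nonneg.2 f2),
    CStarAlgebra.nonneg_iff_eq_star_mul_self.mp (sub_nonneg.2 q3), fun i => q4 _ (C.pj_proj _)
      (C.pinch_comm hc (P078.isClopen_preimage hc _) (fun x x' e hx => ?_) q).symm ?_⟩
  · rwa [Set.mem_preimage, ← e]
  · rw [Msa.pinch, mul_sum, sum_mul, sum_eq_single i (fun j _ hj => ?_) (by simp)]
    · simp only [← mul_assoc, C.pj_idem]
      rw [mul_assoc, C.pj_idem]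
    · rw [← mul_assoc, ← mul_assoc, C.fib_mul hc hj.symm, zero_mul, zero_mul, zero_mul]

variable {H : Type*} [NormedAddCommGroup H] [InnerProductSpace ℂ H] [CompleteSpace H]
  {M : VonNeumannAlgebra H} {A : StarSubalgebra ℂ M.toStarSubalgebra}

omit [CompleteSpace H] in
lemma wt_unique {ι : Type*} {l : Filter ι} [l.NeBot] {x x' : ι → H →L[ℂ] H} {y y' : H →L[ℂ] H}
    (h : WT l x y) (h' : WT l x' y') (e : ∀ᶠ i in l, x i = x' i) : y = y' :=
  ContinuousLinearMap.ext fun ξ => ext_inner_left ℂ fun η => tendsto_nhds_unique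
    ((h ξ η).congr' (e.mono fun i hi => by rw [hi])) (h' ξ η)

lemma inner_star_mul (y : M.toStarSubalgebra) (ξ : H) :
    ⟪ξ, (star y * y).1 ξ⟫_ℂ = (‖y.1 ξ‖ ^ 2 : ℝ) := by
  change ⟪ξ, ContinuousLinearMap.adjoint y.1 (y.1 ξ)⟫_ℂ = _
  rw [ContinuousLinearMap.adjoint_inner_right, inner_self_eq_norm_sq_to_K]
  norm_cast

lemma inner_proj {e : M.toStarSubalgebra} (he : IsStarProjection e) (ξ : H) :
    (⟪ξ, e.1 ξ⟫_ℂ).re = ‖e.1 ξ‖ ^ 2 := by
  have := inner_star_mul e ξ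
  rw [he.isSelfAdjoint.star_eq, he.isIdempotentElem.eq] at this
  rw [this, Complex.ofReal_re]

lemma inner_sa {e : M.toStarSubalgebra} (he : star e = e) (ξ η : H) :
    ⟪ξ, e.1 η⟫_ℂ = ⟪e.1 ξ, η⟫_ℂ := by
  rw [← ContinuousLinearMap.adjoint_inner_left]
  exact congrArg (fun t : M.toStarSubalgebra => ⟪t.1 ξ, η⟫_ℂ) he

lemma proj_apply_le {e : M.toStarSubalgebra} (he : IsStarProjection e) (ξ : H) :
    ‖e.1 ξ‖ ≤ ‖ξ‖ := by
  simpa using e.1.le_of_opNorm_le he.norm_le ξ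

variable {X : Type*} [TopologicalSpace X] [CompactSpace X] [T2Space X]

lemma exists_pinch_lim (C : Msa M.toStarSubalgebra X) {U : Ultrafilter (DiscreteQuotient X)}
    (hU : (U : Filter (DiscreteQuotient X)) ≤ atBot) (y : M.toStarSubalgebra) :
    ∃ f, WT (U : Filter (DiscreteQuotient X)) (fun P => (C.pinch P.proj y).1) (C.ι f).1 := by
  obtain ⟨w, hw⟩ := P085.exists_WT (x := fun P : DiscreteQuotient X => (C.pinch P.proj y).1) U
    fun P => C.norm_pinch_le P.proj_isLocallyConstant y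
  obtain ⟨f, hf⟩ := C.mem_of_comm_pj (y := ⟨w, hw.mem fun P => (C.pinch P.proj y).2⟩)
    fun V hV => Subtype.ext (by
      have h1 : WT (U : Filter (DiscreteQuotient X))
        (fun P => (C.pinch P.proj y).1 * (C.pj V).1) (w * (C.pj V).1) := fun ξ η => hw _ η
      refine wt_unique h1 (hw.mul_left (C.pj V).1) (hU ?_)
      filter_upwards [eventually_le_atBot (DiscreteQuotient.ofIsClopen hV)] with P hP
      exact congrArg Subtype.val (C.pinch_comm P.proj_isLocallyConstant hV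
        (mem_of_le_ofIsClopen hV hP) y))
  exact ⟨f, by rwa [hf]⟩

/-- Weak limits of pinchings. -/
theorem exists_Phi (C : Msa M.toStarSubalgebra X) :
    ∃ (U : Ultrafilter (DiscreteQuotient X)) (Φ : M.toStarSubalgebra →ₗ[ℂ] C(X, ℂ)),
      (∀ f y, Φ (C.ι f * y) = f * Φ y) ∧ (∀ f y, Φ (y * C.ι f) = Φ y * f) ∧ Φ 1 = 1 ∧
      ∀ y, WT (U : Filter (DiscreteQuotient X)) (fun P => (C.pinch P.proj y).1) (C.ι (Φ y)).1 := by
  obtain ⟨U, hU⟩ := Ultrafilter.exists_le (atBot : Filter (DiscreteQuotient X))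
  choose Φ hΦ using exists_pinch_lim C hU
  have uq : ∀ y f, WT (U : Filter (DiscreteQuotient X)) (fun P => (C.pinch P.proj y).1)
      (C.ι f).1 → Φ y = f := fun y f h =>
    C.inj (Subtype.ext (wt_unique (hΦ y) h (.of_forall fun _ => rfl)))
  have h1 : ∀ a b, Φ (a + b) = Φ a + Φ b := fun a b => uq _ _ fun ξ η => by
    simp only [C.pinch_add, map_add, AddMemClass.coe_add, add_apply, inner_add_right]
    exact (hΦ a ξ η).add (hΦ b ξ η)
  have h2 : ∀ (c : ℂ) a, Φ (c • a) = c • Φ a := fun c a => uq _ _ (by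
    simp only [C.pinch_smul, map_smul]
    exact (hΦ a).smul c)
  have h3 : ∀ f y, Φ (C.ι f * y) = f * Φ y := fun f y => uq _ _ (by
    have : ∀ P : DiscreteQuotient X, C.pinch P.proj (C.ι f * y) = C.ι f * C.pinch P.proj y :=
      fun P => by simp only [Msa.pinch, mul_sum, ← mul_assoc, C.pj_comm_ι]
    simp only [this, map_mul]
    exact (hΦ y).mul_left _)
  have h4 : ∀ f y, Φ (y * C.ι f) = Φ y * f := fun f y => uq _ _ (by
    have : ∀ P : DiscreteQuotient X, C.pinch P.proj (y * C.ι f) = C.pinch P.proj y * C.ι f :=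
      fun P => by simp only [Msa.pinch, sum_mul, mul_assoc, C.pj_comm_ι]
    simp only [this, map_mul]
    exact fun ξ η => hΦ y _ η)
  have h5 : Φ 1 = 1 := uq _ _ (by
    have : ∀ P : DiscreteQuotient X, C.pinch P.proj 1 = C.ι 1 := fun P => by
      rw [← C.pinch_ι P.proj_isLocallyConstant, map_one]
    simp only [this]
    exact fun _ _ => tendsto_const_nhds)
  exact ⟨U, ⟨⟨Φ, h1⟩, h2⟩, h3, h4, h5, hΦ⟩

omit [T2Space X] in
lemma inner_pinch_nonneg (C : Msa M.toStarSubalgebra X) {κ : Type*} [Fintype κ] (c : X → κ)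
    (y : M.toStarSubalgebra) (ξ : H) : 0 ≤ ⟪ξ, (C.pinch c (star y * y)).1 ξ⟫_ℂ := by
  rw [Msa.pinch, AddSubmonoidClass.coe_finsetSum, _root_.sum_apply, inner_sum]
  refine sum_nonneg fun k _ => ?_
  have := inner_star_mul (y * C.pj (c ⁻¹' {k})) ξ
  rw [star_mul, C.pj_star, ← mul_assoc, mul_assoc _ (star y)] at this
  rw [this]
  exact Complex.zero_le_real.2 (sq_nonneg _)

/-- Cutting a projection with small pinching. -/
theorem thin_of_small (C : Msa M.toStarSubalgebra X) {z q : M.toStarSubalgebra}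
    (hz : ∃ f, C.ι f = z) (hz' : IsStarProjection z) (hq : IsStarProjection q) (hzq : z * q = q)
    (P : DiscreteQuotient X) {η : ℝ} (hη : 0 < η) : ∃ q', IsStarProjection q' ∧ z * q' = q' ∧
      (∀ i : P, ‖C.pj (P.proj ⁻¹' {i}) * q' * C.pj (P.proj ⁻¹' {i})‖ ≤ 2 * η) ∧
      ∀ ξ, ‖(z - q').1 ξ‖ ^ 2 ≤ 8 * (‖ξ‖ * (‖(z - q).1 ξ‖ +
        √((⟪ξ, (C.pinch P.proj q).1 ξ⟫_ℂ).re / η))) := by
  obtain ⟨g, rfl⟩ := hz
  obtain ⟨q', f, q1, f1, q2, f2, q3, q4⟩ := thin_msa C hz' hq hzq P hη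
  have mono : ∀ {a b : M.toStarSubalgebra}, (∃ y, b - a = star y * y) →
      ∀ ξ, (⟪ξ, a.1 ξ⟫_ℂ).re ≤ (⟪ξ, b.1 ξ⟫_ℂ).re := fun {a b} ⟨y, hy⟩ ξ => by
    have := inner_star_mul y ξ
    rw [← hy, AddSubgroupClass.coe_sub, sub_apply, inner_sub_right] at this
    have h1 := congrArg Complex.re this
    rw [Complex.sub_re, Complex.ofReal_re] at h1
    nlinarith [sq_nonneg ‖y.1 ξ‖]
  have sm : ∀ (t : ℝ) (a : M.toStarSubalgebra) ξ,
      (⟪ξ, (t • a).1 ξ⟫_ℂ).re = t * (⟪ξ, a.1 ξ⟫_ℂ).re := fun t a ξ => by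
    rw [← Complex.coe_smul]
    change (⟪ξ, (t : ℂ) • a.1 ξ⟫_ℂ).re = _
    rw [inner_smul_right, Complex.re_ofReal_mul]
  refine ⟨q', q1, q2, q4, fun ξ => ?_⟩
  have h1 := mono q3 ξ
  have h2 := mono f2 ξ
  have hp : IsStarProjection (C.ι g - q') := q1.sub_of_mul_eq_right hz' q2
  rw [inner_proj hp, sm] at h1
  rw [sm, inner_proj f1, mul_comm, ← le_div_iff₀ hη] at h2
  have h3 := Real.le_sqrt_of_sq_le h2
  have e : C.ι g - (1 - f) * q * (1 - f) = C.ι g - q + f * q + (1 - f) * q * f := by noncomm_ring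
  have h4 := (Complex.re_le_norm _).trans (norm_inner_le_norm (𝕜 := ℂ) ξ ((C.ι g - q).1 ξ))
  have h5 := (Complex.re_le_norm _).trans (norm_inner_le_norm (𝕜 := ℂ) (f.1 ξ) (q.1 ξ))
  have h6 := (Complex.re_le_norm _).trans
    (norm_inner_le_norm (𝕜 := ℂ) ξ ((1 - f).1 (q.1 (f.1 ξ))))
  rw [← inner_sa f1.isSelfAdjoint.star_eq] at h5
  have h7 := proj_apply_le hq ξ
  have h8 := (proj_apply_le f1.one_sub _).trans (proj_apply_le hq (f.1 ξ))
  have h9 : (⟪ξ, (C.ι g - (1 - f) * q * (1 - f)).1 ξ⟫_ℂ).re = (⟪ξ, (C.ι g - q).1 ξ⟫_ℂ).re +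
      (⟪ξ, f.1 (q.1 ξ)⟫_ℂ).re + (⟪ξ, (1 - f).1 (q.1 (f.1 ξ))⟫_ℂ).re := by
    rw [e, ← Complex.add_re, ← Complex.add_re, ← inner_add_right, ← inner_add_right]
    rfl
  have a1 := mul_le_mul h3 h7 (norm_nonneg _) (Real.sqrt_nonneg _)
  have a2 := mul_le_mul_of_nonneg_left (h8.trans h3) (norm_nonneg ξ)
  have a3 := mul_nonneg (norm_nonneg ξ) (norm_nonneg ((C.ι g - q).1 ξ))
  have a4 := mul_nonneg (norm_nonneg ξ)
    (Real.sqrt_nonneg ((⟪ξ, (C.pinch P.proj q).1 ξ⟫_ℂ).re / η))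
  nlinarith

theorem exists_thin (C : Msa M.toStarSubalgebra X) (hC : ∀ a, a ∈ A ↔ ∃ f, C.ι f = a)
    {z : M.toStarSubalgebra} (hz : z ∈ A) (hz' : IsStarProjection z)
    (h : ∀ T : Sta M.toStarSubalgebra, Nml T.τ → Cen A T → T.τ z ≠ 1) (F : Finset H) {δ η : ℝ}
    (hδ : 0 < δ) (hη : 0 < η) : ∃ (P : DiscreteQuotient X) (q : M.toStarSubalgebra),
      IsStarProjection q ∧ z * q = q ∧ (∀ ξ ∈ F, ‖(z - q).1 ξ‖ < δ) ∧
      ∀ i : P, ‖C.pj (P.proj ⁻¹' {i}) * q * C.pj (P.proj ⁻¹' {i})‖ ≤ η := by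
  obtain ⟨U, Φ, Φ1, Φ2, Φ3, Φ4⟩ := exists_Phi C
  obtain ⟨g, rfl⟩ := (hC z).1 hz
  set W := ∑ ξ ∈ F, ‖(C.ι g).1 ξ‖ ^ 2 with hW
  rcases (sum_nonneg fun ξ _ => sq_nonneg ‖(C.ι g).1 ξ‖ : 0 ≤ W).eq_or_lt with h0 | h0
  · refine ⟨⊤, 0, .zero _, mul_zero _, fun ξ hξ => ?_, fun i => by simpa using hη.le⟩
    have := (sum_eq_zero_iff_of_nonneg fun ξ _ => sq_nonneg ‖(C.ι g).1 ξ‖).1 h0.symm ξ hξ
    rwa [sub_zero, pow_eq_zero_iff two_ne_zero |>.1 this]
  have pos : ∀ y ξ, 0 ≤ ⟪ξ, (C.ι (Φ (star y * y))).1 ξ⟫_ℂ := fun y ξ =>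
    ge_of_tendsto' (Φ4 _ ξ ξ) fun P => inner_pinch_nonneg C _ y ξ
  have hWc : (W : ℂ) ≠ 0 := Complex.ofReal_ne_zero.2 h0.ne'
  let T : Sta M.toStarSubalgebra :=
    { τ :=
        { toFun := fun y => (W : ℂ)⁻¹ * ∑ ξ ∈ F, ⟪(C.ι g).1 ξ, (C.ι (Φ y)).1 ((C.ι g).1 ξ)⟫_ℂ
          map_add' := fun a b => by
            simp only [map_add, AddMemClass.coe_add, add_apply, inner_add_right, sum_add_distrib,
              mul_add]
          map_smul' := fun c a => by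
            simp only [map_smul, SetLike.val_smul, smul_apply, inner_smul_right, ← mul_sum,
              RingHom.id_apply, smul_eq_mul, mul_left_comm] }
      pos := fun y => mul_nonneg (by rw [← Complex.ofReal_inv]; positivity)
        (sum_nonneg fun ξ _ => pos y _)
      one := by
        refine inv_mul_eq_one₀ hWc |>.2 ?_
        simp [hW, Φ3, inner_self_eq_norm_sq_to_K] }
  have hT : ∀ y, T.τ y =
      (W : ℂ)⁻¹ * ∑ ξ ∈ F, ⟪(C.ι g).1 ξ, (C.ι (Φ y)).1 ((C.ι g).1 ξ)⟫_ℂ := fun _ => rfl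
  have hcen : Cen A T := fun a ha y => by
    obtain ⟨f, rfl⟩ := (hC a).1 ha
    rw [hT, hT, Φ1, Φ2, mul_comm f]
  have n2p : ∀ (S : Sta M.toStarSubalgebra) {p}, IsStarProjection p → S.τ p = 0 → S.n2 p = 0 :=
    fun S p hp h1 => by
      have := S.n2_sq p
      rwa [hp.isSelfAdjoint.star_eq, hp.isIdempotentElem.eq, h1, Complex.zero_re,
        pow_eq_zero_iff two_ne_zero] at this
  have h1 : T.n2 (1 - C.ι g) = 0 := n2p T hz'.one_sub (by
    have h2 : C.ι (Φ (1 - C.ι g)) = 1 - C.ι g := by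
      rw [map_sub, ← mul_one (C.ι g), Φ1, Φ3, mul_one, mul_one, map_sub, map_one]
    rw [hT, h2, sum_eq_zero fun ξ _ => ?_, mul_zero]
    rw [show (1 - C.ι g).1 ((C.ι g).1 ξ) = ((1 - C.ι g) * C.ι g).1 ξ from rfl,
      hz'.one_sub_mul_self]
    exact inner_zero_right _)
  have hR : 0 < ∑ ξ ∈ F, ‖ξ‖ + 1 := by positivity
  obtain ⟨q, q1, q2, q3, q4⟩ := exists_null T hz' (fun p hp hp0 hzp => by
    obtain ⟨q, q1, q2, q3, ζ, q4⟩ := exists_dom T hp hp0
    refine ⟨q, q1, q2, q3, n2p T q1 ?_⟩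
    by_contra h2
    obtain ⟨T', t1, t2, t3⟩ := exists_nml (A := A) (fun a ha b hb => by
      obtain ⟨f, rfl⟩ := (hC a).1 ha
      obtain ⟨f', rfl⟩ := (hC b).1 hb
      exact C.ι_comm _ _) hcen (nml_of_dom T q4) h2
    have h3 := T'.norm_τ_le_n2 (1 - C.ι g)
    rw [t3 _ h1, norm_le_zero_iff, map_sub, T'.one, sub_eq_zero] at h3
    exact h T' t1 t2 h3.symm) F (δ := δ ^ 2 / 8 / (∑ ξ ∈ F, ‖ξ‖ + 1)) (by positivity)
  have hq : star q * q = q := by rw [q1.isSelfAdjoint.star_eq, q1.isIdempotentElem.eq]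
  have h2 : ∀ ξ ∈ F, ⟪ξ, (C.ι (Φ q)).1 ξ⟫_ℂ = 0 := fun ξ hξ => by
    have h3 := T.n2_sq' q
    rw [q3, hq, hT] at h3
    have h4 := (sum_eq_zero_iff_of_nonneg fun ξ _ => by
      simpa only [hq] using pos q ((C.ι g).1 ξ)).1 (by simpa [hWc] using h3) ξ hξ
    have h5 : C.ι g * C.ι (Φ q) * C.ι g = C.ι (Φ q) := by
      rw [mul_assoc, C.ι_comm (Φ q), ← mul_assoc, hz'.isIdempotentElem.eq, ← map_mul, ← Φ1, q2]
    rw [← inner_sa hz'.isSelfAdjoint.star_eq] at h4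
    rw [← h5]
    exact h4
  have h3 : ∀ᶠ P in (U : Filter (DiscreteQuotient X)), ∀ ξ ∈ F,
      8 * (‖ξ‖ * (‖(C.ι g - q).1 ξ‖ + √((⟪ξ, (C.pinch P.proj q).1 ξ⟫_ℂ).re / (η / 2)))) < δ ^ 2 := by
    refine (eventually_all_finset F).2 fun ξ hξ => ?_
    have h4 := ((((((Complex.continuous_re.tendsto _).comp (Φ4 q ξ ξ)).div_const
      (η / 2)).sqrt).const_add ‖(C.ι g - q).1 ξ‖).const_mul ‖ξ‖).const_mul 8
    refine h4.eventually (gt_mem_nhds ?_)
    have h5 := q4 ξ hξ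
    have h6 : ‖ξ‖ ≤ ∑ ξ ∈ F, ‖ξ‖ := single_le_sum (f := fun ξ : H => ‖ξ‖) (fun _ _ => norm_nonneg _) hξ
    rw [lt_div_iff₀ hR] at h5
    rw [h2 ξ hξ, Complex.zero_re, zero_div, Real.sqrt_zero, add_zero]
    nlinarith [norm_nonneg ((C.ι g - q).1 ξ)]
  obtain ⟨P, hP⟩ := h3.exists
  obtain ⟨q', a1, a2, a3, a4⟩ := thin_of_small C ⟨g, rfl⟩ hz' q1 q2 P (half_pos hη)
  exact ⟨P, q', a1, a2, fun ξ hξ => (abs_lt_of_sq_lt_sq' ((a4 ξ).trans_lt (hP ξ hξ)) hδ.le).2,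
    fun i => (a3 i).trans_eq (by ring)⟩

end Vale.Agent.P078G
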