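import Vale.Agent.P078.Core
import Mathlib.MeasureTheory.Integral.Bochner.Set
import Mathlib.MeasureTheory.Measure.Lebesgue.Basic
import Mathlib.Analysis.SpecialFunctions.Complex.Log

/-! The scale invariant potential: definitions. -/

namespace Vale.Agent.P078G

open Finset Vale.Agent.P078 MeasureTheory
open scoped ComplexConjugate

variable {V J : Type*} [DecidableEq V] [Fintype J] [DecidableEq J]

/-- Homogenised mixed characteristic polynomial. -/
noncomputable def PH (A : J → V → V → ℂ) (q : V → J → ℝ) (Λ : Finset V) (Z : V → ℂ) (τ : ℂ) : ℂ :=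
  ∑ S ∈ Λ.powerset, cc A q S * τ ^ S.card * ∏ v ∈ Λ \ S, Z v

/-- Level function of a vertex of weight `ω`. -/
noncomputable def lev (t ω k : ℝ) (s : ℂ) : ℂ := t + s / ω - k * ω / s

/-- State of a vertex: slot weights and the coefficient of the pole at zero. -/
abbrev Sx (J : Type*) := (J → ℝ) × ℝ

/-- The levels of all vertices. -/
noncomputable def lv (t : ℝ) (ω : V → ℝ) (σ : V → Sx J) (s : ℂ) : V → ℂ :=
  fun v => lev t (ω v) (σ v).2 s

/-- Coefficients at scale `u`. -/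
noncomputable def cu (A : J → V → V → ℂ) (t : ℝ) (ω : V → ℝ) (σ : V → Sx J) (u : ℝ)
    (S : Finset V) : ℂ :=
  cc A (fun v => (σ v).1) S * ∏ v ∈ S, (lv t ω σ (u * Complex.I) v)⁻¹

/-- Local density, integrated over all scales. -/
noncomputable def ph (Q : Polynomial ℝ) (A : J → V → V → ℂ) (t : ℝ) (ω : V → ℝ) (σ : V → Sx J)
    (Λ : Finset V) (v : V) : ℝ :=
  ∫ u in Set.Ioi (0 : ℝ), phi Q (cu A t ω σ u) Λ v

/-- Total potential of a finite set. -/
noncomputable def TT (Q : Polynomial ℝ) (A : J → V → V → ℂ) (t : ℝ) (ω : V → ℝ) (σ : V → Sx J)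
    (Λ : Finset V) : ℝ :=
  ∑ v ∈ Λ, ph Q A t ω σ Λ v

/-- Exact increment of the potential. -/
noncomputable def inc (A : J → V → V → ℂ) (t : ℝ) (ω : V → ℝ) (σ : V → Sx J) (Λ : Finset V)
    (x : V) : ℝ :=
  ∫ u in Set.Ioi (0 : ℝ), Real.log ‖PZ A (fun v => (σ v).1) Λ (lv t ω σ (u * Complex.I)) /
    PZ A (fun v => (σ v).1) (Λ.erase x) (lv t ω σ (u * Complex.I)) / lv t ω σ (u * Complex.I) x‖

/-- Neighbourhood of the unit interval. -/
def strip (w : ℝ) : Set ℂ := {τ | -w < τ.re ∧ τ.re < 1 + w ∧ |τ.im| < w}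

/-- Product of the linear factors. -/
noncomputable def fac (a : Multiset ℂ) (τ : ℂ) : ℂ := (a.map fun t => 1 - τ * t).prod

/-- `Q` computes logarithms of quotients which are controlled on the strip. -/
structure BQ (Q : Polynomial ℝ) (w tol : ℝ) : Prop where
  zero : Q.coeff 0 = 0
  near : ∀ (a b : Multiset ℂ) (M : ℝ), (∀ τ ∈ strip w, fac b τ ≠ 0 ∧
      fac a τ / fac b τ ∈ Complex.slitPlane ∧ ‖Complex.log (fac a τ / fac b τ)‖ ≤ M) →
    |((a.map fun t => Polynomial.aeval t Q).sum - (b.map fun t => Polynomial.aeval t Q).sum).re -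
      Real.log ‖fac a 1 / fac b 1‖| ≤ tol * M

/-- The vertex `x` has few neighbours, of comparable weight. -/
def Nbr (A : J → V → V → ℂ) (ω : V → ℝ) (d : ℕ) (L : ℝ) (Λ : Finset V) (x : V) : Prop :=
  ∃ N : Finset V, N.card ≤ d ∧ (∀ v ∈ Λ, v ∉ N → ∀ j, A j x v = 0) ∧ ∀ v ∈ N, ω v ≤ L * ω x

/-- Admissible configuration. -/
structure Adm (A : J → V → V → ℂ) (t κ : ℝ) (ω : V → ℝ) (σ : V → Sx J) (Λ : Finset V) : Prop where
  ctr : ∀ j, Ctr (A j)
  diag : ∀ j v, A j v v = 0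
  pos : ∀ v, 0 < ω v
  sub : ∀ v ∈ Λ, Sub (σ v).1
  nonneg : ∀ v ∈ Λ, 0 ≤ (σ v).2
  alt : Pos A (fun v => (σ v).1) Λ (t / 2) ∨ ∀ v ∈ Λ, κ ≤ (σ v).2

variable (V J) in
/-- The local potential approximates the exact increments. -/
structure NQ (Q : Polynomial ℝ) (t κ : ℝ) (d : ℕ) (L tol : ℝ) : Prop where
  zero : Q.coeff 0 = 0
  near : ∀ (A : J → V → V → ℂ) (ω : V → ℝ) (σ : V → Sx J) (Λ : Finset V) (x : V),
    Adm A t κ ω σ Λ → x ∈ Λ → Nbr A ω d L Λ x →
      |TT Q A t ω σ Λ - TT Q A t ω σ (Λ.erase x) - inc A t ω σ Λ x| ≤ tol * ω x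

/-- Herglotz function in pole form. -/
noncomputable def Hc (t ω k : ℝ) (T : Finset ℝ) (ρ : ℝ → ℝ) (s : ℂ) : ℂ :=
  lev t ω k s - ∑ ν ∈ T, (ρ ν : ℂ) / (s - ν)

/-- Its real values. -/
noncomputable def Hr (t ω k : ℝ) (T : Finset ℝ) (ρ : ℝ → ℝ) (u : ℝ) : ℝ :=
  t + u / ω - k * ω / u - ∑ ν ∈ T, ρ ν / (u - ν)

/-- Measure of the negative set on the right. -/
noncomputable def vp (t ω k : ℝ) (T : Finset ℝ) (ρ : ℝ → ℝ) : ℝ :=
  (volume {u | 0 < u ∧ Hr t ω k T ρ u < 0}).toReal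

/-- Measure of the positive set on the left. -/
noncomputable def vn (t ω k : ℝ) (T : Finset ℝ) (ρ : ℝ → ℝ) : ℝ :=
  (volume {u | u < 0 ∧ 0 < Hr t ω k T ρ u}).toReal

/-- State of a coloured vertex. -/
noncomputable def colK {κ : Type*} [DecidableEq κ] (c : κ) : κ × Bool → ℝ := fun j => col c j / 25

end Vale.Agent.P078G
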