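import Vale.Agent.P078G.Msa
import Mathlib.Analysis.Fourier.FiniteAbelian.PontryaginDuality
import Mathlib.Data.ZMod.Basic

/-! Fourier analysis of operator valued functions of the seeds. -/

namespace Vale.Agent.P078G

open Finset
open Vale.Agent.P078 (ind ind_apply ind_of_mem ind_of_notMem ind_val isClopen_preimage cx cx_apply
  mul_lt_of_lt_div)
open Vale.Agent.P078.Ctx (proj_eq_of_le mem_of_le_ofIsClopen)
open scoped ComplexConjugate BigOperators

variable {M ι : Type*} [CStarAlgebra M] [Fintype ι] [DecidableEq ι] {r : ℕ} [NeZero r]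

/-- Fourier coefficient. -/
noncomputable def hat (ξ : (ι → ZMod r) → M) (χ : AddChar (ι → ZMod r) ℂ) : M :=
  (Fintype.card (ι → ZMod r) : ℂ)⁻¹ • ∑ ω, conj (χ ω) • ξ ω

open Classical in
/-- The coordinates on which a character depends. -/
noncomputable def supp (χ : AddChar (ι → ZMod r) ℂ) : Finset ι :=
  univ.filter fun i => ∃ s, χ (Pi.single i s) ≠ 1

/-- Degree at most `L`. -/
def Deg (L : ℕ) (ξ : (ι → ZMod r) → M) : Prop := ∀ χ, L < (supp χ).card → hat ξ χ = 0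

/-- Fourier multiplier. -/
noncomputable def fm (t : AddChar (ι → ZMod r) ℂ → M) (ξ : (ι → ZMod r) → M) :
    (ι → ZMod r) → M := fun ω => ∑ χ : AddChar (ι → ZMod r) ℂ, χ ω • (t χ * hat ξ χ)

/-- Root mean square of the 2-norm. -/
noncomputable def nn (T : Sta M) (ξ : (ι → ZMod r) → M) : ℝ := √(𝔼 ω, T.n2 (ξ ω) ^ 2)

variable {ξ η : (ι → ZMod r) → M} {T : Sta M} {L L' : ℕ}

lemma le_of_sq' {a b : ℝ} (hb : 0 ≤ b) (h : a ^ 2 ≤ b ^ 2) : a ≤ b :=
  (le_abs_self a).trans (abs_le_of_sq_le_sq' h hb |> fun h => abs_le.2 h)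

lemma orth_pt (a b : ι → ZMod r) : ∑ χ : AddChar (ι → ZMod r) ℂ, χ a * conj (χ b) =
    if a = b then (Fintype.card (ι → ZMod r) : ℂ) else 0 := by
  simp only [← AddChar.map_neg_eq_conj, ← AddChar.map_add_eq_mul, AddChar.sum_apply_eq_ite,
    add_neg_eq_zero]

open Classical in
lemma orth_ch (χ ψ : AddChar (ι → ZMod r) ℂ) : ∑ ω, conj (χ ω) * ψ ω =
    if ψ = χ then (Fintype.card (ι → ZMod r) : ℂ) else 0 := by
  have h := AddChar.sum_eq_ite (ψ - χ)
  simp only [AddChar.sub_apply, AddChar.map_neg_eq_conj, sub_eq_zero] at h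
  simp only [mul_comm (conj _), h]

lemma card_ne : (Fintype.card (ι → ZMod r) : ℂ) ≠ 0 := Nat.cast_ne_zero.2 Fintype.card_ne_zero

lemma hat_inv (ξ : (ι → ZMod r) → M) (ω : ι → ZMod r) :
    ∑ χ : AddChar (ι → ZMod r) ℂ, χ ω • hat ξ χ = ξ ω := by
  simp only [hat, smul_comm _ (Fintype.card (ι → ZMod r) : ℂ)⁻¹, ← smul_sum]
  simp only [smul_sum, smul_smul]
  rw [sum_comm]
  simp only [← sum_smul, ← mul_sum, orth_pt, mul_ite, mul_zero, ite_smul, zero_smul]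
  rw [sum_ite_eq, if_pos (mem_univ _), inv_mul_cancel₀ card_ne, one_smul]

lemma hat_syn (a : AddChar (ι → ZMod r) ℂ → M) (χ : AddChar (ι → ZMod r) ℂ) :
    hat (fun ω => ∑ ψ : AddChar (ι → ZMod r) ℂ, ψ ω • a ψ) χ = a χ := by
  classical
  simp only [hat, smul_sum, smul_smul]
  rw [sum_comm]
  simp only [← sum_smul, ← mul_sum, orth_ch, mul_ite, mul_zero, ite_smul, zero_smul]
  rw [sum_ite_eq', if_pos (mem_univ _), inv_mul_cancel₀ card_ne, one_smul]

lemma hat_fm (t : AddChar (ι → ZMod r) ℂ → M) (χ : AddChar (ι → ZMod r) ℂ) :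
    hat (fm t ξ) χ = t χ * hat ξ χ := hat_syn _ χ

lemma hat_mul_left (a : M) (χ : AddChar (ι → ZMod r) ℂ) :
    hat (fun ω => a * ξ ω) χ = a * hat ξ χ := by
  simp only [hat, mul_smul_comm, mul_sum]

lemma fm_add_compl (t : AddChar (ι → ZMod r) ℂ → M) (ω : ι → ZMod r) :
    fm t ξ ω + fm (fun χ => 1 - t χ) ξ ω = ξ ω := by
  simp only [fm, ← sum_add_distrib, ← smul_add, ← add_mul, add_sub_cancel, one_mul, hat_inv]

lemma star_inv_hat (ξ : (ι → ZMod r) → M) (ω : ι → ZMod r) :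
    star (ξ ω) = ∑ χ : AddChar (ι → ZMod r) ℂ, conj (χ ω) • star (hat ξ χ) := by
  conv_lhs => rw [← hat_inv ξ ω]
  simp only [star_sum, star_smul, RCLike.star_def]

lemma pars_left (ξ η : (ι → ZMod r) → M) :
    (Fintype.card (ι → ZMod r) : ℂ)⁻¹ • ∑ ω, star (ξ ω) * η ω =
      ∑ χ, star (hat ξ χ) * hat η χ := by
  simp only [star_inv_hat ξ, sum_mul]
  rw [sum_comm, smul_sum]
  refine sum_congr rfl fun χ _ => ?_
  rw [hat.eq_1 η, mul_smul_comm, mul_sum]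
  simp only [smul_mul_assoc, mul_smul_comm]

lemma pars_right (ξ η : (ι → ZMod r) → M) :
    (Fintype.card (ι → ZMod r) : ℂ)⁻¹ • ∑ ω, η ω * star (ξ ω) =
      ∑ χ, hat η χ * star (hat ξ χ) := by
  simp only [star_inv_hat ξ, mul_sum]
  rw [sum_comm, smul_sum]
  refine sum_congr rfl fun χ _ => ?_
  rw [hat.eq_1 η, smul_mul_assoc, sum_mul]
  simp only [smul_mul_assoc, mul_smul_comm]

lemma parseval (ξ η : (ι → ZMod r) → M) :
    𝔼 ω, T.τ (star (ξ ω) * η ω) = ∑ χ, T.τ (star (hat ξ χ) * hat η χ) := by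
  rw [← map_sum, ← pars_left, map_smul, map_sum, Fintype.expect_eq_sum_div_card, smul_eq_mul,
    div_eq_inv_mul]

lemma nn_sq' (ξ : (ι → ZMod r) → M) : nn T ξ ^ 2 = 𝔼 ω, T.n2 (ξ ω) ^ 2 :=
  Real.sq_sqrt (expect_nonneg fun _ _ => sq_nonneg _)

lemma nn_sq (ξ : (ι → ZMod r) → M) : nn T ξ ^ 2 = ∑ χ, T.n2 (hat ξ χ) ^ 2 := by
  have h := parseval (T := T) ξ ξ
  simp only [T.n2_sq'] at h
  rw [nn_sq']
  exact_mod_cast h

lemma sum_hat_le [PartialOrder M] [StarOrderedRing M] (h : ∀ ω, ‖ξ ω‖ ≤ 1) :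
    ∑ χ, hat ξ χ * star (hat ξ χ) ≤ 1 := by
  rw [← pars_right, ← sub_nonneg]
  have h1 : ∀ ω, ξ ω * star (ξ ω) ≤ 1 := fun ω => by
    refine (CStarAlgebra.norm_le_one_iff_of_nonneg _ (mul_star_self_nonneg _)).1 ?_
    rw [CStarRing.norm_self_mul_star]
    exact mul_le_one₀ (h ω) (norm_nonneg _) (h ω)
  have h2 : (1 : M) - (Fintype.card (ι → ZMod r) : ℂ)⁻¹ • ∑ ω, ξ ω * star (ξ ω) =
      (Fintype.card (ι → ZMod r) : ℝ)⁻¹ • ∑ ω, (1 - ξ ω * star (ξ ω)) := by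
    rw [← Complex.coe_smul, sum_sub_distrib, smul_sub, sum_const, card_univ,
      ← Nat.cast_smul_eq_nsmul ℂ, smul_smul]
    push_cast
    rw [inv_mul_cancel₀ card_ne, one_smul]
  rw [h2]
  exact smul_nonneg (by positivity) (sum_nonneg fun ω _ => sub_nonneg.2 (h1 ω))

lemma nn_nonneg : 0 ≤ nn T ξ := Real.sqrt_nonneg _

lemma nn_cs (ξ η : (ι → ZMod r) → M) : 𝔼 ω, T.n2 (ξ ω) * T.n2 (η ω) ≤ nn T ξ * nn T η := by
  refine le_of_sq' (mul_nonneg nn_nonneg nn_nonneg) ?_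
  rw [mul_pow, nn_sq', nn_sq']
  exact expect_mul_sq_le_sq_mul_sq _ _ _

lemma nn_add_le : nn T (fun ω => ξ ω + η ω) ≤ nn T ξ + nn T η := by
  refine le_of_sq' (add_nonneg nn_nonneg nn_nonneg) ?_
  have h : nn T (fun ω => ξ ω + η ω) ^ 2 ≤
      𝔼 ω, (T.n2 (ξ ω) ^ 2 + 2 * (T.n2 (ξ ω) * T.n2 (η ω)) + T.n2 (η ω) ^ 2) := by
    rw [nn_sq']
    refine expect_le_expect fun ω _ => ?_
    have := pow_le_pow_left₀ (T.n2_nonneg _) (T.n2_add_le (ξ ω) (η ω)) 2
    linarith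
  rw [expect_add_distrib, expect_add_distrib, ← mul_expect, ← nn_sq', ← nn_sq'] at h
  linarith [nn_cs (T := T) ξ η]

lemma nn_mul_le {a : (ι → ZMod r) → M} (ha : ∀ ω, ‖a ω‖ ≤ 1) :
    nn T (fun ω => a ω * ξ ω) ≤ nn T ξ :=
  Real.sqrt_le_sqrt (expect_le_expect fun ω _ => pow_le_pow_left₀ (T.n2_nonneg _)
    ((T.n2_mul_le _ _).trans (mul_le_of_le_one_left (T.n2_nonneg _) (ha ω))) 2)

lemma nn_fm_le {t : AddChar (ι → ZMod r) ℂ → M} (ht : ∀ χ, ‖t χ‖ ≤ 1) :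
    nn T (fm t ξ) ≤ nn T ξ := by
  refine le_of_sq' nn_nonneg ?_
  rw [nn_sq, nn_sq]
  refine sum_le_sum fun χ _ => pow_le_pow_left₀ (T.n2_nonneg _) ?_ 2
  rw [hat_fm]
  exact (T.n2_mul_le _ _).trans (mul_le_of_le_one_left (T.n2_nonneg _) (ht χ))

/-- Duality for a multiplier by projections and a pointwise projection. -/
lemma nn_fm_mul_le {t : AddChar (ι → ZMod r) ℂ → M} (ht : ∀ χ, IsStarProjection (t χ))
    {p : (ι → ZMod r) → M} (hp : ∀ ω, IsStarProjection (p ω)) {ρ : ℝ} (hρ : 0 ≤ ρ)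
    (h : ∀ η, nn T (fun ω => p ω * fm t η ω) ≤ ρ * nn T η) :
    nn T (fm t fun ω => p ω * ξ ω) ≤ ρ * nn T ξ := by
  set ζ := fm t fun ω => p ω * ξ ω with hζ
  have h1 : fm t ζ = ζ := by
    funext ω
    rw [fm]
    simp only [hζ, hat_fm, ← mul_assoc, (ht _).isIdempotentElem.eq]
    rfl
  have h2 := h ζ
  rw [h1] at h2
  have h3 : ((nn T ζ ^ 2 : ℝ) : ℂ) = 𝔼 ω, T.τ (star (p ω * ζ ω) * ξ ω) := by
    have := parseval (T := T) ζ fun ω => p ω * ξ ω
    simp only [star_mul, (hp _).isSelfAdjoint.star_eq, mul_assoc]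
    rw [this, nn_sq, Complex.ofReal_sum]
    refine sum_congr rfl fun χ _ => ?_
    rw [← T.n2_sq', hζ, hat_fm, star_mul, (ht _).isSelfAdjoint.star_eq, mul_assoc, mul_assoc,
      ← mul_assoc (t χ), (ht _).isIdempotentElem.eq]
  have h4 : nn T ζ ^ 2 ≤ nn T (fun ω => p ω * ζ ω) * nn T ξ := by
    refine le_trans ?_ (nn_cs (T := T) (fun ω => p ω * ζ ω) ξ)
    have h5 := congrArg Complex.re h3
    rw [Complex.ofReal_re, Complex.re_expect] at h5
    rw [h5]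
    exact expect_le_expect fun ω _ => (Complex.re_le_norm _).trans (T.norm_τ_star_mul _ _)
  have h5 := h4.trans (mul_le_mul_of_nonneg_right h2 nn_nonneg)
  rcases (nn_nonneg (T := T) (ξ := ζ)).eq_or_lt with h0 | h0
  · rw [← h0]; exact mul_nonneg hρ nn_nonneg
  · refine le_of_mul_le_mul_left ?_ h0
    nlinarith

lemma Deg.of_dep {D : Finset ι} (h : ∀ ω ω', (∀ i ∈ D, ω i = ω' i) → ξ ω = ξ ω') :
    Deg D.card ξ := by
  intro χ hχ
  obtain ⟨i, hi, hiD⟩ := exists_mem_notMem_of_card_lt_card hχ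
  obtain ⟨s, hs⟩ : ∃ s, χ (Pi.single i s) ≠ 1 := by simpa [supp] using hi
  have h1 : ∑ ω, conj (χ ω) • ξ ω = conj (χ (Pi.single i s)) • ∑ ω, conj (χ ω) • ξ ω := by
    rw [smul_sum, ← Equiv.sum_comp (Equiv.addRight (Pi.single i s : ι → ZMod r))]
    refine sum_congr rfl fun ω _ => ?_
    simp only [Equiv.coe_addRight]
    rw [AddChar.map_add_eq_mul, map_mul, smul_smul, mul_comm]
    congr 1
    exact h _ _ fun j hj => by
      rw [Pi.add_apply, Pi.single_eq_of_ne (ne_of_mem_of_not_mem hj hiD), add_zero]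
  have h2 : (1 - conj (χ (Pi.single i s))) • ∑ ω, conj (χ ω) • ξ ω = 0 := by
    rw [sub_smul, one_smul, ← h1, sub_self]
  have h3 : 1 - conj (χ (Pi.single i s)) ≠ 0 := fun h0 => hs (by
    have := congrArg conj (sub_eq_zero.1 h0)
    simpa using this.symm)
  rw [hat, (smul_eq_zero.1 h2).resolve_left h3, smul_zero]

lemma Deg.const (a : M) : Deg 0 fun _ : ι → ZMod r => a :=
  Deg.of_dep (D := ∅) fun _ _ _ => rfl

lemma Deg.mono (h : Deg L ξ) (hL : L ≤ L') : Deg L' ξ := fun χ hχ => h χ (hL.trans_lt hχ)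

lemma hat_mul (χ : AddChar (ι → ZMod r) ℂ) :
    hat (fun ω => ξ ω * η ω) χ = ∑ ψ, hat ξ ψ * hat η (χ - ψ) := by
  have : ∀ ω, conj (χ ω) • (ξ ω * η ω) =
      ∑ ψ : AddChar (ι → ZMod r) ℂ, hat ξ ψ * conj ((χ - ψ) ω) • η ω := by
    intro ω
    conv_lhs => rw [← hat_inv ξ ω]
    simp only [sum_mul, smul_sum, AddChar.sub_apply, AddChar.map_neg_eq_conj, map_mul,
      Complex.conj_conj, smul_mul_assoc, mul_smul_comm, smul_smul]
  rw [hat]
  simp only [this]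
  rw [sum_comm, smul_sum]
  refine sum_congr rfl fun ψ _ => ?_
  rw [hat.eq_1 η, mul_smul_comm, mul_sum]

lemma supp_subset (χ ψ : AddChar (ι → ZMod r) ℂ) : supp χ ⊆ supp ψ ∪ supp (χ - ψ) := by
  intro i hi
  by_contra hn
  simp only [supp, mem_union, mem_filter, mem_univ, true_and, not_or, not_exists, not_not] at hi hn
  obtain ⟨s, hs⟩ := hi
  have := AddChar.add_apply ψ (χ - ψ) (Pi.single i s)
  rw [add_sub_cancel, hn.1, hn.2, one_mul] at this
  exact hs this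

lemma Deg.mul (h : Deg L ξ) (h' : Deg L' η) : Deg (L + L') fun ω => ξ ω * η ω := by
  intro χ hχ
  rw [hat_mul]
  refine sum_eq_zero fun ψ _ => ?_
  have := (card_le_card (supp_subset χ ψ)).trans (card_union_le _ _)
  by_cases h1 : L < (supp ψ).card
  · rw [h ψ h1, zero_mul]
  · rw [h' _ (by omega), mul_zero]

lemma Deg.sum {κ : Type*} (s : Finset κ) {ξ : κ → (ι → ZMod r) → M} (h : ∀ k ∈ s, Deg L (ξ k)) :
    Deg L fun ω => ∑ k ∈ s, ξ k ω := by
  intro χ hχ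
  have : hat (fun ω => ∑ k ∈ s, ξ k ω) χ = ∑ k ∈ s, hat (ξ k) χ := by
    simp only [hat, smul_sum]
    exact sum_comm
  rw [this]
  exact sum_eq_zero fun k hk => h k hk χ hχ

lemma char_shift {χ : AddChar (ι → ZMod r) ℂ} {D : Finset ι} (h : Disjoint (supp χ) D)
    (ω : ι → ZMod r) (s : ZMod r) : χ (fun i => if i ∈ D then ω i + s else ω i) = χ ω := by
  have h1 : (fun i => if i ∈ D then ω i + s else ω i) = ω + ∑ i ∈ D, Pi.single i s := by
    funext j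
    simp only [Pi.add_apply, Finset.sum_apply, Pi.single_apply, sum_ite_eq]
    split_ifs <;> simp
  have h2 : ∀ E ⊆ D, χ (∑ i ∈ E, Pi.single i s) = 1 := by
    intro E hE
    induction E using Finset.induction_on with
    | empty => simp
    | insert a E ha ih =>
      have : a ∉ supp χ := disjoint_right.1 h (hE (mem_insert_self _ _))
      simp only [supp, mem_filter, mem_univ, true_and, not_exists, not_not] at this
      rw [sum_insert ha, AddChar.map_add_eq_mul, this, ih ((subset_insert _ _).trans hE), one_mul]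
  rw [h1, AddChar.map_add_eq_mul, h2 D subset_rfl, mul_one]

end Vale.Agent.P078G
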