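import Vale.Agent.P078G.Defs

/-! Non vanishing of the homogenised polynomial on half planes. -/

namespace Vale.Agent.P078G

open Finset Vale.Agent.P078
open scoped ComplexConjugate

variable {V J : Type*} [DecidableEq V] [Fintype J] [DecidableEq J] {A : J → V → V → ℂ}
  {q : V → J → ℝ} {Λ : Finset V} {Z Z' : V → ℂ} {τ : ℂ} {v : V}

lemma PH_one : PH A q Λ Z 1 = PZ A q Λ Z := by
  simp [PH, PZ_expand]

lemma PH_zero : PH A q Λ Z 0 = ∏ v ∈ Λ, Z v := by
  rw [PH, sum_eq_single ∅]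
  · simp [cc_empty]
  · intro S _ h
    rw [zero_pow (fun h' => h (card_eq_zero.1 h')), mul_zero, zero_mul]
  · simp

lemma PH_smul (a : ℂ) : PH A q Λ (fun v => a * Z v) (a * τ) = a ^ Λ.card * PH A q Λ Z τ := by
  unfold PH
  rw [mul_sum]
  refine sum_congr rfl fun S hS => ?_
  rw [prod_mul_distrib, prod_const, ← card_sdiff_add_card_eq_card (mem_powerset.1 hS), pow_add,
    mul_pow]
  ring

lemma PH_congr (h : ∀ v ∈ Λ, Z v = Z' v) : PH A q Λ Z τ = PH A q Λ Z' τ := by
  unfold PH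
  refine sum_congr rfl fun S _ => ?_
  rw [prod_congr rfl fun v hv => h v (mem_sdiff.1 hv).1]

lemma PH_eq (hτ : τ ≠ 0) : PH A q Λ Z τ = τ ^ Λ.card * PZ A q Λ fun v => Z v / τ := by
  rw [← PH_one, ← PH_smul, mul_one]
  exact PH_congr fun v _ => by rw [mul_div_cancel₀ _ hτ]

lemma PH_level (hv : v ∈ Λ) :
    PH A q Λ Z τ = Z v * PH A q (Λ.erase v) Z τ + PH A q Λ (Function.update Z v 0) τ := by
  rcases eq_or_ne τ 0 with rfl | hτ
  · rw [PH_zero, PH_zero, PH_zero, mul_prod_erase _ _ hv,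
      prod_eq_zero (f := Function.update Z v 0) hv (Function.update_self _ _ _), add_zero]
  · have e : (fun x => Function.update Z v 0 x / τ) = Function.update (fun x => Z x / τ) v 0 := by
      funext x
      rcases eq_or_ne x v with rfl | h
      · simp
      · simp [h]
    rw [PH_eq hτ, PH_eq hτ, PH_eq hτ, PZ_level hv, e, ← card_erase_add_one hv, pow_succ]
    field_simp

lemma PH_div (hZ : ∀ v ∈ Λ, Z v ≠ 0) : PH A q Λ Z τ =
    (∏ v ∈ Λ, Z v) * ∑ S ∈ Λ.powerset, (cc A q S * ∏ v ∈ S, (Z v)⁻¹) * τ ^ S.card := by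
  unfold PH
  rw [mul_sum]
  refine sum_congr rfl fun S hS => ?_
  have hS' := mem_powerset.1 hS
  have h0 : ∏ v ∈ S, Z v ≠ 0 := prod_ne_zero_iff.2 fun v hv => hZ v (hS' hv)
  rw [← prod_sdiff hS', prod_inv_distrib]
  field_simp

lemma PH_ext (hA : ∀ j, Ctr (A j)) (hq : ∀ v ∈ Λ, Sub (q v)) (h : ∀ v ∈ Λ, ‖τ‖ < ‖Z v‖) :
    PH A q Λ Z τ ≠ 0 := by
  rcases eq_or_ne τ 0 with rfl | hτ
  · rw [PH_zero]
    exact prod_ne_zero_iff.2 fun v hv => norm_pos_iff.1 (by simpa using h v hv)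
  · rw [PH_eq hτ]
    refine mul_ne_zero (pow_ne_zero _ hτ) (PZ_ne_zero reg_ext hA hq fun v hv => ?_)
    show 1 < ‖Z v / τ‖
    rw [norm_div, one_lt_div (norm_pos_iff.2 hτ)]
    exact h v hv

lemma im_div_eq (z τ : ℂ) : (z / τ).im = (z * conj τ).im / Complex.normSq τ := by
  rw [Complex.div_im]
  simp only [Complex.mul_im, Complex.conj_re, Complex.conj_im]
  ring

lemma PH_upper (hA : ∀ j, Ctr (A j)) (hq : ∀ v ∈ Λ, Sub (q v))
    (h : ∀ v ∈ Λ, 0 < (Z v * conj τ).im) : PH A q Λ Z τ ≠ 0 := by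
  rcases eq_or_ne τ 0 with rfl | hτ
  · rw [PH_zero]
    exact prod_ne_zero_iff.2 fun v hv => absurd (h v hv) (by simp)
  · rw [PH_eq hτ]
    refine mul_ne_zero (pow_ne_zero _ hτ) (PZ_ne_zero reg_upper hA hq fun v hv => ?_)
    show 0 < (Z v / τ).im
    rw [im_div_eq]
    exact div_pos (h v hv) (Complex.normSq_pos.2 hτ)

lemma PH_lower (hA : ∀ j, Ctr (A j)) (hq : ∀ v ∈ Λ, Sub (q v))
    (h : ∀ v ∈ Λ, (Z v * conj τ).im < 0) : PH A q Λ Z τ ≠ 0 := by
  rcases eq_or_ne τ 0 with rfl | hτ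
  · rw [PH_zero]
    exact prod_ne_zero_iff.2 fun v hv => absurd (h v hv) (by simp)
  · rw [PH_eq hτ]
    refine mul_ne_zero (pow_ne_zero _ hτ) (PZ_ne_zero reg_lower hA hq fun v hv => ?_)
    show (Z v / τ).im < 0
    rw [im_div_eq]
    exact div_neg_of_neg_of_pos (h v hv) (Complex.normSq_pos.2 hτ)

lemma PZ_scale (a : ℝ) :
    PZ A (fun v j => a * q v j) Λ (fun v => a * Z v) = (a : ℂ) ^ Λ.card * PZ A q Λ Z := by
  unfold PZ PP
  rw [mul_sum]
  refine sum_congr rfl fun t _ => ?_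
  rw [← mul_assoc, ← prod_const, ← prod_mul_distrib]
  congr 1
  refine prod_congr rfl fun v _ => ?_
  simp only [mix_apply, mul_add, mul_sum, Complex.ofReal_mul, mul_assoc]

lemma PH_continuous {X : Type*} [TopologicalSpace X] {Z : X → V → ℂ} {τ : X → ℂ}
    (hZ : ∀ v, Continuous fun x => Z x v) (hτ : Continuous τ) :
    Continuous fun x => PH A q Λ (Z x) (τ x) := by
  unfold PH
  exact continuous_finsetSum _ fun S _ => (continuous_const.fun_mul (hτ.fun_pow _)).fun_mul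
    (continuous_finsetProd _ fun v _ => hZ v)

lemma PH_real (hA : ∀ j, Ctr (A j)) (hq : ∀ v ∈ Λ, Sub (q v)) (h : ∀ v ∈ Λ, 0 < (Z v).im)
    (hτ : τ.im = 0) : PH A q Λ Z τ ≠ 0 := by
  rcases lt_trichotomy τ.re 0 with h0 | h0 | h0
  · refine PH_lower hA hq fun v hv => ?_
    simpa [hτ] using mul_neg_of_pos_of_neg (h v hv) h0
  · rw [show τ = 0 from Complex.ext h0 hτ, PH_zero]
    exact prod_ne_zero_iff.2 fun v hv e => by simpa [e] using h v hv
  · refine PH_upper hA hq fun v hv => ?_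
    simpa [hτ] using mul_pos (h v hv) h0

lemma PZ_shift_ne (hA : ∀ j, Ctr (A j)) (hq : ∀ v ∈ Λ, Sub (q v)) {b : ℝ} (hP : Pos A q Λ b)
    {W : V → ℝ} (hW : ∀ v ∈ Λ, b ≤ W v) {w : ℂ} (hw : 0 ≤ w.re) :
    PZ A q Λ (fun v => W v + w) ≠ 0 := by
  rcases lt_trichotomy w.im 0 with h0 | h0 | h0
  · exact PZ_ne_zero reg_lower hA hq fun v _ => by simpa using h0
  · have h1 := hP Λ subset_rfl (fun v => if v ∈ Λ then W v + w.re else b) fun v => by
      split_ifs with hv
      · linarith [hW v hv]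
      · exact le_rfl
    have h2 := PR_coe (q := q) (T := Λ) hA fun v => if v ∈ Λ then W v + w.re else b
    rw [PZ_congr (q' := q) (Z' := fun v => W v + w) (fun _ _ => rfl) fun v hv => by
      rw [if_pos hv]; apply Complex.ext <;> simp [h0]] at h2
    rw [← h2]
    exact Complex.ofReal_ne_zero.2 h1.ne'
  · exact PZ_ne_zero reg_upper hA hq fun v _ => by simpa using h0

open Polynomial in
lemma exists_line_poly (a X' : V → ℂ) (a₀ x₀ : ℂ) : ∃ p : ℂ[X], p.natDegree ≤ Λ.card ∧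
    p.coeff Λ.card = PH A q Λ X' x₀ ∧
      ∀ z, p.eval z = PH A q Λ (fun v => a v + z * X' v) (a₀ + z * x₀) := by
  have h1 : ∀ a b : ℂ, (C a + C b * X : ℂ[X]).natDegree ≤ 1 := fun a b => by compute_degree
  have h2 : ∀ a b : ℂ, (C a + C b * X : ℂ[X]).coeff 1 = b := fun a b => by simp
  have h3 : ∀ S : Finset V, ((C a₀ + C x₀ * X : ℂ[X]) ^ S.card).natDegree ≤ S.card := fun S =>
    natDegree_pow_le_of_le _ (h1 _ _) |>.trans_eq (mul_one _)
  have h4 : ∀ S : Finset V, (∏ v ∈ S, (C (a v) + C (X' v) * X : ℂ[X])).natDegree ≤ S.card :=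
    fun S => (natDegree_prod_le _ _).trans
      ((sum_le_sum fun v _ => h1 _ _).trans_eq (by simp))
  refine ⟨∑ S ∈ Λ.powerset, C (cc A q S) *
    ((C a₀ + C x₀ * X) ^ S.card * ∏ v ∈ Λ \ S, (C (a v) + C (X' v) * X)), ?_, ?_, fun z => ?_⟩
  · refine natDegree_sum_le_of_forall_le _ _ fun S hS => (natDegree_C_mul_le _ _).trans ?_
    refine natDegree_mul_le.trans ?_
    have := card_sdiff_add_card_eq_card (mem_powerset.1 hS)
    have := h3 S
    have := h4 (Λ \ S)
    omega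
  · rw [finsetSum_coeff, PH]
    refine sum_congr rfl fun S hS => ?_
    have e1 := coeff_pow_of_natDegree_le (m := S.card) (h1 a₀ x₀)
    have e2 := coeff_prod_of_natDegree_le (s := Λ \ S) (fun v => C (a v) + C (X' v) * X) 1
      fun v _ => h1 _ _
    rw [mul_one] at e1 e2
    rw [coeff_C_mul, ← card_sdiff_add_card_eq_card (mem_powerset.1 hS), add_comm (Λ \ S).card,
      coeff_mul_add_eq_of_natDegree_le (h3 S) (h4 _), e1, e2, h2, mul_assoc]
    simp only [h2]
  · rw [eval_finsetSum, PH]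
    refine sum_congr rfl fun S _ => ?_
    simp only [eval_mul, eval_C, eval_pow, eval_add, eval_X, eval_prod, mul_assoc, mul_comm z]

lemma line_norm_ge {a X' : V → ℂ} {a₀ x₀ : ℂ}
    (h : ∀ z : ℂ, 0 < z.im → PH A q Λ (fun v => a v + z * X' v) (a₀ + z * x₀) ≠ 0) {z : ℂ}
    (hz : 0 < z.im) : ‖PH A q Λ X' x₀‖ * z.im ^ Λ.card ≤
      ‖PH A q Λ (fun v => a v + z * X' v) (a₀ + z * x₀)‖ := by
  obtain ⟨p, h1, h2, h3⟩ := exists_line_poly (A := A) (q := q) (Λ := Λ) a X' a₀ x₀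
  rw [← h2, ← h3]
  exact BA.norm_ge h1 (fun z hz => by rw [h3]; exact h z hz) hz

lemma homotopy {a : ℝ → V → ℂ} {a₀ : ℝ → ℂ} {X' : V → ℂ} {x₀ : ℂ}
    (ha : ∀ v, Continuous fun l => a l v) (ha₀ : Continuous a₀) (htop : PH A q Λ X' x₀ ≠ 0)
    (hre : ∀ l (z : ℂ), z.im = 0 → PH A q Λ (fun v => a l v + z * X' v) (a₀ l + z * x₀) ≠ 0)
    (h0 : ∀ z : ℂ, 0 < z.im → PH A q Λ (fun v => a 0 v + z * X' v) (a₀ 0 + z * x₀) ≠ 0)
    (l : ℝ) {z : ℂ} (hz : 0 < z.im) :
    PH A q Λ (fun v => a l v + z * X' v) (a₀ l + z * x₀) ≠ 0 := by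
  set U : Set ℝ := {l | ∀ z : ℂ, 0 < z.im →
    PH A q Λ (fun v => a l v + z * X' v) (a₀ l + z * x₀) ≠ 0} with hU
  have hc : IsClosed U := by
    have e : U = ⋂ z : ℂ, ⋂ _ : 0 < z.im, {l | ‖PH A q Λ X' x₀‖ * z.im ^ Λ.card ≤
        ‖PH A q Λ (fun v => a l v + z * X' v) (a₀ l + z * x₀)‖} := by
      ext l
      simp only [Set.mem_iInter]
      refine ⟨fun h z hz => line_norm_ge h hz, fun h z hz => norm_pos_iff.1 ?_⟩
      exact lt_of_lt_of_le (mul_pos (norm_pos_iff.2 htop) (pow_pos hz _)) (h z hz)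
    rw [e]
    refine isClosed_iInter fun z => isClosed_iInter fun _ => isClosed_le continuous_const ?_
    exact (PH_continuous (fun v => (ha v).fun_add continuous_const)
      (ha₀.fun_add continuous_const)).norm
  have ho : IsClosed Uᶜ := by
    set K : Set (ℝ × Metric.sphere (0 : ℂ × ℂ) 1) := {y | 0 ≤ (y.2.1.2 * conj y.2.1.1).im ∧
      PH A q Λ (fun v => y.2.1.1 * a y.1 v + y.2.1.2 * X' v) (y.2.1.1 * a₀ y.1 + y.2.1.2 * x₀) = 0}
      with hK
    have hKc : IsClosed K := by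
      rw [hK, Set.ofPred_and]
      refine IsClosed.inter (isClosed_le continuous_const ?_) (isClosed_eq ?_ continuous_const)
      · fun_prop
      exact PH_continuous (fun v => by have := ha v; fun_prop) (by fun_prop)
    have e : Uᶜ = Prod.fst '' K := by
      ext l
      constructor
      · intro h
        simp only [hU, Set.mem_compl_iff, Set.mem_ofPred_eq, not_forall, not_not] at h
        obtain ⟨z, hz, h⟩ := h
        have hn : 0 < ‖((1 : ℂ), z)‖ := norm_pos_iff.2 (by simp)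
        set r : ℝ := ‖((1 : ℂ), z)‖⁻¹ with hr
        have hr0 : 0 < r := inv_pos.2 hn
        refine ⟨(l, ⟨((r : ℂ), (r : ℂ) * z), ?_⟩), ⟨?_, ?_⟩, rfl⟩
        · have : (((r : ℂ), (r : ℂ) * z) : ℂ × ℂ) = r • ((1 : ℂ), z) := by simp
          rw [mem_sphere_zero_iff_norm, this, norm_smul, Real.norm_of_nonneg hr0.le,
            inv_mul_cancel₀ hn.ne']
        · simp only [Complex.conj_ofReal, Complex.mul_im, Complex.mul_re, Complex.ofReal_re,
            Complex.ofReal_im]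
          nlinarith [mul_pos (mul_pos hr0 hz) hr0]
        · have h1 := PH_smul (A := A) (q := q) (Λ := Λ) (Z := fun v => a l v + z * X' v)
            (τ := a₀ l + z * x₀) r
          rw [h, mul_zero] at h1
          simpa only [mul_add, mul_assoc] using h1
      · rintro ⟨⟨l', ⟨⟨s, z⟩, hsz⟩⟩, ⟨h1, h2⟩, rfl⟩ hl
        simp only at h1 h2 hl
        rcases eq_or_ne s 0 with rfl | hs
        · have hz0 : z ≠ 0 := by
            rintro rfl
            simp at hsz
          simp only [zero_mul, zero_add] at h2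
          rw [PH_smul] at h2
          exact mul_ne_zero (pow_ne_zero _ hz0) htop h2
        · have h3 := PH_smul (A := A) (q := q) (Λ := Λ) (Z := fun v => a l' v + z / s * X' v)
            (τ := a₀ l' + z / s * x₀) s
          simp only [mul_add, ← mul_assoc, mul_div_cancel₀ _ hs] at h3
          rw [h2] at h3
          refine mul_ne_zero (pow_ne_zero _ hs) ?_ h3.symm
          have h4 : 0 ≤ (z / s).im := by
            rw [im_div_eq]
            exact div_nonneg h1 (Complex.normSq_nonneg _)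
          rcases h4.eq_or_lt with h5 | h5
          · exact hre l' _ h5.symm
          · exact hl _ h5
    rw [e]
    exact isClosedMap_fst_of_compactSpace _ hKc
  have hu : U = Set.univ := IsClopen.eq_univ ⟨hc, isClosed_compl_iff.1 ho⟩ ⟨0, h0⟩
  have : l ∈ U := hu ▸ Set.mem_univ l
  exact this z hz

theorem gard (hA : ∀ j, Ctr (A j)) (hq : ∀ v ∈ Λ, Sub (q v)) {b : ℝ} (hP : Pos A q Λ b)
    (hτ : 0 < τ.re) (h : ∀ v ∈ Λ, b * τ.re < (Z v).re) : PH A q Λ Z τ ≠ 0 := by
  have hx : ((τ.re : ℝ) : ℂ) ≠ 0 := Complex.ofReal_ne_zero.2 hτ.ne'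
  have hW : ∀ v ∈ Λ, b ≤ (Z v).re / τ.re := fun v hv => ((lt_div_iff₀ hτ).2 (h v hv)).le
  have htop : PH A q Λ (fun v => ((Z v).re : ℂ)) (τ.re : ℂ) ≠ 0 := by
    rw [PH_eq hx]
    refine mul_ne_zero (pow_ne_zero _ hx) ?_
    simpa using PZ_shift_ne hA hq hP hW (w := 0) le_rfl
  have key : ∀ γ : ℝ, 0 < γ → ‖PH A q Λ (fun v => ((Z v).re : ℂ)) (τ.re : ℂ)‖ ≤
      ‖PH A q Λ (fun v => (-((1 : ℝ) : ℂ) * (Z v).im + γ * Complex.I) + Complex.I * (Z v).re)
        (-((1 : ℝ) : ℂ) * τ.im + Complex.I * τ.re)‖ := by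
    intro γ hγ
    have h1 := fun z hz => homotopy (A := A) (q := q) (Λ := Λ)
      (a := fun (l : ℝ) v => -(l : ℂ) * (Z v).im + γ * Complex.I) (a₀ := fun l : ℝ => -(l : ℂ) * τ.im)
      (fun v => by fun_prop) (by fun_prop) htop
      (fun l z hz => PH_real hA hq (fun v _ => by simpa [hz] using hγ) (by simp [hz]))
      (fun z hz => by
        have hz0 : z ≠ 0 := fun e => by simp [e] at hz
        have hzx : z * τ.re ≠ 0 := mul_ne_zero hz0 hx
        simp only [Complex.ofReal_zero, neg_zero, zero_mul, zero_add]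
        rw [PH_eq hzx]
        refine mul_ne_zero (pow_ne_zero _ hzx) ?_
        have h2 : 0 ≤ (γ * Complex.I / (z * τ.re)).re := by
          rw [Complex.div_re]
          have := Complex.normSq_nonneg (z * τ.re)
          simp only [Complex.mul_re, Complex.mul_im, Complex.ofReal_re, Complex.ofReal_im,
            Complex.I_re, Complex.I_im, mul_zero, mul_one, zero_mul, sub_zero, add_zero, zero_add,
            zero_div] at this ⊢
          positivity
        have h3 := PZ_shift_ne hA hq hP hW h2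
        rwa [PZ_congr (q' := q) (Z' := fun v => (γ * Complex.I + z * (Z v).re) / (z * τ.re))
          (fun _ _ => rfl) fun v _ => by push_cast; field_simp; ring] at h3) 1 (z := z) hz
    simpa using line_norm_ge h1 (z := Complex.I) (by simp)
  have h4 := BA.le_of_eps continuous_const (PH_continuous (fun v => by fun_prop)
    continuous_const).norm key
  intro h0
  have h5 := PH_smul (A := A) (q := q) (Λ := Λ) (Z := Z) (τ := τ) Complex.I
  have e : ∀ w : ℂ, Complex.I * w = -((1 : ℝ) : ℂ) * w.im + Complex.I * w.re := fun w => by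
    apply Complex.ext <;> simp
  rw [h0, mul_zero, e τ, PH_congr (Z' := fun v => (-((1 : ℝ) : ℂ) * (Z v).im + (0 : ℝ) * Complex.I)
    + Complex.I * (Z v).re) fun v _ => by rw [e]; simp] at h5
  rw [h5, norm_zero] at h4
  exact htop (norm_le_zero_iff.1 h4)

end Vale.Agent.P078G
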