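import Vale.Agent.P078G.Rnd
import Mathlib.Data.ZMod.Basic

/-! Greedy colouring driven by seeds. -/

namespace Vale.Agent.P078G

open Finset Vale.Agent.P078
open scoped ComplexConjugate Pointwise

variable {G X : Type*} [Group G] [TopologicalSpace X] [MulAction G X] [DecidableEq G]
  [DecidableEq X]

/-- The state after `t` rounds. -/
noncomputable def gst {r : ℕ} [NeZero r] (κ : ℝ) (cls : X → ℕ) (t : ℕ) (c : X → ZMod r) :
    X → Sx (ZMod r × Bool) := fun y => if cls y < t then (colK (c y), κ) else (unif _, κ)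

omit [DecidableEq X] in
lemma gst_lc {r : ℕ} [NeZero r] {κ : ℝ} (hκ : 0 ≤ κ) {cls : X → ℕ} (hc : IsLocallyConstant cls)
    (t : ℕ) {c : X → ZMod r} (h : IsLocallyConstant c) : LC (gst κ cls t c) := by
  refine ⟨(IsLocallyConstant.iff_eventually_eq _).2 fun x => ?_, fun x => ?_⟩
  · filter_upwards [hc.eventually_eq x, h.eventually_eq x] with y h1 h2
    simp only [gst, h1, h2]
  · unfold gst
    split_ifs <;> exact hκ

lemma colK_shift {r : ℕ} [NeZero r] (k s : ZMod r) :
    (fun j : ZMod r × Bool => colK k (Equiv.subRight s j.1, j.2)) = colK (k + s) := by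
  funext j
  simp only [colK, col, Equiv.subRight_apply, sub_eq_iff_eq_add]

omit [TopologicalSpace X] [DecidableEq X] in
lemma gst_shift {r : ℕ} [NeZero r] (κ : ℝ) (cls : X → ℕ) (t : ℕ) {c c' : X → ZMod r} {s : ZMod r}
    (h : ∀ x, c' x = c x + s) : gst κ cls t c' = fun v =>
      (fun j => (gst κ cls t c v).1 (Equiv.subRight s j.1, j.2), (gst κ cls t c v).2) := by
  funext v
  by_cases hv : cls v < t
  · simp only [gst, if_pos hv, h, colK_shift]
  · simp only [gst, if_neg hv]
    rfl

variable [T2Space X] [ContinuousConstSMul G X] [CompactSpace X] [TotallyDisconnectedSpace X]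

lemma LS.greedy_step (L : LS G X) (Q : Par) {r : ℕ} [NeZero r] {κ β ε : ℝ} (hκ : 0 ≤ κ)
    (hε : 0 < ε)
    (h : ∀ q : X → Sx (ZMod r × Bool), (∀ y, q y = (unif _, κ) ∨ ∃ k, q y = (colK k, κ)) → ∀ x,
      q x = (unif _, κ) → ∃ k, L.Del Q q (colK k, κ) x ≤ β)
    {cls : X → ℕ} (hc : IsLocallyConstant cls)
    (hs : ∀ t, L.Sep (2 * Q.n) {x | cls x = t}) {N : ℕ} {a : X → Fin N}
    (ha : IsLocallyConstant a) (t : ℕ) {c : (Fin N → ZMod r) → X → ZMod r}
    (hS : Seeded (L.Γ ^ (2 * Q.n * t)) a c) :
    ∃ c' : (Fin N → ZMod r) → X → ZMod r,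
      Seeded (L.Γ ^ (2 * Q.n * (t + 1))) a c' ∧ ∀ ω,
        L.Phi Q (gst κ cls (t + 1) (c' ω)) ≤ L.Phi Q (gst κ cls t (c ω)) +
          L.integ fun x => if cls x = t then β + ε else 0 := by
  classical
  set n := 2 * Q.n with hn
  set T := L.Γ ^ (n * (t + 1)) with hT
  have hh : IsLocallyConstant fun x => (cls x, fun g : T => a (g.1 • x)) := by
    refine (IsLocallyConstant.iff_eventually_eq _).2 fun x => ?_
    have : ∀ᶠ y in nhds x, ∀ g : T, a (g.1 • y) = a (g.1 • x) :=
      Filter.eventually_all.2 fun g =>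
        (ha.comp_continuous (continuous_const_smul g.1)).eventually_eq x
    filter_upwards [hc.eventually_eq x, this] with y h1 h2
    rw [h1, funext h2]
  obtain ⟨rep, hrep, hr⟩ := exists_rep
    (f := fun p : (Fin N → ZMod r) × ZMod r => L.Del Q (gst κ cls t (c p.1)) (colK p.2, κ))
    (fun p => LS.continuous_Del (gst_lc hκ hc t (hS.lc p.1)) hκ) hh hε
  have hr1 : ∀ x, cls (rep x) = cls x := fun x => congrArg Prod.fst (hr x).1
  have hr2 : ∀ x, ∀ g ∈ T, a (g • rep x) = a (g • x) := fun x g hg =>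
    congrFun (congrArg Prod.snd (hr x).1) ⟨g, hg⟩
  let P : (Fin N → ZMod r) → X → ZMod r → Prop := fun ω x k =>
    L.Del Q (gst κ cls t (c ω)) (colK (ω (a x) + k), κ) (rep x) ≤ β
  let c' : (Fin N → ZMod r) → X → ZMod r := fun ω x =>
    if cls x = t then ω (a x) + Classical.epsilon (P ω x) else c ω x
  have hlc : ∀ ω, IsLocallyConstant (c' ω) := by
    intro ω
    refine (IsLocallyConstant.iff_eventually_eq _).2 fun x => ?_
    filter_upwards [hc.eventually_eq x, ha.eventually_eq x, hrep.eventually_eq x,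
      (hS.lc ω).eventually_eq x] with y h1 h2 h3 h4
    simp only [c', P, h1, h2, h3, h4]
  refine ⟨c', ⟨hlc, fun ω s x => ?_, fun ω ω' x hω => ?_⟩, fun ω => ?_⟩
  · by_cases hx : cls x = t
    · have : P (fun i => ω i + s) x = P ω x := by
        funext k
        simp only [P]
        rw [gst_shift κ cls t (hS.shift ω s), add_right_comm, ← colK_shift]
        exact congrArg (· ≤ β) (LS.Del_perm _ (colK (ω (a x) + k), κ) _)
      simp only [c', if_pos hx, this]
      ring
    · simp only [c', if_neg hx, hS.shift]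
  · have hsub : L.Γ ^ (n * t) ⊆ T := pow_subset_pow_right L.one_mem (by nlinarith)
    by_cases hx : cls x = t
    · have h1 : ω (a x) = ω' (a x) := by simpa using hω 1 (one_mem_pow L.one_mem)
      have : P ω x = P ω' x := by
        funext k
        simp only [P]
        rw [h1, LS.Del_congr (q' := gst κ cls t (c ω'))]
        intro y hy
        obtain ⟨g0, hg0, rfl⟩ := LS.mem_ball.1 hy
        have : c ω (g0 • rep x) = c ω' (g0 • rep x) := by
          refine hS.dep _ _ _ fun g hg => ?_
          have hm : g * g0 ∈ T := by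
            rw [hT, mul_add, mul_one, pow_add]
            exact mul_mem_mul hg hg0
          rw [← mul_smul, hr2 x _ hm]
          exact hω _ hm
        simp only [gst, this]
      simp only [c', if_pos hx, this, h1]
    · simp only [c', if_neg hx]
      exact hS.dep _ _ _ fun g hg => hω g (hsub hg)
  · refine LS.round (gst_lc hκ hc t (hS.lc ω)) (gst_lc hκ hc _ (hlc ω)) (hc.isClopen_fiber t) (hs t)
      (fun x hx => ?_) (cont_ite hc (· = t) _) (fun x hx => ?_) (fun x hx => ?_)
    · have hx' : cls x ≠ t := hx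
      have : cls x < t + 1 ↔ cls x < t := by omega
      simp only [gst, this, c', if_neg hx']
    · have hx' : cls x = t := hx
      have h1 : gst κ cls (t + 1) (c' ω) x =
          (colK (ω (a x) + Classical.epsilon (P ω x)), κ) := by
        simp only [gst, c', if_pos hx', if_pos (show cls x < t + 1 by omega)]
      have h2 : P ω x (Classical.epsilon (P ω x)) := by
        refine Classical.epsilon_spec ?_
        obtain ⟨k, hk⟩ := h (gst κ cls t (c ω)) (fun y => by
          by_cases hy : cls y < t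
          · exact Or.inr ⟨c ω y, if_pos hy⟩
          · exact Or.inl (if_neg hy)) (rep x) (if_neg (by rw [hr1, hx']; omega))
        exact ⟨k - ω (a x), by simpa [P] using hk⟩
      have h3 := (abs_lt.1 ((hr x).2 (ω, ω (a x) + Classical.epsilon (P ω x)))).1
      rw [h1, if_pos hx']
      simp only [P] at h2 h3
      linarith
    · have hx' : cls x ≠ t := hx
      rw [if_neg hx']

theorem LS.greedy (L : LS G X) (Q : Par) {r : ℕ} [NeZero r] {κ β ε : ℝ} (hκ : 0 ≤ κ)
    (hε : 0 < ε)
    (h : ∀ q : X → Sx (ZMod r × Bool), (∀ y, q y = (unif _, κ) ∨ ∃ k, q y = (colK k, κ)) → ∀ x,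
      q x = (unif _, κ) → ∃ k, L.Del Q q (colK k, κ) x ≤ β) :
    ∃ T : Finset G, ∀ (N : ℕ) (a : X → Fin N), IsLocallyConstant a →
      ∃ c : (Fin N → ZMod r) → X → ZMod r, Seeded T a c ∧ ∀ ω,
        L.Phi Q (fun x => (colK (c ω x), κ)) ≤
          L.Phi Q (fun _ => (unif (ZMod r × Bool), κ)) + (β + ε) := by
  obtain ⟨M, cls, hc, hM, hs⟩ := L.exists_sep (2 * Q.n)
  refine ⟨L.Γ ^ (2 * Q.n * M), fun N a ha => ?_⟩
  have key : ∀ t, ∃ c : (Fin N → ZMod r) → X → ZMod r,
      Seeded (L.Γ ^ (2 * Q.n * t)) a c ∧ ∀ ω,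
        L.Phi Q (gst κ cls t (c ω)) ≤ L.Phi Q (fun _ => (unif (ZMod r × Bool), κ)) +
          L.integ fun x => if cls x < t then β + ε else 0 := by
    intro t
    induction t with
    | zero =>
      refine ⟨fun ω x => ω (a x), ⟨fun ω => ha.comp ω, fun _ _ _ => rfl, fun ω ω' x hω => ?_⟩,
        fun ω => ?_⟩
      · simpa using hω 1 (one_mem_pow L.one_mem)
      · have : gst κ cls 0 (fun x => ω (a x)) = fun _ => (unif (ZMod r × Bool), κ) :=
          funext fun x => if_neg (Nat.not_lt_zero _)
        simp only [this, Nat.not_lt_zero, if_false, LS.integ_const, add_zero, le_refl]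
    | succ t ih =>
      obtain ⟨c, hS, hP⟩ := ih
      obtain ⟨c', hS', hP'⟩ := L.greedy_step Q hκ hε h hc hs ha t hS
      refine ⟨c', hS', fun ω => ?_⟩
      have e : (fun x => if cls x < t + 1 then β + ε else 0) = fun x =>
          (if cls x < t then β + ε else 0) + if cls x = t then β + ε else 0 := by
        funext x
        rcases lt_trichotomy (cls x) t with h1 | h1 | h1
        · rw [if_pos h1, if_pos (by omega), if_neg h1.ne, add_zero]
        · rw [if_pos h1, if_pos (by omega), if_neg (by omega), zero_add]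
        · rw [if_neg h1.ne', if_neg (by omega), if_neg (by omega), zero_add]
      rw [e, LS.integ_add (cont_ite hc (· < t) _) (cont_ite hc (· = t) _)]
      linarith [hP ω, hP' ω]
  obtain ⟨c, hS, hP⟩ := key M
  refine ⟨c, hS, fun ω => ?_⟩
  have e : gst κ cls M (c ω) = fun x => (colK (c ω x), κ) :=
    funext fun x => if_pos (hM x)
  have := hP ω
  simp only [e, hM, if_true, LS.integ_const] at this
  exact this

end Vale.Agent.P078G
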