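import Vale.Agent.P078G.Grd
import Vale.Agent.P078G.Core
import Vale.Agent.P078.LP

/-! Local paving of the kernel of a nonsingular local system. -/

namespace Vale.Agent.P078G

open Finset Vale.Agent.P078
open scoped ComplexConjugate Pointwise Real

variable {G X : Type*} [Group G] [TopologicalSpace X] [MulAction G X] [DecidableEq G]
  [DecidableEq X]

lemma LS.nbr (L : LS G X) {κ : Type*} [Fintype κ] [DecidableEq κ] {B : ℝ}
    (hB : ∀ x, ∀ y ∈ L.ball 1 x, L.wt x y ≤ B ∧ 1 ≤ B * L.wt x y) {m : ℕ} {x y : X}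
    (hy : y ∈ L.ball m x) (Λ : Finset X) :
    Nbr (pm (κ := κ) L.Y) (L.wt x) (L.Γ ^ 1).card B Λ y := by
  refine ⟨L.ball 1 y, LS.card_ball_le 1 y, fun v _ hv j => ?_, fun v hv => ?_⟩
  · have : L.Y y v = 0 := by_contra fun h => hv (LS.ball_symm (LS.mem_ball_of_ne h))
    simp [pm, this]
  · rw [LS.wt_mul hy hv, mul_comm]
    exact mul_le_mul_of_nonneg_right (hB y v hv).1 (LS.wt_pos _ _).le

lemma LS.dens_cluster (L : LS G X) {m : ℕ} {κ : Type*} [Fintype κ] [DecidableEq κ]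
    (Q : Par) {U : Set X} (hs : L.Sep (2 * m + 1) U) {q q' : X → Sx (κ × Bool)}
    (h1 : ∀ y, (∃ x ∈ U, y ∈ L.ball m x) → q' y = q y)
    (h2 : ∀ y, (¬∃ x ∈ U, y ∈ L.ball m x) → (q' y).1 = 0) {x y : X}
    (hx : x ∈ U) (hy : y ∈ L.ball m x) : L.wt x y * L.dens Q q' y =
      ph Q.Q (pm L.Y) Q.t (L.wt x) q (L.ball m x) y := by
  have h3 := LS.ph_ball (L := L) (Q := Q) (q := q') (L.wt x) (L.ball m x ∪ L.ball Q.n y) y
  rw [union_inter_cancel_right] at h3
  rw [LS.dens, ← LS.ph_rebase hy subset_rfl, ← h3, ph_local (Λ' := L.ball m x)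
    (d := fun u => if u ∈ L.ball m x then 0 else Q.Q.natDegree + 2) (if_pos hy) ?_
    subset_union_left fun u _ hu => by rw [if_neg hu]; omega]
  · exact ph_congr (fun _ _ _ _ _ => rfl) (fun _ _ => rfl) fun v hv => h1 v ⟨x, hx, hv⟩
  · intro a _ b _ h
    have key : a ∈ L.ball m x ∧ b ∉ L.ball m x := by
      by_cases h1 : a ∈ L.ball m x <;> by_cases h2 : b ∈ L.ball m x <;>
        simp only [h1, h2, if_true, if_false] at h <;> first | omega | exact ⟨h1, h2⟩
    by_cases hb : ∃ x ∈ U, b ∈ L.ball m x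
    · refine Or.inr (Or.inr fun j => ?_)
      have h0 : L.Y a b = 0 := by
        by_contra hne
        obtain ⟨x', hx', hb'⟩ := hb
        have h2 := LS.ball_trans (LS.ball_trans hb' (LS.mem_ball_of_ne hne)) (LS.ball_symm key.1)
        have h3 : x = x' := hs x' hx' x hx (by rwa [show 2 * m + 1 = m + 1 + m by omega])
        exact key.2 (h3 ▸ hb')
      simp [pm, h0]
    · exact Or.inr (Or.inl (h2 b hb))

lemma exists_par {t a K : ℝ} (ht0 : 0 < t) (ht2 : t ≤ 2) (ha : 0 < a) (hK : 0 < K) :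
    ∃ e κ : ℝ, 0 < e ∧ 0 < κ ∧ K * e ≤ a ∧ π * (κ / t) + e ≤ 5 * e ∧
      2 * π * √κ + 2 * e ≤ 10 * e ∧ π * (κ + 3 * (κ / t)) + 2 * e ≤ 18 * e := by
  set e := min 1 (a / K) with he
  have he0 : 0 < e := lt_min one_pos (by positivity)
  have he1 : e ≤ 1 := min_le_left _ _
  have he2 : K * e ≤ a := by
    rw [mul_comm, ← le_div_iff₀ hK]
    exact min_le_right _ _
  set κ := (e * t / 2) ^ 2 with hκ
  have hκ0 : 0 < κ := by positivity
  have hκ1 : √κ ≤ e := by
    rw [hκ, Real.sqrt_sq (by positivity)]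
    nlinarith
  have hκ2 : κ / t ≤ e := by
    rw [div_le_iff₀ ht0, hκ]
    nlinarith [mul_pos he0 ht0, mul_le_mul he1 ht2 ht0.le zero_le_one]
  have hκ3 : κ ≤ e := by
    have : e * t / 2 ≤ e := by nlinarith
    nlinarith [mul_pos he0 ht0]
  have hπ := Real.pi_le_four
  have h1 := mul_le_mul hπ hκ2 (by positivity) (by norm_num)
  have h2 := mul_le_mul hπ hκ1 (by positivity) (by norm_num)
  have h3 := mul_le_mul hπ hκ3 (by positivity) (by norm_num)
  exact ⟨e, κ, he0, hκ0, he2, by linarith, by linarith, by linarith⟩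

lemma two_tb_le {r : ℕ} (hr : 8 ≤ r) : 2 * tb (r * 2) ≤ 2 := by
  have h1 := tb_le (k := r * 2) (by omega)
  have h2 : (4 : ℝ) ≤ √((r * 2 : ℕ) : ℝ) :=
    Real.le_sqrt_of_sq_le (by exact_mod_cast (by omega : 4 ^ 2 ≤ r * 2))
  have h3 : 4 / √((r * 2 : ℕ) : ℝ) ≤ 1 := (div_le_one (by linarith)).2 h2
  linarith

lemma card_mul_le {t n C B w : ℝ} (ht : 0 < t) (hC : 0 ≤ C) (hn : n ≤ C) (hB : 1 ≤ B)
    (h : 1 ≤ B * w) : n * (t / (B * (C + 1))) ≤ t * w := by
  rw [← mul_div_assoc, div_le_iff₀ (by positivity)]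
  nlinarith [mul_le_mul_of_nonneg_left h (by positivity : 0 ≤ t * (C + 1))]

variable [T2Space X] [ContinuousConstSMul G X] [CompactSpace X] [TotallyDisconnectedSpace X]

lemma LS.cluster_one (L : LS G X) {m : ℕ} {C : Type*} [Fintype C] [DecidableEq C] {Q : Par}
    {κ B tol : ℝ} (hκ : 0 ≤ κ) (htol : 0 ≤ tol)
    (hB : ∀ x, ∀ y ∈ L.ball 1 x, L.wt x y ≤ B ∧ 1 ≤ B * L.wt x y)
    (hQ : NQ X (C × Bool) Q.Q Q.t κ (L.Γ ^ 1).card B tol) {c : X → C}
    (hc : IsLocallyConstant c) {U : Set X} (hU : IsClopen U) (hs : L.Sep (2 * m + 1) U) :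
    L.integ (U.indicator fun x =>
      TT Q.Q (pm L.Y) Q.t (L.wt x) (fun v => (colK (c v), κ)) (L.ball m x)) ≤
      L.Phi Q (fun v => (colK (c v), κ)) + (π * (κ / Q.t) + tol) := by
  classical
  set W := {y | ∃ x ∈ U, y ∈ L.ball m x} with hW
  set q : X → Sx (C × Bool) := fun v => (colK (c v), κ) with hq
  set q' : X → Sx (C × Bool) := fun v => if v ∈ W then q v else (0, κ) with hq'
  have hWc : IsClopen W := L.isClopen_nbhd m hU
  have hql : LC q := ⟨hc.comp fun k => (colK k, κ), fun _ => hκ⟩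
  have hql' : LC q' := by
    refine ⟨(IsLocallyConstant.iff_eventually_eq _).2 fun x => ?_, fun x => ?_⟩
    · filter_upwards [hql.lc.eventually_eq x, LS.ev_mem hWc x] with y h1 h2
      simp only [hq', h1, h2]
    · simp only [hq']
      split_ifs <;> exact hκ
  have ht := Q.pos
  have h1 : L.Phi Q q' ≤ L.Phi Q q + (π * (κ / Q.t) + tol) := by
    refine LS.sweep hql hql' fun p hp x hx => ?_
    by_cases hxW : x ∈ W
    · rw [show q' x = q x from if_pos hxW, ← hx, LS.Del, Function.update_eq_self, sub_self]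
      positivity
    · rw [show q' x = (0, κ) from if_neg hxW, LS.Del, sub_le_iff_le_add']
      have := TT_del (σ := p) hQ L.ctr L.diag ht hκ (LS.wt_pos x) (fun v _ => ?_)
        (LS.self_mem_ball (L := L) (2 * Q.n) x) (L.nbr hB (LS.self_mem_ball 0 x) _)
      · rwa [LS.wt_self, mul_one] at this
      rcases hp v with h | h
      · rw [h]; exact ⟨sub_colK _, rfl⟩
      · rw [h]
        by_cases hv : v ∈ W
        · rw [show q' v = q v from if_pos hv]; exact ⟨sub_colK _, rfl⟩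
        · rw [show q' v = (0, κ) from if_neg hv]; exact ⟨sub_zero', rfl⟩
  have hd : Continuous (L.dens Q q') := LS.continuous_dens hql'
  have hT : Continuous fun x => TT Q.Q (pm L.Y) Q.t (L.wt x) q (L.ball m x) :=
    LS.continuous_TT (L.Γ ^ m) (q := fun _ => q)
      (fun g => hql.lc.comp_continuous (continuous_const_smul g)) fun _ => hql.nonneg
  have h2 := LS.transport (L := L) (n := m) hU
    (fun x hx y hy h => hs x hx y hy (LS.ball_mono (by omega) h))
    (ψ := fun y => -1 * L.dens Q q' y)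
    (β := fun x => -1 * U.indicator (fun x => TT Q.Q (pm L.Y) Q.t (L.wt x) q (L.ball m x)) x)
    (continuous_const.mul hd) (continuous_const.mul (hU.continuous_indicator hT))
    (fun y hy => by
      rw [LS.dens, ph_dead Q.zero, mul_zero]
      rw [show q' y = (0, κ) from if_neg fun ⟨x, hx, h⟩ => hy x hx h])
    (fun x hx => by
      rw [Set.indicator_of_mem hx, TT, mul_sum]
      refine (sum_congr rfl fun y hy => ?_).le
      rw [← L.dens_cluster Q hs (q := q) (q' := q') (fun y h => if_pos h)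
        (fun y h => by rw [show q' y = (0, κ) from if_neg h]) hx hy]
      ring)
    (fun x hx => by rw [Set.indicator_of_notMem hx, mul_zero])
  rw [LS.integ_mul _ hd, LS.integ_mul _ (hU.continuous_indicator hT)] at h2
  unfold LS.Phi at h1 ⊢
  linarith

/-- The potential of the balls is controlled by the global potential. -/
theorem LS.cluster (L : LS G X) (m : ℕ) : ∃ N : ℕ, ∀ {C : Type} [Fintype C] [DecidableEq C]
    (Q : Par) (κ B tol : ℝ), 0 ≤ κ → 0 ≤ tol →
    (∀ x, ∀ y ∈ L.ball 1 x, L.wt x y ≤ B ∧ 1 ≤ B * L.wt x y) →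
    NQ X (C × Bool) Q.Q Q.t κ (L.Γ ^ 1).card B tol → ∀ c : X → C, IsLocallyConstant c →
    L.integ (fun x => TT Q.Q (pm L.Y) Q.t (L.wt x) (fun v => (colK (c v), κ)) (L.ball m x)) ≤
      N * (L.Phi Q (fun v => (colK (c v), κ)) + (π * (κ / Q.t) + tol)) := by
  obtain ⟨N, cls, hcl, hN, hs⟩ := L.exists_sep (2 * m + 1)
  refine ⟨N, fun Q κ B tol hκ htol hB hQ c hc => ?_⟩
  have hT : Continuous fun x =>
      TT Q.Q (pm L.Y) Q.t (L.wt x) (fun v => (colK (c v), κ)) (L.ball m x) :=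
    LS.continuous_TT (L.Γ ^ m) (q := fun _ v => (colK (c v), κ)) (fun g =>
      (hc.comp fun k => (colK k, κ)).comp_continuous (continuous_const_smul g)) fun _ _ => hκ
  have e : (fun x => TT Q.Q (pm L.Y) Q.t (L.wt x) (fun v => (colK (c v), κ)) (L.ball m x)) =
      fun x => ∑ t ∈ Finset.range N, {x | cls x = t}.indicator
        (fun x => TT Q.Q (pm L.Y) Q.t (L.wt x) (fun v => (colK (c v), κ)) (L.ball m x)) x := by
    funext x
    rw [sum_eq_single_of_mem (cls x) (mem_range.2 (hN x)) fun t _ ht =>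
      Set.indicator_of_notMem (show x ∉ {x | cls x = t} from fun h => ht (Eq.symm h)) _,
      Set.indicator_of_mem (show x ∈ {y | cls y = cls x} from rfl)]
  rw [e, LS.integ_sum _ fun t _ => (hcl.isClopen_fiber t).continuous_indicator hT]
  refine (sum_le_card_nsmul _ _ _ fun t _ =>
    L.cluster_one hκ htol hB hQ hc (hcl.isClopen_fiber t) (hs t)).trans ?_
  rw [card_range, nsmul_eq_mul]

theorem LS.paving (L : LS G X) {r : ℕ} [NeZero r] (hr : 8 ≤ r) (m : ℕ) {δ : ℝ} (hδ : 0 < δ) :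
    ∃ T : Finset G, ∀ (N : ℕ) (a : X → Fin N), IsLocallyConstant a →
      ∃ c : (Fin N → ZMod r) → X → ZMod r, Seeded T a c ∧ ∀ ω, ∃ b : C(X, ℝ), 0 ≤ b ∧ L.τ b ≤ δ ∧
        ∀ x, b x < 1 → ∀ S ⊆ L.ball m x, ∀ k, (∀ v ∈ S, c ω v = k) → ∀ ξ : X → ℂ,
          ‖∑ a ∈ S, ∑ b ∈ S, conj (ξ a) * L.Y a b * ξ b‖ ≤ 600 / √r * ∑ a ∈ S, ‖ξ a‖ ^ 2 := by
  obtain ⟨M, hM⟩ := L.cluster m
  obtain ⟨B, hB1, hB⟩ := L.exists_wt_bound 1
  obtain ⟨B', hB1', hB'⟩ := L.exists_wt_bound m
  have hcard : Fintype.card (ZMod r × Bool) = r * 2 := by simp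
  set t := 2 * tb (r * 2) with ht
  have ht0 : 0 < t := mul_pos two_pos (tb_pos (by omega))
  have h4 := four_tb_le (r := r) (by omega)
  have ht2 : t ≤ 2 := two_tb_le hr
  set C : ℝ := ((L.Γ ^ m).card : ℝ) with hC
  have hC0 : 0 ≤ C := Nat.cast_nonneg _
  set s := t / (B' * (C + 1)) with hs
  have hs0 : 0 < s := by positivity
  obtain ⟨e, κ, he0, hκ0, he2, hβ, hβ2, hβ3⟩ := exists_par ht0 ht2 (mul_pos hδ hs0)
    (by positivity : (0 : ℝ) < 35 * M + 5 * (C * B') + 1)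
  have hπ' := Real.two_le_pi
  obtain ⟨Q₀, hQ⟩ := exists_NQ X (ZMod r × Bool) ht0 ht2 hκ0 hB1 he0 (L.Γ ^ 1).card
  let Q : Par := ⟨Q₀, t, hQ.zero, ht0⟩
  have hCr : 2 ≤ Fintype.card (ZMod r) := by simp; omega
  have hu1 := LS.sweep (L := L) (Q := Q) (q := (0 : X → Sx (ZMod r × Bool)))
    (q' := fun _ => (unif (ZMod r × Bool), 0)) ⟨IsLocallyConstant.const _, fun _ => le_rfl⟩
    ⟨IsLocallyConstant.const _, fun _ => le_rfl⟩ (β := e) fun p hp x hx => by
      rw [LS.Del, sub_le_iff_le_add']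
      have := TT_add (σ := p) hQ L.ctr L.diag hCr (by rw [hcard]) (LS.wt_pos x)
        (fun v _ => (hp v).symm) (LS.self_mem_ball (L := L) (2 * Q.n) x)
        (L.nbr hB (LS.self_mem_ball 0 x) _) hx
      rwa [LS.wt_self, mul_one] at this
  have hu2 := LS.sweep (L := L) (Q := Q) (q := fun _ => (unif (ZMod r × Bool), 0))
    (q' := fun _ => (unif (ZMod r × Bool), κ)) ⟨IsLocallyConstant.const _, fun _ => le_rfl⟩
    ⟨IsLocallyConstant.const _, fun _ => hκ0.le⟩ (β := 2 * π * √κ + 2 * e) fun p hp x hx => by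
      rw [LS.Del, sub_le_iff_le_add']
      have := TT_switch (σ := p) hQ L.ctr L.diag hCr (by rw [hcard]) hκ0.le (LS.wt_pos x)
        (fun v _ => hp v) (LS.self_mem_ball (L := L) (2 * Q.n) x)
        (L.nbr hB (LS.self_mem_ball 0 x) _) hx
      rwa [LS.wt_self, mul_one] at this
  rw [LS.Phi_zero] at hu1
  obtain ⟨T, hT⟩ := L.greedy Q (r := r) (β := π * (κ + 3 * (κ / t)) + 2 * e) hκ0.le he0
    fun q hq x hx => by
      obtain ⟨k, hk⟩ := TT_col (σ := q) hQ L.ctr L.diag ht0 hκ0 (LS.wt_pos x) (fun v _ => by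
        rcases hq v with h | ⟨k, h⟩ <;> rw [h]
        exacts [⟨sub_unif, rfl⟩, ⟨sub_colK k, rfl⟩]) (LS.self_mem_ball (L := L) (2 * Q.n) x)
        (L.nbr hB (LS.self_mem_ball 0 x) _) hx
      rw [LS.wt_self, mul_one] at hk
      exact ⟨k, by rw [LS.Del, sub_le_iff_le_add']; exact hk⟩
  refine ⟨T, fun N a ha => ?_⟩
  obtain ⟨c, hS, hP⟩ := hT N a ha
  refine ⟨c, hS, fun ω => ?_⟩
  set F : X → ℝ := fun x => TT Q₀ (pm L.Y) t (L.wt x) (fun v => (colK (c ω v), κ)) (L.ball m x)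
    with hF
  have hTc : Continuous F :=
    LS.continuous_TT (Q := Q) (L.Γ ^ m) (q := fun _ v => (colK (c ω v), κ)) (fun g =>
      ((hS.lc ω).comp fun k => (colK k, κ)).comp_continuous (continuous_const_smul g))
      fun _ _ => hκ0.le
  have hβ0 : 0 ≤ π * (κ / t) + e := by positivity
  have hcd : ∀ x, ((L.ball m x).card : ℝ) ≤ C := fun x => by
    rw [hC]; exact_mod_cast LS.card_ball_le m x
  have hle : ∀ x, (π * (κ / t) + e) * ∑ v ∈ L.ball m x, L.wt x v ≤ 5 * e * (C * B') := fun x => by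
    refine mul_le_mul hβ ((sum_le_card_nsmul _ _ _ fun v hv => (hB' x v hv).1).trans ?_)
      (sum_nonneg fun v _ => (LS.wt_pos _ _).le) (by positivity)
    rw [nsmul_eq_mul]
    exact mul_le_mul_of_nonneg_right (hcd x) (by linarith)
  have hc1 : Continuous fun x => F x + 5 * e * (C * B') := hTc.add continuous_const
  refine ⟨⟨fun x => (π * s)⁻¹ * (F x + 5 * e * (C * B')), continuous_const.mul hc1⟩,
    fun x => ?_, ?_, fun x hx S hSx k hk ξ => ?_⟩
  · have := TT_subset (σ := fun v => (colK (c ω v), κ)) hQ L.ctr L.diag ht0 hκ0.le (LS.wt_pos x)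
      (fun v _ => ⟨sub_colK _, rfl⟩) (fun y hy => L.nbr hB hy (L.ball m x)) (empty_subset _)
    rw [TT_empty, sdiff_empty] at this
    exact mul_nonneg (by positivity) (this.trans (add_le_add_right (hle x) _))
  · rw [← LS.integ_coe, ContinuousMap.coe_mk, LS.integ_mul _ hc1,
      LS.integ_add hTc continuous_const, LS.integ_const, inv_mul_le_iff₀ (by positivity)]
    have h1 := hM Q κ B e hκ0.le he0.le hB hQ (c ω) (hS.lc ω)
    have h2 : L.Phi Q (fun v => (colK (c ω v), κ)) + (π * (κ / t) + e) ≤ 35 * e := by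
      linarith [hP ω]
    have h3 := mul_le_mul_of_nonneg_left h2 (Nat.cast_nonneg (α := ℝ) M)
    have h5 : L.integ F ≤ M * (35 * e) := h1.trans h3
    have h6 := mul_le_mul_of_nonneg_right hπ' (mul_pos hδ hs0).le
    linarith [mul_pos hδ hs0]
  · have hx' : (π * s)⁻¹ * (F x + 5 * e * (C * B')) < 1 := hx
    rw [inv_mul_lt_iff₀ (by positivity), mul_one] at hx'
    refine (TT_good hQ L.ctr L.diag ht0 hκ0.le (LS.wt_pos x) (fun y hy => L.nbr hB hy _)
      ((add_le_add_right (hle x) _).trans_lt hx') (fun v hv => ?_) hSx hk ξ).trans ?_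
    · exact card_mul_le ht0 hC0 (hcd x) hB1' (hB' x v hv).2
    · refine mul_le_mul_of_nonneg_right ?_ (sum_nonneg fun _ _ => sq_nonneg _)
      have : (600 : ℝ) / √r = 50 * (12 / √r) := by ring
      linarith

end Vale.Agent.P078G
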