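import Vale.Agent.P078G.KerA
import Vale.Agent.P078G.QN
import Vale.Agent.P078G.LP

/-! The local system of an element of the normaliser algebra. -/

namespace Vale.Agent.P078G.Ctx

open Filter Finset
open Vale.Agent.P078 (ind ind_apply ind_of_mem ind_of_notMem ind_val isClopen_preimage cx cx_apply
  mul_lt_of_lt_div)
open Vale.Agent.P078.Ctx (proj_eq_of_le mem_of_le_ofIsClopen)
open Msa Pre
open scoped Topology ComplexConjugate

variable {M X : Type*} [CStarAlgebra M] [TopologicalSpace X] [CompactSpace X] [T2Space X]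
  (C : Ctx M X) [DecidableEq X] [DecidableEq C.Nor]

omit [TopologicalSpace X] [CompactSpace X] [T2Space X] in
lemma kerB_op {Y : X → X → ℂ} (hY : ∀ a b, Y b a = conj (Y a b)) {S : Finset X} {s : ℝ}
    (hs : 0 ≤ s) (h : ∀ S' ⊆ S, ∀ ξ : X → ℂ,
      ‖∑ a ∈ S', ∑ b ∈ S', conj (ξ a) * Y a b * ξ b‖ ≤ s * ∑ a ∈ S', ‖ξ a‖ ^ 2) (ξ : X → ℂ) :
    ∑ a ∈ S, ‖∑ b ∈ S, Y a b * ξ b‖ ^ 2 ≤ s ^ 2 * ∑ a ∈ S, ‖ξ a‖ ^ 2 := by
  have key : ∀ t, s < t →
      ∑ a ∈ S, ‖∑ b ∈ S, Y a b * ξ b‖ ^ 2 ≤ t ^ 2 * ∑ a ∈ S, ‖ξ a‖ ^ 2 := by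
    intro t ht
    have ht0 : 0 < t := lt_of_le_of_lt hs ht
    let A : X → X → ℂ := fun a b => if a ∈ S ∧ b ∈ S then (t : ℂ)⁻¹ * Y a b else 0
    have hA : P078.Ctr A := by
      refine ⟨fun a b => ?_, fun Λ η => ?_⟩
      · simp only [A]
        by_cases hab : a ∈ S ∧ b ∈ S
        · rw [if_pos hab, if_pos hab.symm, hY]
          simp
        · rw [if_neg hab, if_neg (fun h' => hab h'.symm), map_zero]
      · have h1 : ∑ a ∈ Λ, ∑ b ∈ Λ, conj (η a) * A a b * η b =
            (t : ℂ)⁻¹ * ∑ a ∈ Λ ∩ S, ∑ b ∈ Λ ∩ S, conj (η a) * Y a b * η b := by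
          rw [← Finset.sum_subset (Finset.inter_subset_left (s₁ := Λ) (s₂ := S)), Finset.mul_sum]
          · refine Finset.sum_congr rfl fun a ha => ?_
            rw [← Finset.sum_subset (Finset.inter_subset_left (s₁ := Λ) (s₂ := S)), Finset.mul_sum]
            · refine Finset.sum_congr rfl fun b hb => ?_
              simp only [A]
              rw [if_pos ⟨(Finset.mem_inter.mp ha).2, (Finset.mem_inter.mp hb).2⟩]
              ring
            · intro b hb hb'
              simp only [A]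
              rw [if_neg fun h' => hb' (Finset.mem_inter.mpr ⟨hb, h'.2⟩), mul_zero, zero_mul]
          · intro a ha ha'
            refine Finset.sum_eq_zero fun b _ => ?_
            simp only [A]
            rw [if_neg fun h' => ha' (Finset.mem_inter.mpr ⟨ha, h'.1⟩), mul_zero, zero_mul]
        rw [h1, norm_mul, norm_inv, Complex.norm_real, Real.norm_of_nonneg ht0.le,
          inv_mul_le_iff₀ ht0]
        refine (h _ Finset.inter_subset_right η).trans ?_
        exact mul_le_mul ht.le (Finset.sum_le_sum_of_subset_of_nonneg Finset.inter_subset_left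
          fun _ _ _ => sq_nonneg _) (Finset.sum_nonneg fun _ _ => sq_nonneg _) ht0.le
    have h2 := hA.sum_sq_le S ξ
    have h3 : ∑ a ∈ S, ‖∑ b ∈ S, Y a b * ξ b‖ ^ 2 =
        t ^ 2 * ∑ a ∈ S, ‖∑ b ∈ S, A a b * ξ b‖ ^ 2 := by
      rw [Finset.mul_sum]
      refine Finset.sum_congr rfl fun a ha => ?_
      have : ∑ b ∈ S, Y a b * ξ b = t * ∑ b ∈ S, A a b * ξ b := by
        rw [Finset.mul_sum]
        refine Finset.sum_congr rfl fun b hb => ?_
        simp only [A]
        have : (t : ℂ) ≠ 0 := Complex.ofReal_ne_zero.mpr ht0.ne'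
        rw [if_pos ⟨ha, hb⟩]
        field_simp
      rw [this, norm_mul, mul_pow, Complex.norm_real, Real.norm_of_nonneg ht0.le]
    rw [h3]
    exact mul_le_mul_of_nonneg_left h2 (sq_nonneg _)
  have hc : Tendsto (fun t : ℝ => t ^ 2 * ∑ a ∈ S, ‖ξ a‖ ^ 2) (𝓝[>] s)
      (𝓝 (s ^ 2 * ∑ a ∈ S, ‖ξ a‖ ^ 2)) :=
    (Continuous.tendsto (by fun_prop) s).mono_left nhdsWithin_le_nhds
  exact ge_of_tendsto hc (eventually_nhdsWithin_of_forall key)

omit [DecidableEq X] [DecidableEq C.Nor] in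
lemma kerB_pinch {κ : Type} [Fintype κ] [DecidableEq κ] {c : X → κ} (hc : IsLocallyConstant c)
    (y : M) (a b : X) : C.ker (C.pinch c y) a b = if c a = c b then C.ker y a b else 0 := by
  unfold pinch pj
  rw [ker_sum]
  simp only [ker_ι]
  have hcl : ∀ k, IsClopen (c ⁻¹' {k}) := fun k => hc.isClopen_fiber k
  simp only [ind_apply (hcl _)]
  rw [Finset.sum_eq_single (c a)]
  · by_cases h : c a = c b
    · simp [h, Set.indicator]
    · simp [h, Set.indicator, Ne.symm h]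
  · intro k _ hk
    simp [Set.indicator, Ne.symm hk]
  · simp

omit [DecidableEq X] [DecidableEq C.Nor] in
lemma kerB_U_mul_ι (g : C.Nor) (f : C(X, ℂ)) :
    C.U g * C.ι f = C.ι (f.comp (C.act g⁻¹)) * C.U g := by
  rw [C.ι_mul_U]
  congr 2
  ext x
  exact congrArg f (inv_smul_smul g x).symm

omit [DecidableEq X] [DecidableEq C.Nor] in
lemma kerB_pinch_eq {κ : Type} [Fintype κ] (c : X → κ) (Γ : Finset C.Nor)
    (f : C.Nor → C(X, ℂ)) : ∃ f' : C.Nor → C(X, ℂ),
      C.pinch c (∑ g ∈ Γ, C.ι (f g) * C.U g) = ∑ g ∈ Γ, C.ι (f' g) * C.U g := by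
  refine ⟨fun g => ∑ k, ind (c ⁻¹' {k}) * f g * (ind (c ⁻¹' {k})).comp (C.act g⁻¹), ?_⟩
  unfold pinch pj
  simp only [Finset.mul_sum, Finset.sum_mul, map_sum, map_mul]
  rw [Finset.sum_comm]
  refine Finset.sum_congr rfl fun g _ => Finset.sum_congr rfl fun k _ => ?_
  simp only [mul_assoc]
  rw [kerB_U_mul_ι]

theorem exists_LS {y : M} (hy : y ∈ C.N0) (hs : star y = y) (h1 : ‖y‖ ≤ 1) (h0 : C.E y = 0) :
    ∃ L : LS C.Nor X, L.τ = C.τR ∧ ∀ {κ : Type} [Fintype κ] (c : X → κ), IsLocallyConstant c →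
      ∀ (n : ℕ) (s : ℝ) (x : X), 0 ≤ s → (∀ S ⊆ L.ball n x, ∀ k, (∀ v ∈ S, c v = k) → ∀ ξ : X → ℂ,
        ‖∑ a ∈ S, ∑ b ∈ S, conj (ξ a) * L.Y a b * ξ b‖ ≤ s * ∑ a ∈ S, ‖ξ a‖ ^ 2) →
      ‖C.E (C.pinch c y ^ n) x‖ ≤ s ^ n := by
  obtain ⟨Γ, f, hyf⟩ : ∃ (Γ : Finset C.Nor) (f : C.Nor → C(X, ℂ)),
    y = ∑ g ∈ Γ, C.ι (f g) * C.U g := hy
  obtain ⟨L, hLτ, hLY⟩ : ∃ L : LS C.Nor X, L.τ = C.τR ∧ L.Y = C.ker y := by
    obtain ⟨D, d1, d2, d3, d4⟩ := C.exists_D
    refine ⟨{ τ := C.τR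
              pos := fun f hf => C.τR_nonneg hf
              one := C.τR_one
              D := D
              D_pos := d1
              D_mul := d2
              D_fix := d3
              inv := d4
              fix := C.isOpen_fix
              Γ := insert 1 (Γ ∪ Γ.image (·⁻¹))
              one_mem := Finset.mem_insert_self _ _
              inv_mem := fun g hg => ?_
              Y := C.ker y
              ctr := C.ker_ctr hs h1
              diag := fun x => by rw [ker_diag, h0]; rfl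
              range := fun a b hab => ?_
              M := fun g g' => C.E (star (C.U g) * y * C.U g')
              gauge := fun x => ?_ }, rfl, rfl⟩
    · simp only [Finset.mem_insert, Finset.mem_union, Finset.mem_image] at hg ⊢
      rcases hg with rfl | hg | ⟨k, hk, rfl⟩
      · exact Or.inl inv_one
      · exact Or.inr (Or.inr ⟨g, hg, rfl⟩)
      · exact Or.inr (Or.inl (by rwa [inv_inv]))
    · rw [hyf, ker_sum] at hab
      obtain ⟨g, hg, hg'⟩ := Finset.exists_ne_zero_of_sum_ne_zero hab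
      rw [ker_ι_left] at hg'
      exact ⟨g, Finset.mem_insert_of_mem (Finset.mem_union_left _ hg),
        C.ker_U (right_ne_zero_of_mul hg')⟩
    · obtain ⟨u, hu, h⟩ := C.ker_gauge x
      exact ⟨u, hu, fun g g' => h y g g'⟩
  refine ⟨L, hLτ, fun {κ} _ c hc n s x hs0 hb => ?_⟩
  classical
  obtain ⟨f', hf'⟩ := C.kerB_pinch_eq c Γ f
  rw [← hyf] at hf'
  set W := C.pinch c y with hW
  let S : Finset X := (L.ball n x).filter fun a => c a = c x
  have hx : x ∈ S := Finset.mem_filter.mpr ⟨LS.self_mem_ball _ _, rfl⟩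
  have hop := kerB_op (Y := L.Y) L.ctr.herm (S := S) hs0 fun S' hS' ξ =>
    hb S' (hS'.trans (Finset.filter_subset _ _)) (c x)
      (fun v hv => (Finset.mem_filter.mp (hS' hv)).2) ξ
  have hkW : ∀ a b, C.ker W a b = if c a = c b then L.Y a b else 0 := fun a b => by
    rw [hW, C.kerB_pinch hc, hLY]
  have key : ∀ j, j ≤ n → (∀ a, C.ker (W ^ j) a x ≠ 0 → a ∈ L.ball j x ∧ c a = c x) ∧
      ∑ a ∈ S, ‖C.ker (W ^ j) a x‖ ^ 2 ≤ s ^ (2 * j) := by
    intro j
    induction j with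
    | zero =>
      intro _
      rw [pow_zero]
      refine ⟨fun a ha => ?_, ?_⟩
      · have : a = x := by
          by_contra h
          exact ha (C.ker_one_ne h)
        subst this
        exact ⟨LS.self_mem_ball _ _, rfl⟩
      · rw [Finset.sum_eq_single x]
        · simp [ker_one_self]
        · intro a _ ha
          simp [C.ker_one_ne ha]
        · intro h
          exact absurd hx h
    | succ j ih =>
      intro hj
      obtain ⟨ih1, ih2⟩ := ih (by omega)
      have hS : ∀ b, C.ker (W ^ j) b x ≠ 0 → b ∈ S := fun b hb =>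
        Finset.mem_filter.mpr ⟨LS.ball_mono (by omega) (ih1 b hb).1, (ih1 b hb).2⟩
      have hrec : ∀ a, C.ker (W ^ (j + 1)) a x = ∑ b ∈ S, C.ker W a b * C.ker (W ^ j) b x := by
        intro a
        have := C.ker_mul Γ f' (W ^ j) a x (Λ := S ∪ Γ.image (fun g => g⁻¹ • a))
          fun g hg => Finset.mem_union_right _ (Finset.mem_image_of_mem _ hg)
        rw [← hf'] at this
        rw [pow_succ', this]
        refine (Finset.sum_subset Finset.subset_union_left fun b _ hb => ?_).symm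
        have : C.ker (W ^ j) b x = 0 := by
          by_contra h
          exact hb (hS b h)
        rw [this, mul_zero]
      refine ⟨fun a ha => ?_, ?_⟩
      · rw [hrec] at ha
        obtain ⟨b, _, hb'⟩ := Finset.exists_ne_zero_of_sum_ne_zero ha
        have h2 := ih1 b (right_ne_zero_of_mul hb')
        have h3 := left_ne_zero_of_mul hb'
        rw [hkW] at h3
        split_ifs at h3 with h4
        · exact ⟨LS.ball_trans h2.1 (LS.mem_ball_of_ne h3), h4.trans h2.2⟩
        · exact absurd rfl h3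
      · have h2 : ∑ a ∈ S, ‖C.ker (W ^ (j + 1)) a x‖ ^ 2 =
            ∑ a ∈ S, ‖∑ b ∈ S, L.Y a b * C.ker (W ^ j) b x‖ ^ 2 := by
          refine Finset.sum_congr rfl fun a ha => ?_
          rw [hrec]
          congr 2
          refine Finset.sum_congr rfl fun b hb => ?_
          rw [hkW, if_pos ((Finset.mem_filter.mp ha).2.trans (Finset.mem_filter.mp hb).2.symm)]
        rw [h2]
        refine (hop _).trans ?_
        calc s ^ 2 * ∑ a ∈ S, ‖C.ker (W ^ j) a x‖ ^ 2 ≤ s ^ 2 * s ^ (2 * j) :=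
              mul_le_mul_of_nonneg_left ih2 (sq_nonneg _)
          _ = s ^ (2 * (j + 1)) := by ring
  have h2 := (Finset.single_le_sum (f := fun a => ‖C.ker (W ^ n) a x‖ ^ 2)
    (fun _ _ => sq_nonneg _) hx).trans (key n le_rfl).2
  rw [ker_diag, mul_comm, pow_mul] at h2
  exact (pow_le_pow_iff_left₀ (norm_nonneg _) (pow_nonneg hs0 _) two_ne_zero).mp h2

theorem y_part {y : M} (hy : y ∈ C.N0) (hs : star y = y) (h1 : ‖y‖ ≤ 1) (h0 : C.E y = 0)
    {r : ℕ} [NeZero r] (hr : 8 ≤ r) (n : ℕ) {δ : ℝ} (hδ : 0 < δ) :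
    ∃ T : Finset C.Nor, ∀ (N : ℕ) (a : X → Fin N), IsLocallyConstant a →
      ∃ c : (Fin N → ZMod r) → X → ZMod r, P078.Seeded T a c ∧
        ∀ ω, (C.T.τ (C.pinch (c ω) y ^ (2 * n))).re ≤ (600 / √r) ^ (2 * n) + δ := by
  have := C.totallyDisconnected
  obtain ⟨L, hLτ, hL⟩ := C.exists_LS hy hs h1 h0
  obtain ⟨T, hT⟩ := L.paving hr (2 * n) hδ
  refine ⟨T, fun N a ha => ?_⟩
  obtain ⟨c, hc, hω⟩ := hT N a ha
  refine ⟨c, hc, fun ω => ?_⟩
  obtain ⟨b, hb0, hbδ, hb⟩ := hω ω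
  have hs0 : (0 : ℝ) ≤ 600 / √r := by positivity
  set W := C.pinch (c ω) y with hW
  have hWs : star W = W := by rw [hW, C.pinch_star, hs]
  have hW1 : ‖W‖ ≤ 1 := (C.norm_pinch_le (hc.lc ω) y).trans h1
  have hWn : ‖W ^ (2 * n)‖ ≤ 1 := by
    rcases Nat.eq_zero_or_pos (2 * n) with h | h
    · rw [h, pow_zero, ← C.U_one]
      exact norm_unitary_le (C.U_mem 1)
    · exact (norm_pow_le' _ h).trans (pow_le_one₀ (norm_nonneg _) hW1)
  have hE : ∀ x, (C.E (W ^ (2 * n)) x).re ≤ (600 / √r) ^ (2 * n) + b x := by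
    intro x
    refine (Complex.re_le_norm _).trans ?_
    by_cases hx : b x < 1
    · exact (hL (c ω) (hc.lc ω) (2 * n) _ x hs0 (hb x hx)).trans (le_add_of_nonneg_right (hb0 x))
    · refine ((C.E _).norm_coe_le_norm x).trans ((C.norm_E_le (by rw [star_pow, hWs])).trans ?_)
      have := pow_nonneg hs0 (2 * n)
      linarith [not_lt.mp hx]
  let B : C(X, ℝ) := (600 / √r) ^ (2 * n) • (1 : C(X, ℝ)) + b
  let F : C(X, ℂ) := ⟨fun x => (B x : ℂ), by fun_prop⟩
  have h2 : (C.T.τ (C.ι (C.E (W ^ (2 * n))))).re ≤ (C.T.τ (C.ι F)).re :=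
    C.re_τ_mono fun x => by
      have : (F x).re = (600 / √r) ^ (2 * n) + b x := by simp [F, B, -Complex.ofReal_pow]
      rw [this]
      exact hE x
  rw [C.τ_E, ← C.τR_apply B F (fun x => rfl)] at h2
  simp only [B, map_add, map_smul, C.τR_one, smul_eq_mul, mul_one] at h2
  rw [hLτ] at hbδ
  linarith

end Vale.Agent.P078G.Ctx
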