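import Vale.Agent.P078G.Sig
import Vale.Agent.P078G.Barv

/-! The local potential approximates the exact increments. -/

namespace Vale.Agent.P078G

open Finset Vale.Agent.P078 MeasureTheory
open scoped ComplexConjugate

lemma two_sqrt_le {κ k w u : ℝ} (hκ : 0 ≤ κ) (hk : κ ≤ k) (hw : 0 < w) (hu : 0 < u) :
    2 * √κ ≤ u / w + k * w / u := by
  have ha : 0 < u / w := by positivity
  have e : k * w / u = k / (u / w) := by field_simp
  rw [e]
  generalize u / w = a at ha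
  have h1 : κ / a ≤ k / a := by gcongr
  have h2 : 2 * √κ - a ≤ κ / a := by
    rw [le_div_iff₀ ha]
    nlinarith [Real.sq_sqrt hκ, sq_nonneg (a - √κ)]
  linarith

variable (V J : Type*) [DecidableEq V] [Fintype J] [DecidableEq J]

lemma exists_HP {t κ : ℝ} (ht : 0 < t) (ht2 : t ≤ 2) (hκ : 0 < κ) : ∃ w δ : ℝ, 0 < w ∧ 0 < δ ∧
    ∀ (A : J → V → V → ℂ) (ω : V → ℝ) (σ : V → Sx J) (Λ : Finset V), Adm A t κ ω σ Λ →
      ∀ τ ∈ strip w, ∀ u : ℝ, 0 < u → ∃ e c, HP A (fun v => (σ v).1) Λ τ e c ∧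
        ∀ v ∈ Λ, c + δ ≤ (e * lv t ω σ (u * Complex.I) v).re := by
  have hs : 0 < √κ := Real.sqrt_pos.2 hκ
  refine ⟨min (1 / 4) (min (t / 4) (√κ / 4)), min (3 * t / 8) (t * √κ / 8), by positivity,
    by positivity, fun A ω σ Λ H τ hτ u hu => ?_⟩
  obtain ⟨h1, h2, h3⟩ := hτ
  have w1 := min_le_left (1 / 4 : ℝ) (min (t / 4) (√κ / 4))
  have w2 := (min_le_right (1 / 4 : ℝ) _).trans (min_le_left (t / 4) (√κ / 4))
  have w3 := (min_le_right (1 / 4 : ℝ) _).trans (min_le_right (t / 4) (√κ / 4))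
  have d1 := min_le_left (3 * t / 8) (t * √κ / 8)
  have d2 := min_le_right (3 * t / 8) (t * √κ / 8)
  generalize min (1 / 4 : ℝ) (min (t / 4) (√κ / 4)) = w at *
  generalize min (3 * t / 8) (t * √κ / 8) = δ at *
  have hn := Complex.norm_le_abs_re_add_abs_im τ
  have hn2 : ‖τ‖ ≤ 2 := by
    have : |τ.re| ≤ 5 / 4 := abs_le.2 ⟨by linarith, by linarith⟩
    linarith
  have hext : ∀ T ⊆ Λ, ∀ Z : V → ℂ, (∀ v ∈ T, 2 < ‖Z v‖) →
      PH A (fun v => (σ v).1) T Z τ ≠ 0 := fun T hT Z hZ =>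
    PH_ext H.ctr (fun v hv => H.sub v (hT hv)) fun v hv => hn2.trans_lt (hZ v hv)
  rcases le_or_gt ‖τ‖ (t / 2) with hc | hc
  · refine ⟨1, ‖τ‖, ⟨norm_one, norm_nonneg _, hn2, fun T hT Z hZ => ?_, hext⟩, fun v _ => ?_⟩
    · refine PH_ext H.ctr (fun v hv => H.sub v (hT hv)) fun v hv => (hZ v hv).trans_le ?_
      rw [one_mul]
      exact Complex.re_le_norm _
    · rw [one_mul, lv, re_lev]
      linarith
  have hre : t / 4 < τ.re := by
    rcases abs_cases τ.re with h | h <;> linarith [h.1, h.2]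
  rcases H.alt with hP | hk
  · refine ⟨1, t / 2 * τ.re, ⟨norm_one, by nlinarith, by nlinarith, fun T hT Z hZ => ?_, hext⟩,
      fun v _ => ?_⟩
    · exact gard H.ctr (fun v hv => H.sub v (hT hv)) (fun U hU => hP U (hU.trans hT))
        (by linarith) fun v hv => by simpa using hZ v hv
    · rw [one_mul, lv, re_lev]
      nlinarith
  · have hτ0 : 0 < ‖τ‖ := by linarith
    have he : ∀ z : ℂ, (-Complex.I * conj τ / (‖τ‖ : ℂ) * z).re = (z * conj τ).im / ‖τ‖ := by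
      intro z
      rw [div_mul_eq_mul_div, Complex.div_ofReal_re]
      congr 1
      simp only [Complex.mul_re, Complex.mul_im, Complex.neg_re, Complex.neg_im, Complex.I_re,
        Complex.I_im, Complex.conj_re, Complex.conj_im]
      ring
    refine ⟨-Complex.I * conj τ / (‖τ‖ : ℂ), 0, ⟨?_, le_rfl, zero_le_two, fun T hT Z hZ => ?_,
      hext⟩, fun v hv => ?_⟩
    · simp [hτ0.ne']
    · refine PH_upper H.ctr (fun v hv => H.sub v (hT hv)) fun v hv => ?_
      have := hZ v hv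
      rw [he] at this
      exact (div_pos_iff_of_pos_right hτ0).1 this
    · rw [he, zero_add, le_div_iff₀ hτ0, Complex.mul_im, lv, re_lev, im_lev, Complex.conj_re,
        Complex.conj_im]
      have h4 := two_sqrt_le hκ.le (hk v hv) (H.pos v) hu
      have h5 : τ.im ≤ √κ / 4 := by linarith [le_abs_self τ.im]
      have h6 : δ * ‖τ‖ ≤ t * √κ / 8 * 2 := mul_le_mul d2 hn2 hτ0.le (by positivity)
      have h7 := mul_le_mul h4 hre.le (by positivity) (by linarith)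
      nlinarith [mul_le_mul_of_nonneg_left h5 ht.le]

lemma integral_bump {b : ℝ} (hb : 0 < b) :
    IntegrableOn (fun u : ℝ => (1 + (u / b) ^ 2)⁻¹) (Set.Ioi 0) ∧
      ∫ u in Set.Ioi (0 : ℝ), (1 + (u / b) ^ 2)⁻¹ = b * (Real.pi / 2) := by
  have h1 := integrable_inv_one_add_sq.comp_mul_left' (inv_pos.2 hb).ne'
  have h2 := integral_comp_mul_left_Ioi (fun u : ℝ => (1 + u ^ 2)⁻¹) 0 (inv_pos.2 hb)
  rw [mul_zero, integral_Ioi_inv_one_add_sq, Real.arctan_zero, sub_zero, inv_inv,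
    smul_eq_mul] at h2
  simp only [← div_eq_inv_mul] at h1 h2
  exact ⟨h1.integrableOn, h2⟩

theorem exists_NQ {t κ L tol : ℝ} (ht : 0 < t) (ht2 : t ≤ 2) (hκ : 0 < κ) (hL : 1 ≤ L)
    (htol : 0 < tol) (d : ℕ) : ∃ Q, NQ V J Q t κ d L tol := by
  obtain ⟨w, δ, hw, hδ, hHP⟩ := exists_HP V J ht ht2 hκ
  obtain ⟨C, hC, hsig⟩ := exists_sig V J hδ d
  have hpi := Real.pi_pos
  obtain ⟨Q, hQ⟩ := exists_BQ hw (tol := tol / (C * L * (Real.pi / 2))) (by positivity)
  refine ⟨Q, hQ.zero, fun A ω σ Λ x H hx ⟨N, hN1, hN2, hN3⟩ => ?_⟩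
  have hωx := H.pos x
  have hb : 0 < L * ω x := by positivity
  set g : ℝ → ℝ := fun u => Real.log ‖PZ A (fun v => (σ v).1) Λ (lv t ω σ (u * Complex.I)) /
    PZ A (fun v => (σ v).1) (Λ.erase x) (lv t ω σ (u * Complex.I)) / lv t ω σ (u * Complex.I) x‖
    with hg
  have hl : ∀ u : ℝ, 0 < u → ∀ v ∈ Λ, ω v ≤ L * ω x →
      u / (L * ω x) ≤ ‖lv t ω σ (u * Complex.I) v‖ := by
    intro u hu v hv h
    refine le_trans ?_ (Complex.im_le_norm _)
    rw [lv, im_lev]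
    have h1 := H.pos v
    have h2 := H.nonneg v hv
    have h3 : u / (L * ω x) ≤ u / ω v := by gcongr
    have h4 : 0 ≤ (σ v).2 * ω v / u := by positivity
    linarith
  have key : ∀ u : ℝ, 0 < u → ∀ τ ∈ strip w,
      PH A (fun v => (σ v).1) (Λ.erase x) (lv t ω σ (u * Complex.I)) τ ≠ 0 ∧
      PH A (fun v => (σ v).1) Λ (lv t ω σ (u * Complex.I)) τ /
        PH A (fun v => (σ v).1) (Λ.erase x) (lv t ω σ (u * Complex.I)) τ /
          lv t ω σ (u * Complex.I) x ∈ Complex.slitPlane ∧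
      ‖Complex.log (PH A (fun v => (σ v).1) Λ (lv t ω σ (u * Complex.I)) τ /
        PH A (fun v => (σ v).1) (Λ.erase x) (lv t ω σ (u * Complex.I)) τ /
          lv t ω σ (u * Complex.I) x)‖ ≤ C / (1 + (u / (L * ω x)) ^ 2) := by
    intro u hu τ hτ
    obtain ⟨e, c, h1, h2⟩ := hHP A ω σ Λ H τ hτ u hu
    refine ⟨h1.half _ (erase_subset _ _) _ fun v hv => by linarith [h2 v (mem_of_mem_erase hv)],
      hsig A _ Λ N τ e c _ _ x h1 H.diag hx hN1 hN2 h2 (by positivity)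
        (hl u hu x hx (by nlinarith)) fun v hv hv' => hl u hu v hv (hN3 v hv')⟩
  have h1w : (1 : ℂ) ∈ strip w := ⟨by simp; linarith, by simpa using hw, by simpa using hw⟩
  have k1 : ∀ u : ℝ, 0 < u → ‖g u‖ ≤ C * (1 + (u / (L * ω x)) ^ 2)⁻¹ := by
    intro u hu
    have h := (key u hu 1 h1w).2.2
    rw [PH_one, PH_one] at h
    refine le_trans ?_ h
    rw [hg]
    beta_reduce
    rw [← Complex.log_re]
    exact Complex.abs_re_le_norm _
  have k2 : ∀ u : ℝ, 0 < u → ‖Tot Q (cu A t ω σ u) Λ - Tot Q (cu A t ω σ u) (Λ.erase x) - g u‖ ≤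
      tol / (C * L * (Real.pi / 2)) * C * (1 + (u / (L * ω x)) ^ 2)⁻¹ := by
    intro u hu
    obtain ⟨a, ha, ha'⟩ := exists_fac (cu_empty (A := A) (t := t) (ω := ω) (σ := σ) u) Λ
    obtain ⟨b, hb, hb'⟩ := exists_fac (cu_empty (A := A) (t := t) (ω := ω) (σ := σ) u) (Λ.erase x)
    have hZ : ∀ v, lv t ω σ (u * Complex.I) v ≠ 0 := fun v => lev_ne_zero ht _ _ _
    have e1 : ∀ τ, PH A (fun v => (σ v).1) Λ (lv t ω σ (u * Complex.I)) τ =
        (∏ v ∈ Λ, lv t ω σ (u * Complex.I) v) * fac a τ := fun τ => by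
      rw [PH_div fun v _ => hZ v, ← ha]
      rfl
    have e2 : ∀ τ, PH A (fun v => (σ v).1) (Λ.erase x) (lv t ω σ (u * Complex.I)) τ =
        (∏ v ∈ Λ.erase x, lv t ω σ (u * Complex.I) v) * fac b τ := fun τ => by
      rw [PH_div fun v _ => hZ v, ← hb]
      rfl
    have e3 : ∀ τ, PH A (fun v => (σ v).1) Λ (lv t ω σ (u * Complex.I)) τ /
        PH A (fun v => (σ v).1) (Λ.erase x) (lv t ω σ (u * Complex.I)) τ /
          lv t ω σ (u * Complex.I) x = fac a τ / fac b τ := fun τ => by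
      have h0 : ∏ v ∈ Λ.erase x, lv t ω σ (u * Complex.I) v ≠ 0 :=
        prod_ne_zero_iff.2 fun v _ => hZ v
      rw [e1, e2, ← mul_prod_erase _ _ hx, mul_assoc, mul_div_assoc, mul_div_mul_left _ _ h0,
        mul_div_cancel_left₀ _ (hZ x)]
    have h := hQ.near a b (C / (1 + (u / (L * ω x)) ^ 2)) fun τ hτ => by
      obtain ⟨h1, h2⟩ := key u hu τ hτ
      rw [e3] at h2
      rw [e2] at h1
      exact ⟨right_ne_zero_of_mul h1, h2⟩
    rw [Complex.sub_re, ← ha' Q hQ.zero, ← hb' Q hQ.zero, ← e3, PH_one, PH_one] at h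
    rw [mul_assoc]
    exact h
  obtain ⟨i1, i2⟩ := integral_bump hb
  obtain ⟨t1, t2⟩ := TT_eq (A := A) (σ := σ) (Λ := Λ) hQ.zero ht H.diag (fun y _ => H.pos y)
    H.nonneg
  obtain ⟨t3, t4⟩ := TT_eq (A := A) (σ := σ) (Λ := Λ.erase x) hQ.zero ht H.diag
    (fun y _ => H.pos y) fun y hy => H.nonneg y (mem_of_mem_erase hy)
  have hm : Measurable g := by
    rw [hg]
    simp only [PZ_expand, lv, lev]
    refine Real.measurable_log.comp (Measurable.norm ?_)
    fun_prop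
  have ig : IntegrableOn g (Set.Ioi 0) := Integrable.mono' (i1.const_mul C)
    hm.aestronglyMeasurable ((ae_restrict_iff' measurableSet_Ioi).2 (ae_of_all _ k1))
  have h := norm_integral_le_of_norm_le (i1.const_mul (tol / (C * L * (Real.pi / 2)) * C))
    ((ae_restrict_iff' measurableSet_Ioi).2 (ae_of_all _ k2))
  have t5 : IntegrableOn (fun u => Tot Q (cu A t ω σ u) Λ - Tot Q (cu A t ω σ u) (Λ.erase x))
      (Set.Ioi 0) := t1.sub t3
  rw [integral_sub t5 ig, integral_sub t1 t3, ← t2, ← t4, integral_const_mul, i2] at h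
  refine h.trans_eq ?_
  field_simp

end Vale.Agent.P078G
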