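import Vale.Agent.P078G.LS
import Vale.Agent.P078G.TotC

/-! The global potential and its change in one round. -/

namespace Vale.Agent.P078G

/-- Parameters of the potential. -/
structure Par where
  Q : Polynomial ℝ
  t : ℝ
  zero : Q.coeff 0 = 0
  pos : 0 < t

/-- Radius of locality. -/
def Par.n (Q : Par) : ℕ := Q.Q.natDegree + 1

/-- Locally constant admissible states. -/
structure LC {X J : Type*} [TopologicalSpace X] (q : X → Sx J) : Prop where
  lc : IsLocallyConstant q
  nonneg : ∀ x, 0 ≤ (q x).2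

namespace LS

open Finset Vale.Agent.P078
open scoped ComplexConjugate Pointwise

variable {G X κ : Type*} [Group G] [TopologicalSpace X] [MulAction G X] [DecidableEq G]
  [DecidableEq X] [Fintype κ] [DecidableEq κ] (L : LS G X) (Q : Par)

/-- Local density of the potential. -/
noncomputable def dens (q : X → Sx (κ × Bool)) (x : X) : ℝ :=
  ph Q.Q (pm L.Y) Q.t (L.wt x) q (L.ball Q.n x) x

/-- The potential. -/
noncomputable def Phi (q : X → Sx (κ × Bool)) : ℝ := L.integ (L.dens Q q)

/-- Change of the potential when the state of `x` is set to `p`. -/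
noncomputable def Del (q : X → Sx (κ × Bool)) (p : Sx (κ × Bool)) (x : X) : ℝ :=
  TT Q.Q (pm L.Y) Q.t (L.wt x) (Function.update q x p) (L.ball (2 * Q.n) x) -
    TT Q.Q (pm L.Y) Q.t (L.wt x) q (L.ball (2 * Q.n) x)

variable {L Q} {q q' : X → Sx (κ × Bool)}

lemma ph_ball (ω : X → ℝ) (Λ : Finset X) (y : X) : ph Q.Q (pm L.Y) Q.t ω q Λ y =
    ph Q.Q (pm L.Y) Q.t ω q (Λ ∩ L.ball Q.n y) y := by
  classical
  have ex : ∀ z, ∃ k, z ∈ L.ball k y ∨ k = Q.n + 2 := fun z => ⟨_, Or.inr rfl⟩
  refine ph_local (d := fun z => Nat.find (ex z))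
    ((Nat.find_eq_zero _).2 (Or.inl (self_mem_ball _ _))) (fun a _ b _ h1 => ?_) inter_subset_left
    fun u hu hn => ?_
  · refine Or.inr (Or.inr fun j => ?_)
    have h2 : Nat.find (ex b) ≤ Q.n + 2 := Nat.find_min' _ (Or.inr rfl)
    have h3 : L.Y a b = 0 := by
      by_contra hY
      have h4 := (Nat.find_spec (ex a)).resolve_right (by omega)
      have h5 : Nat.find (ex b) ≤ Nat.find (ex a) + 1 :=
        Nat.find_min' _ (Or.inl (ball_trans h4 (ball_symm (mem_ball_of_ne hY))))
      omega
    simp [pm, h3]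
  · refine (Nat.lt_find_iff _ _).2 fun k hk h => hn (mem_inter.2 ⟨hu, ?_⟩)
    exact ball_mono hk (h.resolve_right (by unfold Par.n; omega))

lemma ph_rebase {k m : ℕ} {x y : X} (hy : y ∈ L.ball k x) {Λ : Finset X} (h : Λ ⊆ L.ball m y) :
    ph Q.Q (pm L.Y) Q.t (L.wt x) q Λ y = L.wt x y * ph Q.Q (pm L.Y) Q.t (L.wt y) q Λ y := by
  rw [← ph_scale (wt_pos x y)]
  exact ph_congr (fun _ _ _ _ _ => rfl) (fun z hz => wt_mul hy (h hz)) fun _ _ => rfl

lemma Del_congr {x : X} (h : ∀ y ∈ L.ball (2 * Q.n) x, q y = q' y)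
    (p : Sx (κ × Bool)) : L.Del Q q p x = L.Del Q q' p x := by
  unfold Del
  refine congrArg₂ (· - ·) ?_ ?_
  · refine TT_congr (fun _ _ _ _ _ => rfl) (fun _ _ => rfl) fun v hv => ?_
    by_cases hx : v = x
    · simp [hx]
    · simp [hx, h v hv]
  · exact TT_congr (fun _ _ _ _ _ => rfl) (fun _ _ => rfl) h

lemma Del_perm (σ : Equiv.Perm κ) (p : Sx (κ × Bool)) (x : X) :
    L.Del Q (fun v => (fun j => (q v).1 (σ j.1, j.2), (q v).2))
      (fun j => p.1 (σ j.1, j.2), p.2) x = L.Del Q q p x := by
  have h : ∀ (q : X → Sx (κ × Bool)) ω Λ, TT Q.Q (pm L.Y) Q.t ω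
      (fun v => (fun j : κ × Bool => (q v).1 (σ j.1, j.2), (q v).2)) Λ =
        TT Q.Q (pm L.Y) Q.t ω q Λ := fun q ω Λ => sum_congr rfl fun v _ =>
    ph_perm (A := pm L.Y) (σ := q) (σ.prodCongr (Equiv.refl Bool))
  have h2 : Function.update (fun v => (fun j : κ × Bool => (q v).1 (σ j.1, j.2), (q v).2)) x
      (fun j => p.1 (σ j.1, j.2), p.2) = fun v =>
        (fun j => (Function.update q x p v).1 (σ j.1, j.2), (Function.update q x p v).2) := by
    funext v
    by_cases hx : v = x
    · subst hx
      simp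
    · simp [hx]
  unfold Del
  rw [h2, h, h]

variable [T2Space X] [ContinuousConstSMul G X] [CompactSpace X]

lemma continuous_phi (T : Finset G) {g : G} (hg : g ∈ T) {q : X → X → Sx (κ × Bool)}
    (hq : ∀ g : G, IsLocallyConstant fun x => q x (g • x)) (hk : ∀ x y, 0 ≤ (q x y).2) :
    Continuous fun x => ph Q.Q (pm L.Y) Q.t (L.wt x) (q x) (orb T x) (g • x) := by
  refine continuous_iff_continuousAt.2 fun x₀ => ?_
  obtain ⟨T', hT, h'⟩ := L.exists_param T x₀
  have h1 : g • x₀ ∈ T'.image (· • x₀) := h'.self_of_nhds.2 ▸ mem_image_of_mem _ hg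
  obtain ⟨g', hg', e⟩ := mem_image.1 h1
  have hc : Continuous fun x => ph Q.Q (pm fun a b => L.M a b x) Q.t (fun a => L.D a x)
      (fun a => q x₀ (a • x₀)) T' g' := by
    refine continuous_ph (fun j a b => ?_) (fun x j => ?_) (fun a _ => (L.D a).continuous)
      (fun x a _ => L.D_pos a x) (fun a _ => hk _ _) Q.zero Q.pos hg'
    · unfold pm
      split_ifs
      exacts [(L.M a b).continuous, (L.M a b).continuous.neg]
    · obtain ⟨u, hu, hY⟩ := L.gauge x
      have h0 : u g' ≠ 0 := norm_ne_zero_iff.1 (by rw [hu]; exact one_ne_zero)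
      have := hY g' g'
      rw [L.diag, eq_comm, mul_eq_zero, mul_eq_zero, map_eq_zero, or_iff_left h0,
        or_iff_right h0] at this
      simp [pm, this]
  refine hc.continuousAt.congr ?_
  filter_upwards [h', L.ev_eq T x₀,
    (Filter.eventually_all_finset T').2 fun a _ => (hq a).eventually_eq x₀] with x hx h2 h3
  rw [hx.2, ← (h2 g' (hT hg') g hg).2 e, ph_image hx.1 hg']
  obtain ⟨u, hu, hY⟩ := L.gauge x
  rw [← ph_gauge hu]
  refine ph_congr (fun j a _ b _ => ?_) (fun a _ => (wt_smul a x).symm) fun a ha => (h3 a ha).symm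
  unfold pm
  rw [hY]
  split_ifs <;> ring

lemma continuous_TT (T : Finset G) {q : X → X → Sx (κ × Bool)}
    (hq : ∀ g : G, IsLocallyConstant fun x => q x (g • x)) (hk : ∀ x y, 0 ≤ (q x y).2) :
    Continuous fun x => TT Q.Q (pm L.Y) Q.t (L.wt x) (q x) (orb T x) := by
  exact L.continuous_sum_orb T
    (ψ := fun x y => ph Q.Q (pm L.Y) Q.t (L.wt x) (q x) (orb T x) y)
    fun g hg => continuous_phi T hg hq hk

lemma continuous_dens (hq : LC q) : Continuous (L.dens Q q) := by
  have := continuous_phi (L := L) (Q := Q) (L.Γ ^ Q.n) (one_mem_pow L.one_mem)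
    (q := fun _ => q) (fun g => hq.lc.comp_continuous (continuous_const_smul g))
    fun _ => hq.nonneg
  simp only [one_smul] at this
  exact this

lemma continuous_Del (hq : LC q) {p : Sx (κ × Bool)} (hp : 0 ≤ p.2) :
    Continuous (L.Del Q q p) := by
  refine (continuous_TT _ (q := fun x => Function.update q x p) (fun g => ?_) fun x y => ?_).sub
    (continuous_TT _ (q := fun _ => q) (fun g => hq.lc.comp_continuous (continuous_const_smul g))
      fun _ => hq.nonneg)
  · refine (IsLocallyConstant.iff_eventually_eq _).2 fun x₀ => ?_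
    filter_upwards [ev_mem (L.isClopen_eq g 1) x₀,
      (hq.lc.comp_continuous (continuous_const_smul g)).eventually_eq x₀] with x h1 h2
    simp only [one_smul, Function.comp_apply] at h1 h2
    simp only [Function.update_apply, h1, h2]
  · rw [Function.update_apply]
    split_ifs
    exacts [hp, hq.nonneg y]

omit [T2Space X] [ContinuousConstSMul G X] [CompactSpace X] in
lemma Phi_zero : L.Phi Q (0 : X → Sx (κ × Bool)) = 0 := by
  have : L.dens Q (0 : X → Sx (κ × Bool)) = fun _ => 0 := funext fun x => ph_dead Q.zero rfl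
  rw [Phi, this, integ_const]

theorem round (hq : LC q) (hq' : LC q') {U : Set X}
    (hU : IsClopen U) (hs : L.Sep (2 * Q.n) U) (h0 : ∀ x ∉ U, q' x = q x)
    {β : X → ℝ} (hβ : Continuous β) (h1 : ∀ x ∈ U, L.Del Q q (q' x) x ≤ β x)
    (h2 : ∀ x ∉ U, 0 ≤ β x) : L.Phi Q q' ≤ L.Phi Q q + L.integ β := by
  rw [← sub_le_iff_le_add', Phi, Phi, ← integ_sub (continuous_dens hq') (continuous_dens hq)]
  refine transport hU hs ((continuous_dens hq').sub (continuous_dens hq)) hβ (fun y hy => ?_)
    (fun x hx => le_trans (le_of_eq ?_) (h1 x hx)) h2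
  · refine sub_eq_zero.2 (ph_congr (fun _ _ _ _ _ => rfl) (fun _ _ => rfl)
      fun z hz => h0 z fun hU' => ?_)
    exact hy z hU' (ball_symm hz)
  · unfold Del TT
    rw [← sum_sub_distrib, ← sum_subset (ball_mono (by omega : Q.n ≤ 2 * Q.n))]
    · refine sum_congr rfl fun y hy => ?_
      have hb : L.ball Q.n y ⊆ L.ball (2 * Q.n) x := fun z hz =>
        two_mul Q.n ▸ ball_trans hy hz
      rw [ph_ball _ _ y, ph_ball _ (L.ball (2 * _) x) y, inter_eq_right.2 hb,
        ph_rebase hy subset_rfl, ph_rebase hy subset_rfl, mul_sub]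
      refine congrArg₂ (· - ·) (congrArg _ ?_) rfl
      refine ph_congr (fun _ _ _ _ _ => rfl) (fun _ _ => rfl) fun z hz => ?_
      by_cases hzx : z = x
      · simp [hzx]
      · rw [Function.update_of_ne hzx]
        exact h0 z fun hU' => hzx (hs x hx z hU' (hb hz))
    · intro y _ hy
      rw [ph_ball _ _ y, ph_ball (q := q) _ _ y, sub_eq_zero]
      refine ph_congr (fun _ _ _ _ _ => rfl) (fun _ _ => rfl) fun z hz =>
        Function.update_of_ne ?_ _ _
      rintro rfl
      exact hy (ball_symm (mem_inter.1 hz).2)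

variable [TotallyDisconnectedSpace X]

theorem sweep (hq : LC q) (hq' : LC q') {β : ℝ}
    (h : ∀ p : X → Sx (κ × Bool), (∀ y, p y = q y ∨ p y = q' y) → ∀ x, p x = q x →
      L.Del Q p (q' x) x ≤ β) : L.Phi Q q' ≤ L.Phi Q q + β := by
  obtain ⟨N, cls, hc, hN, hs⟩ := L.exists_sep (2 * Q.n)
  let p : ℕ → X → Sx (κ × Bool) := fun t x => if cls x < t then q' x else q x
  have hp : ∀ t, LC (p t) := fun t =>
    ⟨(IsLocallyConstant.iff_eventually_eq _).2 fun x => by
      filter_upwards [hc.eventually_eq x, hq.lc.eventually_eq x, hq'.lc.eventually_eq x]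
        with y a b c
      simp only [p, a, b, c], fun x => by
      simp only [p]
      split_ifs
      exacts [hq'.nonneg x, hq.nonneg x]⟩
  have c1 : ∀ t, Continuous fun x => if cls x < t then β else 0 := fun t =>
    (hc.comp fun k => if k < t then β else 0).continuous
  have c2 : ∀ t, Continuous fun x => if cls x = t then β else 0 := fun t =>
    (hc.comp fun k => if k = t then β else 0).continuous
  have key : ∀ t, L.Phi Q (p t) ≤ L.Phi Q q + L.integ fun x => if cls x < t then β else 0 := by
    intro t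
    induction t with
    | zero => simp [p, integ_const]
    | succ t ih =>
      have h1 := round (hp t) (hp (t + 1)) (hc.isClopen_fiber t) (hs t) (fun x hx => ?_) (c2 t)
        (fun x hx => ?_) fun x hx => (if_neg hx).ge
      · have h2 : (fun x => if cls x < t + 1 then β else 0) = fun x =>
            (if cls x < t then β else 0) + if cls x = t then β else 0 := by
          funext x
          split_ifs <;> first | omega | simp
        rw [h2, integ_add (c1 t) (c2 t)]
        linarith
      · have hx' : cls x ≠ t := hx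
        have : cls x < t + 1 ↔ cls x < t := by omega
        simp only [p, this]
      · have hx' : cls x = t := hx
        have e : p (t + 1) x = q' x := if_pos (by omega)
        rw [if_pos hx', e]
        refine h (p t) (fun y => ?_) x (if_neg (by omega))
        simp only [p]
        split_ifs <;> simp
  have := key N
  simpa [p, hN, integ_const] using this

end LS

end Vale.Agent.P078G
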