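import Vale.Agent.P078G.Gard
import Vale.Agent.P078G.TotC
import Mathlib.Analysis.Complex.BorelCaratheodory
import Mathlib.Analysis.SpecialFunctions.Complex.LogBounds

/-! Uniform bounds for the quotient by one vertex. -/

namespace Vale.Agent.P078G

open Finset Vale.Agent.P078
open scoped ComplexConjugate

variable {V J : Type*} [DecidableEq V] [Fintype J] [DecidableEq J]

/-- Non vanishing on a half plane and outside a disc, for all subsets. -/
structure HP (A : J → V → V → ℂ) (q : V → J → ℝ) (Λ : Finset V) (τ e : ℂ) (c : ℝ) : Prop where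
  unit : ‖e‖ = 1
  nonneg : 0 ≤ c
  le : c ≤ 2
  half : ∀ T ⊆ Λ, ∀ Z : V → ℂ, (∀ v ∈ T, c < (e * Z v).re) → PH A q T Z τ ≠ 0
  ext : ∀ T ⊆ Λ, ∀ Z : V → ℂ, (∀ v ∈ T, 2 < ‖Z v‖) → PH A q T Z τ ≠ 0

namespace SigX

/-- The self energy of the vertex `x`. -/
noncomputable def sg (A : J → V → V → ℂ) (q : V → J → ℝ) (τ : ℂ) (T : Finset V) (x : V)
    (Z : V → ℂ) : ℂ := -PH A q T (Function.update Z x 0) τ / PH A q (T.erase x) Z τ

variable {A : J → V → V → ℂ} {q : V → J → ℝ} {Λ T : Finset V} {τ e : ℂ} {c δ : ℝ} {Z : V → ℂ}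
  {x v : V}

lemma PH_erase_update (z : ℂ) :
    PH A q (T.erase x) (Function.update Z x z) τ = PH A q (T.erase x) Z τ :=
  PH_congr fun _ hy => Function.update_of_ne (ne_of_mem_erase hy) _ _

lemma PH_upd (hx : x ∈ T) (z : ℂ) : PH A q T (Function.update Z x z) τ =
    z * PH A q (T.erase x) Z τ + PH A q T (Function.update Z x 0) τ := by
  rw [PH_level hx, Function.update_self, Function.update_idem, PH_erase_update]

lemma PH_sg (hx : x ∈ T) (h : PH A q (T.erase x) Z τ ≠ 0) :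
    PH A q T (Function.update Z x (sg A q τ T x Z)) τ = 0 := by
  rw [PH_upd hx, sg, div_mul_cancel₀ _ h, neg_add_cancel]

lemma quot_eq (hx : x ∈ T) (h : PH A q (T.erase x) Z τ ≠ 0) :
    PH A q T Z τ / PH A q (T.erase x) Z τ = Z x - sg A q τ T x Z := by
  rw [PH_level hx, sg]
  field_simp
  ring

lemma sg_of (R : ℂ → Prop) (hR : ∀ T ⊆ Λ, ∀ Z : V → ℂ, (∀ v ∈ T, R (Z v)) → PH A q T Z τ ≠ 0)
    (hT : T ⊆ Λ) (hx : x ∈ T) (hZ : ∀ v ∈ T.erase x, R (Z v)) : ¬ R (sg A q τ T x Z) := by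
  intro h
  refine hR T hT _ (fun v hv => ?_) (PH_sg hx (hR _ ((erase_subset _ _).trans hT) Z hZ))
  rcases eq_or_ne v x with rfl | hvx
  · rwa [Function.update_self]
  · rw [Function.update_of_ne hvx]
    exact hZ v (mem_erase.2 ⟨hvx, hv⟩)

lemma sg_half (H : HP A q Λ τ e c) (hT : T ⊆ Λ) (hx : x ∈ T)
    (hZ : ∀ v ∈ T.erase x, c < (e * Z v).re) : (e * sg A q τ T x Z).re ≤ c :=
  not_lt.1 (sg_of (fun z => c < (e * z).re) H.half hT hx hZ)

lemma sg_ext (H : HP A q Λ τ e c) (hT : T ⊆ Λ) (hx : x ∈ T)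
    (hZ : ∀ v ∈ T.erase x, 2 < ‖Z v‖) : ‖sg A q τ T x Z‖ ≤ 2 :=
  not_lt.1 (sg_of (fun z => 2 < ‖z‖) H.ext hT hx hZ)

lemma PH_differentiable {Z : ℂ → V → ℂ} (hZ : ∀ v, Differentiable ℂ fun ζ => Z ζ v) :
    Differentiable ℂ fun ζ => PH A q T (Z ζ) τ := by
  unfold PH
  exact Differentiable.fun_sum fun S _ =>
    (Differentiable.fun_finsetProd fun v _ => hZ v).const_mul _

lemma re_le_norm (he : ‖e‖ = 1) (z : ℂ) : (e * z).re ≤ ‖z‖ := by
  have := Complex.re_le_norm (e * z)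
  rwa [norm_mul, he, one_mul] at this

lemma mul_conj_unit (he : ‖e‖ = 1) (z : ℂ) : e * (conj e * z) = z := by
  rw [← mul_assoc, Complex.mul_conj', he]
  simp

lemma sg_bound (H : HP A q Λ τ e c) (hδ : 0 < δ) (hT : T ⊆ Λ) (hx : x ∈ T)
    (hZ : ∀ v ∈ T.erase x, c + δ ≤ (e * Z v).re) : ‖sg A q τ T x Z‖ ≤ 24 / δ + 2 := by
  have h1 : ∀ ζ ∈ Metric.ball (0 : ℂ) (3 + δ), ∀ v ∈ T.erase x,
      c < (e * (Z v + conj e * (3 + ζ))).re := by
    intro ζ hζ v hv
    have h2 := abs_le.1 (Complex.abs_re_le_norm ζ)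
    rw [mem_ball_zero_iff] at hζ
    rw [mul_add, mul_conj_unit H.unit, Complex.add_re, Complex.add_re]
    have := hZ v hv
    rw [Complex.re_ofNat]
    linarith [h2.1]
  have h2 := Complex.borelCaratheodory (M := 2) (R := 3 + δ) (z := -3)
    (f := fun ζ => e * sg A q τ T x fun v => Z v + conj e * (3 + ζ)) two_pos ?_
    (fun ζ hζ => (sg_half H hT hx (h1 ζ hζ)).trans H.le) (by positivity)
    (by rw [mem_ball_zero_iff]; norm_num; exact hδ)
  · have h3 : ‖sg A q τ T x fun v => Z v + conj e * (3 + 0)‖ ≤ 2 := by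
      refine sg_ext H hT hx fun v hv => lt_of_lt_of_le ?_ (re_le_norm H.unit _)
      rw [mul_add, mul_conj_unit H.unit, Complex.add_re, add_zero, Complex.re_ofNat]
      have := hZ v hv
      have := H.nonneg
      linarith
    simp only [norm_mul, H.unit, one_mul, add_neg_cancel, mul_zero, add_zero, norm_neg,
      Complex.norm_ofNat, add_sub_cancel_left] at h2 h3
    refine h2.trans ?_
    have h4 : ‖sg A q τ T x fun v => Z v + conj e * 3‖ * (3 + δ + 3) / δ ≤ 2 * (3 + δ + 3) / δ := by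
      gcongr
    have h5 : 2 * 2 * 3 / δ + 2 * (3 + δ + 3) / δ = 24 / δ + 2 := by
      field_simp
      ring
    linarith
  · refine DifferentiableOn.const_mul ?_ _
    unfold sg
    refine DifferentiableOn.fun_div (PH_differentiable fun v => ?_).fun_neg.differentiableOn
      (PH_differentiable fun v => by fun_prop).differentiableOn fun ζ hζ => ?_
    · rcases eq_or_ne v x with rfl | hvx
      · simp
      · simp only [Function.update_of_ne hvx]
        fun_prop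
    · exact H.half _ ((erase_subset _ _).trans hT) _ (h1 ζ hζ)

lemma sg_step_eq (hv : v ∈ T) (hvx : v ≠ x)
    (h1 : PH A q ((T.erase x).erase v) Z τ ≠ 0) : ∃ ρ : ℂ, ∀ z,
      PH A q (T.erase x) (Function.update Z v z) τ ≠ 0 →
      (sg A q τ T x (Function.update Z v z) - sg A q τ (T.erase v) x Z) *
        (z - sg A q τ (T.erase x) v Z) = ρ := by
  have hv' : v ∈ T.erase x := mem_erase.2 ⟨hvx, hv⟩
  refine ⟨(PH A q (T.erase v) (Function.update Z x 0) τ *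
      PH A q (T.erase x) (Function.update Z v 0) τ -
      PH A q T (Function.update (Function.update Z x 0) v 0) τ *
        PH A q ((T.erase x).erase v) Z τ) / PH A q ((T.erase x).erase v) Z τ ^ 2, fun z hz => ?_⟩
  unfold sg
  rw [Function.update_comm hvx, PH_upd hv, erase_right_comm (a := v)]
  rw [PH_upd hv'] at hz ⊢
  field_simp
  ring

lemma sg_step (H : HP A q Λ τ e c) (hδ : 0 < δ) (hT : T ⊆ Λ) (hx : x ∈ T) (hv : v ∈ T)
    (hvx : v ≠ x) (hZ : ∀ v ∈ T, c + δ ≤ (e * Z v).re) {ℓ : ℝ} (hℓ : 2 * (24 / δ + 2) ≤ ℓ)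
    (hℓv : ℓ ≤ ‖Z v‖) : ‖sg A q τ T x Z - sg A q τ (T.erase v) x Z‖ ≤
      4 * (24 / δ + 2) * (2 + δ + (24 / δ + 2)) / ℓ := by
  set B := 24 / δ + 2 with hB
  have hB0 : 0 < B := by positivity
  have hv' : v ∈ T.erase x := mem_erase.2 ⟨hvx, hv⟩
  have hx' : x ∈ T.erase v := mem_erase.2 ⟨hvx.symm, hx⟩
  have hTx : T.erase x ⊆ Λ := (erase_subset _ _).trans hT
  have hTv : T.erase v ⊆ Λ := (erase_subset _ _).trans hT
  have hne : ∀ U ⊆ T, ∀ Z : V → ℂ, (∀ v ∈ T, c + δ ≤ (e * Z v).re) → PH A q U Z τ ≠ 0 :=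
    fun U hU Z hZ => H.half U (hU.trans hT) Z fun y hy => by linarith [hZ y (hU hy)]
  obtain ⟨ρ, hρ⟩ := sg_step_eq (A := A) (q := q) (τ := τ) (Z := Z) hv hvx
    (hne _ ((erase_subset _ _).trans (erase_subset _ _)) Z hZ)
  have h1 := hρ (Z v) (by rw [Function.update_eq_self]; exact hne _ (erase_subset _ _) Z hZ)
  rw [Function.update_eq_self] at h1
  have hZ' : ∀ y ∈ T, c + δ ≤ (e * Function.update Z v (conj e * (c + δ : ℝ)) y).re := by
    intro y hy
    rcases eq_or_ne y v with rfl | hyv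
    · rw [Function.update_self, mul_conj_unit H.unit, Complex.ofReal_re]
    · rw [Function.update_of_ne hyv]
      exact hZ y hy
  have h2 := hρ _ (hne _ (erase_subset _ _) _ hZ')
  have b1 := sg_bound H hδ hT hx fun y hy => hZ' y (mem_of_mem_erase hy)
  have b2 := sg_bound H hδ hTv hx' fun y hy => hZ y (mem_of_mem_erase (mem_of_mem_erase hy))
  have b3 := sg_bound H hδ hTx hv' fun y hy => hZ y (mem_of_mem_erase (mem_of_mem_erase hy))
  rw [← hB] at b1 b2 b3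
  have b4 : ‖conj e * ((c + δ : ℝ) : ℂ)‖ ≤ 2 + δ := by
    rw [norm_mul, Complex.norm_conj, H.unit, one_mul, Complex.norm_real,
      Real.norm_of_nonneg (by linarith [H.nonneg])]
    linarith [H.le]
  have h3 : ‖ρ‖ ≤ 2 * B * (2 + δ + B) := by
    rw [← h2, norm_mul]
    exact mul_le_mul ((norm_sub_le _ _).trans (by linarith)) ((norm_sub_le _ _).trans
      (by linarith)) (norm_nonneg _) (by positivity)
  have h4 : ℓ / 2 ≤ ‖Z v - sg A q τ (T.erase x) v Z‖ :=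
    le_trans (by linarith) (norm_sub_norm_le _ _)
  rw [← h1, norm_mul] at h3
  rw [le_div_iff₀ (by linarith)]
  nlinarith [mul_le_mul_of_nonneg_left h4
    (norm_nonneg (sg A q τ T x Z - sg A q τ (T.erase v) x Z))]

lemma sg_zero (hd : ∀ j, A j x x = 0) (hx : x ∈ T) (h : ∀ v ∈ T, ∀ j, A j x v = 0) :
    sg A q τ T x Z = 0 := by
  rw [sg, PH, sum_eq_zero, neg_zero, zero_div]
  intro S hS
  by_cases hxS : x ∈ S
  · rw [← insert_erase hxS, insert_eq, cc_union (disjoint_singleton_left.2 (notMem_erase _ _))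
      fun j a ha b hb => by
        rw [mem_singleton.1 ha]
        exact h b (mem_powerset.1 hS (mem_of_mem_erase hb)) j,
      cc_singleton hd, zero_mul, zero_mul, zero_mul]
  · rw [prod_eq_zero (mem_sdiff.2 ⟨hx, hxS⟩) (Function.update_self _ _ _), mul_zero]

lemma sg_small (H : HP A q Λ τ e c) (hδ : 0 < δ) (hd : ∀ j, A j x x = 0)
    (hZ : ∀ v ∈ Λ, c + δ ≤ (e * Z v).re) {ℓ : ℝ} (hℓ : 2 * (24 / δ + 2) ≤ ℓ) (N : Finset V) :
    ∀ T ⊆ Λ, x ∈ T → (∀ v ∈ T, v ∉ N → ∀ j, A j x v = 0) → (∀ v ∈ Λ, v ∈ N → ℓ ≤ ‖Z v‖) →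
      ‖sg A q τ T x Z‖ ≤ N.card * (4 * (24 / δ + 2) * (2 + δ + (24 / δ + 2)) / ℓ) := by
  have hℓ0 : 0 < ℓ := lt_of_lt_of_le (by positivity) hℓ
  have hK : 0 ≤ 4 * (24 / δ + 2) * (2 + δ + (24 / δ + 2)) / ℓ := by positivity
  induction N using Finset.induction_on with
  | empty =>
    intro T _ hx h _
    rw [sg_zero hd hx fun v hv => h v hv (notMem_empty _)]
    simp
  | insert v N hv ih =>
    intro T hT hx h hN
    have hN' : ∀ y ∈ Λ, y ∈ N → ℓ ≤ ‖Z y‖ := fun y hy hy' => hN y hy (mem_insert_of_mem hy')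
    rw [card_insert_of_notMem hv, Nat.cast_succ, add_mul, one_mul]
    by_cases hc : v ∈ T ∧ v ≠ x
    · have h1 := ih (T.erase v) ((erase_subset _ _).trans hT) (mem_erase.2 ⟨hc.2.symm, hx⟩)
        (fun y hy hy' => h y (mem_of_mem_erase hy) fun h' =>
          (mem_insert.1 h').elim (ne_of_mem_erase hy) hy') hN'
      have h2 := sg_step H hδ hT hx hc.1 hc.2 (fun y hy => hZ y (hT hy)) hℓ
        (hN v (hT hc.1) (mem_insert_self _ _))
      have h3 := norm_le_norm_sub_add (sg A q τ T x Z) (sg A q τ (T.erase v) x Z)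
      linarith
    · refine (ih T hT hx (fun y hy hy' j => ?_) hN').trans (le_add_of_nonneg_right hK)
      rcases eq_or_ne y x with rfl | hyx
      · exact hd j
      · exact h y hy (fun h' => (mem_insert.1 h').elim (fun e => hc (e ▸ ⟨hy, hyx⟩)) hy') j

lemma div_mem_slitPlane {a b : ℂ} (ha : 0 < a.re) (hb : 0 < b.re) : a / b ∈ Complex.slitPlane := by
  by_contra h
  rw [Complex.mem_slitPlane_iff, not_or, not_lt, not_not] at h
  have hb0 : b ≠ 0 := fun e => by simp [e] at hb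
  have h1 := congrArg Complex.re (div_mul_cancel₀ a hb0)
  rw [Complex.mul_re, h.2, zero_mul, sub_zero] at h1
  nlinarith [h.1]

lemma norm_log_le {h : ℂ} (h0 : h ≠ 0) : ‖Complex.log h‖ ≤ ‖h‖ + ‖h‖⁻¹ + Real.pi := by
  have hn := norm_pos_iff.2 h0
  refine (Complex.norm_le_abs_re_add_abs_im _).trans ?_
  rw [Complex.log_re, Complex.log_im]
  refine add_le_add (abs_le.2 ⟨?_, ?_⟩) (Complex.abs_arg_le_pi _)
  · have := Real.log_le_sub_one_of_pos (inv_pos.2 hn)
    rw [Real.log_inv] at this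
    linarith
  · have := Real.log_le_sub_one_of_pos hn
    have := inv_pos.2 hn
    linarith

end SigX

open SigX in
variable (V J) in
theorem exists_sig {δ : ℝ} (hδ : 0 < δ) (d : ℕ) : ∃ C, 0 < C ∧ ∀ (A : J → V → V → ℂ)
    (q : V → J → ℝ) (Λ N : Finset V) (τ e : ℂ) (c ℓ : ℝ) (Z : V → ℂ) (x : V), HP A q Λ τ e c →
    (∀ j v, A j v v = 0) → x ∈ Λ → N.card ≤ d → (∀ v ∈ Λ, v ∉ N → ∀ j, A j x v = 0) →
    (∀ v ∈ Λ, c + δ ≤ (e * Z v).re) → 0 ≤ ℓ → ℓ ≤ ‖Z x‖ → (∀ v ∈ Λ, v ∈ N → ℓ ≤ ‖Z v‖) →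
      PH A q Λ Z τ / PH A q (Λ.erase x) Z τ / Z x ∈ Complex.slitPlane ∧
      ‖Complex.log (PH A q Λ Z τ / PH A q (Λ.erase x) Z τ / Z x)‖ ≤ C / (1 + ℓ ^ 2) := by
  obtain ⟨B, hB⟩ : ∃ B, B = 24 / δ + 2 := ⟨_, rfl⟩
  obtain ⟨K, hK⟩ : ∃ K, K = d * (4 * B * (2 + δ + B)) := ⟨_, rfl⟩
  have hB0 : 0 < B := by rw [hB]; positivity
  have hK0 : 0 ≤ K := by rw [hK]; positivity
  have hpi := Real.pi_pos
  refine ⟨(2 * (1 + B / δ) + Real.pi) * (1 + (2 * B + 1 + 2 * K) ^ 2) + 3 * K, by positivity,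
    fun A q Λ N τ e c ℓ Z x H hd hx hN hA hZ hℓ hℓx hℓN => ?_⟩
  have hZ' : ∀ v ∈ Λ.erase x, c < (e * Z v).re := fun v hv => by
    linarith [hZ v (mem_of_mem_erase hv)]
  have he : e ≠ 0 := norm_pos_iff.1 (by rw [H.unit]; exact one_pos)
  have h1 := sg_half H subset_rfl hx hZ'
  have h2 := sg_bound H hδ subset_rfl hx fun v hv => hZ v (mem_of_mem_erase hv)
  have h3 := fun hℓ' : 2 * (24 / δ + 2) ≤ ℓ =>
    sg_small H hδ (fun j => hd j x) hZ hℓ' N Λ subset_rfl hx hA hℓN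
  rw [quot_eq hx (H.half _ (erase_subset _ _) Z hZ')]
  rw [← hB] at h2 h3
  generalize sg A q τ Λ x Z = s at h1 h2 h3
  have hzx := hZ x hx
  generalize Z x = z at hzx hℓx
  have a1 : δ ≤ (e * z).re := by linarith [H.nonneg]
  have a2 : δ ≤ (e * (z - s)).re := by
    rw [mul_sub, Complex.sub_re]
    linarith
  have n1 : δ ≤ ‖z‖ := a1.trans (re_le_norm H.unit _)
  have n2 : δ ≤ ‖z - s‖ := a2.trans (re_le_norm H.unit _)
  have z0 : z ≠ 0 := norm_pos_iff.1 (hδ.trans_le n1)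
  have s0 : z - s ≠ 0 := norm_pos_iff.1 (hδ.trans_le n2)
  refine ⟨by
    rw [← mul_div_mul_left _ _ he]
    exact div_mem_slitPlane (hδ.trans_le a2) (hδ.trans_le a1), ?_⟩
  rw [le_div_iff₀ (by positivity)]
  rcases le_total ℓ (2 * B + 1 + 2 * K) with hc | hc
  · have b1 : ‖(z - s) / z‖ ≤ 1 + B / δ := by
      rw [sub_div, div_self z0]
      refine (norm_sub_le _ _).trans ?_
      rw [norm_one, norm_div]
      gcongr
    have b2 : ‖(z - s) / z‖⁻¹ ≤ 1 + B / δ := by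
      have : ((z - s) / z)⁻¹ = 1 + s / (z - s) := by
        field_simp
        ring
      rw [← norm_inv, this]
      refine (norm_add_le _ _).trans ?_
      rw [norm_one, norm_div]
      gcongr
    have b3 := norm_log_le (div_ne_zero s0 z0)
    have b4 : ‖Complex.log ((z - s) / z)‖ * (1 + ℓ ^ 2) ≤
        (2 * (1 + B / δ) + Real.pi) * (1 + (2 * B + 1 + 2 * K) ^ 2) := by
      gcongr
      linarith
    linarith
  · have hℓ1 : 1 ≤ ℓ := by linarith
    have hℓ0 : 0 < ℓ := by linarith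
    have b1 : ‖s‖ ≤ K / ℓ := by
      refine (h3 (by linarith)).trans ?_
      rw [hK, mul_div_assoc (d : ℝ)]
      gcongr
    have b2 : ‖-s / z‖ ≤ K / ℓ ^ 2 := by
      rw [norm_div, norm_neg, pow_two, ← div_div]
      gcongr
    have b3 : K / ℓ ^ 2 ≤ 1 / 2 := by
      rw [div_le_iff₀ (by positivity)]
      nlinarith
    have b4 := Complex.norm_log_one_add_half_le_self (b2.trans b3)
    have e1 : (z - s) / z = 1 + -s / z := by
      field_simp
      ring
    rw [← e1] at b4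
    have b5 : ‖Complex.log ((z - s) / z)‖ * (1 + ℓ ^ 2) ≤ 3 / 2 * (K / ℓ ^ 2) * (2 * ℓ ^ 2) := by
      gcongr
      · linarith
      · nlinarith
    have b6 : 3 / 2 * (K / ℓ ^ 2) * (2 * ℓ ^ 2) = 3 * K := by
      field_simp
    have b7 : 0 ≤ (2 * (1 + B / δ) + Real.pi) * (1 + (2 * B + 1 + 2 * K) ^ 2) := by positivity
    linarith

end Vale.Agent.P078G
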