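import Vale.Agent.P078.ExpB
import Mathlib.Analysis.CStarAlgebra.ContinuousFunctionalCalculus.Order
import Mathlib.Analysis.InnerProductSpace.Orthonormal
import Mathlib.Analysis.SpecialFunctions.ContinuousFunctionalCalculus.Rpow.Basic

/-! States and their 2-norm. -/

namespace Vale.Agent.P078G

open Filter
open scoped Topology ComplexOrder InnerProductSpace ComplexConjugate

/-- A state. -/
structure Sta (A : Type*) [CStarAlgebra A] where
  τ : A →ₗ[ℂ] ℂ
  pos : ∀ a, 0 ≤ τ (star a * a)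
  one : τ 1 = 1

variable {A : Type*} [CStarAlgebra A] (T : Sta A)

lemma norm_unitary_le {u : A} (hu : u ∈ unitary A) : ‖u‖ ≤ 1 := by
  nontriviality A
  exact (CStarRing.norm_of_mem_unitary hu).le

namespace Sta

lemma map_star (a : A) : T.τ (star a) = conj (T.τ a) := by
  have h0 := (T.pos a).2
  have h1 := (T.pos (1 + a)).2
  have h2 := (T.pos (1 + Complex.I • a)).2
  simp only [star_add, star_one, star_smul, add_mul, mul_add, one_mul, mul_one, map_add, T.one,
    smul_mul_smul_comm, map_smul, smul_eq_mul, Complex.add_im, Complex.one_im, Complex.zero_im,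
    Complex.mul_im, Complex.star_def, Complex.conj_re, Complex.conj_im, Complex.I_re, Complex.I_im,
    Complex.mul_re] at h0 h1 h2
  apply Complex.ext
  · simp only [Complex.conj_re]; linarith
  · simp only [Complex.conj_im]; linarith

/-- The algebra with the 2-seminorm. -/
def L2 (_ : Sta A) := A

instance : AddCommGroup T.L2 := inferInstanceAs (AddCommGroup A)
noncomputable instance : Module ℂ T.L2 := inferInstanceAs (Module ℂ A)

/-- The identity map. -/
noncomputable def to2 : A ≃ₗ[ℂ] T.L2 := LinearEquiv.refl ℂ _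

/-- The inner product core. -/
noncomputable abbrev core : PreInnerProductSpace.Core ℂ T.L2 where
  inner a b := T.τ (star (T.to2.symm a) * T.to2.symm b)
  conj_inner_symm a b := by rw [← T.map_star]; simp
  re_inner_nonneg a := (T.pos _).1
  add_left _ _ _ := by rw [map_add, star_add, add_mul, map_add]
  smul_left := by simp

noncomputable instance : SeminormedAddCommGroup T.L2 :=
  InnerProductSpace.Core.toSeminormedAddCommGroup (c := T.core)

noncomputable instance : InnerProductSpace ℂ T.L2 := InnerProductSpace.ofCore T.core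

lemma inner_to2 (a b : A) : ⟪T.to2 a, T.to2 b⟫_ℂ = T.τ (star a * b) := rfl

/-- The 2-norm. -/
noncomputable def n2 (a : A) : ℝ := ‖T.to2 a‖

lemma n2_nonneg (a : A) : 0 ≤ T.n2 a := norm_nonneg _

lemma n2_sq (a : A) : T.n2 a ^ 2 = (T.τ (star a * a)).re := by
  rw [← T.inner_to2, n2, ← inner_self_eq_norm_sq (𝕜 := ℂ)]; rfl

lemma n2_sq' (a : A) : T.τ (star a * a) = (T.n2 a ^ 2 : ℝ) := by
  rw [T.n2_sq]
  exact Complex.ext rfl (by simpa using (T.pos a).2.symm)

lemma n2_add_le (a b : A) : T.n2 (a + b) ≤ T.n2 a + T.n2 b := by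
  rw [n2, map_add]; exact norm_add_le _ _

lemma n2_sub_le (a b : A) : T.n2 (a - b) ≤ T.n2 a + T.n2 b := by
  rw [n2, map_sub]; exact norm_sub_le _ _

lemma n2_neg (a : A) : T.n2 (-a) = T.n2 a := by rw [n2, map_neg, norm_neg]; rfl

lemma n2_sub_rev (a b : A) : T.n2 (a - b) = T.n2 (b - a) := by rw [← T.n2_neg, neg_sub]

lemma n2_triangle (a b c : A) : T.n2 (a - c) ≤ T.n2 (a - b) + T.n2 (b - c) := by
  simpa using T.n2_add_le (a - b) (b - c)

lemma n2_smul (c : ℂ) (a : A) : T.n2 (c • a) = ‖c‖ * T.n2 a := by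
  rw [n2, map_smul, norm_smul]; rfl

lemma n2_zero : T.n2 0 = 0 := by rw [n2, map_zero, norm_zero]

lemma n2_one : T.n2 1 = 1 := by
  have := T.n2_sq 1
  rw [star_one, one_mul, T.one, Complex.one_re] at this
  nlinarith [T.n2_nonneg 1]

lemma norm_τ_star_mul (a b : A) : ‖T.τ (star a * b)‖ ≤ T.n2 a * T.n2 b :=
  norm_inner_le_norm (𝕜 := ℂ) (T.to2 a) (T.to2 b)

lemma norm_τ_mul (a b : A) : ‖T.τ (a * b)‖ ≤ T.n2 (star a) * T.n2 b := by
  simpa using T.norm_τ_star_mul (star a) b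

lemma norm_τ_le_n2 (a : A) : ‖T.τ a‖ ≤ T.n2 a := by
  simpa [T.n2_one] using T.norm_τ_mul 1 a

lemma re_nonneg [PartialOrder A] [StarOrderedRing A] {a : A} (ha : 0 ≤ a) : 0 ≤ (T.τ a).re := by
  obtain ⟨b, rfl⟩ := CStarAlgebra.nonneg_iff_eq_star_mul_self.mp ha
  exact (T.pos b).1

lemma n2_mul_le (a b : A) : T.n2 (a * b) ≤ ‖a‖ * T.n2 b := by
  let _ := CStarAlgebra.spectralOrder A
  have _ := CStarAlgebra.spectralOrderedRing A
  have h : star b * (star a * a) * b ≤ ‖star a * a‖ • (star b * b) :=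
    CStarAlgebra.star_left_conjugate_le_norm_smul
  have h2 := T.re_nonneg (sub_nonneg.mpr h)
  rw [map_sub, CStarRing.norm_star_mul_self, ← Complex.coe_smul, map_smul, smul_eq_mul,
    Complex.sub_re, Complex.re_ofReal_mul, ← T.n2_sq] at h2
  apply abs_le_of_sq_le_sq' _ (mul_nonneg (norm_nonneg _) (T.n2_nonneg _)) |>.2
  rw [T.n2_sq, star_mul, ← mul_assoc, mul_assoc (star b)]
  nlinarith

lemma n2_le_norm (a : A) : T.n2 a ≤ ‖a‖ := by
  simpa [T.n2_one] using T.n2_mul_le a 1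

lemma norm_τ_le (a : A) : ‖T.τ a‖ ≤ ‖a‖ := (T.norm_τ_le_n2 a).trans (T.n2_le_norm a)

lemma n2_add_sq (a b : A) :
    T.n2 (a + b) ^ 2 = T.n2 a ^ 2 + 2 * (T.τ (star a * b)).re + T.n2 b ^ 2 := by
  rw [n2, map_add, @norm_add_sq ℂ]; rfl

lemma n2_sub_sq (a b : A) :
    T.n2 (a - b) ^ 2 = T.n2 a ^ 2 - 2 * (T.τ (star a * b)).re + T.n2 b ^ 2 := by
  rw [n2, map_sub, @norm_sub_sq ℂ]; rfl

lemma n2_unitary_mul {u : A} (hu : u ∈ unitary A) (a : A) : T.n2 (u * a) = T.n2 a := by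
  rw [← sq_eq_sq₀ (T.n2_nonneg _) (T.n2_nonneg _), T.n2_sq, T.n2_sq, star_mul, mul_assoc,
    ← mul_assoc (star u), hu.1, one_mul]

lemma n2_sum_le {ι : Type*} (s : Finset ι) (f : ι → A) :
    T.n2 (∑ i ∈ s, f i) ≤ ∑ i ∈ s, T.n2 (f i) := by
  rw [n2, map_sum]; exact norm_sum_le _ _

lemma re_τ_skew {a : A} (ha : star a = -a) : (T.τ a).re = 0 := by
  have := congrArg Complex.re (T.map_star a)
  rw [ha, map_neg, Complex.neg_re, Complex.conj_re] at this
  linarith

lemma im_τ_sa {a : A} (ha : star a = a) : (T.τ a).im = 0 := by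
  have := congrArg Complex.im (T.map_star a)
  rw [ha, Complex.conj_im] at this
  linarith

lemma tendsto_τ {x : ℕ → A} {y : A}
    (h : Tendsto (fun n => T.n2 (x n - y)) atTop (𝓝 0)) (a : A) :
    Tendsto (fun n => T.τ (a * x n)) atTop (𝓝 (T.τ (a * y))) := by
  refine tendsto_iff_norm_sub_tendsto_zero.2 (squeeze_zero (fun _ => norm_nonneg _)
    (fun n => ?_) (by simpa using h.const_mul (T.n2 (star a))))
  rw [← map_sub, ← mul_sub]
  exact T.norm_τ_mul _ _

lemma parallelogram (a b : A) : T.n2 (a - b) ^ 2 =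
    2 * T.n2 a ^ 2 + 2 * T.n2 b ^ 2 - T.n2 (a + b) ^ 2 := by
  rw [T.n2_sub_sq, T.n2_add_sq]
  ring

lemma cauchySeq {x : ℕ → A} {b : ℕ → ℝ} (hb : Tendsto b atTop (𝓝 0))
    (h : ∀ n m N, N ≤ n → N ≤ m → T.n2 (x n - x m) ^ 2 ≤ b N) :
    CauchySeq fun n => T.to2 (x n) := by
  refine cauchySeq_of_le_tendsto_0 (fun N => √(b N)) (fun n m N hn hm => ?_) (by simpa using hb.sqrt)
  rw [dist_eq_norm, ← map_sub]
  exact Real.le_sqrt_of_sq_le (h n m N hn hm)

lemma n2_ext {w w' : A} (hw : star w * w' = star w * w) :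
    T.n2 (w' - w) ^ 2 = T.n2 w' ^ 2 - T.n2 w ^ 2 := by
  rw [T.n2_sub_rev, T.n2_sub_sq, hw, ← T.n2_sq]
  ring

/-- Bounded Cauchy sequences converge. -/
def Complete : Prop := ∀ (x : ℕ → A) (R : ℝ), (∀ n, ‖x n‖ ≤ R) →
  CauchySeq (fun n => T.to2 (x n)) → ∃ y, ‖y‖ ≤ R ∧ Tendsto (fun n => T.n2 (x n - y)) atTop (𝓝 0)

end Sta

/-- A faithful normal state. -/
structure FW (T : Sta A) : Prop where
  faithful : ∀ a, T.n2 a = 0 → a = 0
  complete : T.Complete
  strong : ∀ (b : A) (R ε : ℝ), 0 < ε → ∃ δ > 0, ∀ z, ‖z‖ ≤ R → T.n2 z < δ → T.n2 (z * b) < ε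

variable (A) in
/-- Existence of range projections. -/
def RP : Prop := ∀ a : A, star a = a → ∃ e, IsStarProjection e ∧ ∀ y, y * a = 0 ↔ y * e = 0

variable {T}

lemma FW.tendsto_mul (h : FW T) {x : ℕ → A} {R : ℝ} (hx : ∀ n, ‖x n‖ ≤ R)
    (h0 : Tendsto (fun n => T.n2 (x n)) atTop (𝓝 0)) (b : A) :
    Tendsto (fun n => T.n2 (x n * b)) atTop (𝓝 0) := by
  refine tendsto_order.2 ⟨fun a ha => .of_forall fun n => ha.trans_le (T.n2_nonneg _),
    fun ε hε => ?_⟩
  obtain ⟨δ, hδ, h1⟩ := h.strong b R ε hε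
  filter_upwards [h0.eventually (gt_mem_nhds hδ)] with n hn using h1 _ (hx n) hn

lemma FW.eq_zero (h : FW T) {a : A} (ha : ∀ ε > 0, T.n2 a < ε) : a = 0 :=
  h.faithful _ (le_antisymm (le_of_forall_pos_le_add fun ε hε => by
    simpa using (ha ε hε).le) (T.n2_nonneg _))

/-- Bounded limits of self-adjoint elements are self-adjoint. -/
lemma FW.star_lim (h : FW T) {x : ℕ → A} {y : A} {R : ℝ} (hx : ∀ n, ‖x n‖ ≤ R)
    (hs : ∀ n, star (x n) = x n) (h0 : Tendsto (fun n => T.n2 (x n - y)) atTop (𝓝 0)) :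
    star y = y := by
  set b := star y - y with hb
  have h1 := T.tendsto_τ h0 (star b)
  have h2 : Tendsto (fun n => T.τ (star b * x n)) atTop (𝓝 (T.τ (star b * star y))) := by
    have h3 := h.tendsto_mul (R := R + ‖y‖) (x := fun n => x n - y)
      (fun n => (norm_sub_le _ _).trans (by linarith [hx n])) h0 b
    refine tendsto_iff_norm_sub_tendsto_zero.2 (squeeze_zero (fun _ => norm_nonneg _)
      (fun n => ?_) h3)
    rw [← map_sub, ← mul_sub, ← hs n, ← star_sub, ← star_mul, T.map_star, RCLike.norm_conj, hs n]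
    exact T.norm_τ_le_n2 _
  have h4 := tendsto_nhds_unique h2 h1
  rw [← sub_eq_zero, ← map_sub, ← mul_sub, ← hb, T.n2_sq'] at h4
  exact sub_eq_zero.1 (h.faithful _ (by simpa using h4))

end Vale.Agent.P078G
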