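import Vale.Agent.P078G.Defs
import Vale.Agent.P078.Pick
import Mathlib.MeasureTheory.Integral.IntegralEqImproper
import Mathlib.Analysis.SpecialFunctions.Log.NegMulLog

/-! The logarithmic integral as the measure of the negative set. -/

namespace Vale.Agent.P078G

open Finset Vale.Agent.P078 MeasureTheory

variable {t ω k : ℝ} {T : Finset ℝ} {ρ : ℝ → ℝ}

lemma Hc_coe (u : ℝ) : Hc t ω k T ρ u = Hr t ω k T ρ u := by
  simp [Hc, Hr, lev]

open Filter Topology in
lemma int_log_one (x : ℝ) :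
    IntegrableOn (fun u : ℝ => Real.log ‖(u * Complex.I - x) / (u * Complex.I)‖) (Set.Ioi 0) ∧
      ∫ u in Set.Ioi (0 : ℝ), Real.log ‖(u * Complex.I - x) / (u * Complex.I)‖ =
        Real.pi / 2 * |x| := by
  have e : ∀ u ∈ Set.Ioi (0 : ℝ), Real.log (u ^ 2 + x ^ 2) / 2 - Real.log u =
      Real.log ‖(u * Complex.I - x) / (u * Complex.I)‖ := fun u hu => by
    have u0 : (0 : ℝ) < u := hu
    have e1 : ‖(u : ℂ) * Complex.I - x‖ = √(u ^ 2 + x ^ 2) := by
      rw [Complex.norm_eq_sqrt_sq_add_sq]; simp [add_comm]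
    rw [norm_div, e1, norm_mul, Complex.norm_I, mul_one, Complex.norm_real,
      Real.norm_of_nonneg u0.le, Real.log_div (by positivity) u0.ne', Real.log_sqrt (by positivity)]
  suffices h : IntegrableOn (fun u : ℝ => Real.log (u ^ 2 + x ^ 2) / 2 - Real.log u) (Set.Ioi 0) ∧
      ∫ u in Set.Ioi (0 : ℝ), (Real.log (u ^ 2 + x ^ 2) / 2 - Real.log u) = Real.pi / 2 * |x| from
    ⟨h.1.congr_fun e measurableSet_Ioi, by rw [← h.2, setIntegral_congr_fun measurableSet_Ioi e]⟩
  rcases eq_or_ne x 0 with rfl | hx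
  · simp
  obtain ⟨a, ha⟩ : ∃ a, a = |x| := ⟨_, rfl⟩
  have a0 : 0 < a := ha ▸ abs_pos.2 hx
  rw [← sq_abs x, ← ha]
  have f1 : ∀ u : ℝ, 0 < u → Real.log (u ^ 2 + a ^ 2) / 2 - Real.log u =
      Real.log (1 + a ^ 2 / u ^ 2) / 2 := fun u u0 => by
    rw [show 1 + a ^ 2 / u ^ 2 = (u ^ 2 + a ^ 2) / u ^ 2 by field_simp,
      Real.log_div (by positivity) (by positivity), Real.log_pow]
    push_cast; ring
  have f2 : ∀ u : ℝ, 0 < u → 0 ≤ Real.log (1 + a ^ 2 / u ^ 2) / 2 := fun u u0 =>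
    div_nonneg (Real.log_nonneg (le_add_of_nonneg_right (by positivity))) zero_le_two
  set g : ℝ → ℝ := fun u => u * Real.log (u ^ 2 + a ^ 2) / 2 - u * Real.log u +
    a * Real.arctan (u / a) with hg
  have c : ContinuousWithinAt g (Set.Ici 0) 0 := by
    have : Continuous fun u : ℝ => Real.log (u ^ 2 + a ^ 2) :=
      Continuous.log (by fun_prop) fun u => by positivity
    exact ((((continuous_id.mul this).div_const 2).sub Real.continuous_mul_log).add
      (continuous_const.mul (Real.continuous_arctan.comp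
        (continuous_id.div_const a)))).continuousWithinAt
  have d : ∀ u ∈ Set.Ioi (0 : ℝ), HasDerivAt g (Real.log (u ^ 2 + a ^ 2) / 2 - Real.log u) u :=
    fun u hu => by
      have u0 : (0 : ℝ) < u := hu
      have d1 := ((hasDerivAt_pow 2 u).add_const (a ^ 2)).log (by positivity)
      have d2 := ((((hasDerivAt_id' u).fun_mul d1).div_const 2).fun_sub
        (Real.hasDerivAt_mul_log u0.ne')).fun_add
        (((hasDerivAt_id' u).div_const a).arctan.const_mul a)
      refine HasDerivAt.congr_deriv d2 ?_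
      simp only [Nat.cast_ofNat, Nat.add_one_sub_one, pow_one]
      field_simp
      ring
  have p : ∀ u ∈ Set.Ioi (0 : ℝ), 0 ≤ Real.log (u ^ 2 + a ^ 2) / 2 - Real.log u := fun u hu => by
    rw [f1 u hu]; exact f2 u hu
  have l : Tendsto g atTop (𝓝 (0 + a * (Real.pi / 2))) := by
    refine Tendsto.add ?_ (((Real.tendsto_arctan_atTop.mono_right nhdsWithin_le_nhds).comp
      (tendsto_id.atTop_div_const a0)).const_mul a)
    refine squeeze_zero' (g := fun u => a ^ 2 / u) ?_ ?_ (tendsto_const_nhds.div_atTop tendsto_id)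
    · filter_upwards [eventually_gt_atTop 0] with u u0
      have := mul_nonneg u0.le (p u u0)
      linarith
    · filter_upwards [eventually_gt_atTop 0] with u u0
      have h1 := Real.log_le_sub_one_of_pos (x := 1 + a ^ 2 / u ^ 2) (by positivity)
      have h2 := f2 u u0
      calc _ = u * (Real.log (u ^ 2 + a ^ 2) / 2 - Real.log u) := by ring
        _ ≤ u * (a ^ 2 / u ^ 2) := by
          rw [f1 u u0]; exact mul_le_mul_of_nonneg_left (by linarith) u0.le
        _ = _ := by field_simp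
  refine ⟨integrableOn_Ioi_deriv_of_nonneg c d p l, ?_⟩
  rw [integral_Ioi_of_hasDerivAt_of_nonneg c d p l]
  simp [hg, mul_comm]

namespace VolX

open Polynomial

noncomputable def pr (m : Multiset ℝ) (s : ℂ) : ℂ := (m.map fun x : ℝ => s - x).prod

noncomputable def GG (c : ℝ) (T : Finset ℝ) (r : ℝ → ℝ) (s : ℂ) : ℂ :=
  c + s - ∑ x ∈ T, (r x : ℂ) / (s - x)

lemma GG_im {c : ℝ} {r : ℝ → ℝ} (hr : ∀ x, 0 ≤ r x) {s : ℂ} (hs : 0 < s.im) :
    0 < (GG c T r s).im := by
  have : (∑ x ∈ T, (r x : ℂ) / (s - x)).im ≤ 0 := by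
    rw [Complex.im_sum]
    refine sum_nonpos fun x _ => ?_
    rw [div_eq_mul_inv, Complex.im_ofReal_mul, Complex.inv_im]
    refine mul_nonpos_of_nonneg_of_nonpos (hr x) (div_nonpos_of_nonpos_of_nonneg ?_
      (Complex.normSq_nonneg _))
    simp [hs.le]
  simp only [GG, Complex.sub_im, Complex.add_im, Complex.ofReal_im]
  linarith

lemma pr_ne {m : Multiset ℝ} {s : ℂ} (h : ∀ x ∈ m, s ≠ x) : pr m s ≠ 0 :=
  Multiset.prod_ne_zero fun h0 => by
    obtain ⟨x, hx, e⟩ := Multiset.mem_map.1 h0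
    exact h x hx (sub_eq_zero.1 e)

lemma ne_of_im {s : ℂ} (h : 0 < s.im) (x : ℝ) : s ≠ x := fun e => by simp [e] at h

lemma fact (c : ℝ) (T : Finset ℝ) {r : ℝ → ℝ} (hr : ∀ x, 0 ≤ r x) :
    ∃ μ : Multiset ℝ, Il μ T.val ∧ μ.sum - T.val.sum = -c ∧
      ∀ s : ℂ, (∀ x ∈ T, s ≠ x) → GG c T r s = pr μ s / pr T.val s := by
  set D : ℝ[X] := ∏ x ∈ T, (X - C x) with hD
  set R : ℝ[X] := ∑ x ∈ T, C (r x) * ∏ y ∈ T.erase x, (X - C y) with hR
  have key : ∀ s : ℂ, (∀ x ∈ T, s ≠ x) →
      aeval s ((X + C c) * D - R) = GG c T r s * pr T.val s := fun s hs => by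
    have e : pr T.val s = ∏ x ∈ T, (s - x) := rfl
    rw [e, GG, sub_mul, sum_mul]
    simp only [hD, hR, map_sub, map_mul, map_add, map_prod, map_sum, aeval_X, aeval_C,
      Complex.coe_algebraMap]
    rw [add_comm s]
    congr 1
    refine sum_congr rfl fun x hx => ?_
    have := sub_ne_zero.2 (hs x hx)
    rw [← mul_prod_erase T _ hx]
    field_simp
  have mD : D.Monic := monic_prod_X_sub_C _ _
  have dD : D.natDegree = T.card := natDegree_finsetProd_X_sub_C_eq_card _ _
  have mP : ((X + C c) * D).Monic := (monic_X_add_C c).mul mD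
  have dP : ((X + C c) * D).natDegree = T.card + 1 := by
    rw [(monic_X_add_C c).natDegree_mul mD, natDegree_X_add_C, dD, add_comm]
  have cR : ∀ m, T.card ≤ m → R.coeff m = 0 := fun m hm => by
    rw [hR, finsetSum_coeff]
    refine sum_eq_zero fun x hx => ?_
    rw [coeff_C_mul, coeff_eq_zero_of_natDegree_lt, mul_zero]
    rw [natDegree_finsetProd_X_sub_C_eq_card (T.erase x) fun y => y]
    exact (card_erase_lt_of_mem hx).trans_le hm
  have lt : R.degree < ((X + C c) * D).degree := by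
    rw [degree_eq_natDegree mP.ne_zero, dP, degree_lt_iff_coeff_zero]
    exact fun m hm => cR m (by omega)
  have mN := mP.sub_of_left lt
  have dN : ((X + C c) * D - R).natDegree = T.card + 1 := by
    rw [natDegree_eq_of_degree_eq (degree_sub_eq_left_of_degree_lt lt), dP]
  have sp : ((X + C c) * D - R).Splits := PK.splits fun z hz => by
    rw [key z fun x _ => ne_of_im hz x]
    exact mul_ne_zero (fun e => by simpa [e] using GG_im (c := c) (T := T) hr hz)
      (pr_ne fun x _ => ne_of_im hz x)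
  have fin : ∀ s : ℂ, (∀ x ∈ T, s ≠ x) →
      GG c T r s = pr ((X + C c) * D - R).roots s / pr T.val s := fun s hs => by
    rw [eq_div_iff (pr_ne hs), ← key s hs, PK.aeval_eq sp, mN.leadingCoeff]
    simp [pr]
  refine ⟨_, ⟨by rw [← sp.natDegree_eq_card_roots, dN]; rfl, fun z hz => ?_⟩, ?_, fin⟩
  · have := GG_im (c := c) (T := T) hr hz
    rwa [fin z fun x _ => ne_of_im hz x] at this
  · have h1 := sp.nextCoeff_eq_neg_sum_roots_of_monic mN
    have h2 := (monic_X_add_C c).nextCoeff_mul mD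
    rw [nextCoeff_of_natDegree_pos (by omega), dN, coeff_sub, cR _ (by omega)] at h1
    rw [nextCoeff_of_natDegree_pos (by omega), dP, nextCoeff_X_add_C, hD,
      prod_X_sub_C_nextCoeff (s := T) fun y => y] at h2
    have h3 : T.val.sum = ∑ x ∈ T, x := by simp
    rw [hD, h2] at h1
    linarith

noncomputable def rr (ω k : ℝ) (T : Finset ℝ) (ρ : ℝ → ℝ) (x : ℝ) : ℝ :=
  ω * ((if x ∈ T then ρ x else 0) + if x = 0 then k * ω else 0)

lemma Hc_eq (hω : 0 < ω) (s : ℂ) :
    ω * Hc t ω k T ρ s = GG (t * ω) (insert 0 T) (rr ω k T ρ) s := by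
  have h0 : (ω : ℂ) ≠ 0 := by exact_mod_cast hω.ne'
  have e : ∑ x ∈ insert 0 T, (rr ω k T ρ x : ℂ) / (s - x) =
      ω * (∑ x ∈ T, (ρ x : ℂ) / (s - x) + k * ω / s) := by
    have e1 : ∀ x, (rr ω k T ρ x : ℂ) / (s - x) =
        ω * ((if x ∈ T then (ρ x : ℂ) / (s - x) else 0) + if x = 0 then k * ω / s else 0) := by
      intro x
      unfold rr
      split_ifs with h1 h2 h2 <;> simp [*] <;> ring
    simp only [e1, ← mul_sum, sum_add_distrib, sum_ite_mem, sum_ite_eq', mem_insert_self, if_true,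
      inter_eq_right.2 (subset_insert 0 T)]
  rw [GG, e, Hc, lev]
  push_cast
  field_simp
  ring

lemma sign (m : Multiset ℝ) {u : ℝ} (h : u ∉ m) : ∃ p : ℝ, 0 < p ∧
    pr m u = (-1) ^ (m.filter (u < ·)).card * p := by
  induction m using Multiset.induction_on with
  | empty => exact ⟨1, one_pos, by simp [pr]⟩
  | cons x m ih =>
    rw [Multiset.mem_cons, not_or] at h
    obtain ⟨p, p0, e⟩ := ih h.2
    have e1 : pr (x ::ₘ m) u = (u - x) * pr m u := by simp [pr]
    rcases lt_or_gt_of_ne h.1 with h1 | h1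
    · refine ⟨(x - u) * p, mul_pos (sub_pos.2 h1) p0, ?_⟩
      rw [e1, e, count_cons_pos _ h1]; push_cast; ring
    · refine ⟨(u - x) * p, mul_pos (sub_pos.2 h1) p0, ?_⟩
      rw [e1, e, count_cons_neg _ h1.le]; push_cast; ring

noncomputable def ind (A : ℝ → Set ℝ) (m : Multiset ℝ) (u : ℝ) : ℝ :=
  (m.map fun x => (A x).indicator (1 : ℝ → ℝ) u).sum

lemma ind_int {A : ℝ → Set ℝ} (h1 : ∀ x, MeasurableSet (A x)) (h2 : ∀ x, volume (A x) ≠ ⊤)
    (m : Multiset ℝ) : Integrable (ind A m) ∧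
      ∫ u, ind A m u = (m.map fun x => (volume (A x)).toReal).sum := by
  induction m using Multiset.induction_on with
  | empty => exact ⟨integrable_zero _ _ _, by simp [ind]⟩
  | cons x m ih =>
    have e : ind A (x ::ₘ m) = fun u => (A x).indicator (1 : ℝ → ℝ) u + ind A m u :=
      funext fun u => by simp [ind]
    have i : Integrable ((A x).indicator (1 : ℝ → ℝ)) :=
      (integrable_indicator_iff (h1 x)).2 (integrableOn_const (h2 x))
    rw [e]
    refine ⟨i.add ih.1, ?_⟩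
    rw [integral_add i ih.1, ih.2, integral_indicator_one (h1 x), Multiset.map_cons,
      Multiset.sum_cons]
    rfl

lemma vol_of {S : Set ℝ} (hS : MeasurableSet S) {A : ℝ → Set ℝ} (h1 : ∀ x, MeasurableSet (A x))
    (h2 : ∀ x, volume (A x) ≠ ⊤) (μ ν : Multiset ℝ)
    (h : ∀ u, u ∉ μ → u ∉ ν → S.indicator (1 : ℝ → ℝ) u = ind A μ u - ind A ν u) :
    volume S ≠ ⊤ ∧ (volume S).toReal =
      (μ.map fun x => (volume (A x)).toReal).sum - (ν.map fun x => (volume (A x)).toReal).sum := by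
  have e : S.indicator (1 : ℝ → ℝ) =ᵐ[volume] fun u => ind A μ u - ind A ν u := by
    filter_upwards [(μ + ν).finite_toSet.countable.ae_notMem volume] with u hu
    simp only [Multiset.mem_add, not_or] at hu
    exact h u hu.1 hu.2
  have i := ((ind_int h1 h2 μ).1.sub (ind_int h1 h2 ν).1).congr e.symm
  refine ⟨?_, ?_⟩
  · have := (integrableOn_const_iff (C := (1 : ℝ))).1 ((integrable_indicator_iff hS).1 i)
    simpa [lt_top_iff_ne_top] using this
  · rw [← (ind_int h1 h2 μ).2, ← (ind_int h1 h2 ν).2,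
      ← integral_sub (ind_int h1 h2 μ).1 (ind_int h1 h2 ν).1, ← integral_congr_ae e,
      integral_indicator_one hS]
    rfl

lemma ind_pos (m : Multiset ℝ) (u : ℝ) : ind (fun x => Set.Ioo 0 x) m u =
    if 0 < u then ((m.filter (u < ·)).card : ℝ) else 0 := by
  split_ifs with h
  · induction m using Multiset.induction_on with
    | empty => simp [ind]
    | cons x m ih =>
      unfold ind at ih ⊢
      rw [Multiset.map_cons, Multiset.sum_cons, ih]
      rcases lt_or_ge u x with h1 | h1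
      · rw [count_cons_pos _ h1, Set.indicator_of_mem (Set.mem_Ioo.2 ⟨h, h1⟩)]; simp [add_comm]
      · rw [count_cons_neg _ h1, Set.indicator_of_notMem fun e => e.2.not_ge h1, zero_add]
  · exact Multiset.sum_eq_zero fun y hy => by
      obtain ⟨x, -, rfl⟩ := Multiset.mem_map.1 hy
      exact Set.indicator_of_notMem (fun e => h e.1) _

lemma ind_neg (m : Multiset ℝ) {u : ℝ} (hu : u ∉ m) : ind (fun x => Set.Ioo x 0) m u =
    if u < 0 then (m.card - (m.filter (u < ·)).card : ℝ) else 0 := by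
  split_ifs with h
  · induction m using Multiset.induction_on with
    | empty => simp [ind]
    | cons x m ih =>
      rw [Multiset.mem_cons, not_or] at hu
      have := ih hu.2
      unfold ind at this ⊢
      rw [Multiset.map_cons, Multiset.sum_cons, this, Multiset.card_cons]
      rcases lt_or_gt_of_ne hu.1 with h1 | h1
      · rw [count_cons_pos _ h1, Set.indicator_of_notMem fun e => e.1.not_gt h1]; simp
      · rw [count_cons_neg _ h1.le, Set.indicator_of_mem (Set.mem_Ioo.2 ⟨h1, h⟩)]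
        simp; ring
  · exact Multiset.sum_eq_zero fun y hy => by
      obtain ⟨x, -, rfl⟩ := Multiset.mem_map.1 hy
      exact Set.indicator_of_notMem (fun e => h e.2) _

lemma core (t : ℝ) (T : Finset ℝ) (hω : 0 < ω) (hk : 0 ≤ k) (hρ : ∀ ν, 0 ≤ ρ ν) :
    ∃ μ ν : Multiset ℝ, μ.card = ν.card + 1 ∧ μ.sum - ν.sum = -(t * ω) ∧
      (∀ s : ℂ, 0 < s.im → 0 < (ω * Hc t ω k T ρ s).im ∧ ω * Hc t ω k T ρ s = pr μ s / pr ν s) ∧
      (volume {u | 0 < u ∧ Hr t ω k T ρ u < 0} ≠ ⊤ ∧
        vp t ω k T ρ = (μ.map fun x => max x 0).sum - (ν.map fun x => max x 0).sum) ∧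
      (volume {u | u < 0 ∧ 0 < Hr t ω k T ρ u} ≠ ⊤ ∧
        vn t ω k T ρ = (μ.map fun x => max (-x) 0).sum - (ν.map fun x => max (-x) 0).sum) := by
  have hr : ∀ x, 0 ≤ rr ω k T ρ x := fun x => by
    have := hρ x
    unfold rr
    positivity
  obtain ⟨μ, h1, h2, h3⟩ := fact (t * ω) (insert 0 T) hr
  set ν := (insert (0 : ℝ) T).val
  have sg : ∀ u : ℝ, u ∉ μ → u ∉ ν →
      (Hr t ω k T ρ u < 0 ∧ ((μ.filter (u < ·)).card : ℝ) = (ν.filter (u < ·)).card + 1) ∨
      (0 < Hr t ω k T ρ u ∧ ((μ.filter (u < ·)).card : ℝ) = (ν.filter (u < ·)).card) := by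
    intro u a b
    obtain ⟨p, p0, e1⟩ := sign μ a
    obtain ⟨q, q0, e2⟩ := sign ν b
    have e := h3 u fun x hx e => b (by rw [Complex.ofReal_injective e]; exact hx)
    rw [← Hc_eq hω, Hc_coe, e1, e2] at e
    have c1 := h1.count_le u
    have c2 := h1.le_count u
    have pq : 0 < p / q := div_pos p0 q0
    have n0 : ((-1 : ℂ)) ^ (ν.filter (u < ·)).card ≠ 0 := pow_ne_zero _ (by norm_num)
    rcases c1.eq_or_lt with c | c
    · rw [← c, mul_div_mul_left _ _ n0] at e
      have e' : ω * Hr t ω k T ρ u = p / q := by exact_mod_cast e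
      exact Or.inr ⟨(mul_pos_iff_of_pos_left hω).1 (e' ▸ pq), by rw [c]⟩
    · have c3 : (μ.filter (u < ·)).card = (ν.filter (u < ·)).card + 1 := by omega
      rw [c3, pow_succ, mul_assoc, mul_div_mul_left _ _ n0] at e
      have e' : ω * Hr t ω k T ρ u = -1 * p / q := by exact_mod_cast e
      refine Or.inl ⟨?_, by rw [c3]; push_cast; rfl⟩
      by_contra hn
      have := mul_nonneg hω.le (not_lt.1 hn)
      rw [e', neg_one_mul, neg_div] at this
      linarith
  have ms : Measurable (Hr t ω k T ρ) := by unfold Hr; fun_prop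
  have cd : (μ.card : ℝ) = ν.card + 1 := by exact_mod_cast h1.card
  refine ⟨μ, ν, h1.card, h2, fun s hs => ?_, ?_, ?_⟩
  · rw [Hc_eq hω]
    exact ⟨GG_im hr hs, h3 s fun x _ => ne_of_im hs x⟩
  · have := vol_of (S := {u | 0 < u ∧ Hr t ω k T ρ u < 0})
      (measurableSet_Ioi.inter (measurableSet_lt ms measurable_const))
      (A := fun x => Set.Ioo 0 x) (fun _ => measurableSet_Ioo) (fun _ => by simp) μ ν
      fun u a b => by
        rw [ind_pos, ind_pos]
        split_ifs with h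
        · rcases sg u a b with c | c
          · rw [Set.indicator_of_mem (by exact ⟨h, c.1⟩), c.2]; simp
          · rw [Set.indicator_of_notMem (fun e => e.2.not_gt c.1), c.2]; simp
        · rw [Set.indicator_of_notMem fun e => h e.1]; simp
    simpa [vp, ENNReal.toReal_ofReal'] using this
  · have := vol_of (S := {u | u < 0 ∧ 0 < Hr t ω k T ρ u})
      (measurableSet_Iio.inter (measurableSet_lt measurable_const ms))
      (A := fun x => Set.Ioo x 0) (fun _ => measurableSet_Ioo) (fun _ => by simp) μ ν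
      fun u a b => by
        rw [ind_neg _ a, ind_neg _ b]
        split_ifs with h
        · rcases sg u a b with c | c
          · rw [Set.indicator_of_notMem (fun e => e.2.not_gt c.1), c.2, cd]; ring
          · rw [Set.indicator_of_mem (by exact ⟨h, c.1⟩), c.2, cd]; simp
        · rw [Set.indicator_of_notMem fun e => h e.1]; simp
    simpa [vn, ENNReal.toReal_ofReal'] using this

lemma sum_max (m : Multiset ℝ) :
    (m.map fun x => max (-x) 0).sum = (m.map fun x => max x 0).sum - m.sum := by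
  induction m using Multiset.induction_on with
  | empty => simp
  | cons x m ih =>
    simp only [Multiset.map_cons, Multiset.sum_cons, ih]
    rcases le_total x 0 with h | h
    · rw [max_eq_right h, max_eq_left (by linarith)]; ring
    · rw [max_eq_left h, max_eq_right (by linarith)]; ring

lemma log_pr (m : Multiset ℝ) :
    IntegrableOn (fun u : ℝ => Real.log ‖pr m (u * Complex.I)‖ - m.card * Real.log u) (Set.Ioi 0) ∧
      ∫ u in Set.Ioi (0 : ℝ), (Real.log ‖pr m (u * Complex.I)‖ - m.card * Real.log u) =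
        Real.pi / 2 * (2 * (m.map fun x => max x 0).sum - m.sum) := by
  induction m using Multiset.induction_on with
  | empty => simp [pr]
  | cons x m ih =>
    have e : ∀ u ∈ Set.Ioi (0 : ℝ), Real.log ‖(u * Complex.I - x) / (u * Complex.I)‖ +
        (Real.log ‖pr m (u * Complex.I)‖ - m.card * Real.log u) =
        Real.log ‖pr (x ::ₘ m) (u * Complex.I)‖ - (x ::ₘ m).card * Real.log u := fun u hu => by
      have u0 : (0 : ℝ) < u := hu
      have i0 : 0 < ((u : ℂ) * Complex.I).im := by simpa using u0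
      have e1 : pr (x ::ₘ m) (u * Complex.I) = (u * Complex.I - x) * pr m (u * Complex.I) := by
        simp [pr]
      have n1 := norm_ne_zero_iff.2 (sub_ne_zero.2 (ne_of_im i0 x))
      have n2 := norm_ne_zero_iff.2 (pr_ne (m := m) fun y _ => ne_of_im i0 y)
      rw [e1, norm_mul, norm_div, norm_mul, Complex.norm_I, mul_one, Complex.norm_real,
        Real.norm_of_nonneg u0.le, Real.log_div n1 u0.ne', Real.log_mul n1 n2, Multiset.card_cons]
      push_cast; ring
    refine ⟨((int_log_one x).1.add ih.1).congr_fun e measurableSet_Ioi, ?_⟩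
    rw [← setIntegral_congr_fun measurableSet_Ioi e, integral_add (int_log_one x).1 ih.1,
      (int_log_one x).2, ih.2, Multiset.map_cons, Multiset.sum_cons, Multiset.sum_cons]
    rcases le_total x 0 with h | h
    · rw [max_eq_right h, abs_of_nonpos h]; ring
    · rw [max_eq_left h, abs_of_nonneg h]; ring

lemma log_Hc (t : ℝ) (T : Finset ℝ) (hω : 0 < ω) (hk : 0 ≤ k) (hρ : ∀ ν, 0 ≤ ρ ν) :
    (∀ u : ℝ, 0 < u → ω * Hc t ω k T ρ (u * Complex.I) ≠ 0) ∧
    IntegrableOn (fun u : ℝ => Real.log ‖ω * Hc t ω k T ρ (u * Complex.I)‖ - Real.log u)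
      (Set.Ioi 0) ∧
    ∫ u in Set.Ioi (0 : ℝ), (Real.log ‖ω * Hc t ω k T ρ (u * Complex.I)‖ - Real.log u) =
      Real.pi / 2 * (2 * vp t ω k T ρ + t * ω) := by
  obtain ⟨μ, ν, h1, h2, h3, h4, -⟩ := core t T hω hk hρ
  have e : ∀ u ∈ Set.Ioi (0 : ℝ), (Real.log ‖pr μ (u * Complex.I)‖ - μ.card * Real.log u) -
      (Real.log ‖pr ν (u * Complex.I)‖ - ν.card * Real.log u) =
      Real.log ‖ω * Hc t ω k T ρ (u * Complex.I)‖ - Real.log u := fun u hu => by
    have i0 : 0 < ((u : ℂ) * Complex.I).im := by simpa using hu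
    rw [(h3 _ i0).2, norm_div, Real.log_div (norm_ne_zero_iff.2 (pr_ne fun y _ => ne_of_im i0 y))
      (norm_ne_zero_iff.2 (pr_ne fun y _ => ne_of_im i0 y)), h1]
    push_cast; ring
  refine ⟨fun u hu e => ?_, ((log_pr μ).1.sub (log_pr ν).1).congr_fun e measurableSet_Ioi, ?_⟩
  · have := (h3 (u * Complex.I) (by simpa using hu)).1
    simp [e] at this
  · rw [← setIntegral_congr_fun measurableSet_Ioi e, integral_sub (log_pr μ).1 (log_pr ν).1,
      (log_pr μ).2, (log_pr ν).2, h4.2, ← neg_neg (t * ω), ← h2]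
    ring

end VolX

lemma vp_ne_top (hω : 0 < ω) (hk : 0 ≤ k) (hρ : ∀ ν, 0 ≤ ρ ν) :
    volume {u | 0 < u ∧ Hr t ω k T ρ u < 0} ≠ ⊤ := by
  obtain ⟨μ, ν, -, -, -, h, -⟩ := VolX.core t T hω hk hρ
  exact h.1

lemma vn_ne_top (hω : 0 < ω) (hk : 0 ≤ k) (hρ : ∀ ν, 0 ≤ ρ ν) :
    volume {u | u < 0 ∧ 0 < Hr t ω k T ρ u} ≠ ⊤ := by
  obtain ⟨μ, ν, -, -, -, -, h⟩ := VolX.core t T hω hk hρ
  exact h.1

theorem vp_sub_vn (hω : 0 < ω) (hk : 0 ≤ k) (hρ : ∀ ν, 0 ≤ ρ ν) :
    vp t ω k T ρ - vn t ω k T ρ = -(t * ω) := by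
  obtain ⟨μ, ν, -, h, -, h1, h2⟩ := VolX.core t T hω hk hρ
  rw [h1.2, h2.2, VolX.sum_max, VolX.sum_max, ← h]
  ring

theorem int_log (ht : 0 < t) (hω : 0 < ω) (hk : 0 ≤ k) (hρ : ∀ ν, 0 ≤ ρ ν) :
    IntegrableOn (fun u : ℝ => Real.log ‖Hc t ω k T ρ (u * Complex.I) / lev t ω k (u * Complex.I)‖)
      (Set.Ioi 0) ∧
    ∫ u in Set.Ioi (0 : ℝ), Real.log ‖Hc t ω k T ρ (u * Complex.I) / lev t ω k (u * Complex.I)‖ =
      Real.pi * (vp t ω k T ρ - vp t ω k ∅ ρ) := by
  have _ := ht
  obtain ⟨a1, a2, a3⟩ := VolX.log_Hc t T hω hk hρ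
  obtain ⟨b1, b2, b3⟩ := VolX.log_Hc t ∅ hω hk hρ
  have e : ∀ u ∈ Set.Ioi (0 : ℝ), (Real.log ‖ω * Hc t ω k T ρ (u * Complex.I)‖ - Real.log u) -
      (Real.log ‖ω * Hc t ω k ∅ ρ (u * Complex.I)‖ - Real.log u) =
      Real.log ‖Hc t ω k T ρ (u * Complex.I) / lev t ω k (u * Complex.I)‖ := fun u hu => by
    have e1 : lev t ω k (u * Complex.I) = Hc t ω k ∅ ρ (u * Complex.I) := by simp [Hc]
    rw [e1, ← mul_div_mul_left _ _ (left_ne_zero_of_mul (a1 u hu)), norm_div,
      Real.log_div (norm_ne_zero_iff.2 (a1 u hu)) (norm_ne_zero_iff.2 (b1 u hu))]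
    ring
  refine ⟨(a2.sub b2).congr_fun e measurableSet_Ioi, ?_⟩
  rw [← setIntegral_congr_fun measurableSet_Ioi e, integral_sub a2 b2, a3, b3]
  ring

end Vale.Agent.P078G
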